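import Vale.Agent.Lib.P019.Rigidity

/-!
The translations and the inversion of the variable `x` as field automorphisms of `k(x,y)`.
-/

set_option linter.unusedSectionVars false

namespace Vale.Agent.Lib.P019

open Polynomial TensorProduct nonZeroDivisors UniqueFactorizationMonoid Filter

section Translation

variable {k : Type*} [Field k]

/-- `x ↦ x + e` on `k[x][y]`. -/
noncomputable def trR (e : k) : R2 k ≃+* R2 k :=
  Polynomial.mapEquiv (algEquivAevalXAddC e).toRingEquiv

lemma trR_C (e : k) (p : k[X]) : trR e (C p) = C (aeval (X + C e) p) := by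
  simp [trR, algEquivAevalXAddC_apply]

lemma trR_X (e : k) : trR e (X : R2 k) = X := by
  simp [trR]

lemma trR_xc (e c : k) : trR e (xc c) = xc (c - e) := by
  rw [xc, trR_C, xc]
  congr 1
  simp only [map_sub, aeval_X, aeval_C, algebraMap_eq]
  ring

lemma trR_yc (e a : k) : trR e (yc a) = yc a := by
  rw [yc, map_sub, trR_X, trR_C]
  simp

/-- `x ↦ x + e` on `k(x,y)`. -/
noncomputable def trK (e : k) : K2 k ≃+* K2 k := IsFractionRing.ringEquivOfRingEquiv (trR e)

lemma trK_algebraMap (e : k) (h : R2 k) :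
    trK e (algebraMap (R2 k) (K2 k) h) = algebraMap _ _ (trR e h) :=
  IsFractionRing.ringEquivOfRingEquiv_algebraMap (trR e) h

variable (ℓ : ℕ)

/-- `x ↦ x + e` on `V ℓ k(x,y)`. -/
noncomputable def trV (e : k) : V ℓ (K2 k) ≃ₗ[ZMod ℓ] V ℓ (K2 k) := mapVEquiv ℓ (trK e)

lemma trV_vr (e : k) (h : R2 k) : trV ℓ e (vr2 ℓ h) = vr2 ℓ (trR e h) := by
  rw [trV, vr2, vr, mapVEquiv_clsF, trK_algebraMap]
  rfl

lemma compatible_trV (e : k) : Compatible (trV ℓ e) := by
  unfold trV
  exact compatible_mapVEquiv (ℓ := ℓ) (trK e)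

lemma trV_xc (e c : k) : trV ℓ e (vr2 ℓ (xc c)) = vr2 ℓ (xc (c - e)) := by
  rw [trV_vr, trR_xc]

lemma trV_yc (e a : k) : trV ℓ e (vr2 ℓ (yc a)) = vr2 ℓ (yc a) := by
  rw [trV_vr, trR_yc]

end Translation

section Inversion

variable {k : Type*} [Field k]

/-- The element `x` of `k(x,y)`. -/
noncomputable abbrev xx (k : Type*) [Field k] : K2 k := algebraMap (R2 k) (K2 k) (C X)
/-- The element `y` of `k(x,y)`. -/
noncomputable abbrev yy (k : Type*) [Field k] : K2 k := algebraMap (R2 k) (K2 k) X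
/-- Constants of `k(x,y)`. -/
noncomputable abbrev cc (t : k) : K2 k := algebraMap (R2 k) (K2 k) (C (C t))

lemma xx_ne_zero : xx k ≠ 0 := by
  apply algebraMap_ne
  simp

/-- The homomorphism from `k[x]` with `x ↦ 1/x`. -/
noncomputable def inv0 : k[X] →+* K2 k :=
  eval₂RingHom ((algebraMap (R2 k) (K2 k)).comp ((C : k[X] →+* R2 k).comp C)) (xx k)⁻¹

/-- The homomorphism from `k[x][y]` with `x ↦ 1/x`, `y ↦ y`. -/
noncomputable def invHom : R2 k →+* K2 k := eval₂RingHom inv0 (yy k)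

lemma invHom_C (p : k[X]) : invHom (C p) = inv0 p := by
  simp [invHom]

lemma invHom_X : invHom (X : R2 k) = yy k := by
  simp [invHom]

lemma invHom_CC (t : k) : invHom (C (C t) : R2 k) = cc t := by
  simp [invHom, inv0]

lemma invHom_xx : invHom (C X : R2 k) = (xx k)⁻¹ := by
  simp [invHom, inv0]

/-- Value of a bivariate polynomial at `(c, a)`. -/
noncomputable def ev2 (c a : k) : R2 k →+* k := (evalRingHom a).comp (evX c)

@[simp] lemma ev2_C (c a : k) (p : k[X]) : ev2 c a (C p) = p.eval c := by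
  simp [ev2]

@[simp] lemma ev2_X (c a : k) : ev2 c a (X : R2 k) = a := by
  simp [ev2]

/-- The property proved by induction for the injectivity of `invHom`. -/
def InvProp (h : R2 k) : Prop :=
  ∃ (n : ℕ) (r : R2 k), algebraMap (R2 k) (K2 k) r = (xx k) ^ n * invHom h ∧
    ∀ c a : k, c ≠ 0 → ev2 c a r = c ^ n * ev2 c⁻¹ a h

lemma InvProp_add {g h : R2 k} (hg : InvProp g) (hh : InvProp h) : InvProp (g + h) := by
  obtain ⟨n, r, h1, h2⟩ := hg
  obtain ⟨m, s, h3, h4⟩ := hh
  refine ⟨n + m, (C X) ^ m * r + (C X) ^ n * s, ?_, ?_⟩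
  · simp only [map_add, map_mul, map_pow, h1, h3]
    ring
  · intro c a hc
    simp only [map_add, map_mul, map_pow, h2 c a hc, h4 c a hc, ev2_C, eval_X]
    ring

lemma InvProp_mul {g h : R2 k} (hg : InvProp g) (hh : InvProp h) : InvProp (g * h) := by
  obtain ⟨n, r, h1, h2⟩ := hg
  obtain ⟨m, s, h3, h4⟩ := hh
  refine ⟨n + m, r * s, ?_, ?_⟩
  · simp only [map_mul, h1, h3]
    ring
  · intro c a hc
    simp only [map_mul, h2 c a hc, h4 c a hc]
    ring

lemma InvProp_CC (t : k) : InvProp (C (C t) : R2 k) :=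
  ⟨0, C (C t), by rw [pow_zero, one_mul, invHom_CC], fun c a _ => by simp⟩

lemma InvProp_x : InvProp (C X : R2 k) :=
  ⟨1, 1, by rw [invHom_xx, pow_one, mul_inv_cancel₀ xx_ne_zero, map_one], fun c a hc => by
    simp [hc]⟩

lemma InvProp_y : InvProp (X : R2 k) :=
  ⟨0, X, by rw [pow_zero, one_mul, invHom_X], fun c a _ => by simp⟩

lemma InvProp_all (h : R2 k) : InvProp h := by
  induction h using Polynomial.induction_on with
  | C p =>
    induction p using Polynomial.induction_on with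
    | C t => exact InvProp_CC t
    | add p q hp hq =>
      rw [C_add]
      exact InvProp_add hp hq
    | monomial n t ih =>
      rw [pow_succ, ← mul_assoc, C_mul]
      exact InvProp_mul ih InvProp_x
  | add p q hp hq => exact InvProp_add hp hq
  | monomial n p ih =>
    rw [pow_succ, ← mul_assoc]
    exact InvProp_mul ih InvProp_y

variable [IsAlgClosed k]

lemma eq_zero_of_ev2 {h : R2 k} (H : ∀ c a : k, c ≠ 0 → ev2 c a h = 0) : h = 0 := by
  by_contra hne
  obtain ⟨j, hj⟩ : ∃ j, h.coeff j ≠ 0 := by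
    by_contra hcon
    push Not at hcon
    exact hne (Polynomial.ext (by simpa using hcon))
  have hfin : {c : k | (h.coeff j).IsRoot c ∨ c = 0}.Finite :=
    (Polynomial.finite_setOfPred_isRoot hj).union (Set.finite_singleton 0)
  obtain ⟨c, hc⟩ := hfin.infinite_compl.nonempty
  simp only [Set.mem_compl_iff, Set.mem_ofPred_eq, not_or] at hc
  have hev : evX c h ≠ 0 := by
    intro h0
    have h2 := congrArg (fun p => p.coeff j) h0
    apply hc.1
    simpa [IsRoot] using h2
  have : evX c h = 0 := by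
    apply Polynomial.funext
    intro a
    have := H c a hc.2
    simpa [ev2] using this
  exact hev this

lemma invHom_injective : Function.Injective (invHom (k := k)) := by
  rw [injective_iff_map_eq_zero]
  intro h h0
  obtain ⟨n, r, h1, h2⟩ := InvProp_all h
  rw [h0, mul_zero] at h1
  have hr : r = 0 := by
    apply IsFractionRing.injective (R2 k) (K2 k)
    rw [h1, map_zero]
  apply eq_zero_of_ev2
  intro c a hc
  have h3 := h2 c⁻¹ a (inv_ne_zero hc)
  rw [hr, map_zero, inv_inv] at h3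
  have h4 : (c⁻¹) ^ n ≠ 0 := pow_ne_zero _ (inv_ne_zero hc)
  exact (mul_eq_zero.1 h3.symm).resolve_left h4

/-- The endomorphism `x ↦ 1/x`, `y ↦ y` of `k(x,y)`. -/
noncomputable def invEnd : K2 k →+* K2 k := IsFractionRing.lift (invHom_injective (k := k))

lemma invEnd_algebraMap (h : R2 k) : invEnd (algebraMap (R2 k) (K2 k) h) = invHom h :=
  IsFractionRing.lift_algebraMap _ _

lemma invEnd_comp : invEnd.comp invEnd = RingHom.id (K2 k) := by
  apply IsLocalization.ringHom_ext (nonZeroDivisors (R2 k))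
  apply Polynomial.ringHom_ext'
  · apply Polynomial.ringHom_ext'
    · refine RingHom.ext fun t => ?_
      simp only [RingHom.comp_apply, RingHom.id_apply, invEnd_algebraMap, invHom_CC]
    · simp only [RingHom.comp_apply, RingHom.id_apply, invEnd_algebraMap, invHom_xx]
      rw [map_inv₀, invEnd_algebraMap, invHom_xx, inv_inv]
  · simp only [RingHom.comp_apply, RingHom.id_apply, invEnd_algebraMap, invHom_X]

/-- The automorphism `x ↦ 1/x`, `y ↦ y` of `k(x,y)`. -/
noncomputable def invK : K2 k ≃+* K2 k :=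
  RingEquiv.ofRingHom invEnd invEnd invEnd_comp invEnd_comp

lemma invK_algebraMap (h : R2 k) : invK (algebraMap (R2 k) (K2 k) h) = invHom h :=
  invEnd_algebraMap h

lemma invK_invK (z : K2 k) : invK (invK z) = z :=
  RingHom.congr_fun invEnd_comp z

variable (ℓ : ℕ)

/-- `x ↦ 1/x` on `V ℓ k(x,y)`. -/
noncomputable def invV : V ℓ (K2 k) ≃ₗ[ZMod ℓ] V ℓ (K2 k) := mapVEquiv ℓ invK

lemma invV_clsF (z : K2 k) : invV ℓ (clsF ℓ z) = clsF ℓ (invK z) := by
  rw [invV]
  exact mapVEquiv_clsF (ℓ := ℓ) (invK (k := k)) z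

lemma compatible_invV : Compatible (invV ℓ (k := k)) := by
  unfold invV
  exact compatible_mapVEquiv (ℓ := ℓ) (invK (k := k))

lemma invV_invV (z : V ℓ (K2 k)) : invV ℓ (invV ℓ z) = z := by
  obtain ⟨x, hx, rfl⟩ := clsF_surjective z
  rw [invV_clsF, invV_clsF, invK_invK]

lemma invHom_yc (a : k) : invHom (yc a) = algebraMap (R2 k) (K2 k) (yc a) := by
  rw [yc, map_sub, invHom_X, invHom_CC, map_sub]

lemma invV_yc (a : k) : invV ℓ (vr2 ℓ (yc a)) = vr2 ℓ (yc a) := by
  rw [vr2, vr, invV_clsF, invK_algebraMap, invHom_yc]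

lemma invHom_xc (c : k) : invHom (xc c) = (xx k)⁻¹ - cc c := by
  rw [xc, C_sub, map_sub, invHom_xx, invHom_CC]

lemma xc_zero : xc (0 : k) = C X := by
  simp [xc]

variable [hℓ : Fact ℓ.Prime]

lemma invV_xc_zero : invV ℓ (vr2 ℓ (xc (0 : k))) = - vr2 ℓ (xc (0 : k)) := by
  rw [vr2, vr, invV_clsF, invK_algebraMap, invHom_xc, xc_zero]
  simp only [cc, map_zero, sub_zero]
  rw [clsF_inv]

lemma invV_xc {c : k} (hc : c ≠ 0) :
    invV ℓ (vr2 ℓ (xc c)) = vr2 ℓ (xc c⁻¹) - vr2 ℓ (xc (0 : k)) := by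
  rw [vr2, vr, invV_clsF, invK_algebraMap, invHom_xc]
  have hcc : cc c ≠ 0 := by
    apply algebraMap_ne
    simpa using hc
  have h1 : (xx k)⁻¹ - cc c =
      algebraMap (R2 k) (K2 k) (C (C (-c))) * (algebraMap (R2 k) (K2 k) (xc c⁻¹) / xx k) := by
    have h2 : algebraMap (R2 k) (K2 k) (xc c⁻¹) = xx k - cc c⁻¹ := by
      rw [xc, C_sub, map_sub]
    rw [h2]
    have h3 : algebraMap (R2 k) (K2 k) (C (C (-c))) = - cc c := by
      simp [cc]
    have h4 : cc c * cc c⁻¹ = 1 := by
      rw [cc, cc, ← map_mul, ← C_mul, ← C_mul, mul_inv_cancel₀ hc]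
      simp
    rw [h3]
    have hx := xx_ne_zero (k := k)
    generalize cc c⁻¹ = w at h4
    generalize cc c = v at h4
    generalize xx k = x at hx
    field_simp
    linear_combination (-1 : K2 k) * h4
  rw [h1]
  have hxc : xc c⁻¹ ≠ 0 := (prime_xc _).ne_zero
  have hx0 : xc (0 : k) ≠ 0 := (prime_xc _).ne_zero
  have hc' : C (C (-c)) ≠ (0 : R2 k) := by
    simpa using hc
  rw [clsF_mul (algebraMap_ne hc') (div_ne_zero (algebraMap_ne hxc) xx_ne_zero)]
  have h5 := vr2_CC (ℓ := ℓ) (-c)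
  rw [vr2, vr] at h5
  rw [h5, zero_add]
  have h6 : xx k = algebraMap (R2 k) (K2 k) (xc (0 : k)) := by
    rw [xc_zero]
  rw [h6]
  exact clsF_frac hxc hx0

end Inversion

end Vale.Agent.Lib.P019
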