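import Vale.Agent.Lib.P019.Gordan

/-!
The theorem of Bertini and Krull, first part: a moving component of a member of a pencil whose
constants are algebraically closed is defined over the constants.
-/

set_option linter.unusedSectionVars false
set_option linter.style.haveILetI false

namespace Vale.Agent.Lib.P019

open Polynomial Algebra

section Ext

lemma R2_ringHom_ext {k Z : Type*} [Field k] [CommRing Z] {f g : R2 k →+* Z}
    (hc : ∀ t, f (C (C t)) = g (C (C t))) (hx : f (C X) = g (C X)) (hy : f X = g X) : f = g := by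
  refine RingHom.ext fun h => ?_
  induction h using R2_induction with
  | hc t => exact hc t
  | hx => exact hx
  | hy => exact hy
  | hadd a b ha hb => rw [map_add, map_add, ha, hb]
  | hmul a b ha hb => rw [map_mul, map_mul, ha, hb]

variable {A B : Type*} [CommRing A] [CommRing B] (f : A →+* B)

@[simp] lemma hatOf_CC (t : A) : hatOf f (C (C t)) = C (C (f t)) := by
  simp [hatOf]

@[simp] lemma hatOf_CX : hatOf f (C X) = C X := by
  simp [hatOf]

@[simp] lemma hatOf_X : hatOf f X = X := by
  simp [hatOf]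

lemma hatOf_coeff (g : A[X][X]) (i j : ℕ) :
    ((hatOf f g).coeff i).coeff j = f ((g.coeff i).coeff j) := by
  simp [hatOf]

lemma lc_hatOf (hf : Function.Injective f) (g : A[X][X]) :
    ((hatOf f g).leadingCoeff).leadingCoeff = f ((g.leadingCoeff).leadingCoeff) := by
  have h1 : Function.Injective (mapRingHom f) := Polynomial.map_injective f hf
  change (((g.map (mapRingHom f))).leadingCoeff).leadingCoeff = _
  rw [leadingCoeff_map_of_injective h1]
  change ((g.leadingCoeff).map f).leadingCoeff = _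
  rw [leadingCoeff_map_of_injective hf]

lemma natDegree_hatOf (hf : Function.Injective f) (g : A[X][X]) :
    (hatOf f g).natDegree = g.natDegree :=
  natDegree_map_eq_of_injective (Polynomial.map_injective f hf) g

lemma lcd_hatOf (hf : Function.Injective f) (g : A[X][X]) :
    ((hatOf f g).leadingCoeff).natDegree = (g.leadingCoeff).natDegree := by
  have h1 : Function.Injective (mapRingHom f) := Polynomial.map_injective f hf
  change (((g.map (mapRingHom f))).leadingCoeff).natDegree = _
  rw [leadingCoeff_map_of_injective h1]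
  exact natDegree_map_eq_of_injective hf _

lemma hat_eq_hatOf {s l : Type*} [Field s] [Field l] [Algebra s l] (g : R2 s) :
    (hat g : R2 l) = hatOf (algebraMap s l) g := rfl

end Ext

section Norm

variable {l : Type*} [Field l]

/-- A normalized polynomial dividing a normalized polynomial with the same degrees is equal
to it. -/
lemma eq_of_dvd_of_same_deg {P Q : R2 l} (hP : P.leadingCoeff.leadingCoeff = 1)
    (hQ : Q.leadingCoeff.leadingCoeff = 1) (h : P ∣ Q) (h1 : Q.natDegree = P.natDegree)
    (h2 : Q.leadingCoeff.natDegree = P.leadingCoeff.natDegree) : Q = P := by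
  obtain ⟨w, rfl⟩ := h
  have hP0 : P ≠ 0 := by
    rintro rfl
    simp at hP
  have hw0 : w ≠ 0 := by
    rintro rfl
    simp at hQ
  rw [natDegree_mul hP0 hw0] at h1
  have h3 : w.natDegree = 0 := by omega
  obtain ⟨w₀, rfl⟩ := natDegree_eq_zero.1 h3
  have hw₀ : w₀ ≠ 0 := by
    rintro rfl
    simp at hw0
  rw [leadingCoeff_mul, leadingCoeff_C] at h2
  have hlP : P.leadingCoeff ≠ 0 := by simpa using hP0
  rw [natDegree_mul hlP hw₀] at h2
  have h4 : w₀.natDegree = 0 := by omega
  obtain ⟨w₁, rfl⟩ := natDegree_eq_zero.1 h4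
  rw [leadingCoeff_mul, leadingCoeff_C, leadingCoeff_mul, leadingCoeff_C, hP, one_mul] at hQ
  rw [hQ]
  simp

end Norm

section Coeffs

variable {s l E s₂ : Type*} [Field s] [Field l] [Field E] [Field s₂] [Algebra s l] [Algebra s₂ l]
  [IsAlgClosed s] [CharZero s] [IsAlgClosed l] [CharZero l] {p : R2 l} {φ : R2 l →+* E}

/-- The coefficients of a moving component which are algebraic over the constants are constants. -/
theorem bk_coeffs (h : Pt s p E φ) {E₀ : IntermediateField s (K2 s)} (conv : E₀ →+* l)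
    (hconv : ∀ e : E₀, h.rho e = φ (C (C (conv e))))
    (hE₀ : ∀ e : K2 s, (∃ a : l, h.rho e = φ (C (C a))) → e ∈ E₀)
    (halg : ∀ c : s₂, ∃ q : E₀[X], q ≠ 0 ∧ eval₂ conv (algebraMap s₂ l c) q = 0) {g : R2 s₂}
    (hg : hat g = p) (hn : p.leadingCoeff.leadingCoeff = 1) (i j : ℕ) :
    ∃ e : E₀, conv e = (p.coeff i).coeff j := by
  classical
  letI algKE : Algebra (K2 s) E := h.rho.toAlgebra
  letI algLE : Algebra l E := (φ.comp (C.comp C)).toAlgebra
  let Ω := AlgebraicClosure E
  let e₀ : E →+* Ω := algebraMap E Ω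
  let lΩ : l →+* Ω := algebraMap l Ω
  let jΩ : K2 s →+* Ω := algebraMap (K2 s) Ω
  have hlΩ : ∀ a : l, lΩ a = e₀ (φ (C (C a))) := fun a =>
    IsScalarTower.algebraMap_apply l E Ω a
  have hjΩ : ∀ e : K2 s, jΩ e = e₀ (h.rho e) := fun a =>
    IsScalarTower.algebraMap_apply (K2 s) E Ω a
  haveI : CharZero (K2 s) :=
    (RingHom.charZero_iff (algebraMap s (K2 s)).injective).1 inferInstance
  let M := algebraicClosure (K2 s) Ω
  haveI : Normal (K2 s) M := IsAlgClosure.normal (K2 s) M
  haveI : Algebra.IsSeparable (K2 s) M := Algebra.IsAlgebraic.isSeparable_of_perfectField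
  haveI : IsGalois (K2 s) M := ⟨⟩
  have hconvj : ∀ e : E₀, lΩ (conv e) = jΩ e := by
    intro e
    rw [hlΩ, hjΩ, hconv]
  have hroot : ∀ (q : E₀[X]) (c : Ω) (a : l), lΩ a = c → eval₂ conv a q = 0 →
      aeval c (q.map (algebraMap E₀ (K2 s))) = 0 := by
    intro q c a hc h0
    rw [aeval_def, eval₂_map]
    have h1 : (algebraMap (K2 s) Ω).comp (algebraMap E₀ (K2 s)) = lΩ.comp conv := by
      ext e
      exact (hconvj e).symm
    rw [h1, ← hc, ← Polynomial.hom_eval₂, h0, map_zero]
  have hinjq : Function.Injective (algebraMap E₀ (K2 s)) := (algebraMap E₀ (K2 s)).injective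
  have hcM : ∀ c : s₂, lΩ (algebraMap s₂ l c) ∈ M := by
    intro c
    obtain ⟨q, hq0, hq⟩ := halg c
    rw [mem_algebraicClosure_iff]
    exact ⟨_, (Polynomial.map_ne_zero_iff hinjq).2 hq0, hroot q _ _ rfl hq⟩
  let cM : s₂ →+* M :=
    { toFun := fun c => ⟨lΩ (algebraMap s₂ l c), hcM c⟩
      map_one' := by ext; simp
      map_mul' := fun a b => by ext; simp
      map_zero' := by ext; simp
      map_add' := fun a b => by ext; simp }
  have hcMv : ∀ c, ((cM c : M) : Ω) = lΩ (algebraMap s₂ l c) := fun _ => rfl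
  let jM : K2 s →+* M := algebraMap (K2 s) M
  have hjMv : ∀ e, ((jM e : M) : Ω) = jΩ e := fun _ => rfl
  let xK₀ : K2 s := algebraMap (R2 s) (K2 s) (C X)
  let yK₀ : K2 s := algebraMap (R2 s) (K2 s) X
  let T₀ : R2 s₂ →+* M := eval₂RingHom (eval₂RingHom cM (jM xK₀)) (jM yK₀)
  have hx : jΩ xK₀ = e₀ (φ (C X)) := by
    rw [hjΩ, h.rho_alg]
    simp
  have hy : jΩ yK₀ = e₀ (φ X) := by
    rw [hjΩ, h.rho_alg]
    simp
  have hT₀ : (M.val : M →ₐ[K2 s] Ω).toRingHom.comp T₀ = e₀.comp (φ.comp hat) := by
    apply R2_ringHom_ext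
    · intro t
      simp only [RingHom.comp_apply, T₀, coe_eval₂RingHom, eval₂_C, eval₂_C, hat_CC]
      exact hlΩ _
    · simp only [RingHom.comp_apply, T₀, coe_eval₂RingHom, eval₂_C, eval₂_X, hat_C, map_X]
      exact hx
    · simp only [RingHom.comp_apply, T₀, coe_eval₂RingHom, eval₂_X, hat_X]
      exact hy
  have hT₀v : ∀ f : R2 s₂, ((T₀ f : M) : Ω) = e₀ (φ (hat f)) := fun f =>
    RingHom.congr_fun hT₀ f
  have hT₀g : T₀ g = 0 := by
    apply Subtype.val_injective
    rw [hT₀v, hg, (h.res.ker p).2 dvd_rfl, map_zero]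
    rfl
  have hgn : (g.leadingCoeff).leadingCoeff = 1 := by
    apply (algebraMap s₂ l).injective
    rw [map_one, ← hn, ← hg, hat_eq_hatOf, lc_hatOf _ (algebraMap s₂ l).injective]
  have hfixed : ∀ σ : M ≃ₐ[K2 s] M, σ (cM ((g.coeff i).coeff j)) = cM ((g.coeff i).coeff j) := by
    intro σ
    have hz : ∀ c : s₂, ∃ c' : l, lΩ c' = ((σ (cM c) : M) : Ω) := by
      intro c
      obtain ⟨q, hq0, hq⟩ := halg c
      have h1 := hroot q _ _ rfl hq
      have h1' : aeval (cM c) (q.map (algebraMap E₀ (K2 s))) = 0 := by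
        apply Subtype.val_injective
        have := Polynomial.aeval_algHom_apply M.val (cM c) (q.map (algebraMap E₀ (K2 s)))
        rw [← IntermediateField.coe_val, ← this]
        exact h1
      have h2 : aeval (σ (cM c)) (q.map (algebraMap E₀ (K2 s))) = 0 := by
        have := Polynomial.aeval_algHom_apply σ.toAlgHom (cM c) (q.map (algebraMap E₀ (K2 s)))
        change aeval (σ.toAlgHom (cM c)) _ = 0
        rw [this, h1', map_zero]
      have h3 : aeval ((σ (cM c) : M) : Ω) (q.map (algebraMap E₀ (K2 s))) = 0 := by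
        have := Polynomial.aeval_algHom_apply M.val (σ (cM c)) (q.map (algebraMap E₀ (K2 s)))
        change aeval (M.val (σ (cM c))) _ = 0
        rw [this, h2, map_zero]
      have h4 : IsAlgebraic l ((σ (cM c) : M) : Ω) := by
        refine ⟨q.map conv, (Polynomial.map_ne_zero_iff conv.injective).2 hq0, ?_⟩
        rw [aeval_def, eval₂_map]
        rw [aeval_def, eval₂_map] at h3
        have h5 : (algebraMap (K2 s) Ω).comp (algebraMap E₀ (K2 s)) = lΩ.comp conv := by
          ext e
          exact (hconvj e).symm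
        rw [h5] at h3
        exact h3
      obtain ⟨c', hc'⟩ := mem_range_of_isAlgebraic h4
      exact ⟨c', hc'⟩
    choose ςf hςf using hz
    have hinjl : Function.Injective lΩ := lΩ.injective
    let ς : s₂ →+* l :=
      { toFun := ςf
        map_one' := by
          apply hinjl
          rw [hςf, map_one, map_one, map_one]
          rfl
        map_mul' := fun a b => by
          apply hinjl
          rw [hςf, map_mul, map_mul, map_mul, hςf, hςf]
          rfl
        map_zero' := by
          apply hinjl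
          rw [hςf, map_zero, map_zero, map_zero]
          rfl
        map_add' := fun a b => by
          apply hinjl
          rw [hςf, map_add, map_add, map_add, hςf, hςf]
          rfl }
    have hς : ∀ c, lΩ (ς c) = ((σ (cM c) : M) : Ω) := hςf
    have hT₁ : (e₀.comp φ).comp (hatOf ς) = (M.val : M →ₐ[K2 s] Ω).toRingHom.comp
        ((σ.toAlgHom : M →ₐ[K2 s] M).toRingHom.comp T₀) := by
      apply R2_ringHom_ext
      · intro t
        simp only [RingHom.comp_apply, hatOf_CC, T₀, coe_eval₂RingHom, eval₂_C]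
        rw [← hlΩ, hς]
        rfl
      · simp only [RingHom.comp_apply, hatOf_CX, T₀, coe_eval₂RingHom, eval₂_C, eval₂_X]
        have h1 : σ (jM xK₀) = jM xK₀ := σ.commutes xK₀
        change e₀ (φ (C X)) = ((σ (jM xK₀) : M) : Ω)
        rw [h1, hjMv, hx]
      · simp only [RingHom.comp_apply, hatOf_X, T₀, coe_eval₂RingHom, eval₂_X]
        have h1 : σ (jM yK₀) = jM yK₀ := σ.commutes yK₀
        change e₀ (φ X) = ((σ (jM yK₀) : M) : Ω)
        rw [h1, hjMv, hy]
    have hp2 : φ (hatOf ς g) = 0 := by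
      apply e₀.injective
      have h1 := RingHom.congr_fun hT₁ g
      simp only [RingHom.comp_apply] at h1
      rw [h1, hT₀g, map_zero, map_zero, map_zero]
    have hdvd : p ∣ hatOf ς g := (h.res.ker _).1 hp2
    have hn2 : ((hatOf ς g).leadingCoeff).leadingCoeff = 1 := by
      rw [lc_hatOf _ ς.injective, hgn, map_one]
    have hd1 : (hatOf ς g).natDegree = p.natDegree := by
      rw [← hg, hat_eq_hatOf, natDegree_hatOf _ ς.injective,
        natDegree_hatOf _ (algebraMap s₂ l).injective]
    have hd2 : ((hatOf ς g).leadingCoeff).natDegree = (p.leadingCoeff).natDegree := by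
      rw [← hg, hat_eq_hatOf, lcd_hatOf _ ς.injective, lcd_hatOf _ (algebraMap s₂ l).injective]
    have heq := eq_of_dvd_of_same_deg hn hn2 hdvd hd1 hd2
    have hc : ς ((g.coeff i).coeff j) = algebraMap s₂ l ((g.coeff i).coeff j) := by
      rw [← hatOf_coeff, heq, ← hg, hat_eq_hatOf, hatOf_coeff]
    apply Subtype.val_injective
    rw [← hς, hc]
    rfl
  have hbot := (InfiniteGalois.mem_bot_iff_fixed (cM ((g.coeff i).coeff j))).2 hfixed
  rw [IntermediateField.mem_bot] at hbot
  obtain ⟨e, he⟩ := hbot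
  have he' : jΩ e = lΩ (algebraMap s₂ l ((g.coeff i).coeff j)) := congrArg Subtype.val he
  have hp : (p.coeff i).coeff j = algebraMap s₂ l ((g.coeff i).coeff j) := by
    rw [← hg, hat_eq_hatOf, hatOf_coeff]
  rw [hp]
  rw [hjΩ, hlΩ] at he'
  have he2 := e₀.injective he'
  refine ⟨⟨e, hE₀ e ⟨_, he2⟩⟩, ?_⟩
  apply h.const_inj
  rw [← hconv]
  exact he2

end Coeffs

end Vale.Agent.Lib.P019
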