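import Vale.Agent.Lib.P019.BK1

/-!
The theorem of Bertini and Krull: if the constants along a moving curve are generated by `τ`, the
curve is the fibre of `τ` through it.
-/

set_option linter.unusedSectionVars false
set_option linter.style.haveILetI false

namespace Vale.Agent.Lib.P019

open Polynomial Algebra

section Div

/-- Pseudo-division by a linear polynomial. -/
lemma pseudo_div {R : Type*} [CommRing R] (A B : R) (P : R[X]) :
    ∃ (n : ℕ) (Q : R[X]) (r : R), C (B ^ n) * P = (C B * X - C A) * Q + C r := by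
  induction P using Polynomial.induction_on with
  | C a => exact ⟨0, 0, a, by simp⟩
  | add p q hp hq =>
    obtain ⟨n₁, Q₁, r₁, h₁⟩ := hp
    obtain ⟨n₂, Q₂, r₂, h₂⟩ := hq
    refine ⟨n₁ + n₂, C (B ^ n₂) * Q₁ + C (B ^ n₁) * Q₂, B ^ n₂ * r₁ + B ^ n₁ * r₂, ?_⟩
    rw [pow_add, C_mul, C_add, C_mul, C_mul]
    linear_combination C (B ^ n₂) * h₁ + C (B ^ n₁) * h₂
  | monomial m a ih =>
    obtain ⟨n, Q, r, h⟩ := ih
    refine ⟨n + 1, C B * Q * X + C r, r * A, ?_⟩
    rw [pow_succ, C_mul, C_mul]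
    linear_combination (C B * X) * h

end Div

section Hat

variable {s l : Type*} [Field s] [Field l] [Algebra s l] [IsAlgClosed s]

lemma assoc_of_hat_assoc {g q : R2 s} (hg : g ≠ 0) (h : Associated (hat g : R2 l) (hat q)) :
    g ∣ q := by
  obtain ⟨u, hu⟩ := h
  obtain ⟨r, hr, hu1⟩ := Polynomial.isUnit_iff.1 u.isUnit
  obtain ⟨c, hc, hu2⟩ := Polynomial.isUnit_iff.1 hr
  have hc0 : c ≠ 0 := hc.ne_zero
  -- a nonzero coefficient of `g`
  obtain ⟨i, hi⟩ : ∃ i, g.coeff i ≠ 0 := by
    by_contra hcon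
    push Not at hcon
    exact hg (Polynomial.ext (by simpa using hcon))
  obtain ⟨j, hj⟩ : ∃ j, (g.coeff i).coeff j ≠ 0 := by
    by_contra hcon
    push Not at hcon
    exact hi (Polynomial.ext (by simpa using hcon))
  have hcoef : ∀ a b, algebraMap s l ((q.coeff a).coeff b) =
      c * algebraMap s l ((g.coeff a).coeff b) := by
    intro a b
    have h1 := congrArg (fun f : R2 l => (f.coeff a).coeff b) hu
    simp only [← hu1, ← hu2, mul_comm _ (C (C c)), coeff_C_mul, hat_eq_hatOf, hatOf_coeff] at h1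
    exact h1.symm
  set t : s := (q.coeff i).coeff j / (g.coeff i).coeff j with ht
  have hct : c = algebraMap s l t := by
    have := hcoef i j
    rw [ht, map_div₀, this]
    have h2 : algebraMap s l ((g.coeff i).coeff j) ≠ 0 := by simpa using hj
    field_simp
  refine ⟨C (C t), ?_⟩
  apply hat_injective (l := l)
  rw [map_mul, hat_CC, ← hct, ← hu, ← hu1, ← hu2]

/-- Divisibility by a prime descends along base change. -/
lemma dvd_of_hat_dvd_hat {g f : R2 s} (hg : Prime g) (h : (hat g : R2 l) ∣ hat f) : g ∣ f := by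
  classical
  by_cases hf : f = 0
  · rw [hf]
    exact dvd_zero _
  induction f using UniqueFactorizationMonoid.induction_on_prime with
  | h₁ => exact dvd_zero _
  | h₂ u hu =>
    exfalso
    have h1 : IsUnit (hat u : R2 l) := hu.map hat
    exact (prime_hat hg).not_isUnit (isUnit_of_dvd_unit h h1)
  | h₃ a q ha hq ih =>
    have h0 : a ≠ 0 := right_ne_zero_of_mul hf
    rw [map_mul] at h
    rcases (prime_hat (l := l) hg).dvd_or_dvd h with h1 | h1
    · have := (prime_hat (l := l) hg).associated_of_dvd (prime_hat hq) h1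
      exact (assoc_of_hat_assoc hg.ne_zero this).trans (Dvd.intro _ rfl)
    · exact (ih h1 h0).trans (Dvd.intro_left _ rfl)

end Hat

section Main

lemma isAlgClosed_algClosure (F E : Type*) [Field F] [Field E] [Algebra F E] [IsAlgClosed E] :
    IsAlgClosed (algebraicClosure F E) :=
  (algebraicClosure.isAlgClosure (F := F) (E := E)).isAlgClosed

variable {s l E : Type*} [Field s] [Field l] [Field E] [Algebra s l]
  [IsAlgClosed s] [CharZero s] [IsAlgClosed l] [CharZero l] {p : R2 l} {φ : R2 l →+* E}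

lemma Pt.congr_assoc (h : Pt s p E φ) {p' : R2 l} (hp : Associated p p') : Pt s p' E φ where
  prime := hp.prime_iff.1 h.prime
  res := ⟨fun a => by rw [h.res.ker]; exact hp.dvd_iff_dvd_left, h.res.gen⟩
  nov := by
    rintro ⟨g, hg⟩
    exact h.nov ⟨g, hp.trans hg⟩

/-- The theorem of Bertini and Krull. -/
theorem bk (h : Pt s p E φ) {τ : K2 s} (hτ : h.E1 = IntermediateField.adjoin s {τ})
    (hτ' : τ ∉ Set.range (algebraMap s (K2 s))) {A B : R2 s} (hAB : IsRelPrime A B) (hB : B ≠ 0)
    (hτAB : τ = algebraMap (R2 s) (K2 s) A / algebraMap (R2 s) (K2 s) B) {μ : l}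
    (hμ : h.rho τ = φ (C (C μ))) : Associated p (hat A - C (C μ) * hat B) := by
  classical
  set F : R2 l := hat A - C (C μ) * hat B with hF
  have hτmem : τ ∈ h.E1 := by
    rw [hτ]
    exact IntermediateField.mem_adjoin_simple_self s τ
  -- `μ` is not in `s`
  have hμs : μ ∉ Set.range (algebraMap s l) := by
    rintro ⟨t, rfl⟩
    apply hτ'
    refine ⟨t, ?_⟩
    apply h.rho.injective
    rw [h.rho_const, hμ]
  have hF0 : F ≠ 0 := by
    intro hF0
    obtain ⟨i, hi⟩ : ∃ i, B.coeff i ≠ 0 := by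
      by_contra hcon
      push Not at hcon
      exact hB (Polynomial.ext (by simpa using hcon))
    obtain ⟨j, hj⟩ : ∃ j, (B.coeff i).coeff j ≠ 0 := by
      by_contra hcon
      push Not at hcon
      exact hi (Polynomial.ext (by simpa using hcon))
    have h1 : (hat A : R2 l) = C (C μ) * hat B := sub_eq_zero.1 hF0
    have h2 := congrArg (fun f : R2 l => (f.coeff i).coeff j) h1
    simp only [coeff_C_mul, hat_eq_hatOf, hatOf_coeff] at h2
    apply hμs
    refine ⟨(A.coeff i).coeff j / (B.coeff i).coeff j, ?_⟩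
    rw [map_div₀, h2]
    have h3 : algebraMap s l ((B.coeff i).coeff j) ≠ 0 := by simpa using hj
    field_simp
  have hpF : p ∣ F := by
    rw [← h.res.ker, hF, map_sub, map_mul, ← hμ, hτAB, map_div₀, h.rho_alg, h.rho_alg]
    have := h.phi_hat_ne hB
    field_simp
    simp
  -- the constants as a subfield of `l`
  have hex : ∀ e : h.E1, ∃ a : l, h.rho e = φ (C (C a)) := fun e => e.2
  choose convf hconvf using hex
  let conv : h.E1 →+* l :=
    { toFun := convf
      map_one' := by
        apply h.const_inj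
        rw [← hconvf]
        simp
      map_mul' := fun a b => by
        apply h.const_inj
        rw [← hconvf, C_mul, C_mul, map_mul, ← hconvf, ← hconvf]
        simp
      map_zero' := by
        apply h.const_inj
        rw [← hconvf]
        simp
      map_add' := fun a b => by
        apply h.const_inj
        rw [← hconvf, C_add, C_add, map_add, ← hconvf, ← hconvf]
        simp }
  have hconv : ∀ e : h.E1, h.rho e = φ (C (C (conv e))) := hconvf
  let τ₁ : h.E1 := ⟨τ, hτmem⟩
  have hμconv : conv τ₁ = μ := by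
    apply h.const_inj
    rw [← hconv]
    exact hμ
  have hιconv : ∀ t : s, conv (algebraMap s h.E1 t) = algebraMap s l t := by
    intro t
    apply h.const_inj
    rw [← hconv]
    exact h.rho_const t
  letI algE : Algebra h.E1 l := conv.toAlgebra
  let s₂ := algebraicClosure h.E1 l
  haveI : IsAlgClosed s₂ := isAlgClosed_algClosure h.E1 l
  haveI : CharZero s₂ := (RingHom.charZero_iff (algebraMap s₂ l).injective).2 inferInstance
  have hrange : ∀ e : h.E1, conv e ∈ Set.range (algebraMap s₂ l) := fun e =>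
    ⟨⟨conv e, mem_algebraicClosure_iff.2 (isAlgebraic_algebraMap (A := l) e)⟩, rfl⟩
  have hcoefF : ∀ i j, (F.coeff i).coeff j ∈ Set.range (algebraMap s₂ l) := by
    intro i j
    have : (F.coeff i).coeff j = conv (algebraMap s h.E1 ((A.coeff i).coeff j) -
        τ₁ * algebraMap s h.E1 ((B.coeff i).coeff j)) := by
      rw [map_sub, map_mul, hμconv, hιconv, hιconv, hF]
      simp only [coeff_sub, coeff_C_mul, hat_eq_hatOf, hatOf_coeff]
    rw [this]
    exact hrange _
  obtain ⟨G₂, hG₂⟩ := exists_lift2 (algebraMap s₂ l) F hcoefF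
  have hG₂0 : G₂ ≠ 0 := by
    rintro rfl
    apply hF0
    rw [← hG₂]
    simp [hatOf]
  obtain ⟨g', hg', ha⟩ := overS_of_dvd (s := s₂) h.prime hG₂0 (by
    rw [hat_eq_hatOf, hG₂]
    exact hpF)
  obtain ⟨g₂, hass, htop⟩ := exists_normalized hg'.ne_zero
  set p' : R2 l := hat g₂ with hp'
  have hap : Associated p p' := ha.trans (hass.map (hat : R2 s₂ →+* R2 l))
  have hn : p'.leadingCoeff.leadingCoeff = 1 := by
    rw [hp', hat_eq_hatOf, lc_hatOf _ (algebraMap s₂ l).injective, htop, map_one]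
  have h' : Pt s p' E φ := h.congr_assoc hap
  have hcoef : ∀ i j, (p'.coeff i).coeff j ∈ Set.range conv := by
    intro i j
    obtain ⟨e, he⟩ := bk_coeffs (s₂ := s₂) h' (E₀ := h.E1) conv hconv (fun e he => he) (by
      intro c
      obtain ⟨q, hq0, hq⟩ := mem_algebraicClosure_iff.1 c.2
      exact ⟨q, hq0, hq⟩) rfl hn i j
    exact ⟨e, he⟩
  obtain ⟨g₁, hg₁⟩ := exists_lift2 conv p' hcoef
  -- polynomials in `μ`
  let Ψ : (R2 s)[X] →+* R2 l := eval₂RingHom (hat : R2 s →+* R2 l) (C (C μ))
  let hom : (R2 s)[X] →+* K2 s := eval₂RingHom (algebraMap (R2 s) (K2 s)) τ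
  have hcomm : h.rho.comp hom = φ.comp Ψ := by
    apply Polynomial.ringHom_ext
    · intro a
      simp [hom, Ψ]
    · simp [hom, Ψ, hμ]
  let emb : s[X] →+* (R2 s)[X] := mapRingHom (C.comp C)
  have hΨemb : ∀ w : s[X], Ψ (emb w) = C (C (aeval μ w)) := by
    have h1 : Ψ.comp emb = (C.comp C).comp ((aeval μ : s[X] →ₐ[s] l) : s[X] →+* l) := by
      apply Polynomial.ringHom_ext
      · intro a
        simp [Ψ, emb]
      · simp [Ψ, emb]
    intro w
    exact RingHom.congr_fun h1 w
  have hcv : ∀ w : s[X], conv (aeval τ₁ w) = aeval μ w := by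
    have h1 : conv.comp ((aeval τ₁ : s[X] →ₐ[s] h.E1) : s[X] →+* h.E1) =
        ((aeval μ : s[X] →ₐ[s] l) : s[X] →+* l) := by
      apply Polynomial.ringHom_ext
      · intro a
        simp [hιconv]
      · simp [hμconv]
    intro w
    exact RingHom.congr_fun h1 w
  have hval : ∀ w : s[X], ((aeval τ₁ w : h.E1) : K2 s) = aeval τ w := fun w =>
    (Polynomial.aeval_algHom_apply h.E1.val τ₁ w).symm
  have key : ∀ f₁ : R2 h.E1, ∃ d : s[X], aeval μ d ≠ 0 ∧ ∃ P : (R2 s)[X],
      Ψ P = C (C (aeval μ d)) * hatOf conv f₁ := by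
    intro f₁
    induction f₁ using R2_induction with
    | hc e =>
      have he : (e : K2 s) ∈ IntermediateField.adjoin s {τ} := by
        rw [← hτ]
        exact e.2
      obtain ⟨r, q, hrq⟩ := (IntermediateField.mem_adjoin_simple_iff s _).1 he
      by_cases hq : aeval τ q = 0
      · refine ⟨1, by simp, 0, ?_⟩
        have he0 : e = 0 := by
          apply Subtype.ext
          rw [hrq, hq, div_zero]
          rfl
        rw [he0]
        simp
      · have hq' : aeval τ₁ q ≠ 0 := by
          intro h0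
          apply hq
          rw [← hval, h0]
          rfl
        have hq2 : aeval μ q ≠ 0 := by
          rw [← hcv]
          exact (map_ne_zero conv).2 hq'
        refine ⟨q, hq2, emb r, ?_⟩
        have he1 : e = aeval τ₁ r / aeval τ₁ q := by
          apply Subtype.ext
          rw [hrq, ← hval, ← hval]
          rfl
        rw [hΨemb, hatOf_CC, he1, map_div₀, hcv, hcv, ← map_mul, ← C_mul]
        congr 2
        field_simp
    | hx =>
      refine ⟨1, by simp, C (C X), ?_⟩
      simp [Ψ]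
    | hy =>
      refine ⟨1, by simp, C X, ?_⟩
      simp [Ψ]
    | hadd f g hf hg =>
      obtain ⟨d₁, hd₁, P₁, h₁⟩ := hf
      obtain ⟨d₂, hd₂, P₂, h₂⟩ := hg
      refine ⟨d₁ * d₂, by rw [map_mul]; exact mul_ne_zero hd₁ hd₂, emb d₂ * P₁ + emb d₁ * P₂, ?_⟩
      rw [map_add, map_mul, map_mul, hΨemb, hΨemb, h₁, h₂, map_add, map_mul, C_mul, C_mul]
      ring
    | hmul f g hf hg =>
      obtain ⟨d₁, hd₁, P₁, h₁⟩ := hf
      obtain ⟨d₂, hd₂, P₂, h₂⟩ := hg
      refine ⟨d₁ * d₂, by rw [map_mul]; exact mul_ne_zero hd₁ hd₂, P₁ * P₂, ?_⟩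
      rw [map_mul Ψ, h₁, h₂, map_mul (hatOf conv), map_mul (aeval μ), C_mul, C_mul]
      ring
  obtain ⟨d, hd, P, hP⟩ := key g₁
  rw [hg₁] at hP
  have hφp' : φ p' = 0 := (h'.res.ker p').2 dvd_rfl
  have hhomP : hom P = 0 := by
    apply h.rho.injective
    have h1 := RingHom.congr_fun hcomm P
    simp only [RingHom.comp_apply] at h1
    rw [h1, hP, map_mul, hφp', mul_zero, map_zero]
  obtain ⟨n, Q, r, hdiv⟩ := pseudo_div A B P
  have hBK : algebraMap (R2 s) (K2 s) B ≠ 0 := algebraMap_ne hB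
  have hr : r = 0 := by
    have h1 := congrArg hom hdiv
    rw [map_mul hom, hhomP, mul_zero, map_add hom, map_mul hom] at h1
    have h3 : ∀ a : R2 s, hom (C a) = algebraMap (R2 s) (K2 s) a := by
      intro a
      simp [hom]
    have hW : hom (C B * X - C A) = 0 := by
      have h2 : hom (C B * X - C A) = algebraMap (R2 s) (K2 s) B * τ - algebraMap (R2 s) (K2 s) A := by
        simp [hom]
      rw [h2, hτAB]
      field_simp
      ring
    rw [hW, zero_mul, zero_add, h3] at h1
    exact IsFractionRing.injective (R2 s) (K2 s) (h1.symm.trans (map_zero _).symm)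
  rw [hr, C_0, add_zero] at hdiv
  have hΨdiv : (hat B : R2 l) ^ n * (C (C (aeval μ d)) * p') = - (F * Ψ Q) := by
    have h1 := congrArg Ψ hdiv
    rw [map_mul Ψ, map_mul Ψ, hP] at h1
    have h3 : ∀ a : R2 s, Ψ (C a) = hat a := by
      intro a
      simp [Ψ]
    have hW : Ψ (C B * X - C A) = (hat B : R2 l) * C (C μ) - hat A := by
      simp [Ψ]
    rw [hW, h3, map_pow] at h1
    rw [h1, hF]
    ring
  have hFdvd : F ∣ (hat B : R2 l) ^ n * p' := by
    refine ⟨C (C (aeval μ d)⁻¹) * (- Ψ Q), ?_⟩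
    have h1 : (C (C (aeval μ d)⁻¹) : R2 l) * C (C (aeval μ d)) = 1 := by
      rw [← C_mul, ← C_mul, inv_mul_cancel₀ hd]
      simp
    calc (hat B : R2 l) ^ n * p' = C (C (aeval μ d)⁻¹) * C (C (aeval μ d)) * ((hat B : R2 l) ^ n * p') := by
          rw [h1, one_mul]
      _ = C (C (aeval μ d)⁻¹) * ((hat B : R2 l) ^ n * (C (C (aeval μ d)) * p')) := by ring
      _ = F * (C (C (aeval μ d)⁻¹) * (- Ψ Q)) := by rw [hΨdiv]; ring
  have hrel : IsRelPrime F (hat B : R2 l) := by
    intro x hx1 hx2
    by_contra hu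
    have hx0 : x ≠ 0 := by
      rintro rfl
      exact hF0 (zero_dvd_iff.1 hx1)
    obtain ⟨q, hqi, hqx⟩ := WfDvdMonoid.exists_irreducible_factor hu hx0
    have hq : Prime q := hqi.prime
    have h1 : q ∣ F := hqx.trans hx1
    have h2 : q ∣ (hat B : R2 l) := hqx.trans hx2
    have h3 : q ∣ (hat A : R2 l) := by
      have : (hat A : R2 l) = F + C (C μ) * hat B := by rw [hF]; ring
      rw [this]
      exact dvd_add h1 (h2.trans (Dvd.intro_left _ rfl))
    obtain ⟨g, hg, hqg⟩ := overS_of_dvd hq hB h2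
    have h4 : g ∣ B := dvd_of_hat_dvd_hat (l := l) hg (hqg.symm.dvd.trans h2)
    have h5 : g ∣ A := dvd_of_hat_dvd_hat (l := l) hg (hqg.symm.dvd.trans h3)
    exact hg.not_isUnit (hAB h5 h4)
  have hFp' : F ∣ p' := (hrel.pow_right (n := n)).dvd_of_dvd_mul_left hFdvd
  have hp'F : p' ∣ F := hap.symm.dvd.trans hpF
  exact hap.trans (associated_of_dvd_dvd hp'F hFp')

end Main

end Vale.Agent.Lib.P019
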