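import Vale.Agent.Lib.P019.Defs

/-!
Basic calculus of the classes `[x]` in `V ℓ F`; extension of homomorphisms from a UFD to
its fraction field; `P`-adic order and residue maps; the tame identity.
-/

namespace Vale.Agent.Lib.P019

open TensorProduct nonZeroDivisors

section Basics

variable {ℓ : ℕ} {F : Type*} [Field F]

@[simp] lemma cls_mul (x y : Fˣ) : cls ℓ (x * y) = cls ℓ x + cls ℓ y := rfl

@[simp] lemma cls_one : cls ℓ (1 : Fˣ) = 0 := rfl

@[simp] lemma cls_inv (x : Fˣ) : cls ℓ x⁻¹ = - cls ℓ x := rfl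

lemma cls_pow (x : Fˣ) (n : ℕ) : cls ℓ (x ^ n) = n • cls ℓ x := rfl

lemma cls_surjective (z : V ℓ F) : ∃ x : Fˣ, cls ℓ x = z := by
  induction z using Additive.rec with
  | _ q =>
    induction q using QuotientGroup.induction_on with
    | _ x => exact ⟨x, rfl⟩

lemma cls_eq_zero_iff (x : Fˣ) : cls ℓ x = 0 ↔ ∃ w : Fˣ, w ^ ℓ = x := by
  have : cls ℓ x = 0 ↔ (QuotientGroup.mk x : Fˣ ⧸ (powMonoidHom ℓ : Fˣ →* Fˣ).range) = 1 :=
    Iff.rfl
  rw [this, QuotientGroup.eq_one_iff]
  rfl

@[simp] lemma clsF_zero : clsF ℓ (0 : F) = 0 := by simp [clsF]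

lemma clsF_of_ne {x : F} (h : x ≠ 0) : clsF ℓ x = cls ℓ (Units.mk0 x h) := by simp [clsF, h]

@[simp] lemma clsF_units (x : Fˣ) : clsF ℓ (x : F) = cls ℓ x := by
  rw [clsF_of_ne x.ne_zero]; congr 1; ext; simp

@[simp] lemma clsF_one : clsF ℓ (1 : F) = 0 := by
  have := clsF_units (ℓ := ℓ) (1 : Fˣ)
  simpa using this

lemma clsF_mul {x y : F} (hx : x ≠ 0) (hy : y ≠ 0) : clsF ℓ (x * y) = clsF ℓ x + clsF ℓ y := by
  have := clsF_units (ℓ := ℓ) (Units.mk0 x hx * Units.mk0 y hy)
  rw [cls_mul, ← clsF_units, ← clsF_units] at this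
  simpa using this

lemma clsF_inv (x : F) : clsF ℓ x⁻¹ = - clsF ℓ x := by
  by_cases hx : x = 0
  · simp [hx]
  · have := clsF_units (ℓ := ℓ) (Units.mk0 x hx)⁻¹
    rw [cls_inv, ← clsF_units] at this
    simpa using this

lemma clsF_div {x y : F} (hx : x ≠ 0) (hy : y ≠ 0) : clsF ℓ (x / y) = clsF ℓ x - clsF ℓ y := by
  rw [div_eq_mul_inv, clsF_mul hx (inv_ne_zero hy), clsF_inv, sub_eq_add_neg]

lemma clsF_pow {x : F} (hx : x ≠ 0) (n : ℕ) : clsF ℓ (x ^ n) = n • clsF ℓ x := by
  induction n with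
  | zero => simp
  | succ n ih => rw [pow_succ, clsF_mul (pow_ne_zero _ hx) hx, ih, succ_nsmul]

lemma clsF_surjective (z : V ℓ F) : ∃ x : F, x ≠ 0 ∧ clsF ℓ x = z := by
  obtain ⟨x, rfl⟩ := cls_surjective z
  exact ⟨x, x.ne_zero, clsF_units x⟩

lemma clsF_eq_zero_iff {x : F} (hx : x ≠ 0) : clsF ℓ x = 0 ↔ ∃ w : F, w ^ ℓ = x := by
  rw [clsF_of_ne hx, cls_eq_zero_iff]
  constructor
  · rintro ⟨w, hw⟩
    refine ⟨w, ?_⟩
    have := congrArg Units.val hw
    simpa using this
  · rintro ⟨w, hw⟩
    by_cases hl : ℓ = 0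
    · subst hl
      refine ⟨1, ?_⟩
      ext
      simpa using hw
    · have hw0 : w ≠ 0 := by
        rintro rfl
        rw [zero_pow hl] at hw
        exact hx hw.symm
      refine ⟨Units.mk0 w hw0, ?_⟩
      ext
      simpa using hw

lemma clsF_eq_zero_of_pow {x w : F} (h : w ^ ℓ = x) : clsF ℓ x = 0 := by
  by_cases hx : x = 0
  · simp [hx]
  · exact (clsF_eq_zero_iff hx).2 ⟨w, h⟩

/-- The class map as a monoid homomorphism. -/
def clsHom (ℓ : ℕ) (F : Type*) [Field F] : Fˣ →* Multiplicative (V ℓ F) where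
  toFun x := Multiplicative.ofAdd (cls ℓ x)
  map_one' := rfl
  map_mul' _ _ := rfl

/-- Lifting a homomorphism from `Fˣ` to an additive group killed by `ℓ` to `V ℓ F`. -/
noncomputable def vLift {N : Type*} [AddCommGroup N] (hN : ∀ n : N, ℓ • n = 0)
    (g : Fˣ →* Multiplicative N) : V ℓ F →+ N :=
  MonoidHom.toAdditiveLeft
    (QuotientGroup.lift (powMonoidHom ℓ : Fˣ →* Fˣ).range g
      (by
        rintro _ ⟨w, rfl⟩
        simp only [powMonoidHom_apply]
        rw [MonoidHom.mem_ker, map_pow]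
        have := hN (Multiplicative.toAdd (g w))
        apply Multiplicative.toAdd.injective
        simpa using this))

@[simp] lemma vLift_cls {N : Type*} [AddCommGroup N] (hN : ∀ n : N, ℓ • n = 0)
    (g : Fˣ →* Multiplicative N) (x : Fˣ) :
    vLift hN g (cls ℓ x) = Multiplicative.toAdd (g x) := rfl

/-- Functoriality of `V` under field homomorphisms. -/
noncomputable def mapV (ℓ : ℕ) {F E : Type*} [Field F] [Field E] (φ : F →+* E) :
    V ℓ F →ₗ[ZMod ℓ] V ℓ E :=
  AddMonoidHom.toZModLinearMap ℓ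
    (vLift (smul_V_eq_zero ℓ E) ((clsHom ℓ E).comp (Units.map (φ : F →* E))))

@[simp] lemma mapV_cls {F E : Type*} [Field F] [Field E] (φ : F →+* E) (x : Fˣ) :
    mapV ℓ φ (cls ℓ x) = cls ℓ (Units.map (φ : F →* E) x) := rfl

lemma mapV_clsF {F E : Type*} [Field F] [Field E] (φ : F →+* E) (x : F) :
    mapV ℓ φ (clsF ℓ x) = clsF ℓ (φ x) := by
  by_cases hx : x = 0
  · simp [hx]
  · rw [clsF_of_ne hx, mapV_cls, clsF_of_ne ((map_ne_zero φ).2 hx)]
    congr 1
    ext
    simp

end Basics

section FracLift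

variable {A : Type*} [CommRing A] [IsDomain A]
variable (F : Type*) [Field F] [Algebra A F] [IsFractionRing A F]

/-- A pair of nonzero elements of `A` representing `x` as a fraction. -/
lemma exists_frac (x : Fˣ) :
    ∃ p : A⁰ × A⁰, algebraMap A F p.1 / algebraMap A F p.2 = x := by
  obtain ⟨a, b, hb, hab⟩ := IsFractionRing.div_surjective (A := A) (x : F)
  have hb0 : b ≠ 0 := nonZeroDivisors.ne_zero hb
  have ha0 : a ≠ 0 := by
    rintro rfl
    simp only [map_zero, zero_div] at hab
    exact x.ne_zero hab.symm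
  exact ⟨(⟨a, mem_nonZeroDivisors_of_ne_zero ha0⟩, ⟨b, hb⟩), hab⟩

variable {F}
variable {G : Type*} [CommGroup G]

lemma map_ne_zero_of_nzd (b : A⁰) : algebraMap A F b ≠ 0 := by
  have : (b : A) ≠ 0 := nonZeroDivisors.ne_zero b.2
  simpa using this

lemma f_cross (f : A⁰ →* G) {a b c d : A⁰}
    (h : algebraMap A F a / algebraMap A F b = algebraMap A F c / algebraMap A F d) :
    f a / f b = f c / f d := by
  have hb := map_ne_zero_of_nzd (F := F) b
  have hd := map_ne_zero_of_nzd (F := F) d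
  have key : a * d = c * b := by
    apply Subtype.ext
    apply IsFractionRing.injective A F
    simp only [Submonoid.coe_mul, map_mul]
    field_simp at h
    linear_combination h
  have h' := congrArg f key
  simp only [map_mul] at h'
  exact div_eq_div_iff_mul_eq_mul.2 h'

variable (F)

/-- Extension of a homomorphism `A⁰ → G` to `Fˣ`. -/
noncomputable def fracLift (f : A⁰ →* G) : Fˣ →* G where
  toFun x := f (exists_frac (A := A) F x).choose.1 / f (exists_frac (A := A) F x).choose.2
  map_one' := by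
    have h := (exists_frac (A := A) F 1).choose_spec
    have h2 : algebraMap A F (1 : A⁰) / algebraMap A F (1 : A⁰) =
        algebraMap A F (exists_frac (A := A) F 1).choose.1 /
          algebraMap A F (exists_frac (A := A) F 1).choose.2 := by
      rw [h]; simp
    have := f_cross (F := F) f h2
    simp only [map_one, div_one] at this
    simpa using this.symm
  map_mul' x y := by
    have h1 := (exists_frac (A := A) F x).choose_spec
    have h2 := (exists_frac (A := A) F y).choose_spec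
    have h3 := (exists_frac (A := A) F (x * y)).choose_spec
    rw [div_mul_div_comm, ← map_mul, ← map_mul]
    apply f_cross (F := F)
    rw [h3]
    simp only [Submonoid.coe_mul, map_mul, Units.val_mul]
    rw [← div_mul_div_comm, h1, h2]

lemma fracLift_div (f : A⁰ →* G) (x : Fˣ) {a b : A⁰}
    (hx : algebraMap A F a / algebraMap A F b = x) :
    fracLift F f x = f a / f b := by
  apply f_cross (F := F)
  rw [hx]
  exact (exists_frac (A := A) F x).choose_spec

lemma fracLift_of (f : A⁰ →* G) (x : Fˣ) {a : A⁰}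
    (hx : algebraMap A F a = x) :
    fracLift F f x = f a := by
  have := fracLift_div F f x (a := a) (b := 1) (by simp [hx])
  simpa using this

end FracLift

end Vale.Agent.Lib.P019
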