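import Vale.Agent.Lib.P019.Expansion

/-!
The rings `k[x]`, `k[x][y]`, their fraction fields, the order and residue maps at `x - c`.
-/

set_option linter.unusedSectionVars false

namespace Vale.Agent.Lib.P019

open Polynomial TensorProduct nonZeroDivisors UniqueFactorizationMonoid

/-- `k(t)`. -/
abbrev K1 (k : Type*) [Field k] := FractionRing (Polynomial k)

section Defs

variable {k : Type*} [Field k]

/-- The polynomial `x - c`. -/
noncomputable def xc (c : k) : R2 k := C (X - C c)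
/-- The polynomial `y - a`. -/
noncomputable def yc (a : k) : R2 k := X - C (C a)

lemma prime_xc (c : k) : Prime (xc c) := Polynomial.prime_C_iff.2 (prime_X_sub_C c)
lemma prime_yc (a : k) : Prime (yc a) := prime_X_sub_C (C a)

/-- Evaluation `x = c`. -/
noncomputable def evX (c : k) : R2 k →+* k[X] := mapRingHom (evalRingHom c)

@[simp] lemma evX_apply (c : k) (h : R2 k) : evX c h = h.map (evalRingHom c) := rfl

lemma xc_dvd_iff (c : k) (h : R2 k) : xc c ∣ h ↔ evX c h = 0 := by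
  rw [xc, C_dvd_iff_dvd_coeff, evX_apply, Polynomial.ext_iff]
  refine forall_congr' fun i => ?_
  rw [dvd_iff_isRoot, coeff_map]
  simp [IsRoot]

/-- The residue homomorphism at `x - c`. -/
noncomputable def phiX (c : k) : R2 k →+* K1 k := (algebraMap k[X] (K1 k)).comp (evX c)

lemma phiX_eq_zero_iff (c : k) (h : R2 k) : phiX c h = 0 ↔ xc c ∣ h := by
  rw [xc_dvd_iff, phiX, RingHom.comp_apply]
  simp

variable (ℓ : ℕ)

/-- The order at `x - c`. -/
noncomputable def ordX (c : k) : V ℓ (K2 k) →ₗ[ZMod ℓ] ZMod ℓ := ordV ℓ (K2 k) (xc c)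

/-- The residue at `x - c` with uniformizer `x - c`. -/
noncomputable def rhoX (c : k) : V ℓ (K2 k) →ₗ[ZMod ℓ] V ℓ (K1 k) :=
  resV ℓ (K2 k) (phiX c) (xc c) (prime_xc c) (phiX_eq_zero_iff c)

/-- The class of a polynomial in `V ℓ (K2 k)`. -/
noncomputable abbrev vr2 (h : R2 k) : V ℓ (K2 k) := vr ℓ (K2 k) h
/-- The class of a polynomial in `V ℓ (K1 k)`. -/
noncomputable abbrev vr1 (p : k[X]) : V ℓ (K1 k) := vr ℓ (K1 k) p

/-- The order at `T - a` on `V ℓ (K1 k)`. -/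
noncomputable def ord1 (a : k) : V ℓ (K1 k) →ₗ[ZMod ℓ] ZMod ℓ := ordV ℓ (K1 k) (X - C a)

/-- The subspace spanned by the classes of `x - c`. -/
noncomputable def Ax (k : Type*) [Field k] : Submodule (ZMod ℓ) (V ℓ (K2 k)) :=
  Submodule.span (ZMod ℓ) (Set.range fun c : k => vr2 ℓ (xc c))

/-- The subspace spanned by the classes of `y - a`. -/
noncomputable def Ay (k : Type*) [Field k] : Submodule (ZMod ℓ) (V ℓ (K2 k)) :=
  Submodule.span (ZMod ℓ) (Set.range fun a : k => vr2 ℓ (yc a))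

end Defs

section Closed

variable {k : Type*} [Field k] [IsAlgClosed k] {ℓ : ℕ} [hℓ : Fact ℓ.Prime]

lemma unitsDiv1 : UnitsDiv ℓ k[X] := by
  intro u
  obtain ⟨r, hr, hu⟩ := Polynomial.isUnit_iff.1 u.isUnit
  obtain ⟨w, hw⟩ := IsAlgClosed.exists_pow_nat_eq r hℓ.out.pos
  exact ⟨C w, by rw [← C_pow, hw, hu]⟩

lemma unitsDiv2 : UnitsDiv ℓ (R2 k) := by
  intro u
  obtain ⟨r, hr, hu⟩ := Polynomial.isUnit_iff.1 u.isUnit
  obtain ⟨s, hs, hr'⟩ := Polynomial.isUnit_iff.1 hr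
  obtain ⟨w, hw⟩ := IsAlgClosed.exists_pow_nat_eq s hℓ.out.pos
  exact ⟨C (C w), by rw [← C_pow, ← C_pow, hw, hr', hu]⟩

lemma clsF_neg_one_K1 : clsF ℓ (-1 : K1 k) = 0 := by
  obtain ⟨w, hw⟩ := IsAlgClosed.exists_pow_nat_eq (-1 : k) hℓ.out.pos
  apply clsF_eq_zero_of_pow (w := algebraMap k[X] (K1 k) (C w))
  rw [← map_pow, ← C_pow, hw]
  simp

lemma clsF_neg_one_K2 : clsF ℓ (-1 : K2 k) = 0 := by
  obtain ⟨w, hw⟩ := IsAlgClosed.exists_pow_nat_eq (-1 : k) hℓ.out.pos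
  apply clsF_eq_zero_of_pow (w := algebraMap (R2 k) (K2 k) (C (C w)))
  rw [← map_pow, ← C_pow, ← C_pow, hw]
  simp

lemma vr1_C (t : k) : vr1 ℓ (C t) = 0 := by
  by_cases ht : t = 0
  · simp [ht]
  · exact vr_isUnit unitsDiv1 (Polynomial.isUnit_C.2 (isUnit_iff_ne_zero.2 ht))

lemma vr2_CC (t : k) : vr2 ℓ (C (C t)) = 0 := by
  by_cases ht : t = 0
  · simp [ht]
  · exact vr_isUnit unitsDiv2 (Polynomial.isUnit_C.2
      (Polynomial.isUnit_C.2 (isUnit_iff_ne_zero.2 ht)))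

lemma rhoX_vr (c : k) {h : R2 k} (hc : ¬ xc c ∣ h) :
    rhoX ℓ c (vr2 ℓ h) = vr1 ℓ (evX c h) := by
  rw [rhoX, resV_vr_of_not_dvd _ _ _ _ hc]
  rfl

lemma rhoX_xc_self (c : k) : rhoX ℓ c (vr2 ℓ (xc c)) = 0 := by
  rw [rhoX, resV_vr_self]

lemma evX_xc (c c' : k) : evX c (xc c') = C (c - c') := by
  simp [xc]

lemma rhoX_xc (c c' : k) : rhoX ℓ c (vr2 ℓ (xc c')) = 0 := by
  by_cases h : c = c'
  · subst h
    exact rhoX_xc_self c
  · have hc : ¬ xc c ∣ xc c' := by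
      rw [xc_dvd_iff, evX_xc]
      simpa [sub_eq_zero] using h
    rw [rhoX_vr c hc, evX_xc, vr1_C]

lemma rhoX_eq_zero_of_mem_Ax (c : k) {z : V ℓ (K2 k)} (hz : z ∈ Ax ℓ k) : rhoX ℓ c z = 0 := by
  induction hz using Submodule.span_induction with
  | mem x h =>
    obtain ⟨c', rfl⟩ := h
    exact rhoX_xc c c'
  | zero => simp
  | add x y _ _ hx hy => rw [map_add, hx, hy, add_zero]
  | smul a x _ hx => rw [map_smul, hx, smul_zero]

lemma xc_dvd_of_prime_natDegree {c : k} {p : R2 k} (hp : Prime p) (hd : 0 < p.natDegree) :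
    ¬ xc c ∣ p := by
  intro h
  have hassoc := (prime_xc c).associated_of_dvd hp h
  have h1 : p.natDegree = (xc c).natDegree := by
    obtain ⟨u, hu⟩ := hassoc.symm
    have hu' : ((u : (R2 k)ˣ) : R2 k).natDegree = 0 :=
      natDegree_eq_zero_of_isUnit u.isUnit
    rw [← hu, natDegree_mul hp.ne_zero u.ne_zero, hu', add_zero]
  rw [xc, natDegree_C] at h1
  omega

/-- A prime of `k[x][y]` of `y`-degree zero is associated with some `x - c`. -/
lemma exists_assoc_xc {p : R2 k} (hp : Prime p) (hd : p.natDegree = 0) :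
    ∃ c : k, Associated p (xc c) := by
  obtain ⟨r, rfl⟩ := natDegree_eq_zero.1 hd
  have hr : Prime r := Polynomial.prime_C_iff.1 hp
  have hdeg := IsAlgClosed.degree_eq_one_of_irreducible k hr.irreducible
  obtain ⟨c, hc⟩ := IsAlgClosed.exists_root r (by rw [hdeg]; simp)
  refine ⟨c, ?_⟩
  have hdvd : X - C c ∣ r := dvd_iff_isRoot.2 hc
  have := (prime_X_sub_C c).associated_of_dvd hr hdvd
  exact this.symm.map (C : k[X] →+* R2 k)

lemma vr2_assoc_mem_Ax {p : R2 k} (hp : Prime p) (hd : p.natDegree = 0) : vr2 ℓ p ∈ Ax ℓ k := by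
  obtain ⟨c, hc⟩ := exists_assoc_xc hp hd
  have h : vr2 ℓ p = vr2 ℓ (xc c) := vr_congr unitsDiv2 hc
  rw [h]
  exact Submodule.subset_span ⟨c, rfl⟩

end Closed

end Vale.Agent.Lib.P019
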