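import Vale.Agent.Lib.P019.Transv

/-!
Function fields of curves: the integral closure of `l[t]` in a finite extension of `l(t)` and its
valuations.
-/

set_option linter.unusedSectionVars false

namespace Vale.Agent.Lib.P019

open Polynomial IsDedekindDomain
open scoped IntermediateField IntermediateField.algebraAdjoinAdjoin WithZero

section Chart

variable {l E : Type*} [Field l] [Field E] [Algebra l E]

/-- The polynomial ring `l[t]` as a principal ideal ring. -/
lemma isPrincipal_adjoin (t : E) : IsPrincipalIdealRing (Algebra.adjoin l {t}) := by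
  let f : l[X] →+* Algebra.adjoin l {t} :=
    ((aeval (⟨t, Algebra.self_mem_adjoin_singleton l t⟩ : Algebra.adjoin l {t}) :
      l[X] →ₐ[l] Algebra.adjoin l {t}) : l[X] →+* Algebra.adjoin l {t})
  refine IsPrincipalIdealRing.of_surjective f ?_
  rintro ⟨y, hy⟩
  rw [Algebra.adjoin_singleton_eq_range_aeval] at hy
  obtain ⟨p, rfl⟩ := hy
  refine ⟨p, Subtype.ext ?_⟩
  change ((aeval (⟨t, Algebra.self_mem_adjoin_singleton l t⟩ : Algebra.adjoin l {t}) p :
    Algebra.adjoin l {t}) : E) = _
  rw [← Subalgebra.val_apply, ← Polynomial.aeval_algHom_apply]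
  rfl

variable [IsAlgClosed l] [CharZero l]

/-- The charts of a curve. -/
theorem chart (t : E) [FiniteDimensional l⟮t⟯ E] :
    ∃ W : Set (Valuation E ℤᵐ⁰),
      (∀ x : E, (∀ v ∈ W, v x ≤ 1) → IsIntegral (Algebra.adjoin l {t}) x) ∧
      (∀ v ∈ W, ∀ x : E, IsIntegral (Algebra.adjoin l {t}) x → v x ≤ 1) ∧
      (∀ y : E, IsIntegral (Algebra.adjoin l {t}) y → y ≠ 0 → {v ∈ W | v y < 1}.Finite) ∧
      (∀ v ∈ W, ∃ π : integralClosure (Algebra.adjoin l {t}) E →+* l,
        (∀ (y : integralClosure (Algebra.adjoin l {t}) E) (a : l),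
          (y : E) = algebraMap l E a → π y = a) ∧
        ∀ y : integralClosure (Algebra.adjoin l {t}) E, π y = 0 ↔ v (y : E) < 1) := by
  classical
  let A := Algebra.adjoin l {t}
  haveI : IsPrincipalIdealRing A := isPrincipal_adjoin t
  haveI : CharZero l⟮t⟯ :=
    (RingHom.charZero_iff (algebraMap l l⟮t⟯).injective).1 inferInstance
  haveI : Algebra.IsSeparable l⟮t⟯ E := Algebra.IsAlgebraic.isSeparable_of_perfectField
  let D := integralClosure A E
  haveI : IsDedekindDomain D := integralClosure.isDedekindDomain A l⟮t⟯ E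
  haveI : IsFractionRing D E := integralClosure.isFractionRing_of_finite_extension l⟮t⟯ E
  refine ⟨Set.range fun v : HeightOneSpectrum D => v.valuation E, ?_, ?_, ?_, ?_⟩
  · intro x hx
    have h := HeightOneSpectrum.mem_integers_of_valuation_le_one E x
      (fun v => hx _ ⟨v, rfl⟩)
    obtain ⟨y, rfl⟩ := h
    exact y.2
  · rintro _ ⟨v, rfl⟩ x hx
    exact v.valuation_le_one (K := E) (⟨x, hx⟩ : D)
  · intro y hy hy0
    let y' : D := ⟨y, hy⟩
    have hy'0 : y' ≠ 0 := fun h => hy0 (congrArg Subtype.val h)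
    have hspan : Ideal.span {y'} ≠ 0 := by
      simpa using hy'0
    have hfin := Ideal.finite_factors hspan
    apply (hfin.image fun v : HeightOneSpectrum D => v.valuation E).subset
    rintro _ ⟨⟨v, rfl⟩, hv⟩
    refine ⟨v, ?_, rfl⟩
    have h1 : v.valuation E (algebraMap D E y') < 1 := hv
    rw [HeightOneSpectrum.valuation_lt_one_iff_mem] at h1
    simpa [Ideal.dvd_span_singleton] using h1
  · rintro _ ⟨v, rfl⟩
    haveI : v.asIdeal.IsMaximal := v.isMaximal
    letI : Field (D ⧸ v.asIdeal) := Ideal.Quotient.field v.asIdeal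
    haveI : Module.Finite A D := IsIntegralClosure.finite A l⟮t⟯ E D
    haveI : Algebra.FiniteType A D := Module.Finite.finiteType D
    haveI : Algebra.FiniteType l A := by
      have : A.FG := ⟨{t}, by simp [A]⟩
      exact (Subalgebra.fg_iff_finiteType A).1 this
    haveI : Algebra.FiniteType l D := Algebra.FiniteType.trans (S := A) inferInstance inferInstance
    haveI : Algebra.FiniteType l (D ⧸ v.asIdeal) :=
      Algebra.FiniteType.of_surjective (Ideal.Quotient.mkₐ l v.asIdeal)
        Ideal.Quotient.mk_surjective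
    haveI : Module.Finite l (D ⧸ v.asIdeal) := finite_of_finite_type_of_isJacobsonRing l _
    have hbij : Function.Bijective (algebraMap l (D ⧸ v.asIdeal)) :=
      IsAlgClosed.algebraMap_bijective_of_isIntegral
    let e : l ≃ₐ[l] (D ⧸ v.asIdeal) := AlgEquiv.ofBijective (Algebra.ofId l _) hbij
    let π : D →+* l := (e.symm : (D ⧸ v.asIdeal) →+* l).comp (Ideal.Quotient.mk v.asIdeal)
    have hπ0 : ∀ y : D, π y = 0 ↔ y ∈ v.asIdeal := by
      intro y
      change e.symm (Ideal.Quotient.mk v.asIdeal y) = 0 ↔ _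
      rw [map_eq_zero_iff _ e.symm.injective, Ideal.Quotient.eq_zero_iff_mem]
    refine ⟨π, ?_, ?_⟩
    · intro y a hya
      have hy : y = algebraMap l D a := Subtype.ext hya
      rw [hy]
      change e.symm (Ideal.Quotient.mk v.asIdeal (algebraMap l D a)) = a
      have : Ideal.Quotient.mk v.asIdeal (algebraMap l D a) = e a := rfl
      rw [this, e.symm_apply_apply]
    · intro y
      rw [hπ0]
      have := v.valuation_lt_one_iff_mem (K := E) y
      exact this.symm

end Chart

end Vale.Agent.Lib.P019
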