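import Vale.Agent.Lib.P019.PartII

/-!
Change of coordinates: once the two pencils generate the function field, the coordinate pencils can
be moved onto the images of the given ones.
-/

set_option linter.unusedSectionVars false
set_option linter.style.haveILetI false

namespace Vale.Agent.Lib.P019

open Polynomial Algebra TensorProduct

universe u v

section AdmX

variable {k : Type v} {l : Type u} [Field k] [Field l] [IsAlgClosed k] [IsAlgClosed l]
  [CharZero k] [CharZero l] {ℓ : ℕ} [hℓ : Fact ℓ.Prime]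

omit [IsAlgClosed k] [CharZero k] [CharZero l] in
lemma rho_zero_of_tensor {z w : V ℓ (K2 l)} (h : z ⊗ₜ[ZMod ℓ] w ∈ steinberg ℓ (K2 l)) {μ : l}
    (hz : ordX ℓ μ z = 0) (hw : ordX ℓ μ w ≠ 0) : rhoX ℓ μ z = 0 := by
  have hT := tameForm_steinberg (phiX μ) (xc μ) (prime_xc μ) (phiX_eq_zero_iff μ)
    (clsF_neg_one_K1 (k := l) (ℓ := ℓ)) h
  rw [tameForm_tmul] at hT
  change ordX ℓ μ w • rhoX ℓ μ z - ordX ℓ μ z • rhoX ℓ μ w = 0 at hT
  rw [hz, zero_smul, sub_zero] at hT
  exact (smul_eq_zero.1 hT).resolve_left hw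

lemma hat_xc {s : Type*} [Field s] [Algebra s l] (c : s) :
    (hat (xc c) : R2 l) = xc (algebraMap s l c) := by
  simp [xc, hat]

lemma hat_yc {s : Type*} [Field s] [Algebra s l] (c : s) :
    (hat (yc c) : R2 l) = yc (algebraMap s l c) := by
  simp [yc, hat]

/-- A compatible map sending the pencil `Ax` into `Ax` up to classes over a countable field maps it
onto `Ax`. -/
theorem adm_x [Uncountable k] {Θ₁ : V ℓ (K2 k) ≃ₗ[ZMod ℓ] V ℓ (K2 l)} (hΘ₁ : Compatible Θ₁)
    {s : Type u} [Field s] [Algebra s l] [IsAlgClosed s] [Countable s]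
    (h : ∀ z ∈ Ax ℓ k, Θ₁ z ∈ Ax ℓ l ⊔ VS ℓ l s) :
    (Ax ℓ k).map Θ₁.toLinearMap = Ax ℓ l := by
  classical
  set M : Set l := {μ | μ ∉ Set.range (algebraMap s l) ∧ ∃ z ∈ Ax ℓ k, ordX ℓ μ (Θ₁ z) ≠ 0} with hM
  have hMinf : M.Infinite := by
    intro hfin
    obtain ⟨s', _, _, h1, h2, h3, h4, -⟩ := exists_sub_of_countable (l := l) (ℓ := ℓ)
      (∅ : Set (V ℓ (K2 l))) Set.countable_empty (Set.range (algebraMap s l) ∪ M)
      ((Set.countable_range _).union hfin.countable)
    haveI := h1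
    haveI := h3
    have hr : Set.range (algebraMap s l) ⊆ Set.range (algebraMap s' l) := fun x hx => h4 (Or.inl hx)
    obtain ⟨c, hc⟩ := exists_xc_not_VS Θ₁ s'
    apply hc
    have hz : vr2 ℓ (xc c) ∈ Ax ℓ k := Submodule.subset_span ⟨c, rfl⟩
    apply mem_VS_of_forall
    intro p hp hne
    by_contra hov
    have hovs : ¬ OverS s p := fun h5 => hov (h5.mono hr)
    obtain ⟨a, ha, u, hu, hau⟩ := Submodule.mem_sup.1 (h _ hz)
    have h6 : ordV ℓ (K2 l) p u = 0 := ordV_eq_zero_of_mem_VS hp hovs hu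
    have h7 : ordV ℓ (K2 l) p a ≠ 0 := by
      rw [← hau, map_add, h6, add_zero] at hne
      exact hne
    have h8 : ∃ c', Associated p (xc c') := by
      by_contra hcon
      push Not at hcon
      exact h7 (ordV_eq_zero_of_mem_Ax hp hcon ha)
    obtain ⟨c', hc'⟩ := h8
    have h9 : c' ∉ Set.range (algebraMap s' l) := by
      rintro ⟨t, rfl⟩
      apply hov
      refine ⟨xc t, ?_⟩
      rw [hat_xc]
      exact hc'
    have h10 : c' ∉ Set.range (algebraMap s l) := fun h11 => h9 (hr h11)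
    have h11 : c' ∈ M := ⟨h10, _, hz, by
      rw [ordX, ← ordV_congr hp hc']
      exact hne⟩
    exact h9 (h4 (Or.inr h11))
  have hsub : ∀ z ∈ Ax ℓ k, Θ₁ z ∈ Ax ℓ l := by
    intro w hw
    apply mem_Ax_of_infinite
    have h1 := hMinf.sdiff (finite_ordX_ne (Θ₁ w))
    apply h1.mono
    rintro μ ⟨⟨-, z, hz, hzne⟩, hμ⟩
    have hμ' : ordX ℓ μ (Θ₁ w) = 0 := by
      by_contra hne
      exact hμ hne
    exact rho_zero_of_tensor (hΘ₁.mem (Ax_tensor hw hz)) hμ' hzne
  apply le_antisymm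
  · rintro _ ⟨z, hz, rfl⟩
    exact hsub z hz
  · intro a ha
    have hz : Θ₁.symm a ∈ Ax ℓ k := by
      apply mem_Ax_of_infinite
      have : {c : k | rhoX ℓ c (Θ₁.symm a) = 0} = Set.univ := by
        ext c
        simp only [Set.mem_ofPred_eq, Set.mem_univ, iff_true]
        have h1 : Θ₁.symm a ⊗ₜ[ZMod ℓ] vr2 ℓ (xc c) ∈ steinberg ℓ (K2 k) := by
          have h2 := hΘ₁.symm.mem (Ax_tensor ha (hsub _ (Submodule.subset_span ⟨c, rfl⟩)))
          rwa [LinearEquiv.symm_apply_apply] at h2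
        have hT := tameForm_steinberg (phiX c) (xc c) (prime_xc c) (phiX_eq_zero_iff c)
          (clsF_neg_one_K1 (k := k) (ℓ := ℓ)) h1
        rw [tameForm_tmul] at hT
        change ordX ℓ c (vr2 ℓ (xc c)) • rhoX ℓ c (Θ₁.symm a) -
          ordX ℓ c (Θ₁.symm a) • rhoX ℓ c (vr2 ℓ (xc c)) = 0 at hT
        rw [ordX_xc_self, rhoX_xc_self, smul_zero, sub_zero, one_smul] at hT
        exact hT
      rw [this]
      exact Set.infinite_univ
    exact ⟨_, hz, by simp⟩

lemma swV_VS {s : Type*} [Field s] [Algebra s l] {z : V ℓ (K2 l)} (hz : z ∈ VS ℓ l s) :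
    swV ℓ z ∈ VS ℓ l s := by
  induction hz using Submodule.span_induction with
  | mem x h =>
    obtain ⟨g, rfl⟩ := h
    simp only
    rw [swV_vr, ← hat_swR]
    exact vr_mem_VS _
  | zero => simp
  | add x y _ _ hx hy =>
    rw [map_add]
    exact add_mem hx hy
  | smul c x _ hx =>
    rw [map_smul]
    exact Submodule.smul_mem _ _ hx

/-- Admissibility from the two inclusions. -/
theorem adm_of_sup [Uncountable k] {Θ₁ : V ℓ (K2 k) ≃ₗ[ZMod ℓ] V ℓ (K2 l)} (hΘ₁ : Compatible Θ₁)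
    {s : Type u} [Field s] [Algebra s l] [IsAlgClosed s] [Countable s]
    (hx : ∀ z ∈ Ax ℓ k, Θ₁ z ∈ Ax ℓ l ⊔ VS ℓ l s) (hy : ∀ z ∈ Ay ℓ k, Θ₁ z ∈ Ay ℓ l ⊔ VS ℓ l s) :
    Adm Θ₁ := by
  refine ⟨hΘ₁, adm_x hΘ₁ hx, ?_⟩
  have h1 : ∀ z ∈ Ax ℓ k, conjSw Θ₁ z ∈ Ax ℓ l ⊔ VS ℓ l s := by
    intro z hz
    rw [conjSw_apply]
    obtain ⟨a, ha, u, hu, hau⟩ := Submodule.mem_sup.1 (hy _ (swV_Ax z hz))
    rw [← hau, map_add]
    exact Submodule.add_mem_sup (swV_Ay a ha) (swV_VS hu)
  have h2 := adm_x (compatible_conjSw hΘ₁) h1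
  apply le_antisymm
  · rintro _ ⟨z, hz, rfl⟩
    have h3 : conjSw Θ₁ (swV ℓ z) ∈ Ax ℓ l := by
      rw [← h2]
      exact ⟨_, swV_Ay z hz, rfl⟩
    rw [conjSw_apply, swV_swV] at h3
    have h4 := swV_Ax _ h3
    rw [swV_swV] at h4
    exact h4
  · intro a ha
    have h3 : swV ℓ a ∈ Ax ℓ l := swV_Ay a ha
    rw [← h2] at h3
    obtain ⟨w, hw, hw2⟩ := h3
    refine ⟨swV ℓ w, swV_Ax w hw, ?_⟩
    have h4 : swV ℓ (Θ₁ (swV ℓ w)) = swV ℓ a := hw2
    have h5 := congrArg (swV ℓ) h4
    rw [swV_swV, swV_swV] at h5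
    exact h5

end AdmX

section Beta

variable {s l : Type*} [Field s] [Field l] [Algebra s l]

/-- The map `s(x,y) → l(x,y)`. -/
noncomputable def jK : K2 s →+* K2 l :=
  IsFractionRing.lift (g := (algebraMap (R2 l) (K2 l)).comp (hat : R2 s →+* R2 l))
    ((IsFractionRing.injective (R2 l) (K2 l)).comp hat_injective)

@[simp] lemma jK_alg (g : R2 s) :
    (jK (algebraMap (R2 s) (K2 s) g) : K2 l) = algebraMap (R2 l) (K2 l) (hat g) :=
  IsFractionRing.lift_algebraMap _ _

lemma evS_hat (τ σ : K2 s) (g : R2 s) :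
    evS (s := l) (jK τ : K2 l) (jK σ : K2 l) (hat g) = jK (evS (s := s) τ σ g) := by
  have h : (evS (s := l) (jK τ : K2 l) (jK σ : K2 l)).comp (hat : R2 s →+* R2 l) =
      (jK : K2 s →+* K2 l).comp (evS (s := s) τ σ) := by
    apply R2_ringHom_ext
    · intro t
      simp only [RingHom.comp_apply, hat_CC, evS_CC]
      rw [algebraMap_K2, algebraMap_K2, jK_alg, hat_CC]
    · simp only [RingHom.comp_apply, evS_CX]
      have : (hat (C X : R2 s) : R2 l) = C X := by simp [hat]
      rw [this, evS_CX]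
    · simp only [RingHom.comp_apply, evS_X, hat_X]
  exact RingHom.congr_fun h g

lemma evS_mem_adjoin {L : Type*} [Field L] [Algebra s L] (a b : L) (f : R2 s) :
    evS a b f ∈ Algebra.adjoin s {a, b} := by
  induction f using R2_induction with
  | hc t =>
    rw [evS_CC]
    exact Subalgebra.algebraMap_mem _ t
  | hx =>
    rw [evS_CX]
    exact Algebra.subset_adjoin (Or.inl rfl)
  | hy =>
    rw [evS_X]
    exact Algebra.subset_adjoin (Or.inr rfl)
  | hadd f g hf hg =>
    rw [map_add]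
    exact add_mem hf hg
  | hmul f g hf hg =>
    rw [map_mul]
    exact mul_mem hf hg

/-- An algebraically generating pair is algebraically independent. -/
lemma indep_of_algebraic {f e : K2 s} (h : ∀ z : K2 s, IsAlgebraic (Algebra.adjoin s {f, e}) z) :
    Transcendental s f ∧ Transcendental (Algebra.adjoin s {f}) e := by
  let x : Unit → K2 s := fun _ => f
  let fam : Option Unit → K2 s := fun o => o.elim e x
  have hr2 : Set.range fam = {f, e} := by
    ext a
    constructor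
    · rintro ⟨o, rfl⟩
      cases o <;> simp [fam, x]
    · rintro (rfl | rfl)
      · exact ⟨some (), rfl⟩
      · exact ⟨none, rfl⟩
  haveI : Algebra.IsAlgebraic (Algebra.adjoin s (Set.range fam)) (K2 s) := by
    rw [hr2]
    exact ⟨h⟩
  have hb : IsTranscendenceBasis s fam := by
    apply Algebra.IsAlgebraic.isTranscendenceBasis_of_lift_le_trdeg_of_finite s fam
    rw [trdeg_K2]
    simp
  obtain ⟨h1, h2⟩ := AlgebraicIndependent.option_iff.1 hb.1
  have hr : Set.range x = {f} := by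
    ext a
    simp [x, eq_comm]
  rw [hr] at h2
  exact ⟨algebraicIndependent_unique_type_iff.1 h1, h2⟩

/-- The extension of scalars of the automorphism given by the pencils. -/
theorem exists_beta {τ σ : K2 s} (hτ : Transcendental s τ)
    (hσ : Transcendental (Algebra.adjoin s {τ}) σ)
    (hsurj : ∀ e : K2 s, e ∈ Set.range (homOf hτ hσ)) :
    ∃ β : K2 l ≃+* K2 l, FixC β ∧
      β (algebraMap (R2 l) (K2 l) (C X)) = jK τ ∧ β (algebraMap (R2 l) (K2 l) X) = jK σ ∧
      ∀ u : K2 s, β (jK u) = jK (homOf hτ hσ u) := by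
  classical
  set τ' : K2 l := jK τ with hτ'
  set σ' : K2 l := jK σ with hσ'
  -- the coordinates are algebraic over the pair
  have key : ∀ e : K2 s, IsAlgebraic (Algebra.adjoin l {τ', σ'}) (jK e : K2 l) := by
    intro e
    obtain ⟨u, rfl⟩ := hsurj e
    obtain ⟨P, Q, hQ, rfl⟩ := IsFractionRing.div_surjective (A := R2 s) u
    have hQ0 : Q ≠ 0 := nonZeroDivisors.ne_zero hQ
    have hne : evS (s := l) τ' σ' (hat Q) ≠ 0 := by
      rw [evS_hat, Ne, map_eq_zero]
      exact evS_ne_zero hτ hσ hQ0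
    let p' : Algebra.adjoin l {τ', σ'} := ⟨_, evS_mem_adjoin (s := l) τ' σ' (hat P)⟩
    let q' : Algebra.adjoin l {τ', σ'} := ⟨_, evS_mem_adjoin (s := l) τ' σ' (hat Q)⟩
    have hq' : q' ≠ 0 := fun h0 => hne (congrArg Subtype.val h0)
    refine ⟨C q' * X - C p', ?_, ?_⟩
    · intro h0
      have h1 := congrArg (fun w => w.coeff 1) h0
      simp at h1
      exact hq' h1
    · simp only [map_sub, map_mul, aeval_C, aeval_X]
      have e1 : algebraMap (Algebra.adjoin l {τ', σ'}) (K2 l) q' = evS (s := l) τ' σ' (hat Q) := rfl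
      have e2 : algebraMap (Algebra.adjoin l {τ', σ'}) (K2 l) p' = evS (s := l) τ' σ' (hat P) := rfl
      rw [e1, e2, evS_hat, evS_hat, map_div₀, map_div₀, homOf_alg, homOf_alg]
      have h3 : (jK (evS τ σ Q) : K2 l) ≠ 0 := by
        rw [Ne, map_eq_zero]
        exact evS_ne_zero hτ hσ hQ0
      field_simp
      ring
  have hx : IsAlgebraic (Algebra.adjoin l {τ', σ'}) (algebraMap (R2 l) (K2 l) (C X)) := by
    have h1 := key (algebraMap (R2 s) (K2 s) (C X))
    rw [jK_alg] at h1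
    have : (hat (C X : R2 s) : R2 l) = C X := by simp [hat]
    rwa [this] at h1
  have hy : IsAlgebraic (Algebra.adjoin l {τ', σ'}) (algebraMap (R2 l) (K2 l) X) := by
    have h1 := key (algebraMap (R2 s) (K2 s) X)
    rw [jK_alg, hat_X] at h1
    exact h1
  have hpoly : ∀ f : R2 l, IsAlgebraic (Algebra.adjoin l {τ', σ'}) (algebraMap (R2 l) (K2 l) f) := by
    intro f
    induction f using R2_induction with
    | hc t =>
      rw [← algebraMap_K2]
      have : algebraMap l (K2 l) t =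
          algebraMap (Algebra.adjoin l {τ', σ'}) (K2 l) (algebraMap l (Algebra.adjoin l {τ', σ'}) t) := rfl
      rw [this]
      exact isAlgebraic_algebraMap _
    | hx => exact hx
    | hy => exact hy
    | hadd f g hf hg =>
      rw [map_add]
      exact hf.add hg
    | hmul f g hf hg =>
      rw [map_mul]
      exact hf.mul hg
  have hall : ∀ z : K2 l, IsAlgebraic (Algebra.adjoin l {τ', σ'}) z := by
    intro z
    obtain ⟨P, Q, -, rfl⟩ := IsFractionRing.div_surjective (A := R2 l) z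
    rw [div_eq_mul_inv]
    exact (hpoly P).mul (hpoly Q).inv
  obtain ⟨ht, hs⟩ := indep_of_algebraic hall
  set β₀ : K2 l →+* K2 l := homOf ht hs with hβ₀
  have hcomp : ∀ u : K2 s, β₀ (jK u) = jK (homOf hτ hσ u) := by
    have h : β₀.comp (jK : K2 s →+* K2 l) = (jK : K2 s →+* K2 l).comp (homOf hτ hσ) := by
      apply IsLocalization.ringHom_ext (nonZeroDivisors (R2 s))
      refine RingHom.ext fun g => ?_
      simp only [RingHom.comp_apply, jK_alg, homOf_alg, hβ₀]
      exact evS_hat τ σ g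
    exact fun u => RingHom.congr_fun h u
  have hsurj' : Function.Surjective β₀ := by
    have h1 : ∀ f : R2 l, algebraMap (R2 l) (K2 l) f ∈ Set.range β₀ := by
      intro f
      induction f using R2_induction with
      | hc t =>
        rw [← algebraMap_K2]
        exact ⟨_, homOf_const ht hs t⟩
      | hx =>
        obtain ⟨U, hU⟩ := hsurj (algebraMap (R2 s) (K2 s) (C X))
        refine ⟨jK U, ?_⟩
        rw [hcomp, hU, jK_alg]
        simp [hat]
      | hy =>
        obtain ⟨U, hU⟩ := hsurj (algebraMap (R2 s) (K2 s) X)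
        refine ⟨jK U, ?_⟩
        rw [hcomp, hU, jK_alg, hat_X]
      | hadd f g hf hg =>
        obtain ⟨a, ha⟩ := hf
        obtain ⟨b, hb⟩ := hg
        exact ⟨a + b, by rw [map_add, map_add, ha, hb]⟩
      | hmul f g hf hg =>
        obtain ⟨a, ha⟩ := hf
        obtain ⟨b, hb⟩ := hg
        exact ⟨a * b, by rw [map_mul, map_mul, ha, hb]⟩
    intro z
    obtain ⟨P, Q, -, rfl⟩ := IsFractionRing.div_surjective (A := R2 l) z
    obtain ⟨a, ha⟩ := h1 P
    obtain ⟨b, hb⟩ := h1 Q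
    exact ⟨a / b, by rw [map_div₀, ha, hb]⟩
  refine ⟨RingEquiv.ofBijective β₀ ⟨β₀.injective, hsurj'⟩, ?_, ?_, ?_, hcomp⟩
  · intro t
    exact homOf_const ht hs t
  · change β₀ _ = _
    rw [hβ₀, homOf_alg, evS_CX]
  · change β₀ _ = _
    rw [hβ₀, homOf_alg, evS_X]

end Beta

end Vale.Agent.Lib.P019
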