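import Vale.Agent.Lib.P019.BK2

/-!
Countable algebraically closed subfields and the classes defined over them.
-/

set_option linter.unusedSectionVars false
set_option linter.style.haveILetI false

namespace Vale.Agent.Lib.P019

open Polynomial Algebra Cardinal

universe u

section Closed

theorem exists_closed_sub {l : Type u} [Field l] [IsAlgClosed l] [CharZero l] (S : Set l)
    (hS : S.Countable) :
    ∃ (s : Type u) (_ : Field s) (_ : Algebra s l), IsAlgClosed s ∧ CharZero s ∧ Countable s ∧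
      S ⊆ Set.range (algebraMap s l) := by
  let F := IntermediateField.adjoin ℚ S
  have hF : Countable F := by
    have h1 := IntermediateField.lift_cardinalMk_adjoin_le ℚ S
    have h2 : Cardinal.lift.{0} #F ≤ ℵ₀ := by
      refine h1.trans ?_
      have h3 : #S ≤ ℵ₀ := by
        have : Countable S := hS
        exact Cardinal.mk_le_aleph0
      simp only [sup_le_iff]
      refine ⟨⟨?_, ?_⟩, le_rfl⟩
      · simp
      · simpa using h3
    rw [← Cardinal.mk_le_aleph0_iff]
    simpa using h2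
  let s := algebraicClosure F l
  refine ⟨s, inferInstance, inferInstance, isAlgClosed_algClosure F l,
    (RingHom.charZero_iff (algebraMap s l).injective).2 inferInstance, ?_, ?_⟩
  · have h1 : #{ x : l // IsAlgebraic F x } ≤ ℵ₀ := by
      refine (Algebraic.cardinalMk_le_max F l).trans ?_
      rw [max_le_iff]
      exact ⟨Cardinal.mk_le_aleph0, le_rfl⟩
    have h2 : Countable { x : l // IsAlgebraic F x } := Cardinal.mk_le_aleph0_iff.1 h1
    let f : s → { x : l // IsAlgebraic F x } :=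
      fun x => ⟨x, mem_algebraicClosure_iff.1 x.2⟩
    exact Function.Injective.countable (f := f) (fun a b hab => Subtype.ext
      (congrArg (fun x : { x : l // IsAlgebraic F x } => (x : l)) hab))
  · intro x hx
    have h1 : x ∈ F := IntermediateField.subset_adjoin ℚ S hx
    exact ⟨⟨x, mem_algebraicClosure_iff.2 (isAlgebraic_algebraMap (A := l) (⟨x, h1⟩ : F))⟩, rfl⟩

end Closed

section VS

variable {l : Type u} [Field l] {ℓ : ℕ}

/-- The classes defined over `s`. -/
noncomputable def VS (ℓ : ℕ) (l : Type u) [Field l] (s : Type*) [Field s] [Algebra s l] :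
    Submodule (ZMod ℓ) (V ℓ (K2 l)) :=
  Submodule.span (ZMod ℓ) (Set.range fun g : R2 s => vr2 ℓ (hat g : R2 l))

lemma vr_mem_VS {s : Type*} [Field s] [Algebra s l] (g : R2 s) : vr2 ℓ (hat g : R2 l) ∈ VS ℓ l s :=
  Submodule.subset_span ⟨g, rfl⟩

instance countable_R2 (s : Type*) [Field s] [Countable s] : Countable (R2 s) := by
  have h0 : ∀ (A : Type _) [CommRing A] [Countable A], Countable A[X] := by
    intro A _ _
    rw [← Cardinal.mk_le_aleph0_iff]
    refine Polynomial.cardinalMk_le_max.trans ?_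
    rw [max_le_iff]
    exact ⟨Cardinal.mk_le_aleph0, le_rfl⟩
  haveI := h0 s
  exact h0 s[X]

lemma countable_VS (s : Type*) [Field s] [Algebra s l] [Countable s] [hℓ : Fact ℓ.Prime] :
    (VS ℓ l s : Set (V ℓ (K2 l))).Countable := by
  haveI : Finite (ZMod ℓ) := by
    haveI : NeZero ℓ := ⟨hℓ.out.ne_zero⟩
    exact inferInstance
  have h := Finsupp.range_linearCombination (ZMod ℓ) (v := fun g : R2 s => vr2 ℓ (hat g : R2 l))
  have h2 : (VS ℓ l s : Set (V ℓ (K2 l))) =
      Set.range (Finsupp.linearCombination (ZMod ℓ) fun g : R2 s => vr2 ℓ (hat g : R2 l)) := by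
    rw [VS, ← h]
    rfl
  rw [h2]
  exact Set.countable_range _

variable {s : Type*} [Field s] [Algebra s l] [IsAlgClosed l] [CharZero l] [hℓ : Fact ℓ.Prime]

lemma ordV_eq_zero_of_mem_VS [IsAlgClosed s] {p : R2 l} (hp : Prime p) (hov : ¬ OverS s p)
    {z : V ℓ (K2 l)} (hz : z ∈ VS ℓ l s) : ordV ℓ (K2 l) p z = 0 := by
  induction hz using Submodule.span_induction with
  | mem x h =>
    obtain ⟨g, rfl⟩ := h
    by_cases hg : g = 0
    · simp [hg]
    · apply ordV_vr_of_not_dvd _ hp
      intro hd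
      obtain ⟨g', -, ha⟩ := overS_of_dvd hp hg hd
      exact hov ⟨g', ha⟩
  | zero => simp
  | add x y _ _ hx hy => rw [map_add, hx, hy, add_zero]
  | smul a x _ hx => rw [map_smul, hx, smul_zero]

lemma mem_VS_of_forall {z : V ℓ (K2 l)}
    (h : ∀ p : R2 l, Prime p → ordV ℓ (K2 l) p z ≠ 0 → OverS s p) : z ∈ VS ℓ l s := by
  classical
  obtain ⟨S, hS1, hS2, hS3, hS4, hS5⟩ :=
    exists_expansion (F := K2 l) (unitsDiv2 (k := l) (ℓ := ℓ)) z
  rw [hS5]
  apply Submodule.sum_mem
  intro p hp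
  apply Submodule.smul_mem
  obtain ⟨g, hg⟩ := h p (hS1 p hp) (hS3 p hp)
  have : vr ℓ (K2 l) p = vr2 ℓ (hat g : R2 l) := vr_congr unitsDiv2 hg
  rw [this]
  exact vr_mem_VS g

/-- A finite set of coefficients which defines `z`. -/
lemma exists_coefs (z : V ℓ (K2 l)) : ∃ C₀ : Set l, C₀.Finite ∧
    ∀ (s : Type u) (_ : Field s) (_ : Algebra s l), C₀ ⊆ Set.range (algebraMap s l) →
      z ∈ VS ℓ l s := by
  classical
  obtain ⟨S, hS1, hS2, hS3, hS4, hS5⟩ :=
    exists_expansion (F := K2 l) (unitsDiv2 (k := l) (ℓ := ℓ)) z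
  have hn : ∀ p : R2 l, ∃ p' : R2 l, p ≠ 0 → (Associated p p' ∧ p'.leadingCoeff.leadingCoeff = 1) := by
    intro p
    by_cases hp : p = 0
    · exact ⟨0, fun h => absurd hp h⟩
    · obtain ⟨p', h1, h2⟩ := exists_normalized hp
      exact ⟨p', fun _ => ⟨h1, h2⟩⟩
  choose nrm hnrm using hn
  refine ⟨⋃ p ∈ S, coefs (nrm p), ?_, ?_⟩
  · apply Set.Finite.biUnion (Finset.finite_toSet S)
    intro p _
    exact coefs_finite _
  · intro s _ _ hC
    rw [hS5]
    apply Submodule.sum_mem
    intro p hp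
    apply Submodule.smul_mem
    obtain ⟨h1, h2⟩ := hnrm p (hS1 p hp).ne_zero
    have hcf : ∀ i j, ((nrm p).coeff i).coeff j ∈ Set.range (algebraMap s l) := by
      intro i j
      by_cases h0 : ((nrm p).coeff i).coeff j = 0
      · exact ⟨0, by simpa using h0.symm⟩
      · apply hC
        simp only [Set.mem_iUnion]
        exact ⟨p, hp, i, j, rfl, h0⟩
    obtain ⟨g, hg⟩ := exists_lift2 (algebraMap s l) (nrm p) hcf
    have h3 : vr ℓ (K2 l) p = vr2 ℓ (nrm p) := vr_congr unitsDiv2 h1
    rw [h3, ← hg]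
    exact vr_mem_VS g

/-- Countably many classes and constants are defined over a countable algebraically closed
subfield. -/
theorem exists_sub_of_countable (Z : Set (V ℓ (K2 l))) (hZ : Z.Countable) (S : Set l)
    (hS : S.Countable) :
    ∃ (s : Type u) (_ : Field s) (_ : Algebra s l), IsAlgClosed s ∧ CharZero s ∧ Countable s ∧
      S ⊆ Set.range (algebraMap s l) ∧ Z ⊆ VS ℓ l s := by
  classical
  choose C₀ hC1 hC2 using exists_coefs (l := l) (ℓ := ℓ)
  have h1 : (S ∪ ⋃ z ∈ Z, C₀ z).Countable :=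
    hS.union (hZ.biUnion fun z _ => (hC1 z).countable)
  obtain ⟨s, i1, i2, h2, h3, h4, h5⟩ := exists_closed_sub _ h1
  refine ⟨s, i1, i2, h2, h3, h4, fun x hx => hS |> fun _ => h5 (Or.inl hx), fun z hz => ?_⟩
  apply hC2 z s i1 i2
  intro a ha
  apply h5
  right
  simp only [Set.mem_iUnion]
  exact ⟨z, hz, ha⟩

omit [IsAlgClosed l] [CharZero l] hℓ in
/-- A normalized polynomial over `s` has all its coefficients in `s`. -/
lemma coefs_of_overS_normalized [IsAlgClosed s] {p : R2 l} (hn : p.leadingCoeff.leadingCoeff = 1)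
    (h : OverS s p) (i j : ℕ) : (p.coeff i).coeff j ∈ Set.range (algebraMap s l) := by
  obtain ⟨g, u, hu⟩ := h
  obtain ⟨r, hr, hu1⟩ := Polynomial.isUnit_iff.1 u.isUnit
  obtain ⟨c, hc, hu2⟩ := Polynomial.isUnit_iff.1 hr
  have hc0 : c ≠ 0 := hc.ne_zero
  rw [← hu1, ← hu2] at hu
  have hcoef : ∀ a b, (p.coeff a).coeff b * c = algebraMap s l ((g.coeff a).coeff b) := by
    intro a b
    have h1 := congrArg (fun f : R2 l => (f.coeff a).coeff b) hu
    simp only [coeff_mul_C, hat_eq_hatOf, hatOf_coeff] at h1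
    exact h1
  have hp0 : p ≠ 0 := by
    rintro rfl
    simp at hn
  have htop : c = algebraMap s l ((g.leadingCoeff).leadingCoeff) := by
    have hg : (hat g : R2 l) = p * C (C c) := hu.symm
    have h1 := lc_hatOf (algebraMap s l) (algebraMap s l).injective g
    rw [← hat_eq_hatOf, hg, leadingCoeff_mul, leadingCoeff_C, leadingCoeff_mul, leadingCoeff_C, hn,
      one_mul] at h1
    exact h1
  set t := (g.leadingCoeff).leadingCoeff with ht
  have ht0 : t ≠ 0 := by
    rintro h0
    rw [h0, map_zero] at htop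
    exact hc0 htop
  refine ⟨(g.coeff i).coeff j / t, ?_⟩
  rw [map_div₀, ← hcoef, ← htop]
  field_simp

omit [IsAlgClosed l] [CharZero l] hℓ in
lemma not_overS_yc [IsAlgClosed s] {a : l} (ha : a ∉ Set.range (algebraMap s l)) :
    ¬ OverS s (yc a) := by
  intro h
  have h1 := coefs_of_overS_normalized (s := s) (p := yc a) (by
    rw [yc, leadingCoeff_X_sub_C]
    simp) h 0 0
  have h2 : ((yc a).coeff 0).coeff 0 = - a := by
    simp [yc]
  rw [h2] at h1
  obtain ⟨t, ht⟩ := h1
  exact ha ⟨-t, by rw [map_neg, ht, neg_neg]⟩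

omit [IsAlgClosed l] [CharZero l] hℓ in
lemma not_overS_xc [IsAlgClosed s] {a : l} (ha : a ∉ Set.range (algebraMap s l)) :
    ¬ OverS s (xc a) := by
  intro h
  have h1 := coefs_of_overS_normalized (s := s) (p := xc a) (by
    rw [xc, leadingCoeff_C, leadingCoeff_X_sub_C]) h 0 0
  have h2 : ((xc a).coeff 0).coeff 0 = - a := by
    simp [xc]
  rw [h2] at h1
  obtain ⟨t, ht⟩ := h1
  exact ha ⟨-t, by rw [map_neg, ht, neg_neg]⟩

omit [IsAlgClosed l] [CharZero l] hℓ in
/-- A polynomial over `s` is over any field containing `s`. -/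
lemma exists_hat_of_range {s₂ : Type*} [Field s₂] [Algebra s₂ l]
    (hr : Set.range (algebraMap s l) ⊆ Set.range (algebraMap s₂ l)) (g : R2 s) :
    ∃ g₂ : R2 s₂, (hat g₂ : R2 l) = hat g := by
  apply exists_lift2 (algebraMap s₂ l)
  intro i j
  rw [hat_eq_hatOf, hatOf_coeff]
  exact hr ⟨_, rfl⟩

omit [IsAlgClosed l] [CharZero l] hℓ in
lemma OverS.mono {s₂ : Type*} [Field s₂] [Algebra s₂ l]
    (hr : Set.range (algebraMap s l) ⊆ Set.range (algebraMap s₂ l)) {p : R2 l} (h : OverS s p) :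
    OverS s₂ p := by
  obtain ⟨g, hg⟩ := h
  obtain ⟨g₂, hg₂⟩ := exists_hat_of_range hr g
  exact ⟨g₂, by rw [hg₂]; exact hg⟩

lemma VS_mono {s₂ : Type*} [Field s₂] [Algebra s₂ l]
    (hr : Set.range (algebraMap s l) ⊆ Set.range (algebraMap s₂ l)) :
    VS ℓ l s ≤ VS ℓ l s₂ := by
  rw [VS, Submodule.span_le]
  rintro _ ⟨g, rfl⟩
  obtain ⟨g₂, hg₂⟩ := exists_hat_of_range hr g
  simp only
  rw [← hg₂]
  exact vr_mem_VS g₂

end VS

section Unc

lemma exists_not_mem_countable {k : Type*} [Uncountable k] {S : Set k} (hS : S.Countable) :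
    ∃ a, a ∉ S := by
  by_contra hcon
  push Not at hcon
  have : (Set.univ : Set k).Countable := hS.mono fun a _ => hcon a
  exact not_countable (α := k) (Set.countable_univ_iff.1 this)

end Unc

end Vale.Agent.Lib.P019
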