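import Mathlib

/-!
Definitions for P019: the mod-l Milnor K-theory datum of a field.
-/

namespace Vale.Agent.Lib.P019

open TensorProduct

/-- `V ℓ F` is the group `F^× / (F^×)^ℓ`, written additively. -/
def V (ℓ : ℕ) (F : Type*) [Field F] : Type _ :=
  Additive (Fˣ ⧸ (powMonoidHom ℓ : Fˣ →* Fˣ).range)

noncomputable instance (ℓ : ℕ) (F : Type*) [Field F] : AddCommGroup (V ℓ F) :=
  inferInstanceAs (AddCommGroup (Additive (Fˣ ⧸ (powMonoidHom ℓ : Fˣ →* Fˣ).range)))

/-- The class `[x]` in `V ℓ F` of a nonzero element `x` of `F`. -/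
def cls (ℓ : ℕ) {F : Type*} [Field F] (x : Fˣ) : V ℓ F :=
  Additive.ofMul (QuotientGroup.mk x)

theorem smul_V_eq_zero (ℓ : ℕ) (F : Type*) [Field F] (z : V ℓ F) : ℓ • z = 0 := by
  induction z using Additive.rec with
  | _ q =>
    induction q using QuotientGroup.induction_on with
    | _ x =>
      have : (QuotientGroup.mk (x ^ ℓ) : Fˣ ⧸ (powMonoidHom ℓ : Fˣ →* Fˣ).range) = 1 :=
        (QuotientGroup.eq_one_iff _).2 ⟨x, rfl⟩
      exact congrArg Additive.ofMul this

/-- `V ℓ F` is a vector space over `ZMod ℓ`. -/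
noncomputable instance (ℓ : ℕ) (F : Type*) [Field F] : Module (ZMod ℓ) (V ℓ F) :=
  AddCommGroup.zmodModule (smul_V_eq_zero ℓ F)

/-- The subspace `R_F` of `V ⊗ V` spanned by the Steinberg tensors `[x] ⊗ [y]`, `x + y = 1`. -/
noncomputable def steinberg (ℓ : ℕ) (F : Type*) [Field F] :
    Submodule (ZMod ℓ) (V ℓ F ⊗[ZMod ℓ] V ℓ F) :=
  Submodule.span (ZMod ℓ)
    {t | ∃ x y : Fˣ, (x : F) + (y : F) = 1 ∧ t = cls ℓ x ⊗ₜ[ZMod ℓ] cls ℓ y}

/-- A linear isomorphism `V ℓ K → V ℓ L` is compatible if its tensor square carries `R_K` onto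
`R_L`. -/
def Compatible {ℓ : ℕ} {K L : Type*} [Field K] [Field L]
    (Θ : V ℓ K ≃ₗ[ZMod ℓ] V ℓ L) : Prop :=
  (steinberg ℓ K).map (TensorProduct.map Θ.toLinearMap Θ.toLinearMap) = steinberg ℓ L

open scoped Classical in
/-- Total version of the class map: `[x]` for `x ≠ 0`, and `0` for `x = 0`. -/
noncomputable def clsF (ℓ : ℕ) {F : Type*} [Field F] (x : F) : V ℓ F :=
  if h : x = 0 then 0 else cls ℓ (Units.mk0 x h)

/-- `k[x][y]`. The inner variable is `x = C X`, the outer variable is `y = X`. -/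
abbrev R2 (k : Type*) [Field k] := Polynomial (Polynomial k)

/-- The rational function field `k(x,y)`. -/
abbrev K2 (k : Type*) [Field k] := FractionRing (R2 k)

/-- The element `x - c` of `k(x,y)`. -/
noncomputable def xK {k : Type*} [Field k] (c : k) : K2 k :=
  algebraMap (R2 k) (K2 k) (Polynomial.C (Polynomial.X - Polynomial.C c))

/-- The element `y - a` of `k(x,y)`. -/
noncomputable def yK {k : Type*} [Field k] (a : k) : K2 k :=
  algebraMap (R2 k) (K2 k) (Polynomial.X - Polynomial.C (Polynomial.C a))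

/-- The span of the classes `[x - c]`, `c ∈ k`, in `V ℓ k(x,y)`. -/
noncomputable def pencilX (ℓ : ℕ) (k : Type*) [Field k] : Submodule (ZMod ℓ) (V ℓ (K2 k)) :=
  Submodule.span (ZMod ℓ) (Set.range fun c : k => clsF ℓ (xK c))

/-- The span of the classes `[y - a]`, `a ∈ k`, in `V ℓ k(x,y)`. -/
noncomputable def pencilY (ℓ : ℕ) (k : Type*) [Field k] : Submodule (ZMod ℓ) (V ℓ (K2 k)) :=
  Submodule.span (ZMod ℓ) (Set.range fun a : k => clsF ℓ (yK a))

/-- `α` carries the constant field `k` onto the constant field `l`. -/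
def ConstMap {k l : Type*} [Field k] [Field l] (α : K2 k ≃+* K2 l) : Prop :=
  ∀ t : K2 k, t ∈ Set.range (algebraMap k (K2 k)) ↔ α t ∈ Set.range (algebraMap l (K2 l))

/-- `Θ` is a scalar `c` times the map induced by a field isomorphism `α` carrying the constant
field `k` onto the constant field `l`. -/
def Good {k l : Type*} [Field k] [Field l] {ℓ : ℕ} (Θ : V ℓ (K2 k) ≃ₗ[ZMod ℓ] V ℓ (K2 l)) : Prop :=
  ∃ (c : (ZMod ℓ)ˣ) (α : K2 k ≃+* K2 l), ConstMap α ∧
    ∀ x : K2 k, Θ (clsF ℓ x) = (c : ZMod ℓ) • clsF ℓ (α x)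

end Vale.Agent.Lib.P019
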