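import Vale.Agent.Lib.P019.Points

/-!
Existence of derivations of a field of characteristic zero over an algebraically closed subfield
with prescribed value at a given element; the coefficient derivation on `l[x,y]` and the chain
rule.
-/

set_option linter.unusedSectionVars false

namespace Vale.Agent.Lib.P019

open Polynomial TensorProduct nonZeroDivisors UniqueFactorizationMonoid Filter

section Exists

variable {s l : Type*} [Field s] [Field l] [Algebra s l] [IsAlgClosed s]

lemma mem_range_of_isAlgebraic {κ : l} (h : IsAlgebraic s κ) : κ ∈ Set.range (algebraMap s l) := by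
  have hint : IsIntegral s κ := h.isIntegral
  have hq : (minpoly s κ).leadingCoeff = 1 := minpoly.monic hint
  have hd : (minpoly s κ).degree = 1 :=
    IsAlgClosed.degree_eq_one_of_irreducible s (minpoly.irreducible hint)
  have : aeval κ (minpoly s κ) = 0 := minpoly.aeval s κ
  rw [eq_X_add_C_of_degree_eq_one hd, hq, C_1, one_mul, aeval_add, aeval_X, aeval_C,
    add_eq_zero_iff_eq_neg] at this
  exact ⟨-(minpoly s κ).coeff 0, by rw [map_neg]; exact this.symm⟩

/-- The dual numbers, as a type without extra algebra structures. -/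
def DN (l : Type*) [Field l] : Type _ := TrivSqZeroExt l l

noncomputable instance (l : Type*) [Field l] : CommRing (DN l) :=
  inferInstanceAs (CommRing (TrivSqZeroExt l l))

namespace DN

variable {l : Type*} [Field l]

/-- First component. -/
noncomputable def fst : DN l →+* l :=
  ((TrivSqZeroExt.fstHom l l l : TrivSqZeroExt l l →ₐ[l] l) : TrivSqZeroExt l l →+* l)

/-- Second component. -/
def snd (x : DN l) : l := TrivSqZeroExt.snd (R := l) (M := l) x

/-- Constants. -/
noncomputable def inl : l →+* DN l := TrivSqZeroExt.inlHom l l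

/-- The infinitesimal. -/
noncomputable def eps : DN l := (TrivSqZeroExt.inr (1 : l) : TrivSqZeroExt l l)

@[simp] lemma fst_inl (a : l) : fst (inl a) = a := rfl
@[simp] lemma snd_inl (a : l) : snd (inl a) = 0 := rfl
@[simp] lemma fst_eps : fst (eps : DN l) = 0 := rfl
@[simp] lemma snd_eps : snd (eps : DN l) = 1 := rfl
lemma snd_add (x y : DN l) : snd (x + y) = snd x + snd y := rfl
lemma snd_mul (x y : DN l) : snd (x * y) = fst x * snd y + fst y * snd x := by
  have h := TrivSqZeroExt.snd_mul (R := l) (M := l) x y
  simp only [op_smul_eq_smul, smul_eq_mul] at h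
  exact h

lemma ext {x y : DN l} (h1 : fst x = fst y) (h2 : snd x = snd y) : x = y :=
  TrivSqZeroExt.ext h1 h2

lemma isUnit_of_fst {x : DN l} (h : fst x ≠ 0) : IsUnit x :=
  TrivSqZeroExt.isUnit_iff_isUnit_fst.2 (isUnit_iff_ne_zero.2 h)

end DN

variable [CharZero l]

theorem exists_derivation {κ : l} (hκ : κ ∉ Set.range (algebraMap s l)) :
    ∃ d : Derivation s l l, d κ = 1 := by
  classical
  have htr : Transcendental s κ := fun h => hκ (mem_range_of_isAlgebraic h)
  have hinj : Function.Injective (aeval κ : s[X] →ₐ[s] l) :=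
    transcendental_iff_injective.1 htr
  let Ka := FractionRing s[X]
  letI algK : Algebra Ka l :=
    (IsFractionRing.lift (g := ((aeval κ : s[X] →ₐ[s] l) : s[X] →+* l)) hinj).toAlgebra
  have halg : ∀ f : s[X], algebraMap Ka l (algebraMap s[X] Ka f) = aeval κ f :=
    fun f => IsFractionRing.lift_algebraMap _ _
  haveI : FaithfulSMul Ka l := (faithfulSMul_iff_algebraMap_injective Ka l).2 (RingHom.injective _)
  obtain ⟨S, hS⟩ := exists_isTranscendenceBasis Ka l
  have halg2 := hS.isAlgebraic_field
  haveI : CharZero (IntermediateField.adjoin Ka (Set.range ((↑) : S → l))) :=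
    (RingHom.charZero_iff
      (algebraMap (IntermediateField.adjoin Ka (Set.range ((↑) : S → l))) l).injective).2 inferInstance
  haveI : Algebra.IsSeparable (IntermediateField.adjoin Ka (Set.range ((↑) : S → l))) l :=
    Algebra.IsAlgebraic.isSeparable_of_perfectField
  haveI : Algebra.FormallySmooth Ka l :=
    Algebra.FormallySmooth.of_algebraicIndependent_of_isSeparable hS.1
  let g0 : s[X] →+* DN l := eval₂RingHom (DN.inl.comp (algebraMap s l)) (DN.inl κ + DN.eps)
  have hfst0 : DN.fst.comp g0 = ((aeval κ : s[X] →ₐ[s] l) : s[X] →+* l) := by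
    apply Polynomial.ringHom_ext
    · intro t
      simp [g0]
    · simp [g0]
  have hfst0' : ∀ f, DN.fst (g0 f) = aeval κ f := fun f => RingHom.congr_fun hfst0 f
  have hunits : ∀ y : (s[X])⁰, IsUnit (g0 y) := by
    intro y
    apply DN.isUnit_of_fst
    rw [hfst0']
    intro h
    exact nonZeroDivisors.ne_zero y.2 (hinj (h.trans (map_zero _).symm))
  let g1 : Ka →+* DN l := IsLocalization.lift hunits
  have hg1 : ∀ f : s[X], g1 (algebraMap s[X] Ka f) = g0 f := fun f => IsLocalization.lift_eq hunits f
  have hfst1 : DN.fst.comp g1 = algebraMap Ka l := by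
    apply IsLocalization.ringHom_ext (s[X])⁰
    apply RingHom.ext
    intro f
    simp only [RingHom.comp_apply, hg1, hfst0', halg]
  letI algD : Algebra Ka (DN l) := g1.toAlgebra
  have hD : ∀ x, algebraMap Ka (DN l) x = g1 x := fun x => rfl
  let fstA : DN l →ₐ[Ka] l :=
    { DN.fst with
      commutes' := fun x => by
        change DN.fst (g1 x) = algebraMap Ka l x
        exact RingHom.congr_fun hfst1 x }
  have hfstA : ∀ x, fstA x = DN.fst x := fun x => rfl
  have hsurj : Function.Surjective fstA := fun a => ⟨DN.inl a, rfl⟩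
  have hnil : IsNilpotent (RingHom.ker (fstA : DN l →+* l)) := by
    refine ⟨2, ?_⟩
    rw [pow_two, Ideal.zero_eq_bot, eq_bot_iff, Ideal.mul_le]
    intro x hx y hy
    have hx' : DN.fst x = 0 := hx
    have hy' : DN.fst y = 0 := hy
    rw [Ideal.mem_bot]
    apply DN.ext
    · simp [hx']
    · rw [DN.snd_mul, hx', hy']
      simp
      rfl
  let F : l →ₐ[Ka] DN l := Algebra.FormallySmooth.liftOfSurjective (AlgHom.id Ka l) fstA hsurj hnil
  have hF : ∀ z, DN.fst (F z) = z := fun z =>
    Algebra.FormallySmooth.liftOfSurjective_apply (AlgHom.id Ka l) fstA hsurj hnil z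
  have hFa : ∀ f : s[X], F (aeval κ f) = g0 f := by
    intro f
    rw [← halg, AlgHom.commutes, hD, hg1]
  have hFc : ∀ t : s, F (algebraMap s l t) = DN.inl (algebraMap s l t) := by
    intro t
    have := hFa (C t)
    simpa [g0] using this
  have hFκ : F κ = DN.inl κ + DN.eps := by
    have := hFa X
    simpa [g0] using this
  let dl : l →ₗ[s] l :=
    { toFun := fun z => DN.snd (F z)
      map_add' := fun x y => by
        rw [map_add]
        rfl
      map_smul' := fun t z => by
        rw [Algebra.smul_def, map_mul, hFc, DN.snd_mul, hF]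
        simp [Algebra.smul_def] }
  refine ⟨Derivation.mk' dl ?_, ?_⟩
  · intro a b
    change DN.snd (F (a * b)) = a • DN.snd (F b) + b • DN.snd (F a)
    rw [map_mul, DN.snd_mul, hF, hF]
    simp
  · change DN.snd (F κ) = 1
    rw [hFκ, DN.snd_add]
    simp

end Exists

section Coef

/-- The coefficientwise application of an additive map. -/
noncomputable def dCoef {A : Type*} [CommRing A] (d : A →+ A) : A[X] →+ A[X] :=
  { toFun := fun f => f.sum fun i a => monomial i (d a)
    map_zero' := by simp
    map_add' := fun f g => by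
      apply Polynomial.sum_add_index
      · simp
      · intro i a b
        simp }

lemma dCoef_coeff {A : Type*} [CommRing A] (d : A →+ A) (f : A[X]) (n : ℕ) :
    (dCoef d f).coeff n = d (f.coeff n) := by
  change (f.sum fun i a => monomial i (d a)).coeff n = _
  rw [Polynomial.sum_def, finsetSum_coeff]
  simp only [coeff_monomial]
  rw [Finset.sum_ite_eq' f.support n]
  split_ifs with h
  · rfl
  · rw [notMem_support_iff.1 h, map_zero]

lemma dCoef_monomial {A : Type*} [CommRing A] (d : A →+ A) (n : ℕ) (a : A) :
    dCoef d (monomial n a) = monomial n (d a) := by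
  ext m
  rw [dCoef_coeff, coeff_monomial, coeff_monomial]
  split_ifs <;> simp

lemma dCoef_mul {A : Type*} [CommRing A] (d : A →+ A) (hd : ∀ a b, d (a * b) = a * d b + b * d a)
    (f g : A[X]) : dCoef d (f * g) = f * dCoef d g + g * dCoef d f := by
  induction f using Polynomial.induction_on' with
  | add p q hp hq =>
    rw [add_mul, map_add, hp, hq, map_add]
    ring
  | monomial n a =>
    induction g using Polynomial.induction_on' with
    | add p q hp hq =>
      rw [mul_add, map_add, hp, hq, map_add]
      ring
    | monomial m b =>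
      simp only [monomial_mul_monomial, dCoef_monomial, hd, map_add, add_comm m n]

end Coef

section Chain

variable {s l : Type*} [Field s] [Field l] [Algebra s l]

/-- The coefficient derivation on `l[x]`. -/
noncomputable def dC1 (d : Derivation s l l) : l[X] →+ l[X] := dCoef (d : l →+ l)

/-- The coefficient derivation on `l[x,y]`. -/
noncomputable def dC2 (d : Derivation s l l) : R2 l →+ R2 l := dCoef (dC1 d)

lemma dC1_mul (d : Derivation s l l) (f g : l[X]) : dC1 d (f * g) = f * dC1 d g + g * dC1 d f :=
  dCoef_mul _ (fun a b => by simp) f g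

lemma dC2_mul (d : Derivation s l l) (f g : R2 l) : dC2 d (f * g) = f * dC2 d g + g * dC2 d f :=
  dCoef_mul _ (dC1_mul d) f g

lemma dC2_coeff (d : Derivation s l l) (f : R2 l) (i j : ℕ) :
    ((dC2 d f).coeff i).coeff j = d ((f.coeff i).coeff j) := by
  rw [dC2, dCoef_coeff, dC1, dCoef_coeff]
  rfl

lemma dC2_eq_zero_iff (d : Derivation s l l) (f : R2 l) :
    dC2 d f = 0 ↔ ∀ i j, d ((f.coeff i).coeff j) = 0 := by
  constructor
  · intro h i j
    rw [← dC2_coeff, h]
    simp
  · intro h
    ext i j
    rw [dC2_coeff, h]
    simp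

@[simp] lemma dC2_hat (d : Derivation s l l) (g : R2 s) : dC2 d (hat g) = 0 := by
  rw [dC2_eq_zero_iff]
  intro i j
  simp only [hat_apply, coeff_map, coe_mapRingHom]
  exact d.map_algebraMap _

@[simp] lemma dC2_CC (d : Derivation s l l) (t : l) : dC2 d (C (C t)) = C (C (d t)) := by
  ext i j
  rw [dC2_coeff]
  simp only [coeff_C]
  by_cases hi : i = 0 <;> by_cases hj : j = 0 <;> simp [hi, hj, coeff_C]

@[simp] lemma dC2_CX (d : Derivation s l l) : dC2 d (C X : R2 l) = 0 := by
  have : (C X : R2 l) = hat (C X : R2 s) := by simp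
  rw [this, dC2_hat]

@[simp] lemma dC2_X (d : Derivation s l l) : dC2 d (X : R2 l) = 0 := by
  have : (X : R2 l) = hat (X : R2 s) := by simp
  rw [this, dC2_hat]

/-- The chain rule. -/
theorem chain_rule (d : Derivation s l l) (a b : l) (f : R2 l) :
    d (ev2 a b f) = ev2 a b (dC2 d f) + ev2 a b (px f) * d a + ev2 a b (py f) * d b := by
  induction f using R2_induction with
  | hc t => simp
  | hx => simp
  | hy => simp
  | hadd f g hf hg =>
    simp only [map_add, px_add, py_add, hf, hg]
    ring
  | hmul f g hf hg =>
    simp only [map_mul, px_mul, py_mul, dC2_mul, map_add, d.leibniz, hf, hg, smul_eq_mul]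
    ring

lemma py_hat (g : R2 s) : py (hat g : R2 l) = hat (py g) := by
  simp only [py, hat_apply, derivative_map]

lemma px_hat (g : R2 s) : px (hat g : R2 l) = hat (px g) := by
  have h : derivative (hat (swR g) : R2 l) = hat (derivative (swR g)) := py_hat _
  rw [px, ← hat_swR, h, ← hat_swR, px]

lemma px_C_poly (p : s[X]) : px (C p) = C (derivative p) := by
  have h1 : swR (C p) = p.map C := by rw [swR_apply, Polynomial.Bivariate.swap_C]
  rw [px, h1, derivative_map, swR_apply, Polynomial.Bivariate.swap_map_C]

/-- Evaluation of a base change at a point with coordinates in `l`. -/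
lemma ev2_hat_C (a b : l) (w : s[X]) : ev2 a b (hat (C w)) = aeval a w := by
  rw [hat_C, ev2_C, eval_map_algebraMap]

end Chain

end Vale.Agent.Lib.P019
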