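import Vale.Agent.Lib.P019.Tame

/-!
For `A` a UFD whose units are `ℓ`-divisible, `V ℓ (Frac A)` has the classes of primes as a basis.
-/

set_option linter.unusedSectionVars false

namespace Vale.Agent.Lib.P019

open TensorProduct nonZeroDivisors UniqueFactorizationMonoid

section UFD

variable {A : Type*} [CommRing A] [IsDomain A] [UniqueFactorizationMonoid A]
variable {ℓ : ℕ} {F : Type*} [Field F] [Algebra A F] [IsFractionRing A F]

/-- Units of `A` are `ℓ`-th powers. -/
def UnitsDiv (ℓ : ℕ) (A : Type*) [CommRing A] : Prop := ∀ u : Aˣ, ∃ w : A, w ^ ℓ = u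

lemma vr_unit (hU : UnitsDiv ℓ A) (u : Aˣ) : vr ℓ F (u : A) = 0 := by
  obtain ⟨w, hw⟩ := hU u
  exact clsF_eq_zero_of_pow (w := algebraMap A F w) (by rw [← map_pow, hw])

lemma vr_isUnit (hU : UnitsDiv ℓ A) {u : A} (h : IsUnit u) : vr ℓ F u = 0 := by
  obtain ⟨u, rfl⟩ := h
  exact vr_unit hU u

lemma vr_congr (hU : UnitsDiv ℓ A) {p q : A} (h : Associated p q) :
    vr ℓ F p = vr ℓ F q := by
  by_cases hp : p = 0
  · subst hp
    have : q = 0 := by simpa using h.symm
    rw [this]
  · obtain ⟨u, rfl⟩ := h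
    rw [vr_mul hp u.ne_zero, vr_unit hU, add_zero]

lemma ordV_vr_of_associated {P Q : A} (hP : Prime P) (h : Associated P Q) :
    ordV ℓ F P (vr ℓ F Q) = 1 := by
  have hQ : Q ≠ 0 := by
    intro h0
    subst h0
    exact hP.ne_zero (by simpa using h)
  rw [ordV_vr P hP hQ, ← multiplicity_eq_of_associated_right h, multiplicity_self]
  simp

lemma ordV_vr_of_not_associated {P Q : A} (hP : Prime P) (hQ : Prime Q) (h : ¬ Associated P Q) :
    ordV ℓ F P (vr ℓ F Q) = 0 := by
  apply ordV_vr_of_not_dvd P hP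
  intro hd
  exact h (hP.associated_of_dvd hQ hd)

variable [hℓ : Fact ℓ.Prime]

lemma ordV_congr {P Q : A} (hP : Prime P) (h : Associated P Q) :
    ordV ℓ F P = ordV ℓ F Q := by
  have hQ : Prime Q := (h.prime_iff).1 hP
  ext z
  obtain ⟨a, ha, rfl⟩ := vr_surjective (A := A) (F := F) hℓ.out.ne_zero z
  rw [ordV_vr P hP ha, ordV_vr Q hQ ha, multiplicity_eq_of_associated_left h]

lemma vr_eq_zero_of_mult (hU : UnitsDiv ℓ A) (a : A) :
    a ≠ 0 → (∀ P : A, Prime P → ((multiplicity P a : ℕ) : ZMod ℓ) = 0) → vr ℓ F a = 0 := by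
  induction a using (IsWellFounded.wf (r := (DvdNotUnit : A → A → Prop))).induction with
  | _ a ih =>
    intro ha hm
    by_cases hu : IsUnit a
    · exact vr_isUnit hU hu
    obtain ⟨P, hPi, hPa⟩ := WfDvdMonoid.exists_irreducible_factor hu ha
    have hP : Prime P := hPi.prime
    have hmP := hm P hP
    rw [ZMod.natCast_eq_zero_iff] at hmP
    have hpos : 0 < multiplicity P a := by
      have : multiplicity P a ≠ 0 := by
        rw [Ne, multiplicity_eq_zero]
        exact not_not.2 hPa
      omega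
    have hle : ℓ ≤ multiplicity P a := Nat.le_of_dvd hpos hmP
    have hfin := finMult hP ha
    have hdvd : P ^ ℓ ∣ a := hfin.pow_dvd_iff_le_multiplicity.2 hle
    obtain ⟨a', rfl⟩ := hdvd
    have ha' : a' ≠ 0 := right_ne_zero_of_mul ha
    have hPl : P ^ ℓ ≠ 0 := pow_ne_zero _ hP.ne_zero
    have hnu : ¬ IsUnit (P ^ ℓ) := by
      intro h
      exact hP.not_isUnit (isUnit_of_dvd_unit (dvd_pow_self P hℓ.out.ne_zero) h)
    have hdn : DvdNotUnit a' (P ^ ℓ * a') :=
      ⟨ha', P ^ ℓ, hnu, mul_comm _ _⟩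
    have hm' : ∀ Q : A, Prime Q → ((multiplicity Q a' : ℕ) : ZMod ℓ) = 0 := by
      intro Q hQ
      have h1 := hm Q hQ
      rw [multiplicity_mul hQ (finMult hQ ha)] at h1
      have h2 : ((multiplicity Q (P ^ ℓ) : ℕ) : ZMod ℓ) = 0 := by
        by_cases hd : Q ∣ P
        · have hassoc : Associated Q P := hQ.associated_of_dvd hP hd
          rw [← multiplicity_eq_of_associated_left hassoc,
            multiplicity_pow_self_of_prime hP]
          simp
        · have : ¬ Q ∣ P ^ ℓ := fun h => hd (hQ.dvd_of_dvd_pow h)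
          rw [multiplicity_eq_zero.2 this]
          simp
      rw [Nat.cast_add, h2, zero_add] at h1
      exact h1
    have := ih a' hdn ha' hm'
    rw [vr_mul hPl ha', this, add_zero, vr_pow hP.ne_zero]
    exact smul_V_eq_zero ℓ F _

/-- Separation: an element all of whose orders vanish is zero. -/
theorem eq_zero_of_forall_ordV (hU : UnitsDiv ℓ A) (z : V ℓ F)
    (h : ∀ P : A, Prime P → ordV ℓ F P z = 0) : z = 0 := by
  obtain ⟨a, ha, rfl⟩ := vr_surjective (A := A) (F := F) hℓ.out.ne_zero z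
  apply vr_eq_zero_of_mult (F := F) hU a ha
  intro P hP
  rw [← ordV_vr (F := F) P hP ha]
  exact h P hP

theorem ext_of_forall_ordV (hU : UnitsDiv ℓ A) {z w : V ℓ F}
    (h : ∀ P : A, Prime P → ordV ℓ F P z = ordV ℓ F P w) : z = w := by
  rw [← sub_eq_zero]
  apply eq_zero_of_forall_ordV hU
  intro P hP
  rw [map_sub, h P hP, sub_self]

open scoped Classical in
/-- A representative of the associate class of `p`. -/
noncomputable def rep (p : A) : A := Quotient.out (Associates.mk p)

lemma rep_associated (p : A) : Associated (rep p) p := by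
  have : Associates.mk (rep p) = Associates.mk p := Quotient.out_eq _
  exact Associates.mk_eq_mk_iff_associated.1 this

lemma rep_eq_of_associated {p q : A} (h : Associated p q) : rep p = rep q := by
  have : Associates.mk p = Associates.mk q := Associates.mk_eq_mk_iff_associated.2 h
  rw [rep, rep, this]

open scoped Classical in
/-- Expansion of an element of `V ℓ F` in classes of pairwise nonassociated primes. -/
theorem exists_expansion (hU : UnitsDiv ℓ A) (z : V ℓ F) :
    ∃ s : Finset A, (∀ p ∈ s, Prime p) ∧ (∀ p ∈ s, ∀ q ∈ s, Associated p q → p = q) ∧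
      (∀ p ∈ s, ordV ℓ F p z ≠ 0) ∧
      (∀ P : A, Prime P → ordV ℓ F P z ≠ 0 → ∃ q ∈ s, Associated P q) ∧
      z = ∑ p ∈ s, ordV ℓ F p z • vr ℓ F p := by
  obtain ⟨a, ha, hz⟩ := vr_surjective (A := A) (F := F) hℓ.out.ne_zero z
  set s₀ : Finset A := (factors a).toFinset.image rep with hs₀
  have hs₀p : ∀ p ∈ s₀, Prime p := by
    intro p hp
    obtain ⟨q, hq, rfl⟩ := Finset.mem_image.1 hp
    have hq' : Prime q := prime_of_factor q (Multiset.mem_toFinset.1 hq)
    exact (rep_associated q).prime_iff.2 hq'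
  have hsupp : ∀ P : A, Prime P → ordV ℓ F P z ≠ 0 → ∃ q ∈ s₀, Associated P q := by
    intro P hP hne
    have hd : P ∣ a := by
      by_contra hd
      apply hne
      rw [← hz]
      exact ordV_vr_of_not_dvd P hP hd
    obtain ⟨q, hq, hPq⟩ := exists_mem_factors_of_dvd ha hP.irreducible hd
    refine ⟨rep q, Finset.mem_image.2 ⟨q, Multiset.mem_toFinset.2 hq, rfl⟩, ?_⟩
    exact hPq.trans (rep_associated q).symm
  have hinj : ∀ p ∈ s₀, ∀ q ∈ s₀, Associated p q → p = q := by
    intro p hp q hq hpq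
    obtain ⟨p', _, rfl⟩ := Finset.mem_image.1 hp
    obtain ⟨q', _, rfl⟩ := Finset.mem_image.1 hq
    apply rep_eq_of_associated
    exact (rep_associated p').symm.trans (hpq.trans (rep_associated q'))
  set s : Finset A := s₀.filter (fun p => ordV ℓ F p z ≠ 0) with hs
  have hsp : ∀ p ∈ s, Prime p := fun p hp => hs₀p p (Finset.mem_filter.1 hp).1
  have hinj' : ∀ p ∈ s, ∀ q ∈ s, Associated p q → p = q := fun p hp q hq =>
    hinj p (Finset.mem_filter.1 hp).1 q (Finset.mem_filter.1 hq).1
  have hsupp' : ∀ P : A, Prime P → ordV ℓ F P z ≠ 0 → ∃ q ∈ s, Associated P q := by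
    intro P hP hne
    obtain ⟨q, hq, hPq⟩ := hsupp P hP hne
    refine ⟨q, Finset.mem_filter.2 ⟨hq, ?_⟩, hPq⟩
    rw [← ordV_congr hP hPq]
    exact hne
  refine ⟨s, hsp, hinj', fun p hp => (Finset.mem_filter.1 hp).2, hsupp', ?_⟩
  apply ext_of_forall_ordV hU
  intro P hP
  rw [map_sum]
  simp only [map_smul, smul_eq_mul]
  by_cases hq : ∃ q ∈ s, Associated P q
  · obtain ⟨q, hq, hPq⟩ := hq
    rw [Finset.sum_eq_single q]
    · rw [ordV_vr_of_associated hP hPq, mul_one, ordV_congr hP hPq]
    · intro p hp hpq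
      rw [ordV_vr_of_not_associated hP (hsp p hp), mul_zero]
      intro hPp
      exact hpq (hinj' p hp q hq (hPp.symm.trans hPq))
    · intro h
      exact absurd hq h
  · have h1 : ordV ℓ F P z = 0 := by
      by_contra hne
      exact hq (hsupp' P hP hne)
    rw [h1, Finset.sum_eq_zero]
    intro p hp
    rw [ordV_vr_of_not_associated hP (hsp p hp), mul_zero]
    intro hPp
    exact hq ⟨p, hp, hPp⟩

end UFD

end Vale.Agent.Lib.P019
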