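import Vale.Agent.Lib.P019.Coord

/-!
The main theorem: for `k` uncountable, every compatible isomorphism between the mod-`ℓ` data of two
rational function fields of two variables in characteristic zero comes from a field isomorphism.
-/

set_option linter.unusedSectionVars false
set_option linter.style.haveILetI false

namespace Vale.Agent.Lib.P019

open Polynomial Algebra TensorProduct

universe u v

section Pencils

variable {k : Type v} {s l : Type u} [Field k] [Field s] [Field l] [Algebra s l] [IsAlgClosed k]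
  [CharZero k] [IsAlgClosed s] [CharZero s] [IsAlgClosed l] [CharZero l] {ℓ : ℕ} [hℓ : Fact ℓ.Prime]

/-- The theorem once the two pencils generate. -/
theorem goodU_of_pencils [Uncountable k] [Countable s] {Θ : V ℓ (K2 k) ≃ₗ[ZMod ℓ] V ℓ (K2 l)}
    (hΘ : Compatible Θ) {τ σ : K2 s} {A B C' D' : R2 s}
    (hx : PencilOf s (Θ '' (Ax ℓ k : Set (V ℓ (K2 k)))) τ A B)
    (hy : PencilOf s (Θ '' (Ay ℓ k : Set (V ℓ (K2 k)))) σ C' D')
    (hind : ¬ IsAlgebraic (Algebra.adjoin s {τ}) σ) (hτ : Transcendental s τ)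
    (hsurj : ∀ e : K2 s, e ∈ Set.range (homOf hτ hind)) : GoodU Θ := by
  obtain ⟨β, hfix, hbx, hby, hβ⟩ := exists_beta (l := l) hτ hind hsurj
  have hfix' : FixC β.symm := fun t => (RingEquiv.symm_apply_eq _).2 (hfix t).symm
  have hfixC : ∀ μ : l, β.symm (algebraMap (R2 l) (K2 l) (C (C μ))) =
      algebraMap (R2 l) (K2 l) (C (C μ)) := by
    intro μ
    rw [← algebraMap_K2]
    exact hfix' μ
  have hVS : ∀ z ∈ VS ℓ l s, mapVEquiv ℓ β.symm z ∈ VS ℓ l s := by
    intro z hz
    induction hz using Submodule.span_induction with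
    | mem x h =>
      obtain ⟨g, rfl⟩ := h
      simp only
      by_cases hg : g = 0
      · subst hg
        have h0 : vr2 ℓ (hat (0 : R2 s) : R2 l) = 0 := by
          rw [map_zero]
          exact vr_zero
        rw [h0, map_zero]
        exact zero_mem _
      obtain ⟨u, hu⟩ := hsurj (algebraMap (R2 s) (K2 s) g)
      have h1 : (algebraMap (R2 l) (K2 l) (hat g) : K2 l) = β (jK u) := by
        rw [hβ, hu, jK_alg]
      change mapVEquiv ℓ β.symm (clsF ℓ (algebraMap (R2 l) (K2 l) (hat g))) ∈ _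
      rw [h1, mapVEquiv_clsF, RingEquiv.symm_apply_apply]
      obtain ⟨P, Q, hQ, rfl⟩ := IsFractionRing.div_surjective (A := R2 s) u
      have hQ0 : Q ≠ 0 := nonZeroDivisors.ne_zero hQ
      have hP0 : P ≠ 0 := by
        rintro rfl
        rw [map_zero, zero_div, map_zero] at hu
        exact algebraMap_ne hg hu.symm
      rw [map_div₀, jK_alg, jK_alg, clsF_frac (hat_ne_zero hP0) (hat_ne_zero hQ0)]
      exact sub_mem (vr_mem_VS P) (vr_mem_VS Q)
    | zero =>
      rw [map_zero]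
      exact zero_mem _
    | add x y _ _ hx hy =>
      rw [map_add]
      exact add_mem hx hy
    | smul c x _ hx =>
      rw [map_smul]
      exact Submodule.smul_mem _ _ hx
  have hτ' : (algebraMap (R2 l) (K2 l) (hat A) / algebraMap (R2 l) (K2 l) (hat B) : K2 l) = jK τ := by
    rw [hx.eq, map_div₀, jK_alg, jK_alg]
  have hσ' : (algebraMap (R2 l) (K2 l) (hat C') / algebraMap (R2 l) (K2 l) (hat D') : K2 l) = jK σ := by
    rw [hy.eq, map_div₀, jK_alg, jK_alg]
  have hYx : ∀ z ∈ Ypen ℓ (jK τ : K2 l), mapVEquiv ℓ β.symm z ∈ Ax ℓ l := by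
    intro z hz
    induction hz using Submodule.span_induction with
    | mem x h =>
      obtain ⟨μ, rfl⟩ := h
      simp only
      rw [mapVEquiv_clsF, map_sub, ← hbx, RingEquiv.symm_apply_apply, hfixC, ← alg_xc_sub]
      exact Submodule.subset_span ⟨μ, rfl⟩
    | zero =>
      rw [map_zero]
      exact zero_mem _
    | add x y _ _ hx hy =>
      rw [map_add]
      exact add_mem hx hy
    | smul c x _ hx =>
      rw [map_smul]
      exact Submodule.smul_mem _ _ hx
  have hYy : ∀ z ∈ Ypen ℓ (jK σ : K2 l), mapVEquiv ℓ β.symm z ∈ Ay ℓ l := by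
    intro z hz
    induction hz using Submodule.span_induction with
    | mem x h =>
      obtain ⟨μ, rfl⟩ := h
      simp only
      rw [mapVEquiv_clsF, map_sub, ← hby, RingEquiv.symm_apply_apply, hfixC, ← alg_yc_sub]
      exact Submodule.subset_span ⟨μ, rfl⟩
    | zero =>
      rw [map_zero]
      exact zero_mem _
    | add x y _ _ hx hy =>
      rw [map_add]
      exact add_mem hx hy
    | smul c x _ hx =>
      rw [map_smul]
      exact Submodule.smul_mem _ _ hx
  have hΘ' : Compatible (Θ.trans (mapVEquiv ℓ β.symm)) := hΘ.trans (compatible_mapVEquiv β.symm)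
  have hA : Adm (Θ.trans (mapVEquiv ℓ β.symm)) := by
    apply adm_of_sup hΘ' (s := s)
    · intro z hz
      have h1 := mem_sup_of_fibres hx.ne (fun p hp hov hw => hx.fibre hp hov hw) ⟨z, hz, rfl⟩
      rw [hτ'] at h1
      obtain ⟨a, ha, u, hu, hau⟩ := Submodule.mem_sup.1 h1
      change mapVEquiv ℓ β.symm (Θ z) ∈ _
      rw [← hau, map_add]
      exact Submodule.add_mem_sup (hYx a ha) (hVS u hu)
    · intro z hz
      have h1 := mem_sup_of_fibres hy.ne (fun p hp hov hw => hy.fibre hp hov hw) ⟨z, hz, rfl⟩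
      rw [hσ'] at h1
      obtain ⟨a, ha, u, hu, hau⟩ := Submodule.mem_sup.1 h1
      change mapVEquiv ℓ β.symm (Θ z) ∈ _
      rw [← hau, map_add]
      exact Submodule.add_mem_sup (hYy a ha) (hVS u hu)
  exact GoodU.of_post hfix' (goodU_of_adm hA)

/-- A moving component of an element not defined over `s`. -/
lemma exists_comp {w : V ℓ (K2 l)} (hw : w ∉ VS ℓ l s) :
    ∃ p : R2 l, Prime p ∧ ordV ℓ (K2 l) p w ≠ 0 ∧ ¬ OverS s p := by
  by_contra hcon
  push Not at hcon
  exact hw (mem_VS_of_forall fun p hp hne => hcon p hp hne)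

/-- The family of primes over `s` in the support of a set with infinitely many elements defined
over `s`. -/
theorem fam_of_seq {I : Set (V ℓ (K2 l))} {z : ℕ → V ℓ (K2 l)} (hz : Function.Injective z)
    (hzI : ∀ n, z n ∈ I) (hzS : ∀ n, z n ∈ VS ℓ l s) :
    Fam s I {g : R2 s | Prime g ∧ g.leadingCoeff.leadingCoeff = 1 ∧
      ∃ w ∈ I, ordV ℓ (K2 l) (hat g : R2 l) w ≠ 0} := by
  classical
  refine ⟨fun g hg => hg.1, fun g hg => hg.2.2, ?_, ?_⟩
  · rintro g ⟨hg, hg1, -⟩ g' ⟨hg', hg1', -⟩ h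
    have h1 : g ∣ g' := assoc_of_hat_assoc hg.ne_zero h
    have h2 : g' ∣ g := assoc_of_hat_assoc hg'.ne_zero h.symm
    obtain ⟨u, hu⟩ := associated_of_dvd_dvd h1 h2
    obtain ⟨r, hr, hu1⟩ := Polynomial.isUnit_iff.1 u.isUnit
    obtain ⟨t, ht, hu2⟩ := Polynomial.isUnit_iff.1 hr
    rw [← hu1, ← hu2] at hu
    have h3 := congrArg (fun f : R2 s => f.leadingCoeff.leadingCoeff) hu
    simp only [leadingCoeff_mul, leadingCoeff_C, hg1, hg1', one_mul] at h3
    rw [← hu, h3]
    simp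
  · intro hfin
    have hfin' : Set.Finite {g : R2 s | Prime g ∧ g.leadingCoeff.leadingCoeff = 1 ∧
        ∃ w ∈ I, ordV ℓ (K2 l) (hat g : R2 l) w ≠ 0} := hfin
    set D := {g : R2 s | Prime g ∧ g.leadingCoeff.leadingCoeff = 1 ∧
        ∃ w ∈ I, ordV ℓ (K2 l) (hat g : R2 l) w ≠ 0} with hD
    set G : Set (V ℓ (K2 l)) := (fun g : R2 s => vr2 ℓ (hat g : R2 l)) '' D with hG
    have hGf : G.Finite := hfin'.image _
    haveI : Finite (ZMod ℓ) := by
      haveI : NeZero ℓ := ⟨hℓ.out.ne_zero⟩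
      exact inferInstance
    haveI : Module.Finite (ZMod ℓ) (Submodule.span (ZMod ℓ) G) :=
      Module.Finite.span_of_finite (ZMod ℓ) hGf
    haveI : Finite (Submodule.span (ZMod ℓ) G) := Module.finite_of_finite (ZMod ℓ)
    have hmem : ∀ n, z n ∈ Submodule.span (ZMod ℓ) G := by
      intro n
      obtain ⟨S, hS1, hS2, hS3, hS4, hS5⟩ :=
        exists_expansion (F := K2 l) (unitsDiv2 (k := l) (ℓ := ℓ)) (z n)
      rw [hS5]
      apply Submodule.sum_mem
      intro p hp
      apply Submodule.smul_mem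
      have hov : OverS s p := by
        by_contra hov
        exact hS3 p hp (ordV_eq_zero_of_mem_VS (hS1 p hp) hov (hzS n))
      obtain ⟨g₀, hg₀⟩ := hov
      have hg₀0 : g₀ ≠ 0 := by
        rintro rfl
        rw [map_zero] at hg₀
        exact (hS1 p hp).ne_zero (by simpa using hg₀)
      obtain ⟨g', hg', hpg'⟩ := overS_of_dvd (hS1 p hp) hg₀0 hg₀.dvd
      obtain ⟨g'', hg'', hn⟩ := exists_normalized hg'.ne_zero
      have hp'' : Associated p (hat g'' : R2 l) := hpg'.trans (hg''.map (hat : R2 s →+* R2 l))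
      have hprime : Prime g'' := hg''.prime_iff.1 hg'
      have hmemD : g'' ∈ D := ⟨hprime, hn, z n, hzI n, by
        rw [← ordV_congr (hS1 p hp) hp'']
        exact hS3 p hp⟩
      have h1 : vr ℓ (K2 l) p = vr2 ℓ (hat g'' : R2 l) := vr_congr unitsDiv2 hp''
      rw [h1]
      exact Submodule.subset_span ⟨g'', hmemD, rfl⟩
    exact not_injective_infinite_finite (fun n => (⟨z n, hmem n⟩ : Submodule.span (ZMod ℓ) G))
      (fun a b hab => hz (congrArg Subtype.val hab))

end Pencils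

section Main

variable {k : Type v} {l : Type u} [Field k] [Field l] [IsAlgClosed k] [IsAlgClosed l]
  [CharZero k] [CharZero l] {ℓ : ℕ} [hℓ : Fact ℓ.Prime]

/-- The image of a generic `y - a` is not defined over a given countable field. -/
lemma exists_yc_not_VS [Uncountable k] (Θ : V ℓ (K2 k) ≃ₗ[ZMod ℓ] V ℓ (K2 l)) (s : Type*) [Field s]
    [Algebra s l] [Countable s] : ∃ c : k, Θ (vr2 ℓ (yc c)) ∉ VS ℓ l s := by
  by_contra hcon
  push Not at hcon
  have h1 : (Set.range fun c : k => Θ (vr2 ℓ (yc c))).Countable :=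
    (countable_VS (ℓ := ℓ) (l := l) s).mono (by
      rintro _ ⟨c, rfl⟩
      exact hcon c)
  have h2 : Function.Injective (fun c : k => Θ (vr2 ℓ (yc c))) :=
    Θ.injective.comp vr2_yc_injective
  have h3 : Countable k := by
    have := h1.to_subtype
    exact Function.Injective.countable (f := Set.rangeFactorization (fun c : k => Θ (vr2 ℓ (yc c))))
      (fun a b hab => h2 (congrArg Subtype.val hab))
  exact not_countable (α := k) h3

/-- Main theorem: for `k` uncountable every compatible isomorphism between the data of `k(x,y)` and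
`l(x,y)` is a scalar times the map induced by a field isomorphism carrying `k` onto `l`. -/
theorem good_of_compatible [Uncountable k] {Θ : V ℓ (K2 k) ≃ₗ[ZMod ℓ] V ℓ (K2 l)}
    (hΘ : Compatible Θ) : Good Θ := by
  classical
  let c : ℕ ↪ k := Infinite.natEmbedding k
  obtain ⟨s, _, _, hs1, hs2, hs3, -, hs5⟩ := exists_sub_of_countable (l := l) (ℓ := ℓ)
    ((Set.range fun n => Θ (vr2 ℓ (xc (c n)))) ∪ (Set.range fun n => Θ (vr2 ℓ (yc (c n)))))
    ((Set.countable_range _).union (Set.countable_range _)) ∅ Set.countable_empty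
  haveI := hs1
  haveI := hs2
  haveI := hs3
  have hzx : ∀ n, Θ (vr2 ℓ (xc (c n))) ∈ VS ℓ l s := fun n => hs5 (Or.inl ⟨n, rfl⟩)
  have hzy : ∀ n, Θ (vr2 ℓ (yc (c n))) ∈ VS ℓ l s := fun n => hs5 (Or.inr ⟨n, rfl⟩)
  have hDx := fam_of_seq (s := s) (I := Θ '' (Ax ℓ k : Set (V ℓ (K2 k))))
    (z := fun n => Θ (vr2 ℓ (xc (c n))))
    (fun a b hab => c.injective (vr2_xc_injective (Θ.injective hab)))
    (fun n => ⟨_, Submodule.subset_span ⟨_, rfl⟩, rfl⟩) hzx
  have hDy := fam_of_seq (s := s) (I := Θ '' (Ay ℓ k : Set (V ℓ (K2 k))))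
    (z := fun n => Θ (vr2 ℓ (yc (c n))))
    (fun a b hab => c.injective (vr2_yc_injective (Θ.injective hab)))
    (fun n => ⟨_, Submodule.subset_span ⟨_, rfl⟩, rfl⟩) hzy
  obtain ⟨c₁, hc₁⟩ := exists_xc_not_VS Θ s
  obtain ⟨c₂, hc₂⟩ := exists_yc_not_VS Θ s
  obtain ⟨p₁, hp₁, hp₁ne, hp₁ov⟩ := exists_comp hc₁
  obtain ⟨p₂, hp₂, hp₂ne, hp₂ov⟩ := exists_comp hc₂
  have hmem₁ : Θ (vr2 ℓ (xc c₁)) ∈ Θ '' (Ax ℓ k : Set (V ℓ (K2 k))) :=
    ⟨_, Submodule.subset_span ⟨_, rfl⟩, rfl⟩
  have hmem₂ : Θ (vr2 ℓ (yc c₂)) ∈ Θ '' (Ay ℓ k : Set (V ℓ (K2 k))) :=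
    ⟨_, Submodule.subset_span ⟨_, rfl⟩, rfl⟩
  obtain ⟨τ, A, B, hx⟩ := exists_pencil (isotropic_image_Ax hΘ) hDx hp₁ hp₁ov hmem₁ hp₁ne
  obtain ⟨σ, C', D', hy⟩ := exists_pencil (isotropic_image_Ay hΘ) hDy hp₂ hp₂ov hmem₂ hp₂ne
  have hind := pencils_independent hΘ hx hy hp₁ hp₁ov ⟨_, hmem₁, hp₁ne⟩
  have hτ : Transcendental s τ := transc_of_not_mem hx.nc
  have hsurj := homOf_surjective hΘ hx hy hind hτ (hzx 0)
  exact (goodU_of_pencils hΘ hx hy hind hτ hsurj).good

end Main

end Vale.Agent.Lib.P019
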