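import Mathlib

/-!
A bijection between fields which is affine on every affine line is a field isomorphism
once normalized.
-/

namespace Vale.Agent.Lib.P019

theorem exists_ringEquiv_of_affine {k l : Type*} [Field k] [Field l]
    (hk : ∃ e : k, e ≠ 0 ∧ e ≠ 1) (π : k → l) (hπ : Function.Bijective π)
    (h0 : π 0 = 0) (h1 : π 1 = 1)
    (h : ∀ b : k, b ≠ 0 → ∀ d : k, ∃ B D : l, ∀ c : k, π (b * c + d) = B * π c + D) :
    ∃ ν : k ≃+* l, ∀ c, ν c = π c := by
  have key : ∀ b : k, b ≠ 0 → ∀ c d : k, π (b * c + d) = (π (b + d) - π d) * π c + π d := by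
    intro b hb c d
    obtain ⟨B, D, hBD⟩ := h b hb d
    have e0 := hBD 0
    have e1 := hBD 1
    simp only [mul_zero, zero_add, h0] at e0
    simp only [mul_one, h1] at e1
    rw [hBD c, e1, e0]
    ring
  have hmul : ∀ a c : k, π (a * c) = π a * π c := by
    intro a c
    by_cases ha : a = 0
    · simp [ha, h0]
    · have := key a ha c 0
      simpa [h0] using this
  have hadd0 : ∀ c d : k, π (c + d) = (π (1 + d) - π d) * π c + π d := by
    intro c d
    have := key 1 one_ne_zero c d
    simpa using this
  have hs : ∀ d : k, (π (1 + d) - π d) - 1 = (π (1 + 1) - π 1 - 1) * π d := by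
    intro d
    have e2 := hadd0 d 1
    rw [add_comm d 1] at e2
    rw [h1] at e2
    rw [h1]
    linear_combination e2
  set s : l := π (1 + 1) - π 1 - 1 with hsdef
  have hadd1 : ∀ c d : k, π (c + d) = π c + π d + s * π c * π d := by
    intro c d
    rw [hadd0 c d]
    have := hs d
    linear_combination (π c) * this
  have hs0 : s = 0 := by
    obtain ⟨e, he0, he1⟩ := hk
    have h2 : π e ≠ 0 := by
      intro h
      exact he0 (hπ.1 (h.trans h0.symm))
    have h3 : π e ≠ 1 := by
      intro h
      exact he1 (hπ.1 (h.trans h1.symm))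
    have e1 := hmul e (1 + 1)
    have e2 := hadd1 (e * 1) (e * 1)
    have e3 := hadd1 1 1
    rw [← mul_add] at e2
    rw [e1, e3, mul_one, h1] at e2
    have e4 : s * π e * (π e - 1) = 0 := by
      linear_combination -e2
    have h5 : π e - 1 ≠ 0 := sub_ne_zero.2 h3
    have h6 : s * π e = 0 := (mul_eq_zero.1 e4).resolve_right h5
    exact (mul_eq_zero.1 h6).resolve_right h2
  have hadd : ∀ c d : k, π (c + d) = π c + π d := by
    intro c d
    rw [hadd1 c d, hs0]
    ring
  let f : k →+* l :=
    { toFun := π
      map_one' := h1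
      map_mul' := hmul
      map_zero' := h0
      map_add' := hadd }
  exact ⟨RingEquiv.ofBijective f hπ, fun c => rfl⟩

end Vale.Agent.Lib.P019
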