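import Vale.Agent.Lib.P019.Bivariate

/-!
Generic specialization: for cofinitely many `c`, the restrictions of pairwise nonassociated
primes of positive `y`-degree to `x = c` are squarefree and pairwise coprime.
-/

set_option linter.unusedSectionVars false

namespace Vale.Agent.Lib.P019

open Polynomial TensorProduct nonZeroDivisors UniqueFactorizationMonoid Filter

section Gauss

variable {k : Type*} [Field k]

/-- The coefficient extension `k[x][y] → k(x)[y]`. -/
noncomputable abbrev toK1Y (h : R2 k) : (K1 k)[X] := h.map (algebraMap k[X] (K1 k))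

lemma isPrimitive_of_prime {p : R2 k} (hp : Prime p) (hd : 0 < p.natDegree) : p.IsPrimitive := by
  intro r hr
  obtain ⟨q, hq⟩ := hr
  rcases hp.irreducible.isUnit_or_isUnit hq with h | h
  · exact Polynomial.isUnit_C.1 h
  · exfalso
    have h1 : q.natDegree = 0 := natDegree_eq_zero_of_isUnit h
    have hr0 : r ≠ 0 := by
      rintro rfl
      simp only [map_zero, zero_mul] at hq
      exact hp.ne_zero hq
    have hq0 : q ≠ 0 := h.ne_zero
    rw [hq, natDegree_C_mul hr0, h1] at hd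
    omega

lemma irreducible_toK1Y {p : R2 k} (hp : Prime p) (hd : 0 < p.natDegree) :
    Irreducible (toK1Y p) :=
  ((isPrimitive_of_prime hp hd).irreducible_iff_irreducible_map_fraction_map).1 hp.irreducible

lemma coprime_toK1Y_of_not_dvd {p q : R2 k} (hp : Prime p) (hd : 0 < p.natDegree)
    (hpq : ¬ p ∣ q) : IsCoprime (toK1Y p) (toK1Y q) := by
  rw [(irreducible_toK1Y hp hd).coprime_iff_not_dvd]
  intro h
  exact hpq ((isPrimitive_of_prime hp hd).dvd_of_fraction_map_dvd_fraction_map h)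

/-- Clearing denominators in a Bezout identity. -/
lemma exists_bezout {P Q : R2 k} (h : IsCoprime (toK1Y P) (toK1Y Q)) :
    ∃ u v : R2 k, ∃ w : k[X], w ≠ 0 ∧ u * P + v * Q = C w := by
  obtain ⟨U, V, hUV⟩ := h
  obtain ⟨b₁, hb₁, h₁⟩ := IsLocalization.integerNormalization_spec (k[X])⁰ U
  obtain ⟨b₂, hb₂, h₂⟩ := IsLocalization.integerNormalization_spec (k[X])⁰ V
  set u₀ := IsLocalization.integerNormalization (k[X])⁰ U
  set v₀ := IsLocalization.integerNormalization (k[X])⁰ V
  have hb₁0 : b₁ ≠ 0 := nonZeroDivisors.ne_zero hb₁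
  have hb₂0 : b₂ ≠ 0 := nonZeroDivisors.ne_zero hb₂
  refine ⟨C b₂ * u₀, C b₁ * v₀, b₁ * b₂, mul_ne_zero hb₁0 hb₂0, ?_⟩
  apply Polynomial.map_injective (algebraMap k[X] (K1 k)) (IsFractionRing.injective _ _)
  simp only [Polynomial.map_add, Polynomial.map_mul, map_C, h₁, h₂]
  have e1 : (b₁ • U) = C (algebraMap k[X] (K1 k) b₁) * U := by
    rw [← Polynomial.smul_eq_C_mul, algebraMap_smul]
  have e2 : (b₂ • V) = C (algebraMap k[X] (K1 k) b₂) * V := by
    rw [← Polynomial.smul_eq_C_mul, algebraMap_smul]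
  rw [e1, e2]
  simp only [map_mul]
  have : C ((algebraMap k[X] (K1 k)) b₁) * C ((algebraMap k[X] (K1 k)) b₂) * 1 =
      C ((algebraMap k[X] (K1 k)) b₁) * C ((algebraMap k[X] (K1 k)) b₂) * (U * toK1Y P + V * toK1Y Q) := by
    rw [hUV]
  linear_combination -this

lemma eventually_eval_ne {w : k[X]} (hw : w ≠ 0) : ∀ᶠ c in cofinite, w.eval c ≠ 0 := by
  have : {c | ¬ (w.eval c ≠ 0)}.Finite := by
    simpa [IsRoot] using Polynomial.finite_setOfPred_isRoot hw
  exact this

end Gauss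

section Simple

variable {k : Type*} [Field k]

/-- The evaluation at a point of `k²`, first `x = c` and then `y = a`. -/
lemma eval_bezout {P Q u v : R2 k} {w : k[X]} (h : u * P + v * Q = C w) {c a : k}
    (hw : w.eval c ≠ 0) (hP : (evX c P).eval a = 0) : (evX c Q).eval a ≠ 0 := by
  intro hQ
  apply hw
  have h1 : (evX c (u * P + v * Q)).eval a = (evX c (C w)).eval a := by rw [h]
  simp only [map_add, map_mul, eval_add, eval_mul] at h1
  rw [hP, hQ] at h1
  simpa using h1.symm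

lemma natDegree_evX {p : R2 k} {c : k} (h : p.leadingCoeff.eval c ≠ 0) :
    (evX c p).natDegree = p.natDegree := by
  rw [evX_apply]
  exact natDegree_map_of_leadingCoeff_ne_zero _ (by simpa using h)

variable [CharZero k]

/-- Generic specialization of a prime. -/
theorem generic_simple {p : R2 k} (hp : Prime p) (hd : 0 < p.natDegree) (t : Finset (R2 k))
    (ht : ∀ q ∈ t, Prime q ∧ 0 < q.natDegree ∧ ¬ Associated p q) :
    ∀ᶠ c in cofinite, (evX c p).natDegree = p.natDegree ∧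
      ∀ a, (evX c p).eval a = 0 → (derivative (evX c p)).eval a ≠ 0 ∧
        ∀ q ∈ t, (evX c q).eval a ≠ 0 := by
  classical
  have hirr := irreducible_toK1Y hp hd
  have hsep : IsCoprime (toK1Y p) (derivative (toK1Y p)) := hirr.separable
  have hprod : IsCoprime (toK1Y p) (toK1Y (∏ q ∈ t, q)) := by
    simp only [toK1Y, Polynomial.map_prod]
    apply IsCoprime.prod_right
    intro q hq
    obtain ⟨h1, h2, h3⟩ := ht q hq
    apply coprime_toK1Y_of_not_dvd hp hd
    intro h
    exact h3 (hp.associated_of_dvd h1 h)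
  have hQ : IsCoprime (toK1Y p) (toK1Y (derivative p * ∏ q ∈ t, q)) := by
    simp only [toK1Y, Polynomial.map_mul]
    apply IsCoprime.mul_right _ hprod
    rw [← derivative_map]
    exact hsep
  obtain ⟨u, v, w, hw, huv⟩ := exists_bezout hQ
  have hlc : p.leadingCoeff ≠ 0 := by
    simpa using hp.ne_zero
  filter_upwards [eventually_eval_ne hw, eventually_eval_ne hlc] with c hc1 hc2
  refine ⟨natDegree_evX hc2, fun a ha => ?_⟩
  have h := eval_bezout huv hc1 ha
  rw [map_mul, eval_mul, map_prod, eval_prod] at h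
  have h1 := left_ne_zero_of_mul h
  have h2 := right_ne_zero_of_mul h
  refine ⟨?_, fun q hq => ?_⟩
  · have h3 : derivative (evX c p) = evX c (derivative p) := by
      simp only [evX_apply, derivative_map]
    rw [h3]
    exact h1
  · exact fun h0 => h2 (Finset.prod_eq_zero hq h0)

/-- A polynomial with a simple root has multiplicity one there. -/
lemma multiplicity_eq_one_of_simple {f : k[X]} {a : k} (h0 : f.eval a = 0)
    (h1 : (derivative f).eval a ≠ 0) : multiplicity (X - C a) f = 1 := by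
  obtain ⟨r, rfl⟩ := dvd_iff_isRoot.2 h0
  have hr : ¬ (X - C a) ∣ r := by
    rw [dvd_iff_isRoot]
    intro hr
    apply h1
    simp only [derivative_mul, derivative_sub, derivative_X, derivative_C, sub_zero, one_mul,
      eval_add, eval_mul, eval_sub, eval_X, eval_C, sub_self, zero_mul, add_zero]
    exact hr
  have h2 : (X - C a) * r = (X - C a) ^ 1 * r := by ring
  exact (copart_unique (prime_X_sub_C a) h2 hr).1.symm

variable [IsAlgClosed k] {ℓ : ℕ} [hℓ : Fact ℓ.Prime]

lemma ord1_vr1_simple {f : k[X]} {a : k} (h0 : f.eval a = 0)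
    (h1 : (derivative f).eval a ≠ 0) : ord1 ℓ a (vr1 ℓ f) = 1 := by
  have hf : f ≠ 0 := by
    rintro rfl
    simp at h1
  rw [ord1, vr1, ordV_vr _ (prime_X_sub_C a) hf, multiplicity_eq_one_of_simple h0 h1]
  simp

lemma ord1_vr1_of_eval_ne {f : k[X]} {a : k} (h0 : f.eval a ≠ 0) : ord1 ℓ a (vr1 ℓ f) = 0 := by
  rw [ord1, vr1]
  apply ordV_vr_of_not_dvd _ (prime_X_sub_C a)
  rwa [dvd_iff_isRoot]

/-- Generic nonvanishing of the restriction. -/
theorem eventually_rhoX_sum_ne_zero {s : Finset (R2 k)} (hs : ∀ q ∈ s, Prime q ∧ 0 < q.natDegree)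
    (hinj : ∀ p ∈ s, ∀ q ∈ s, Associated p q → p = q) (n : R2 k → ZMod ℓ)
    {p : R2 k} (hp : p ∈ s) (hn : n p ≠ 0) :
    ∀ᶠ c in cofinite, rhoX ℓ c (∑ q ∈ s, n q • vr2 ℓ q) ≠ 0 := by
  classical
  obtain ⟨hp1, hp2⟩ := hs p hp
  have ht : ∀ q ∈ s.erase p, Prime q ∧ 0 < q.natDegree ∧ ¬ Associated p q := by
    intro q hq
    obtain ⟨hq1, hq2⟩ := Finset.mem_erase.1 hq
    refine ⟨(hs q hq2).1, (hs q hq2).2, fun h => hq1 (hinj p hp q hq2 h).symm⟩
  filter_upwards [generic_simple hp1 hp2 (s.erase p) ht] with c hc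
  obtain ⟨hc1, hc2⟩ := hc
  have hdeg : (evX c p).degree ≠ 0 := by
    have : (evX c p).natDegree ≠ 0 := by omega
    intro h
    exact this (natDegree_eq_of_degree_eq_some h)
  obtain ⟨a, ha⟩ := IsAlgClosed.exists_root (evX c p) hdeg
  have ha' : (evX c p).eval a = 0 := ha
  obtain ⟨h3, h4⟩ := hc2 a ha'
  intro h0
  have h5 : ord1 ℓ a (rhoX ℓ c (∑ q ∈ s, n q • vr2 ℓ q)) = n p := by
    rw [map_sum, map_sum, Finset.sum_eq_single p]
    · rw [map_smul, map_smul, rhoX_vr c (xc_dvd_of_prime_natDegree hp1 hp2),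
        ord1_vr1_simple ha' h3]
      simp
    · intro q hq hqp
      rw [map_smul, map_smul, rhoX_vr c (xc_dvd_of_prime_natDegree (hs q hq).1 (hs q hq).2),
        ord1_vr1_of_eval_ne (h4 q (Finset.mem_erase.2 ⟨hqp, hq⟩))]
      simp
    · intro h
      exact absurd hp h
  rw [h0, map_zero] at h5
  exact hn h5.symm

open scoped Classical in
/-- If the restrictions of `z` vanish for infinitely many `c`, then `z` lies in `Ax`. -/
theorem mem_Ax_of_infinite {z : V ℓ (K2 k)} (hz : {c : k | rhoX ℓ c z = 0}.Infinite) :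
    z ∈ Ax ℓ k := by
  obtain ⟨s, hs1, hs2, hs3, -, hs5⟩ := exists_expansion (F := K2 k) (unitsDiv2 (k := k) (ℓ := ℓ)) z
  set s₀ := s.filter (fun p => p.natDegree = 0)
  set s₁ := s.filter (fun p => ¬ p.natDegree = 0)
  have hsplit : z = ∑ q ∈ s₀, ordV ℓ (K2 k) q z • vr2 ℓ q + ∑ q ∈ s₁, ordV ℓ (K2 k) q z • vr2 ℓ q := by
    rw [Finset.sum_filter_add_sum_filter_not]
    exact hs5
  have h0 : ∑ q ∈ s₀, ordV ℓ (K2 k) q z • vr2 ℓ q ∈ Ax ℓ k := by
    apply Submodule.sum_mem
    intro q hq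
    obtain ⟨hq1, hq2⟩ := Finset.mem_filter.1 hq
    exact Submodule.smul_mem _ _ (vr2_assoc_mem_Ax (hs1 q hq1) hq2)
  by_cases hempty : s₁ = ∅
  · rw [hsplit, hempty, Finset.sum_empty, add_zero]
    exact h0
  · exfalso
    obtain ⟨p, hp⟩ := Finset.nonempty_iff_ne_empty.2 hempty
    obtain ⟨hp1, hp2⟩ := Finset.mem_filter.1 hp
    have hs₁ : ∀ q ∈ s₁, Prime q ∧ 0 < q.natDegree := by
      intro q hq
      obtain ⟨hq1, hq2⟩ := Finset.mem_filter.1 hq
      exact ⟨hs1 q hq1, Nat.pos_of_ne_zero hq2⟩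
    have hinj : ∀ p ∈ s₁, ∀ q ∈ s₁, Associated p q → p = q := fun p hp q hq =>
      hs2 p (Finset.mem_filter.1 hp).1 q (Finset.mem_filter.1 hq).1
    have hev := eventually_rhoX_sum_ne_zero hs₁ hinj (fun q => ordV ℓ (K2 k) q z) hp (hs3 p hp1)
    have hfin : {c : k | ¬ rhoX ℓ c (∑ q ∈ s₁, ordV ℓ (K2 k) q z • vr2 ℓ q) ≠ 0}.Finite := hev
    apply hz
    apply hfin.subset
    intro c hc
    simp only [Set.mem_ofPred_eq, not_not] at hc ⊢
    have h1 := hc
    rw [hsplit, map_add, rhoX_eq_zero_of_mem_Ax c h0, zero_add] at h1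
    exact h1

end Simple

end Vale.Agent.Lib.P019
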