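import Vale.Agent.Lib.P019.Pencil2

/-!
Places along a prime of a UFD, and the theorem of Lüroth and Gordan: a subfield of `s(x,y)` of
transcendence degree one over an algebraically closed field is generated by one element.
-/

set_option linter.unusedSectionVars false

namespace Vale.Agent.Lib.P019

open Polynomial Algebra

section Place

variable {R K W : Type*} [CommRing R] [IsDomain R] [UniqueFactorizationMonoid R] [Field K]
  [Algebra R K] [IsFractionRing R K] [Field W]

/-- Elements regular along `P`. -/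
def Reg (K : Type*) [Field K] [Algebra R K] (P : R) (e : K) : Prop :=
  ∃ a b : R, ¬ P ∣ b ∧ e = algebraMap R K a / algebraMap R K b

variable {P : R} (hP : Prime P)

lemma ne_of_not_dvd {b : R} (h : ¬ P ∣ b) : algebraMap R K b ≠ 0 := by
  apply algebraMap_ne
  rintro rfl
  exact h (dvd_zero _)

/-- The subring of elements regular along `P`. -/
def placeO (K : Type*) [Field K] [Algebra R K] [IsFractionRing R K] (hP : Prime P) : Subring K where
  carrier := {e | Reg K P e}
  mul_mem' := by
    rintro _ _ ⟨a, b, hb, rfl⟩ ⟨c, d, hd, rfl⟩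
    refine ⟨a * c, b * d, ?_, ?_⟩
    · intro h
      rcases hP.dvd_or_dvd h with h | h
      · exact hb h
      · exact hd h
    · rw [map_mul, map_mul, div_mul_div_comm]
  one_mem' := ⟨1, 1, hP.not_dvd_one, by simp⟩
  add_mem' := by
    rintro _ _ ⟨a, b, hb, rfl⟩ ⟨c, d, hd, rfl⟩
    refine ⟨a * d + c * b, b * d, ?_, ?_⟩
    · intro h
      rcases hP.dvd_or_dvd h with h | h
      · exact hb h
      · exact hd h
    · have h1 := ne_of_not_dvd (K := K) hb
      have h2 := ne_of_not_dvd (K := K) hd
      rw [map_add, map_mul, map_mul, map_mul]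
      field_simp
  zero_mem' := ⟨0, 1, hP.not_dvd_one, by simp⟩
  neg_mem' := by
    rintro _ ⟨a, b, hb, rfl⟩
    exact ⟨-a, b, hb, by rw [map_neg, neg_div]⟩

variable {ψ : R →+* W} (hψ : ∀ a, ψ a = 0 ↔ P ∣ a)

include hψ

lemma res_wd {a b a' b' : R} (hb : ¬ P ∣ b) (hb' : ¬ P ∣ b')
    (h : algebraMap R K a / algebraMap R K b = algebraMap R K a' / algebraMap R K b') :
    ψ a / ψ b = ψ a' / ψ b' := by
  have h1 := ne_of_not_dvd (K := K) hb
  have h2 := ne_of_not_dvd (K := K) hb'
  have h3 : a * b' = a' * b := by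
    apply IsFractionRing.injective R K
    rw [map_mul, map_mul]
    field_simp at h
    linear_combination h
  have h4 : ψ b ≠ 0 := fun h => hb ((hψ b).1 h)
  have h5 : ψ b' ≠ 0 := fun h => hb' ((hψ b').1 h)
  have h6 := congrArg ψ h3
  rw [map_mul, map_mul] at h6
  field_simp
  linear_combination h6

/-- The residue function. -/
noncomputable def resFun (ψ : R →+* W) (e : placeO K hP) : W :=
  ψ (show Reg K P (e : K) from e.2).choose /
    ψ (show Reg K P (e : K) from e.2).choose_spec.choose

lemma resFun_eq (e : placeO K hP) {a b : R} (hb : ¬ P ∣ b)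
    (he : (e : K) = algebraMap R K a / algebraMap R K b) :
    resFun hP ψ e = ψ a / ψ b := by
  have h := (show Reg K P (e : K) from e.2).choose_spec.choose_spec
  exact res_wd hψ h.1 hb (h.2.symm.trans he)

/-- The residue homomorphism. -/
noncomputable def placeπ : placeO K hP →+* W where
  toFun := resFun hP ψ
  map_one' := by
    rw [resFun_eq hP hψ (1 : placeO K hP) (a := 1) (b := 1) hP.not_dvd_one (by simp)]
    simp
  map_zero' := by
    rw [resFun_eq hP hψ (0 : placeO K hP) (a := 0) (b := 1) hP.not_dvd_one (by simp)]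
    simp
  map_mul' := by
    intro x y
    obtain ⟨a, b, hb, hx⟩ : Reg K P (x : K) := x.2
    obtain ⟨c, d, hd, hy⟩ : Reg K P (y : K) := y.2
    rw [resFun_eq hP hψ x hb hx, resFun_eq hP hψ y hd hy,
      resFun_eq hP hψ (x * y) (a := a * c) (b := b * d) (fun h => (hP.dvd_or_dvd h).elim hb hd)
      (by rw [Subring.coe_mul, hx, hy, map_mul, map_mul, div_mul_div_comm])]
    rw [map_mul, map_mul, div_mul_div_comm]
  map_add' := by
    intro x y
    obtain ⟨a, b, hb, hx⟩ : Reg K P (x : K) := x.2
    obtain ⟨c, d, hd, hy⟩ : Reg K P (y : K) := y.2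
    have n1 := ne_of_not_dvd (K := K) hb
    have n2 := ne_of_not_dvd (K := K) hd
    have m1 : ψ b ≠ 0 := fun h => hb ((hψ _).1 h)
    have m2 : ψ d ≠ 0 := fun h => hd ((hψ _).1 h)
    rw [resFun_eq hP hψ x hb hx, resFun_eq hP hψ y hd hy,
      resFun_eq hP hψ (x + y) (a := a * d + c * b) (b := b * d)
      (fun h => (hP.dvd_or_dvd h).elim hb hd)
      (by
        rw [Subring.coe_add, hx, hy, map_add, map_mul, map_mul, map_mul]
        field_simp)]
    rw [map_add, map_mul, map_mul, map_mul]
    field_simp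

lemma placeπ_eq (e : placeO K hP) {a b : R} (hb : ¬ P ∣ b)
    (he : (e : K) = algebraMap R K a / algebraMap R K b) :
    placeπ hP hψ e = ψ a / ψ b :=
  resFun_eq hP hψ e hb he

/-- Elements algebraic over a subring of the place on which the residue map is injective lie in the
place. -/
theorem mem_place_of_isAlgebraic {T : Type*} [CommRing T] [Algebra T K]
    (hT : ∀ t : T, algebraMap T K t ∈ placeO K hP)
    (hinj : ∀ t : T, placeπ hP hψ (⟨algebraMap T K t, hT t⟩ : placeO K hP) = 0 → t = 0)
    {e : K} (he : IsAlgebraic T e) : e ∈ placeO K hP := by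
  by_contra hne
  set a : R := IsFractionRing.num R e with ha_def
  set b : R := (IsFractionRing.den R e : R) with hb_def
  have hrel : IsRelPrime a b := IsFractionRing.num_den_reduced R e
  have hb0 : b ≠ 0 := nonZeroDivisors.ne_zero (IsFractionRing.den R e).2
  have hs : algebraMap R K a / algebraMap R K b = e := IsFractionRing.mk'_num_den' R e
  have hPb : P ∣ b := by
    by_contra hc
    exact hne ⟨a, b, hc, hs.symm⟩
  have hPa : ¬ P ∣ a := fun h => hP.not_isUnit (hrel h hPb)
  have he0 : e ≠ 0 := by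
    rintro rfl
    exact hne (Subring.zero_mem _)
  have hu : Reg K P e⁻¹ := ⟨b, a, hPa, by rw [← hs, inv_div]⟩
  let u : placeO K hP := ⟨e⁻¹, hu⟩
  have hu0 : placeπ hP hψ u = 0 := by
    rw [placeπ_eq hP hψ u hPa (by change e⁻¹ = _; rw [← hs, inv_div]), (hψ b).2 hPb, zero_div]
  obtain ⟨q, hq0, hq⟩ := he
  let _ : Invertible e := invertibleOfNonzero he0
  have h1 : eval₂ (algebraMap T K) e⁻¹ (reverse q) = 0 := by
    have h2 := eval₂_reverse_mul_pow (algebraMap T K) e q
    rw [invOf_eq_inv] at h2
    have h3 : eval₂ (algebraMap T K) e q = 0 := by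
      rw [← aeval_def]
      exact hq
    rw [h3] at h2
    exact (mul_eq_zero.1 h2).resolve_right (pow_ne_zero _ he0)
  let i : T →+* placeO K hP :=
    { toFun := fun t => ⟨algebraMap T K t, hT t⟩
      map_one' := by ext; simp
      map_mul' := fun a b => by ext; simp
      map_zero' := by ext; simp
      map_add' := fun a b => by ext; simp }
  have h3 : eval₂ i u (reverse q) = 0 := by
    apply Subtype.val_injective
    have := Polynomial.hom_eval₂ (reverse q) i (placeO K hP).subtype u
    change (placeO K hP).subtype _ = 0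
    rw [this]
    exact h1
  have h4 := congrArg (placeπ hP hψ) h3
  rw [Polynomial.hom_eval₂, map_zero, hu0, eval₂_at_zero, coeff_zero_reverse] at h4
  have h5 := hinj _ h4
  exact hq0 (leadingCoeff_eq_zero.1 h5)

end Place

section GordanMain

variable {s : Type*} [Field s] [IsAlgClosed s] [CharZero s]

omit [IsAlgClosed s] [CharZero s] in
lemma algebraMap_C_ratfunc (t : s) :
    algebraMap s[X] (RatFunc s) (C t) = algebraMap s (RatFunc s) t := by
  rw [RatFunc.algebraMap_eq_C, RatFunc.algebraMap_C]

open IntermediateField in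
/-- A field of constants of transcendence degree one, which specializes nontrivially to a line,
has one generator. -/
theorem gordan {P : R2 s} (hP : Prime P) {ψ : R2 s →+* RatFunc s} (hψ : ∀ a, ψ a = 0 ↔ P ∣ a)
    (hC : ∀ t, ψ (C (C t)) = algebraMap s (RatFunc s) t) (E₁ : IntermediateField s (K2 s))
    {f : K2 s} (hf : f ∈ E₁) (hreg : f ∈ placeO (K2 s) hP)
    (hnc : placeπ hP hψ (⟨f, hreg⟩ : placeO (K2 s) hP) ∉ Set.range (algebraMap s (RatFunc s)))
    (halg : ∀ e ∈ E₁, IsAlgebraic (Algebra.adjoin s {f}) e) :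
    ∃ τ ∈ E₁, E₁ = s⟮τ⟯ := by
  classical
  set π := placeπ (K := K2 s) hP hψ with hπ
  have hconst : ∀ t : s, algebraMap s (K2 s) t ∈ placeO (K2 s) hP := fun t =>
    ⟨C (C t), 1, hP.not_dvd_one, by rw [map_one, div_one, algebraMap_K2]⟩
  let cO : s →+* placeO (K2 s) hP :=
    { toFun := fun t => ⟨algebraMap s (K2 s) t, hconst t⟩
      map_one' := by ext; simp
      map_mul' := fun a b => by ext; simp
      map_zero' := by ext; simp
      map_add' := fun a b => by ext; simp }
  have hπC : π.comp cO = algebraMap s (RatFunc s) := by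
    ext t
    change π (⟨algebraMap s (K2 s) t, hconst t⟩ : placeO (K2 s) hP) = _
    rw [hπ, placeπ_eq hP hψ _ (a := C (C t)) (b := 1) hP.not_dvd_one
      (by
        change algebraMap s (K2 s) t = _
        rw [map_one, div_one, algebraMap_K2]), map_one, div_one, hC]
  let fO : placeO (K2 s) hP := ⟨f, hreg⟩
  let j : s[X] →+* placeO (K2 s) hP := eval₂RingHom cO fO
  have hj1 : ∀ r : s[X], ((j r : placeO (K2 s) hP) : K2 s) = aeval f r := by
    intro r
    have : (placeO (K2 s) hP).subtype.comp j = ((aeval f : s[X] →ₐ[s] K2 s) : s[X] →+* K2 s) := by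
      apply Polynomial.ringHom_ext
      · intro a
        simp [j]
        rfl
      · simp [j, fO]
    exact congrArg (fun g : s[X] →+* K2 s => g r) this
  have hj2 : ∀ r : s[X], π (j r) = aeval (π fO) r := by
    intro r
    have : π.comp j = ((aeval (π fO) : s[X] →ₐ[s] RatFunc s) : s[X] →+* RatFunc s) := by
      apply Polynomial.ringHom_ext
      · intro a
        simp only [RingHom.comp_apply, j, coe_eval₂RingHom, eval₂_C]
        have := RingHom.congr_fun hπC a
        simp only [RingHom.comp_apply] at this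
        rw [this]
        simp
      · simp [j]
    exact congrArg (fun g : s[X] →+* RatFunc s => g r) this
  have htr : Transcendental s (π fO) := fun hal => hnc (mem_range_of_isAlgebraic hal)
  have hmemT : ∀ c ∈ Algebra.adjoin s {f}, ∃ r : s[X], c = aeval f r := by
    intro c hc
    rw [Algebra.adjoin_singleton_eq_range_aeval] at hc
    obtain ⟨r, rfl⟩ := hc
    exact ⟨r, rfl⟩
  have hT : ∀ t : Algebra.adjoin s {f}, algebraMap (Algebra.adjoin s {f}) (K2 s) t ∈
      placeO (K2 s) hP := by
    rintro ⟨c, hc⟩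
    obtain ⟨r, rfl⟩ := hmemT c hc
    change aeval f r ∈ placeO (K2 s) hP
    rw [← hj1]
    exact (j r).2
  have hE : ∀ e ∈ E₁, e ∈ placeO (K2 s) hP := by
    intro e he
    refine mem_place_of_isAlgebraic hP hψ hT ?_ (halg e he)
    rintro ⟨c, hc⟩ h0
    obtain ⟨r, rfl⟩ := hmemT c hc
    have h1 : (⟨algebraMap (Algebra.adjoin s {f}) (K2 s) ⟨aeval f r, hc⟩,
        hT ⟨aeval f r, hc⟩⟩ : placeO (K2 s) hP) = j r := by
      apply Subtype.ext
      exact (hj1 r).symm
    rw [h1] at h0
    change π (j r) = 0 at h0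
    rw [hj2] at h0
    have h2 : r = 0 := by
      have hinj := transcendental_iff_injective.1 htr
      exact hinj (h0.trans (map_zero _).symm)
    subst h2
    apply Subtype.ext
    simp
  let ι : E₁ →ₐ[s] RatFunc s :=
    { toFun := fun e => π ⟨e, hE e e.2⟩
      map_one' := by
        have : (⟨((1 : E₁) : K2 s), hE _ (1 : E₁).2⟩ : placeO (K2 s) hP) = 1 := rfl
        rw [this, map_one]
      map_mul' := fun a b => by
        rw [← map_mul]
        rfl
      map_zero' := by
        have : (⟨((0 : E₁) : K2 s), hE _ (0 : E₁).2⟩ : placeO (K2 s) hP) = 0 := rfl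
        rw [this, map_zero]
      map_add' := fun a b => by
        rw [← map_add]
        rfl
      commutes' := fun t => by
        have h1 := RingHom.congr_fun hπC t
        exact h1 }
  have hιf : ι ⟨f, hf⟩ = π fO := rfl
  let E' : IntermediateField s (RatFunc s) := ι.fieldRange
  have hE'bot : E' ≠ ⊥ := by
    intro h
    have h1 : π fO ∈ E' := ⟨⟨f, hf⟩, hιf⟩
    rw [h, IntermediateField.mem_bot] at h1
    exact hnc h1
  have hgen := RatFunc.Luroth.eq_adjoin_generator (E := E')
  set gen := RatFunc.Luroth.generator E' with hgendef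
  have hgenmem : gen ∈ E' := RatFunc.Luroth.generator_mem
  obtain ⟨τ₁, hτ₁⟩ := hgenmem
  refine ⟨(τ₁ : K2 s), τ₁.2, le_antisymm ?_ ?_⟩
  · intro e he
    have h1 : ι ⟨e, he⟩ ∈ E' := ⟨⟨e, he⟩, rfl⟩
    rw [hgen, IntermediateField.mem_adjoin_simple_iff] at h1
    obtain ⟨r, q, hrq⟩ := h1
    have hι : ∀ w : s[X], ι (aeval τ₁ w) = aeval gen w := by
      intro w
      rw [← hτ₁]
      change ι (aeval τ₁ w) = aeval (ι τ₁) w
      rw [Polynomial.aeval_algHom_apply]
    have h2 : ι (aeval τ₁ r / aeval τ₁ q) = ι ⟨e, he⟩ := by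
      rw [map_div₀, hι, hι, hrq]
    have h3 : aeval τ₁ r / aeval τ₁ q = (⟨e, he⟩ : E₁) := ι.toRingHom.injective h2
    have h4 : e = aeval (τ₁ : K2 s) r / aeval (τ₁ : K2 s) q := by
      have h5 := congrArg (E₁.val : E₁ →ₐ[s] K2 s) h3
      rw [map_div₀] at h5
      have e1 : ∀ w : s[X], E₁.val (aeval τ₁ w) = aeval (τ₁ : K2 s) w := fun w =>
        (Polynomial.aeval_algHom_apply E₁.val τ₁ w).symm
      rw [e1, e1] at h5
      exact h5.symm
    have e2 : ∀ w : s[X], aeval (τ₁ : K2 s) w ∈ s⟮(τ₁ : K2 s)⟯ := fun w =>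
      (IntermediateField.algebra_adjoin_le_adjoin s {(τ₁ : K2 s)}) (mem_adjoin_aeval _ w)
    rw [h4]
    exact div_mem (e2 r) (e2 q)
  · rw [IntermediateField.adjoin_simple_le_iff]
    exact τ₁.2

lemma dvd_py_imp {g : R2 s} (h : g ∣ py g) : g.natDegree = 0 := by
  by_contra hd
  have hne : py g ≠ 0 := by
    intro h0
    exact hd (Polynomial.derivative_eq_zero.1 h0)
  have h1 := natDegree_le_of_dvd h hne
  have h2 : (py g).natDegree < g.natDegree := natDegree_derivative_lt hd
  omega

lemma evX_ne_zero_of_lc {g : R2 s} {c : s} (h : g.leadingCoeff.eval c ≠ 0) : evX c g ≠ 0 := by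
  intro h0
  apply h
  have := congrArg (fun q => q.coeff g.natDegree) h0
  simpa [evX_apply, coeff_map] using this

/-- Every nonconstant rational function over `s` specializes to a nonconstant function on a line. -/
theorem exists_line {f : K2 s} (hf : f ∉ Set.range (algebraMap s (K2 s))) :
    ∃ (P : R2 s) (hP : Prime P) (ψ : R2 s →+* RatFunc s) (hψ : ∀ a, ψ a = 0 ↔ P ∣ a)
      (_ : ∀ t, ψ (C (C t)) = algebraMap s (RatFunc s) t) (hreg : f ∈ placeO (K2 s) hP),
      placeπ hP hψ (⟨f, hreg⟩ : placeO (K2 s) hP) ∉ Set.range (algebraMap s (RatFunc s)) := by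
  classical
  set A : R2 s := IsFractionRing.num (R2 s) f with hA
  set B : R2 s := (IsFractionRing.den (R2 s) f : R2 s) with hB
  have hrel : IsRelPrime A B := IsFractionRing.num_den_reduced (R2 s) f
  have hB0 : B ≠ 0 := nonZeroDivisors.ne_zero (IsFractionRing.den (R2 s) f).2
  have hfAB : algebraMap (R2 s) (K2 s) A / algebraMap (R2 s) (K2 s) B = f :=
    IsFractionRing.mk'_num_den' (R2 s) f
  have hA0 : A ≠ 0 := by
    intro h0
    apply hf
    refine ⟨0, ?_⟩
    rw [← hfAB, h0, map_zero, map_zero, zero_div]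
  have hinjW : Function.Injective (algebraMap s[X] (RatFunc s)) := RatFunc.algebraMap_injective s
  set W' : R2 s := A * py B - py A * B with hW'
  by_cases hW : W' = 0
  · -- a function of `x` alone
    have h1 : A * py B = py A * B := sub_eq_zero.1 hW
    have hdB : B ∣ py B := hrel.symm.dvd_of_dvd_mul_left (Dvd.intro_left _ h1.symm |>.trans (by rw [h1]))
    have hdA : A ∣ py A := hrel.dvd_of_dvd_mul_right (Dvd.intro _ h1)
    obtain ⟨b, hb⟩ := natDegree_eq_zero.1 (dvd_py_imp hdB)
    obtain ⟨a, ha⟩ := natDegree_eq_zero.1 (dvd_py_imp hdA)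
    have hb0 : b ≠ 0 := by
      rintro rfl
      apply hB0
      rw [← hb]
      simp
    let ψ : R2 s →+* RatFunc s :=
      (algebraMap s[X] (RatFunc s)).comp ((evX 0).comp (swR (k := s)).toRingHom)
    have hψC : ∀ q : s[X], ψ (C q) = algebraMap s[X] (RatFunc s) q := by
      intro q
      change algebraMap s[X] (RatFunc s) (evX 0 (swR (C q))) = _
      rw [swR_apply, Polynomial.Bivariate.swap_C, evX_apply, Polynomial.map_map]
      have : (evalRingHom (0 : s)).comp C = RingHom.id s := by
        ext t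
        simp
      rw [this, Polynomial.map_id]
    have hψ : ∀ g, ψ g = 0 ↔ yc 0 ∣ g := by
      intro g
      change algebraMap s[X] (RatFunc s) (evX 0 (swR g)) = 0 ↔ _
      rw [map_eq_zero_iff _ hinjW, ← xc_dvd_iff, ← swR_yc, swR_dvd_iff, swR_swR]
    have hnB : ¬ yc 0 ∣ B := by
      rw [← hψ, ← hb, hψC]
      simpa [hinjW.eq_iff] using hb0
    have hreg : f ∈ placeO (K2 s) (prime_yc (0 : s)) := ⟨A, B, hnB, hfAB.symm⟩
    refine ⟨yc 0, prime_yc 0, ψ, hψ, ?_, hreg, ?_⟩
    · intro t
      rw [hψC]
      exact algebraMap_C_ratfunc t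
    · rintro ⟨t, ht⟩
      rw [placeπ_eq (prime_yc (0 : s)) hψ _ hnB hfAB.symm, ← ha, ← hb, hψC, hψC] at ht
      have hbW : algebraMap s[X] (RatFunc s) b ≠ 0 := by
        simpa [hinjW.eq_iff] using hb0
      have h2 : algebraMap s[X] (RatFunc s) (C t * b) = algebraMap s[X] (RatFunc s) a := by
        rw [map_mul, algebraMap_C_ratfunc, ht]
        field_simp
      have h3 : a = C t * b := (hinjW h2).symm
      apply hf
      refine ⟨t, ?_⟩
      rw [← hfAB, algebraMap_K2, ← ha, ← hb, h3, C_mul, map_mul]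
      have : algebraMap (R2 s) (K2 s) (C b) ≠ 0 := by
        apply algebraMap_ne
        simpa using hb0
      field_simp
  · -- a function depending on `y`
    have hlc : W'.leadingCoeff ≠ 0 := by simpa using hW
    have hlcB : B.leadingCoeff ≠ 0 := by simpa using hB0
    obtain ⟨c, hc1, hc2⟩ := ((eventually_eval_ne hlc).and (eventually_eval_ne hlcB)).exists
    have hBc : ¬ xc c ∣ B := by
      rw [xc_dvd_iff]
      exact evX_ne_zero_of_lc hc2
    let ψ : R2 s →+* RatFunc s := (algebraMap s[X] (RatFunc s)).comp (evX c)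
    have hψ : ∀ g, ψ g = 0 ↔ xc c ∣ g := by
      intro g
      change algebraMap s[X] (RatFunc s) (evX c g) = 0 ↔ _
      rw [map_eq_zero_iff _ hinjW, xc_dvd_iff]
    have hreg : f ∈ placeO (K2 s) (prime_xc c) := ⟨A, B, hBc, hfAB.symm⟩
    refine ⟨xc c, prime_xc c, ψ, hψ, ?_, hreg, ?_⟩
    · intro t
      change algebraMap s[X] (RatFunc s) (evX c (C (C t))) = _
      simp only [evX_apply, map_C, coe_evalRingHom, eval_C]
      exact algebraMap_C_ratfunc t
    · rintro ⟨t, ht⟩
      rw [placeπ_eq (prime_xc c) hψ _ hBc hfAB.symm] at ht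
      have hBW : ψ B ≠ 0 := fun h => hBc ((hψ B).1 h)
      have h2 : ψ (C (C t) * B) = ψ A := by
        have : ψ (C (C t)) = algebraMap s (RatFunc s) t := by
          change algebraMap s[X] (RatFunc s) (evX c (C (C t))) = _
          simp only [evX_apply, map_C, coe_evalRingHom, eval_C]
          exact algebraMap_C_ratfunc t
        rw [map_mul, this, ht]
        field_simp
      have h3 : evX c A = C t * evX c B := by
        have h4 : algebraMap s[X] (RatFunc s) (evX c (C (C t) * B)) =
            algebraMap s[X] (RatFunc s) (evX c A) := h2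
        have h5 := hinjW h4
        rw [← h5, map_mul]
        simp
      have h6 : evX c W' = 0 := by
        have e1 : ∀ g : R2 s, evX c (py g) = derivative (evX c g) := by
          intro g
          simp only [py, evX_apply, derivative_map]
        rw [hW', map_sub, map_mul, map_mul, e1, e1, h3, derivative_mul]
        simp
        ring
      exact evX_ne_zero_of_lc hc1 h6

end GordanMain

end Vale.Agent.Lib.P019
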