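import Vale.Agent.Lib.P019.SUnit

/-!
The tame symbol along a plane curve: interface with the local order functions at points.
-/

set_option linter.unusedSectionVars false

namespace Vale.Agent.Lib.P019

open Polynomial TensorProduct nonZeroDivisors UniqueFactorizationMonoid Filter

section Iface

variable {l E : Type*} [Field l] [IsAlgClosed l] [Field E] {ℓ : ℕ} [hℓ : Fact ℓ.Prime]

lemma clsF_neg_one_res (φ : R2 l →+* E) : clsF ℓ (-1 : E) = 0 := by
  obtain ⟨w, hw⟩ := IsAlgClosed.exists_pow_nat_eq (-1 : l) hℓ.out.pos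
  apply clsF_eq_zero_of_pow (w := φ (C (C w)))
  rw [← map_pow, ← C_pow, ← C_pow, hw]
  simp

/-- The residue map along a curve. -/
noncomputable def resF (ℓ : ℕ) {F : R2 l} (hF : Prime F) {φ : R2 l →+* E} (hE : ResField F E φ) :
    V ℓ (K2 l) →ₗ[ZMod ℓ] V ℓ E :=
  resV ℓ (K2 l) φ F hF hE.ker

lemma resF_vr {F : R2 l} (hF : Prime F) {φ : R2 l →+* E} (hE : ResField F E φ) {a : R2 l}
    (h : ¬ F ∣ a) : resF ℓ hF hE (vr2 ℓ a) = clsF ℓ (φ a) :=
  resV_vr_of_not_dvd φ F hF hE.ker h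

/-- The tame relation along a curve. -/
lemma tame_rel {F : R2 l} (hF : Prime F) {φ : R2 l →+* E} (hE : ResField F E φ)
    {z w : V ℓ (K2 l)} (h : z ⊗ₜ[ZMod ℓ] w ∈ steinberg ℓ (K2 l)) :
    ordV ℓ (K2 l) F w • resF ℓ hF hE z = ordV ℓ (K2 l) F z • resF ℓ hF hE w := by
  have h1 := tameForm_steinberg φ F hF hE.ker (clsF_neg_one_res (ℓ := ℓ) φ) h
  rw [tameForm_tmul] at h1
  exact sub_eq_zero.1 h1

lemma resF_eq_zero {F : R2 l} (hF : Prime F) {φ : R2 l →+* E} (hE : ResField F E φ)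
    {z w : V ℓ (K2 l)} (h : z ⊗ₜ[ZMod ℓ] w ∈ steinberg ℓ (K2 l))
    (hz : ordV ℓ (K2 l) F z ≠ 0) (hw : ordV ℓ (K2 l) F w = 0) : resF ℓ hF hE w = 0 := by
  have h1 := tame_rel hF hE h
  rw [hw, zero_smul] at h1
  have := smul_eq_zero.1 h1.symm
  tauto

/-- An element of order zero is the class of a polynomial prime to the curve. -/
lemma exists_vr_not_dvd {F : R2 l} (hF : Prime F) {w : V ℓ (K2 l)}
    (h : ordV ℓ (K2 l) F w = 0) : ∃ a : R2 l, ¬ F ∣ a ∧ vr2 ℓ a = w := by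
  obtain ⟨a₀, ha₀, rfl⟩ := vr_surjective (A := R2 l) (F := K2 l) hℓ.out.ne_zero w
  obtain ⟨h1, h2⟩ := copart_spec hF ha₀
  refine ⟨copart F a₀, h2, ?_⟩
  rw [ordV_vr F hF ha₀] at h
  have h3 : copart F a₀ ≠ 0 := fun h0 => h2 (h0 ▸ dvd_zero _)
  conv_rhs => rw [h1]
  rw [vr_mul (pow_ne_zero _ hF.ne_zero) h3, vr_pow hF.ne_zero]
  have h4 : multiplicity F a₀ • vr2 ℓ F = 0 := by
    rw [← Nat.cast_smul_eq_nsmul (ZMod ℓ), h, zero_smul]
  rw [h4, zero_add]

/-- Order at a point on a curve of the residue of a class. -/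
theorem ord_local {F : R2 l} (hF : Prime F) {φ : R2 l →+* E} (hE : ResField F E φ)
    (ω : V ℓ E →ₗ[ZMod ℓ] ZMod ℓ) {p : R2 l} (hp : Prime p) (hω1 : ω (clsF ℓ (φ p)) = 1) {a b : l}
    (hω0 : ∀ f, ev2 a b f ≠ 0 → ω (clsF ℓ (φ f)) = 0) {w : V ℓ (K2 l)}
    (hw : ordV ℓ (K2 l) F w = 0)
    (hother : ∀ r, Prime r → ordV ℓ (K2 l) r w ≠ 0 → ¬ Associated r p → ev2 a b r ≠ 0) :
    ω (resF ℓ hF hE w) = ordV ℓ (K2 l) p w := by
  classical
  obtain ⟨S, hS1, hS2, hS3, hS4, hS5⟩ :=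
    exists_expansion (F := K2 l) (unitsDiv2 (k := l) (ℓ := ℓ)) w
  have hnot : ∀ r ∈ S, ¬ F ∣ r := by
    intro r hr hd
    have h1 : Associated F r := hF.associated_of_dvd (hS1 r hr) hd
    exact hS3 r hr (by rw [← ordV_congr hF h1]; exact hw)
  have hpF : ¬ F ∣ p := by
    intro hd
    rw [(hE.ker p).2 hd, clsF_zero, map_zero] at hω1
    exact zero_ne_one hω1
  have hsum : ω (resF ℓ hF hE w) =
      ∑ r ∈ S, ordV ℓ (K2 l) r w * ω (resF ℓ hF hE (vr2 ℓ r)) := by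
    conv_lhs => rw [hS5]
    simp only [map_sum, map_smul, smul_eq_mul]
  rw [hsum]
  have hterm0 : ∀ r ∈ S, ¬ Associated r p → ω (resF ℓ hF hE (vr2 ℓ r)) = 0 := by
    intro r hr hrp
    rw [resF_vr hF hE (hnot r hr)]
    exact hω0 r (hother r (hS1 r hr) (hS3 r hr) hrp)
  by_cases hq : ∃ q ∈ S, Associated q p
  · obtain ⟨q, hq, hqp⟩ := hq
    rw [Finset.sum_eq_single q]
    · have h1 : vr2 ℓ q = vr2 ℓ p := vr_congr unitsDiv2 hqp
      rw [h1, resF_vr hF hE hpF, hω1, mul_one]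
      rw [ordV_congr (hS1 q hq) hqp]
    · intro r hr hrq
      rw [hterm0 r hr (fun h => hrq (hS2 r hr q hq (h.trans hqp.symm))), mul_zero]
    · intro h
      exact absurd hq h
  · have h1 : ordV ℓ (K2 l) p w = 0 := by
      by_contra hne
      obtain ⟨q, hq', hpq⟩ := hS4 p hp hne
      exact hq ⟨q, hq', hpq.symm⟩
    rw [h1]
    apply Finset.sum_eq_zero
    intro r hr
    rw [hterm0 r hr (fun h => hq ⟨r, hr, h⟩), mul_zero]

/-- The product of the components of `w` other than `p`. -/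
lemma exists_rest (w : V ℓ (K2 l)) {p : R2 l} (hp : Prime p) :
    ∃ h : R2 l, ¬ p ∣ h ∧
      ∀ r, Prime r → ordV ℓ (K2 l) r w ≠ 0 → ¬ Associated r p → r ∣ h := by
  classical
  obtain ⟨S, hS1, hS2, hS3, hS4, hS5⟩ :=
    exists_expansion (F := K2 l) (unitsDiv2 (k := l) (ℓ := ℓ)) w
  refine ⟨∏ r ∈ S.filter (fun r => ¬ Associated r p), r, ?_, ?_⟩
  · intro hd
    obtain ⟨r, hr, hpr⟩ := (Prime.dvd_finset_prod_iff hp _).1 hd
    obtain ⟨hr1, hr2⟩ := Finset.mem_filter.1 hr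
    exact hr2 (hp.associated_of_dvd (hS1 r hr1) hpr).symm
  · intro r hr hne hnr
    obtain ⟨q, hq, hrq⟩ := hS4 r hr hne
    have h1 : ¬ Associated q p := fun h => hnr (hrq.trans h)
    exact hrq.dvd.trans (Finset.dvd_prod_of_mem _ (Finset.mem_filter.2 ⟨hq, h1⟩))

/-- Two elements whose tensor is a relation: a component of one not meeting the other component
transversally outside the rest. -/
theorem lemmaA {z w : V ℓ (K2 l)} (hzw : z ⊗ₜ[ZMod ℓ] w ∈ steinberg ℓ (K2 l)) {F : R2 l}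
    (hF : Prime F) (hzF : ordV ℓ (K2 l) F z ≠ 0) (hwF : ordV ℓ (K2 l) F w = 0) {p : R2 l}
    (hp : Prime p) (hwp : ordV ℓ (K2 l) p w ≠ 0) {h : R2 l}
    (hh : ∀ r, Prime r → ordV ℓ (K2 l) r w ≠ 0 → ¬ Associated r p → r ∣ h) {a b : l}
    (hF0 : ev2 a b F = 0) (hp0 : ev2 a b p = 0) (hJ : Jac a b F p ≠ 0) : ev2 a b h = 0 := by
  by_contra hne
  obtain ⟨E, _, φ, hE⟩ := exists_resField hF
  obtain ⟨ω, h1, h2⟩ := exists_ordAt (ℓ := ℓ) hF hE hF0 hp0 hJ
  have h3 : resF ℓ hF hE w = 0 := resF_eq_zero hF hE hzw hzF hwF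
  have h4 := ord_local hF hE ω hp h1 h2 hwF (by
    intro r hr hr0 hrp h0
    obtain ⟨u, hu⟩ := hh r hr hr0 hrp
    apply hne
    rw [hu, map_mul, h0, zero_mul])
  rw [h3, map_zero] at h4
  exact hwp h4.symm

end Iface

section Over

variable {s l : Type*} [Field s] [Field l] [Algebra s l] [IsAlgClosed s] [CharZero s]

/-- A common zero of two coprime curves over `s` is an `s`-point. -/
theorem common_zero_mem {g f : R2 s} (hg : Prime g) (hf : ¬ g ∣ f) {a b : l}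
    (h0 : ev2 a b (hat g) = 0) (h1 : ev2 a b (hat f) = 0) :
    a ∈ Set.range (algebraMap s l) ∧ b ∈ Set.range (algebraMap s l) := by
  by_cases hd : 0 < g.natDegree
  · obtain ⟨u, v, w, hw, huv⟩ := exists_bezout (coprime_toK1Y_of_not_dvd hg hd hf)
    have e1 : aeval a w = 0 := by
      rw [← ev2_hat_C (s := s) a b w, ← huv, map_add, map_mul, map_mul, map_add, map_mul, map_mul,
        h0, h1]
      simp
    have ha : a ∈ Set.range (algebraMap s l) := mem_range_of_isAlgebraic ⟨w, hw, e1⟩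
    refine ⟨ha, ?_⟩
    obtain ⟨a₀, rfl⟩ := ha
    have hne : evX a₀ g ≠ 0 := by
      intro h
      exact xc_dvd_of_prime_natDegree hg hd ((xc_dvd_iff a₀ g).2 h)
    refine mem_range_of_isAlgebraic ⟨evX a₀ g, hne, ?_⟩
    rw [← h0, ev2_hat_algebraMap]
  · have hd0 : g.natDegree = 0 := by omega
    obtain ⟨c, hc⟩ := exists_assoc_xc hg hd0
    have hc' : xc c ∣ g := hc.symm.dvd
    obtain ⟨w, hw⟩ := hc.dvd
    have e0 : ev2 a b (hat (xc c)) = 0 := by
      obtain ⟨u, hu⟩ := hc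
      have : (hat g : R2 l) * hat ((u : (R2 s)ˣ) : R2 s) = hat (xc c) := by rw [← map_mul, hu]
      rw [← this, map_mul, h0, zero_mul]
    have e1 : a = algebraMap s l c := by
      have : ev2 a b (hat (xc c)) = a - algebraMap s l c := by
        simp [xc]
      rw [this] at e0
      exact sub_eq_zero.1 e0
    subst e1
    refine ⟨⟨c, rfl⟩, ?_⟩
    have hne : evX c f ≠ 0 := by
      intro h
      apply hf
      exact hc.dvd.trans ((xc_dvd_iff c f).2 h)
    refine mem_range_of_isAlgebraic ⟨evX c f, hne, ?_⟩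
    rw [← h1, ev2_hat_algebraMap]

variable [CharZero l]

/-- The moving member of a pencil over `s` is transversal to every curve over `s`. -/
theorem tv {g A B : R2 s} (hg : Prime g) {ν : l} (hν : ν ∉ Set.range (algebraMap s l)) {a b : l}
    (h0 : ev2 a b (hat g) = 0) (h1 : ev2 a b (hat A - C (C ν) * hat B) = 0)
    (h2 : ev2 a b (hat B) ≠ 0) : Jac a b (hat g) (hat A - C (C ν) * hat B) ≠ 0 := by
  obtain ⟨d, hd⟩ := exists_derivation hν
  refine transv_core hg _ d h0 h1 ?_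
  have h3 : dC2 d (hat A - C (C ν) * hat B) = - hat B := by
    rw [sub_eq_add_neg, map_add, map_neg, dC2_mul, dC2_hat, dC2_hat, dC2_CC, hd]
    simp
  rw [h3, map_neg]
  exact neg_ne_zero.2 h2

end Over

end Vale.Agent.Lib.P019
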