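import Vale.Agent.Lib.P019.PartI

/-!
The images of the two coordinate pencils are pencils of two algebraically independent functions.
-/

set_option linter.unusedSectionVars false
set_option linter.style.haveILetI false

namespace Vale.Agent.Lib.P019

open Polynomial Algebra TensorProduct

universe u v

section Indep

variable {k : Type v} {l : Type u} [Field k] [Field l] [IsAlgClosed k] [IsAlgClosed l]
  [CharZero k] [CharZero l] {ℓ : ℕ} [hℓ : Fact ℓ.Prime]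

lemma isotropic_image_Ax {Θ : V ℓ (K2 k) ≃ₗ[ZMod ℓ] V ℓ (K2 l)} (hΘ : Compatible Θ) :
    Isotropic (Θ '' (Ax ℓ k : Set (V ℓ (K2 k)))) := by
  rintro _ ⟨a, ha, rfl⟩ _ ⟨b, hb, rfl⟩
  exact hΘ.mem (Ax_tensor ha hb)

lemma isotropic_image_Ay {Θ : V ℓ (K2 k) ≃ₗ[ZMod ℓ] V ℓ (K2 l)} (hΘ : Compatible Θ) :
    Isotropic (Θ '' (Ay ℓ k : Set (V ℓ (K2 k)))) := by
  rintro _ ⟨a, ha, rfl⟩ _ ⟨b, hb, rfl⟩
  exact hΘ.mem (Ay_tensor ha hb)

lemma ord1_rhoX_VS {k₂ : Type*} [Field k₂] [Algebra k₂ k] [IsAlgClosed k₂] {c₀ a : k}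
    (hc₀ : c₀ ∉ Set.range (algebraMap k₂ k))
    (ha : ∀ g : R2 k₂, evX c₀ (hat g) ≠ 0 → (evX c₀ (hat g)).eval a ≠ 0) {u : V ℓ (K2 k)}
    (hu : u ∈ VS ℓ k k₂) : ord1 ℓ a (rhoX ℓ c₀ u) = 0 := by
  induction hu using Submodule.span_induction with
  | mem x h =>
    obtain ⟨g, rfl⟩ := h
    by_cases hg : g = 0
    · simp [hg]
    · have hnd : ¬ xc c₀ ∣ (hat g : R2 k) := by
        intro hd
        obtain ⟨g', -, hass⟩ := overS_of_dvd (prime_xc c₀) hg hd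
        exact not_overS_xc hc₀ ⟨g', hass⟩
      simp only
      rw [rhoX_vr c₀ hnd]
      apply ord1_vr1_of_eval_ne
      apply ha
      intro h0
      exact hnd ((xc_dvd_iff c₀ _).2 h0)
  | zero => simp
  | add x y _ _ hx hy => rw [map_add, map_add, hx, hy, add_zero]
  | smul c x _ hx => rw [map_smul, map_smul, hx, smul_zero]

/-- The two coordinate pencils cannot both lie in one pencil up to classes over a countable
field. -/
theorem no_common_pencil [Uncountable k] {Θ : V ℓ (K2 k) ≃ₗ[ZMod ℓ] V ℓ (K2 l)} (hΘ : Compatible Θ)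
    (e : K2 l) {s : Type*} [Field s] [Algebra s l] [Countable s]
    (hx : ∀ z ∈ Ax ℓ k, Θ z ∈ Ypen ℓ e ⊔ VS ℓ l s) (hy : ∀ z ∈ Ay ℓ k, Θ z ∈ Ypen ℓ e ⊔ VS ℓ l s) :
    False := by
  classical
  obtain ⟨k₂, _, _, h1, h2, h3, -, hsub⟩ := exists_sub_of_countable (l := k) (ℓ := ℓ)
    (Θ.symm '' (VS ℓ l s : Set (V ℓ (K2 l)))) ((countable_VS (ℓ := ℓ) (l := l) s).image _) ∅
    Set.countable_empty
  obtain ⟨c₀, hc₀⟩ := exists_not_mem_countable (Set.countable_range (algebraMap k₂ k))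
  let Q : Set k := ⋃ g : {g : R2 k₂ // evX c₀ (hat g) ≠ 0}, {a | (evX c₀ (hat g.1 : R2 k)).IsRoot a}
  have hQ : Q.Countable := by
    apply Set.countable_iUnion
    intro g
    exact (Polynomial.finite_setOf_isRoot g.2).countable
  obtain ⟨a, ha⟩ := exists_not_mem_countable hQ
  have ha' : ∀ g : R2 k₂, evX c₀ (hat g) ≠ 0 → (evX c₀ (hat g)).eval a ≠ 0 := by
    intro g hg h0
    apply ha
    simp only [Q, Set.mem_iUnion]
    exact ⟨⟨g, hg⟩, h0⟩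
  have hξ : vr2 ℓ (xc c₀) ∈ Ax ℓ k := Submodule.subset_span ⟨c₀, rfl⟩
  have hη : vr2 ℓ (yc a) ∈ Ay ℓ k := Submodule.subset_span ⟨a, rfl⟩
  obtain ⟨Y, hY, w, hw, hYw⟩ := Submodule.mem_sup.1 (hx _ hξ)
  obtain ⟨Y', hY', w', hw', hYw'⟩ := Submodule.mem_sup.1 (hy _ hη)
  have hT := hΘ.symm.mem (Ypen_tensor e hY hY')
  have hu : Θ.symm w ∈ VS ℓ k k₂ := hsub ⟨w, hw, rfl⟩
  have hu' : Θ.symm w' ∈ VS ℓ k k₂ := hsub ⟨w', hw', rfl⟩
  have e1 : Θ.symm Y = vr2 ℓ (xc c₀) - Θ.symm w := by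
    rw [eq_sub_iff_add_eq, ← map_add, hYw, LinearEquiv.symm_apply_apply]
  have e2 : Θ.symm Y' = vr2 ℓ (yc a) - Θ.symm w' := by
    rw [eq_sub_iff_add_eq, ← map_add, hYw', LinearEquiv.symm_apply_apply]
  have hT2 := tameForm_steinberg (phiX c₀) (xc c₀) (prime_xc c₀) (phiX_eq_zero_iff c₀)
    (clsF_neg_one_K1 (ℓ := ℓ)) hT
  rw [tameForm_tmul] at hT2
  have o1 : ordV ℓ (K2 k) (xc c₀) (Θ.symm Y) = 1 := by
    rw [e1, map_sub, ordV_eq_zero_of_mem_VS (prime_xc c₀) (not_overS_xc hc₀) hu, sub_zero]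
    exact ordX_xc_self c₀
  have o2 : ordV ℓ (K2 k) (xc c₀) (Θ.symm Y') = 0 := by
    rw [e2, map_sub, ordV_eq_zero_of_mem_VS (prime_xc c₀) (not_overS_xc hc₀) hu', sub_zero]
    exact ordX_eq_zero_of_mem_Ay c₀ hη
  rw [o1, o2, zero_smul, one_smul, zero_sub, neg_eq_zero] at hT2
  have hT3 : rhoX ℓ c₀ (Θ.symm Y') = 0 := hT2
  rw [e2, map_sub, sub_eq_zero, rhoX_yc] at hT3
  have h5 := congrArg (ord1 ℓ a) hT3
  rw [ord1_X_sub_C, if_pos rfl, ord1_rhoX_VS hc₀ ha' hu'] at h5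
  exact one_ne_zero h5

end Indep

section Pairs

variable {k : Type v} {s l : Type u} [Field k] [Field l] [Field s] [Algebra s l] [IsAlgClosed s]
  [CharZero s] [IsAlgClosed k] [IsAlgClosed l] [CharZero k] [CharZero l] {ℓ : ℕ} [hℓ : Fact ℓ.Prime]

/-- The two pencils are algebraically independent. -/
theorem pencils_independent [Uncountable k] [Countable s] {Θ : V ℓ (K2 k) ≃ₗ[ZMod ℓ] V ℓ (K2 l)}
    (hΘ : Compatible Θ) {τ σ : K2 s} {A B C' D' : R2 s}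
    (hx : PencilOf s (Θ '' (Ax ℓ k : Set (V ℓ (K2 k)))) τ A B)
    (hy : PencilOf s (Θ '' (Ay ℓ k : Set (V ℓ (K2 k)))) σ C' D') {p₀ : R2 l} (hp₀ : Prime p₀)
    (hov : ¬ OverS s p₀) (hw₀ : ∃ w ∈ Θ '' (Ax ℓ k : Set (V ℓ (K2 k))), ordV ℓ (K2 l) p₀ w ≠ 0) :
    ¬ IsAlgebraic (Algebra.adjoin s {τ}) σ := by
  intro hσ
  obtain ⟨E₀, _, φ₀, hE₀⟩ := exists_resField hp₀
  have h₀ : Pt s p₀ E₀ φ₀ := ⟨hp₀, hE₀, hov⟩
  have hσ₀ : σ ∈ h₀.E1 := by
    refine h₀.mem_E1_of_isAlgebraic _ ?_ hσ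
    have : Algebra.adjoin s {τ} ≤ h₀.E1.toSubalgebra := by
      apply Algebra.adjoin_le
      rintro _ rfl
      exact hx.mem_E1 h₀ hw₀
    exact fun c hc => this hc
  have hfib : ∀ p : R2 l, Prime p → ¬ OverS s p →
      (∃ w ∈ Θ '' (Ay ℓ k : Set (V ℓ (K2 k))), ordV ℓ (K2 l) p w ≠ 0) →
      ∃ μ : l, Associated p (fib A B μ) := by
    intro p hp hovp hw
    obtain ⟨E, _, φ, hE⟩ := exists_resField hp
    have h : Pt s p E φ := ⟨hp, hE, hovp⟩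
    have hσh : σ ∈ h.E1 := hy.mem_E1 h hw
    have hE1 : h.E1 = IntermediateField.adjoin s {τ} := by
      rw [← hx.const h₀ hw₀]
      exact le_antisymm (Pt.E1_le_of_common h h₀ hσh hσ₀ hy.nc) (Pt.E1_le_of_common h₀ h hσ₀ hσh hy.nc)
    have hτh : τ ∈ h.E1 := by
      rw [hE1]
      exact IntermediateField.mem_adjoin_simple_self s τ
    obtain ⟨μ, hμ⟩ := hτh
    exact ⟨μ, bk h hE1 hx.nc hx.rel hx.ne hx.eq hμ⟩
  have hx' : ∀ p : R2 l, Prime p → ¬ OverS s p →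
      (∃ w ∈ Θ '' (Ax ℓ k : Set (V ℓ (K2 k))), ordV ℓ (K2 l) p w ≠ 0) →
      ∃ μ : l, Associated p (fib A B μ) := fun p hp hovp hw => hx.fibre hp hovp hw
  exact no_common_pencil hΘ _ (s := s)
    (fun z hz => mem_sup_of_fibres hx.ne hx' ⟨z, hz, rfl⟩)
    (fun z hz => mem_sup_of_fibres hx.ne hfib ⟨z, hz, rfl⟩)

/-- A moving component of one pencil is not a component of the other. -/
theorem ord_other_pencil {I J : Set (V ℓ (K2 l))} {τ σ : K2 s} {A B C' D' : R2 s}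
    (hx : PencilOf s I τ A B) (hy : PencilOf s J σ C' D')
    (hind : ¬ IsAlgebraic (Algebra.adjoin s {τ}) σ) {F : R2 l} (hF : Prime F) (hov : ¬ OverS s F)
    (hFI : ∃ w ∈ I, ordV ℓ (K2 l) F w ≠ 0) {w : V ℓ (K2 l)} (hw : w ∈ J) :
    ordV ℓ (K2 l) F w = 0 := by
  by_contra hne
  obtain ⟨E, _, φ, hE⟩ := exists_resField hF
  have h : Pt s F E φ := ⟨hF, hE, hov⟩
  exact hind (h.isAlgebraic_of_mem_E1 (hx.mem_E1 h hFI) hx.nc (hy.mem_E1 h ⟨w, hw, hne⟩))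

end Pairs

end Vale.Agent.Lib.P019
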