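import Vale.Agent.Lib.P019.Indep

/-!
Tame pairs on `V ℓ k(x,y)`: a pair `(θ, R)` obeying the tame identity, which vanishes as it should
on the two coordinate pencils, is the tame symbol at one vertical line, and `R` factors through the
restriction to this line.
-/

set_option linter.unusedSectionVars false
set_option linter.style.haveILetI false

namespace Vale.Agent.Lib.P019

open Polynomial TensorProduct

section Aux

variable {k : Type*} [Field k]

lemma fc_mul (c : k) (a b : R2 k) : fc c (a * b) = fc c a * fc c b := by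
  simp [fc, Polynomial.map_mul]

lemma fc_ne_zero {c : k} {h : R2 k} (hd : ¬ xc c ∣ h) : fc c h ≠ 0 := by
  rw [fc]
  intro h0
  apply hd
  rw [xc_dvd_iff]
  exact (Polynomial.map_eq_zero_iff C_injective).1 h0

lemma fc_yc (c a : k) : fc c (yc a) = yc a := by
  rw [fc]
  simp [yc]

/-- `fc` as a ring homomorphism. -/
noncomputable def fcHom (c : k) : R2 k →+* R2 k := (mapRingHom C).comp (evX c)

lemma fcHom_apply (c : k) (h : R2 k) : fcHom c h = fc c h := rfl

lemma associated_fc {c : k} {a b : R2 k} (h : Associated a b) : Associated (fc c a) (fc c b) := by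
  have := h.map (fcHom c)
  simpa [fcHom_apply] using this

lemma degX_cofactor {c : k} {f g : R2 k} (hg0 : g ≠ 0) (hg : f - fc c f = xc c * g) :
    degX g < degX f := by
  have hxc0 : xc c ≠ 0 := (prime_xc c).ne_zero
  have h3 : degX (xc c * g) = 1 + degX g := by
    rw [degX, degX, map_mul, natDegree_mul (by simpa using hxc0) (by simpa using hg0), swR_xc,
      natDegree_yc]
  have h4 : degX (f - fc c f) ≤ degX f := by
    rw [degX, degX, map_sub, swR_fc]
    refine (natDegree_sub_le _ _).trans ?_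
    rw [natDegree_C]
    exact max_le le_rfl (Nat.zero_le _)
  rw [hg, h3] at h4
  omega

lemma steinberg_frac {ℓ : ℕ} [hℓ : Fact ℓ.Prime] {u v f : R2 k} (hu : u ≠ 0) (hv : v ≠ 0) (hf : f ≠ 0)
    (h : u + v = f) : (vr2 ℓ u - vr2 ℓ f) ⊗ₜ[ZMod ℓ] (vr2 ℓ v - vr2 ℓ f) ∈ steinberg ℓ (K2 k) := by
  have hfF : algebraMap (R2 k) (K2 k) f ≠ 0 := algebraMap_ne hf
  have h1 := steinberg_mem' (ℓ := ℓ) (x := algebraMap (R2 k) (K2 k) u / algebraMap (R2 k) (K2 k) f)
    (y := algebraMap (R2 k) (K2 k) v / algebraMap (R2 k) (K2 k) f)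
    (div_ne_zero (algebraMap_ne hu) hfF) (div_ne_zero (algebraMap_ne hv) hfF) (by
      rw [← add_div, ← map_add, h, div_self hfF])
  rwa [clsF_frac hu hf, clsF_frac hv hf] at h1

end Aux

section Ay

variable {k : Type*} [Field k] [IsAlgClosed k] {ℓ : ℕ} [hℓ : Fact ℓ.Prime]

lemma fc_xc (c c' : k) : fc c (xc c') = C (C (c - c')) := by
  rw [fc, evX_xc]
  simp

lemma vr2_map_C_mem_Ay (p : k[X]) (hp : p ≠ 0) : vr2 ℓ (p.map C) ∈ Ay ℓ k := by
  classical
  induction p using UniqueFactorizationMonoid.induction_on_prime with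
  | h₁ => exact absurd rfl hp
  | h₂ u hu =>
    have h1 : IsUnit (u.map C : R2 k) := hu.map (mapRingHom C)
    have h2 : vr2 ℓ (u.map C : R2 k) = 0 := vr_isUnit unitsDiv2 h1
    rw [h2]
    exact zero_mem _
  | h₃ a q ha hq ih =>
    have ha0 : a ≠ 0 := right_ne_zero_of_mul hp
    have hdeg := IsAlgClosed.degree_eq_one_of_irreducible k hq.irreducible
    obtain ⟨c, hc⟩ := IsAlgClosed.exists_root q (by rw [hdeg]; simp)
    have hdvd : X - C c ∣ q := dvd_iff_isRoot.2 hc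
    have hass : Associated (X - C c) q := (prime_X_sub_C c).associated_of_dvd hq hdvd
    have hass2 : Associated (yc c) (q.map C) := by
      have := hass.map (mapRingHom (C : k →+* k[X]))
      simpa [yc] using this
    have hq0 : q.map C ≠ (0 : R2 k) := by
      rw [Ne, Polynomial.map_eq_zero_iff C_injective]
      exact hq.ne_zero
    have ha1 : a.map C ≠ (0 : R2 k) := by
      rw [Ne, Polynomial.map_eq_zero_iff C_injective]
      exact ha0
    rw [Polynomial.map_mul]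
    have h1 : vr2 ℓ (q.map C * a.map C) = vr2 ℓ (q.map C) + vr2 ℓ (a.map C) := vr_mul hq0 ha1
    rw [h1]
    refine add_mem ?_ (ih ha0)
    have h2 : vr2 ℓ (q.map C : R2 k) = vr2 ℓ (yc c) := (vr_congr unitsDiv2 hass2).symm
    rw [h2]
    exact Submodule.subset_span ⟨c, rfl⟩

lemma fc_mem_Ay (c : k) {h : R2 k} (hd : ¬ xc c ∣ h) : vr2 ℓ (fc c h) ∈ Ay ℓ k :=
  vr2_map_C_mem_Ay _ (fun h0 => hd ((xc_dvd_iff c h).2 h0))

variable [CharZero k]

lemma ordV_yc_map (a : k) (p : k[X]) (hp : p ≠ 0) :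
    ordV ℓ (K2 k) (yc a) (vr2 ℓ (p.map C)) = ord1 ℓ a (vr1 ℓ p) := by
  have hnd : ¬ xc (0 : k) ∣ p.map C := by
    rw [xc_dvd_iff, evX_map_C]
    exact hp
  rw [← ord1_rhoX_of_mem_Ay 0 a (vr2_map_C_mem_Ay p hp), rhoX_vr 0 hnd, evX_map_C]

end Ay

section LT

variable {k : Type*} [Field k] [IsAlgClosed k] [CharZero k] {ℓ : ℕ} [hℓ : Fact ℓ.Prime]
  {W : Type*} [AddCommGroup W] [Module (ZMod ℓ) W]

/-- A tame pair. -/
structure TamePair (θ : V ℓ (K2 k) →ₗ[ZMod ℓ] ZMod ℓ) (R : V ℓ (K2 k) →ₗ[ZMod ℓ] W) (Q : Set k) :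
    Prop where
  tame : ∀ {z w : V ℓ (K2 k)}, z ⊗ₜ[ZMod ℓ] w ∈ steinberg ℓ (K2 k) → θ w • R z = θ z • R w
  Rx : ∀ c, R (vr2 ℓ (xc c)) = 0
  θy : ∀ a, θ (vr2 ℓ (yc a)) = 0
  ker : ∀ z ∈ Ay ℓ k, ∀ a, a ∉ Q → ordV ℓ (K2 k) (yc a) z ≠ 0 → R z ≠ 0
  countable : Q.Countable

variable {θ : V ℓ (K2 k) →ₗ[ZMod ℓ] ZMod ℓ} {R : V ℓ (K2 k) →ₗ[ZMod ℓ] W} {Q : Set k}

lemma TamePair.θ_Ay (h : TamePair θ R Q) {z : V ℓ (K2 k)} (hz : z ∈ Ay ℓ k) : θ z = 0 := by
  induction hz using Submodule.span_induction with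
  | mem x hx =>
    obtain ⟨a, rfl⟩ := hx
    exact h.θy a
  | zero => simp
  | add x y _ _ hx hy => rw [map_add, hx, hy, add_zero]
  | smul c x _ hx => rw [map_smul, hx, smul_zero]

lemma TamePair.ker_yc (h : TamePair θ R Q) {a : k} (ha : a ∉ Q) : R (vr2 ℓ (yc a)) ≠ 0 := by
  apply h.ker _ (Submodule.subset_span ⟨a, rfl⟩) a ha
  rw [ordV_yc_yc, if_pos rfl]
  exact one_ne_zero

/-- Only one vertical line can have a nonzero order. -/
theorem TamePair.purity [Uncountable k] (h : TamePair θ R Q) {c₃ : k}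
    (hc₃ : θ (vr2 ℓ (xc c₃)) = 0) {c c' : k} (hc : θ (vr2 ℓ (xc c)) ≠ 0)
    (hc' : θ (vr2 ℓ (xc c')) ≠ 0) : c = c' := by
  by_contra hne
  have hbad : (((fun t => t - c₃) '' Q) ∪ ((fun t => t - c) '' Q)).Countable :=
    (h.countable.image _).union (h.countable.image _)
  obtain ⟨d, hd⟩ := exists_not_mem_countable hbad
  have hd₃ : c₃ + d ∉ Q := fun hq => hd (Or.inl ⟨_, hq, by ring⟩)
  have hdc : c + d ∉ Q := fun hq => hd (Or.inr ⟨_, hq, by ring⟩)
  set L : R2 k := line 1 d with hL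
  have hL0 : L ≠ 0 := line_ne_zero 1 d
  have key : ∀ c'' : k, θ (vr2 ℓ (xc c'')) • (R (vr2 ℓ L) - R (vr2 ℓ (yc (c'' + d)))) =
      - (θ (vr2 ℓ L) • R (vr2 ℓ (yc (c'' + d)))) := by
    intro c''
    have e : L + xc c'' = yc (c'' + d) := by
      have := yc_eq_line (1 : k) d c''
      rw [one_mul] at this
      rw [this, hL]
      simp
    have hT := h.tame (steinberg_frac (ℓ := ℓ) hL0 (prime_xc c'').ne_zero (prime_yc (c'' + d)).ne_zero e)
    simp only [map_sub] at hT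
    rw [h.θy, h.Rx, sub_zero, sub_zero, zero_sub, smul_neg] at hT
    exact hT
  have h3 := key c₃
  rw [hc₃, zero_smul] at h3
  have hθL : θ (vr2 ℓ L) = 0 := by
    have h4 : θ (vr2 ℓ L) • R (vr2 ℓ (yc (c₃ + d))) = 0 := by
      rw [← neg_eq_zero]
      exact h3.symm
    exact (smul_eq_zero.1 h4).resolve_right (h.ker_yc hd₃)
  have h5 := key c
  have h6 := key c'
  rw [hθL, zero_smul, neg_zero] at h5 h6
  have h7 := (smul_eq_zero.1 h5).resolve_left hc
  have h8 := (smul_eq_zero.1 h6).resolve_left hc'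
  have h9 : R (vr2 ℓ (yc (c + d)) - vr2 ℓ (yc (c' + d))) = 0 := by
    rw [map_sub]
    rw [sub_eq_zero] at h7 h8 ⊢
    rw [← h7, ← h8]
  refine h.ker _ (sub_mem (Submodule.subset_span ⟨_, rfl⟩) (Submodule.subset_span ⟨_, rfl⟩))
    (c + d) hdc ?_ h9
  rw [map_sub, ordV_yc_yc, ordV_yc_yc, if_pos rfl, if_neg, sub_zero]
  · exact one_ne_zero
  · intro h10
    exact hne (add_right_cancel h10).symm

/-- The statement proved by induction. -/
def TamePair.S (θ : V ℓ (K2 k) →ₗ[ZMod ℓ] ZMod ℓ) (R : V ℓ (K2 k) →ₗ[ZMod ℓ] W) (c₀ : k)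
    (h : R2 k) : Prop :=
  θ (vr2 ℓ h) = 0 ∧ R (vr2 ℓ h) = R (vr2 ℓ (fc c₀ h))

lemma TamePair.S_congr {c₀ : k} {a b : R2 k} (hab : Associated a b) (h : TamePair.S θ R c₀ b) :
    TamePair.S θ R c₀ a := by
  have h1 : vr2 ℓ a = vr2 ℓ b := vr_congr unitsDiv2 hab
  have h2 : vr2 ℓ (fc c₀ a) = vr2 ℓ (fc c₀ b) := vr_congr unitsDiv2 (associated_fc hab)
  exact ⟨by rw [h1]; exact h.1, by rw [h1, h2]; exact h.2⟩

lemma TamePair.step (h : TamePair θ R Q) {c₀ : k} (hc₀ : θ (vr2 ℓ (xc c₀)) ≠ 0) {f P g : R2 k}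
    (hP : P ≠ 0) (hg : g ≠ 0) (hf : f ≠ 0) (e : P + xc c₀ * g = f) (h1 : θ (vr2 ℓ f) = 0)
    (h2 : θ (vr2 ℓ P) = 0) (h3 : θ (vr2 ℓ g) = 0) : R (vr2 ℓ f) = R (vr2 ℓ P) := by
  have hx0 := (prime_xc c₀).ne_zero
  have hT := h.tame (steinberg_frac (ℓ := ℓ) hP (mul_ne_zero hx0 hg) hf e)
  have h4 : vr2 ℓ (xc c₀ * g) = vr2 ℓ (xc c₀) + vr2 ℓ g := vr_mul hx0 hg
  rw [h4] at hT
  simp only [map_sub, map_add] at hT
  rw [h1, h2, h3, sub_zero, add_zero, sub_zero, zero_smul] at hT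
  have h5 := (smul_eq_zero.1 hT).resolve_left hc₀
  exact (sub_eq_zero.1 h5).symm

/-- The induction step for a prime. -/
lemma TamePair.prime_case [Uncountable k] (h : TamePair θ R Q) {c₀ : k}
    (hc₀ : θ (vr2 ℓ (xc c₀)) ≠ 0) (hθ : ∀ c, c ≠ c₀ → θ (vr2 ℓ (xc c)) = 0) {f : R2 k}
    (hf : Prime f) (hd : ¬ xc c₀ ∣ f)
    (IH : ∀ g : R2 k, g ≠ 0 → ¬ xc c₀ ∣ g → degX g < degX f → TamePair.S θ R c₀ g) :
    TamePair.S θ R c₀ f := by
  classical
  by_cases hY : f.natDegree = 0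
  · obtain ⟨c, hc⟩ := exists_assoc_xc hf hY
    have hcc : c ≠ c₀ := by
      rintro rfl
      exact hd hc.symm.dvd
    apply TamePair.S_congr hc
    refine ⟨hθ c hcc, ?_⟩
    rw [h.Rx, fc_xc, vr2_CC, map_zero]
  by_cases hX : degX f = 0
  · obtain ⟨c, hc⟩ := exists_assoc_xc (prime_swR hf) hX
    have h2 : Associated f (yc c) := by
      have := hc.map (swR (k := k) : R2 k →+* R2 k)
      simp only [RingEquiv.coe_toRingHom, swR_swR, swR_xc] at this
      exact this
    apply TamePair.S_congr h2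
    exact ⟨h.θy c, by rw [fc_yc]⟩
  have hY' : 0 < f.natDegree := Nat.pos_of_ne_zero hY
  have hX' : 0 < degX f := Nat.pos_of_ne_zero hX
  have hf0 : f ≠ 0 := hf.ne_zero
  have hyc : ∀ a, ¬ Associated f (yc a) := by
    intro a ha
    have h1 := ha.map (swR (k := k) : R2 k →+* R2 k)
    simp only [RingEquiv.coe_toRingHom, swR_yc] at h1
    have h2 : (swR f).natDegree = (xc a).natDegree := by
      obtain ⟨u, hu⟩ := h1
      rw [← hu, natDegree_mul (by simpa using hf0) u.ne_zero, natDegree_eq_zero_of_isUnit u.isUnit,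
        add_zero]
    rw [xc, natDegree_C] at h2
    exact hX h2
  have hev₀ : evX c₀ f ≠ 0 := fun h0 => hd ((xc_dvd_iff c₀ f).2 h0)
  have hF0 : (fc c₀ f) ≠ 0 := fc_ne_zero hd
  -- first part: the order vanishes
  have hθf : θ (vr2 ℓ f) = 0 := by
    set t : Finset (R2 k) := (evX c₀ f).roots.toFinset.image yc with ht
    have ht' : ∀ q ∈ t, Prime q ∧ 0 < q.natDegree ∧ ¬ Associated f q := by
      intro q hq
      obtain ⟨a, -, rfl⟩ := Finset.mem_image.1 hq
      exact ⟨prime_yc a, by rw [natDegree_yc]; exact one_pos, hyc a⟩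
    have hgen := generic_simple hf hY' t ht'
    have hfin : {c | ¬ ((evX c f).natDegree = f.natDegree ∧
        ∀ a, (evX c f).eval a = 0 → (derivative (evX c f)).eval a ≠ 0 ∧
          ∀ q ∈ t, (evX c q).eval a ≠ 0)}.Finite := hgen
    have hQ : (⋃ a ∈ Q, {c : k | ev2 c a f = 0}).Countable := by
      apply h.countable.biUnion
      intro a _
      have hne : evX a (swR f) ≠ 0 := by
        intro h0
        have h1 : xc a ∣ swR f := (xc_dvd_iff a _).2 h0
        have h2 : swR (yc a) ∣ swR f := by rwa [swR_yc]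
        have h3 : yc a ∣ f := by
          have := swR_dvd_iff.1 h2
          rwa [swR_swR] at this
        exact hyc a (hf.associated_of_dvd (prime_yc a) (by
          exact (hf.dvd_prime_iff_associated (prime_yc a)).2
            ((prime_yc a).associated_of_dvd hf h3).symm))
      apply Set.Finite.countable
      apply (Polynomial.finite_setOfPred_isRoot hne).subset
      intro c hc
      have h1 : ev2 a c (swR f) = ev2 c a f := ev2_swR a c f
      have h2 : ev2 a c (swR f) = (evX a (swR f)).eval c := rfl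
      change (evX a (swR f)).eval c = 0
      rw [← h2, h1]
      exact hc
    have hbad := (hfin.countable.union (Set.countable_singleton c₀)).union hQ
    obtain ⟨c, hc⟩ := exists_not_mem_countable hbad
    simp only [Set.mem_union, not_or, Set.mem_iUnion, not_exists, Set.mem_singleton_iff] at hc
    obtain ⟨⟨hc1, hc2⟩, hc3⟩ := hc
    simp only [Set.mem_ofPred_eq, not_not] at hc1
    obtain ⟨hc1, hc4⟩ := hc1
    have hdeg : (evX c f).degree ≠ 0 := by
      have : (evX c f).natDegree ≠ 0 := by omega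
      intro h0
      exact this (natDegree_eq_of_degree_eq_some h0)
    obtain ⟨a, ha⟩ := IsAlgClosed.exists_root (evX c f) hdeg
    have ha' : (evX c f).eval a = 0 := ha
    obtain ⟨ha1, ha2⟩ := hc4 a ha'
    have haQ : a ∉ Q := by
      intro hq
      apply hc3 a hq
      exact ha'
    have ha₀ : (evX c₀ f).eval a ≠ 0 := by
      intro h0
      have hmem : yc a ∈ t := by
        apply Finset.mem_image.2
        exact ⟨a, Multiset.mem_toFinset.2 ((Polynomial.mem_roots hev₀).2 h0), rfl⟩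
      have := ha2 _ hmem
      apply this
      simp [yc]
    obtain ⟨g, hg⟩ := xc_dvd_sub_fc c f
    have hevg : (evX c₀ g).eval a ≠ 0 := by
      intro h0
      have h1 := congrArg (fun p => (evX c₀ p).eval a) hg
      simp only [map_sub, map_mul, eval_sub, eval_mul, h0, mul_zero, sub_eq_zero] at h1
      rw [fc, evX_map_C, ha'] at h1
      exact ha₀ h1
    have hndg : ¬ xc c₀ ∣ g := by
      intro hdvd
      apply hevg
      rw [(xc_dvd_iff c₀ g).1 hdvd]
      simp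
    have hg0 : g ≠ 0 := fun h0 => hndg (h0 ▸ dvd_zero _)
    obtain ⟨hg1, hg2⟩ := IH g hg0 hndg (degX_cofactor hg0 hg)
    have hx0 := (prime_xc c).ne_zero
    have hev : evX c f ≠ 0 := by
      intro h0
      rw [h0] at ha1
      simp at ha1
    have hndc : ¬ xc c ∣ f := fun h0 => hev ((xc_dvd_iff c f).1 h0)
    have hu0 : fc c f ≠ 0 := fc_ne_zero hndc
    have hT := h.tame (steinberg_frac (ℓ := ℓ) hu0 (mul_ne_zero hx0 hg0) hf0 (by
      rw [← hg]
      ring))
    have h4 : vr2 ℓ (xc c * g) = vr2 ℓ (xc c) + vr2 ℓ g := vr_mul hx0 hg0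
    rw [h4] at hT
    simp only [map_sub, map_add] at hT
    rw [hθ c hc2, hg1, h.θ_Ay (fc_mem_Ay c hndc), h.Rx, hg2, zero_add, zero_add, zero_sub,
      neg_smul, neg_smul] at hT
    have hT' := neg_inj.1 hT
    rw [← sub_eq_zero, ← smul_sub] at hT'
    rcases smul_eq_zero.1 hT' with h5 | h5
    · exact h5
    · exfalso
      have hndg' : ¬ xc c₀ ∣ g := hndg
      have h6 : R (vr2 ℓ (fc c f) - vr2 ℓ (fc c₀ g)) = 0 := by
        rw [map_sub]
        rw [sub_eq_zero, sub_left_inj] at h5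
        rw [h5, sub_self]
      refine h.ker _ (sub_mem (fc_mem_Ay c hndc) (fc_mem_Ay c₀ hndg')) a haQ ?_ h6
      rw [map_sub, fc, fc, ordV_yc_map a _ hev, ordV_yc_map a _ (fun h0 => hndg ((xc_dvd_iff c₀ g).2 h0)),
        ord1_vr1_simple ha' ha1, ord1_vr1_of_eval_ne hevg, sub_zero]
      exact one_ne_zero
  refine ⟨hθf, ?_⟩
  -- second part: the residue
  obtain ⟨g, hg⟩ := xc_dvd_sub_fc c₀ f
  have hg0 : g ≠ 0 := by
    rintro rfl
    rw [mul_zero] at hg
    have : f = fc c₀ f := sub_eq_zero.1 hg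
    rw [this, degX_fc] at hX'
    omega
  have hdegg := degX_cofactor hg0 hg
  have hsum : fc c₀ f + xc c₀ * g = f := by
    rw [← hg]
    ring
  by_cases hnd : xc c₀ ∣ g
  · -- the auxiliary polynomial `f₀ + (x - c₀)`
    have hdeg1 : 1 ≤ degX g := by
      obtain ⟨w, rfl⟩ := hnd
      have hw : w ≠ 0 := right_ne_zero_of_mul hg0
      rw [degX, map_mul, natDegree_mul (by simpa using (prime_xc c₀).ne_zero) (by simpa using hw),
        swR_xc, natDegree_yc]
      omega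
    set P : R2 k := fc c₀ f + xc c₀ with hP
    have hevP : evX c₀ P = evX c₀ f := by
      rw [hP, map_add, evX_fc, (xc_dvd_iff c₀ (xc c₀)).1 dvd_rfl, add_zero]
    have hndP : ¬ xc c₀ ∣ P := by
      rw [xc_dvd_iff, hevP]
      exact hev₀
    have hP0 : P ≠ 0 := fun h0 => hndP (h0 ▸ dvd_zero _)
    have hdegP : degX P < degX f := by
      have h1 : degX P ≤ 1 := by
        rw [degX, hP, map_add, swR_fc, swR_xc]
        refine (natDegree_add_le _ _).trans ?_
        rw [natDegree_C, natDegree_yc]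
        omega
      omega
    have hevg1 : evX c₀ (g - 1) = -1 := by
      rw [map_sub, (xc_dvd_iff c₀ g).1 hnd, map_one, zero_sub]
    have hndg1 : ¬ xc c₀ ∣ g - 1 := by
      rw [xc_dvd_iff, hevg1]
      simp
    have hg10 : g - 1 ≠ 0 := fun h0 => hndg1 (h0 ▸ dvd_zero _)
    have hdegg1 : degX (g - 1) < degX f := by
      have h1 : degX (g - 1) ≤ degX g := by
        rw [degX, degX, map_sub, map_one]
        refine (natDegree_sub_le _ _).trans ?_
        simp
      omega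
    obtain ⟨hP1, hP2⟩ := IH P hP0 hndP hdegP
    obtain ⟨hg1, -⟩ := IH (g - 1) hg10 hndg1 hdegg1
    have e : P + xc c₀ * (g - 1) = f := by
      rw [hP]
      linear_combination hsum
    rw [h.step hc₀ hP0 hg10 hf0 e hθf hP1 hg1, hP2]
    congr 2
    rw [fc, fc, hevP]
  · obtain ⟨hg1, -⟩ := IH g hg0 hnd hdegg
    exact h.step hc₀ hF0 hg0 hf0 hsum hθf (h.θ_Ay (fc_mem_Ay c₀ hd)) hg1

lemma degX_le_of_dvd {a b : R2 k} (hb : b ≠ 0) (h : a ∣ b) : degX a ≤ degX b := by
  obtain ⟨w, rfl⟩ := h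
  have ha : a ≠ 0 := left_ne_zero_of_mul hb
  have hw : w ≠ 0 := right_ne_zero_of_mul hb
  rw [degX, degX, map_mul, natDegree_mul (by simpa using ha) (by simpa using hw)]
  omega

/-- The inductive statement. -/
theorem TamePair.main [Uncountable k] (h : TamePair θ R Q) {c₀ : k}
    (hc₀ : θ (vr2 ℓ (xc c₀)) ≠ 0) (hθ : ∀ c, c ≠ c₀ → θ (vr2 ℓ (xc c)) = 0) (n : ℕ) :
    ∀ g : R2 k, g ≠ 0 → ¬ xc c₀ ∣ g → degX g < n → TamePair.S θ R c₀ g := by
  classical
  induction n with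
  | zero => intro g _ _ hlt; omega
  | succ n ih =>
    intro g hg0 hd hlt
    have key : ∀ g : R2 k, g ≠ 0 → ¬ xc c₀ ∣ g → degX g ≤ n → TamePair.S θ R c₀ g := by
      intro g
      induction g using UniqueFactorizationMonoid.induction_on_prime with
      | h₁ => intro h0; exact absurd rfl h0
      | h₂ u hu =>
        intro _ _ _
        have h1 : IsUnit (fc c₀ u) := hu.map (fcHom c₀)
        have h2 : vr2 ℓ (fc c₀ u) = 0 := vr_isUnit unitsDiv2 h1
        have h3 : vr2 ℓ u = 0 := vr_isUnit unitsDiv2 hu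
        exact ⟨by rw [h3, map_zero], by rw [h3, h2]⟩
      | h₃ a q ha hq ih2 =>
        intro hg0 hd hdeg
        have ha0 : a ≠ 0 := right_ne_zero_of_mul hg0
        have hqa : ¬ xc c₀ ∣ q := fun h1 => hd (h1.trans (dvd_mul_right _ _))
        have haa : ¬ xc c₀ ∣ a := fun h1 => hd (h1.trans (dvd_mul_left _ _))
        have hdq : degX q ≤ n := (degX_le_of_dvd hg0 (dvd_mul_right _ _)).trans hdeg
        have hda : degX a ≤ n := (degX_le_of_dvd hg0 (dvd_mul_left _ _)).trans hdeg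
        have h1 := ih2 ha0 haa hda
        have h2 := h.prime_case hc₀ hθ hq hqa (fun g' hg' hd' hlt' => ih g' hg' hd' (by omega))
        have e1 : vr2 ℓ (q * a) = vr2 ℓ q + vr2 ℓ a := vr_mul hq.ne_zero ha0
        have e2 : vr2 ℓ (fc c₀ (q * a)) = vr2 ℓ (fc c₀ q) + vr2 ℓ (fc c₀ a) := by
          rw [fc_mul]
          exact vr_mul (fc_ne_zero hqa) (fc_ne_zero haa)
        refine ⟨?_, ?_⟩
        · rw [e1, map_add, h1.1, h2.1, add_zero]
        · rw [e1, e2, map_add, map_add, h1.2, h2.2]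
    exact key g hg0 hd (by omega)

/-- The conclusion: `R` is determined by the restriction to the line. -/
theorem TamePair.exists_Ay [Uncountable k] (h : TamePair θ R Q) {c₀ : k}
    (hc₀ : θ (vr2 ℓ (xc c₀)) ≠ 0) (hθ : ∀ c, c ≠ c₀ → θ (vr2 ℓ (xc c)) = 0)
    (z : V ℓ (K2 k)) : ∃ y₀ ∈ Ay ℓ k, R z = R y₀ := by
  obtain ⟨g, hg, rfl⟩ := vr_surjective (A := R2 k) (F := K2 k) hℓ.out.ne_zero z
  obtain ⟨h1, h2⟩ := copart_spec (prime_xc c₀) hg
  set g' := copart (xc c₀) g with hg'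
  have hg'0 : g' ≠ 0 := fun h0 => h2 (h0 ▸ dvd_zero _)
  refine ⟨vr2 ℓ (fc c₀ g'), fc_mem_Ay c₀ h2, ?_⟩
  have h3 := (h.main hc₀ hθ (degX g' + 1) g' hg'0 h2 (by omega)).2
  rw [← h3, h1]
  have hp : (xc c₀) ^ multiplicity (xc c₀) g ≠ 0 := pow_ne_zero _ (prime_xc c₀).ne_zero
  have h4 : vr ℓ (K2 k) ((xc c₀) ^ multiplicity (xc c₀) g * g') =
      vr ℓ (K2 k) ((xc c₀) ^ multiplicity (xc c₀) g) + vr ℓ (K2 k) g' := vr_mul hp hg'0
  rw [h4, map_add, vr_pow (prime_xc c₀).ne_zero, map_nsmul]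
  have := h.Rx c₀
  rw [this]
  simp

end LT

end Vale.Agent.Lib.P019
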