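import Vale.Agent.Lib.P019.Normalize

/-!
For a normalized admissible map, images of lines are multiples of classes of lines.
-/

set_option linter.unusedSectionVars false

namespace Vale.Agent.Lib.P019

open Polynomial TensorProduct nonZeroDivisors UniqueFactorizationMonoid Filter
open scoped Classical

variable {k l : Type*} [Field k] [Field l]
variable [IsAlgClosed k] [IsAlgClosed l] [CharZero k] [CharZero l] {ℓ : ℕ} [hℓ : Fact ℓ.Prime]

lemma mbar_eq_zero_of_NX {Θ : V ℓ (K2 k) ≃ₗ[ZMod ℓ] V ℓ (K2 l)} (hA : Adm Θ) (hN : NX Θ) (μ : l) :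
    mbar Θ μ = 0 := by
  obtain ⟨c₁, c₂, c₃, h12, h13, h23⟩ := exists_three (k := k)
  exact (abstract_row_eq h12 h13 h23 (fun c c' hc => hN μ c c' hc)
    (fun c c' hc => row_mbar hA μ hc)).symm

/-- Monomial form of a normalized map on the pencil `Ax`. -/
theorem monomial_of_NX {Θ : V ℓ (K2 k) ≃ₗ[ZMod ℓ] V ℓ (K2 l)} (hA : Adm Θ) (hN : NX Θ) :
    ∃ (π : k → l) (ε : k → ZMod ℓ), Function.Bijective π ∧ (∀ c, ε c ≠ 0) ∧
      ∀ c, Θ (vr2 ℓ (xc c)) = ε c • vr2 ℓ (xc (π c)) := by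
  have hm := mbar_eq_zero_of_NX hA hN
  choose ρ hρ using exists_mbar_row_ne hA
  have hinj : Function.Injective ρ := by
    intro μ τ h
    by_contra hne
    refine pure_unique hA hne (hm μ) (hm τ) (hρ μ) ?_
    rw [h]
    exact hρ τ
  have hne_zero : ∀ {μ : l} {c : k}, Ent Θ μ c ≠ 0 → ρ μ = c := by
    intro μ c h
    by_contra hne
    rcases hN μ (ρ μ) c hne with h1 | h1
    · exact hρ μ h1
    · exact h h1
  have hsurj : Function.Surjective ρ := by
    intro c
    have h1 : Θ (vr2 ℓ (xc c)) ≠ 0 := by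
      simpa using vr2_xc_ne_zero (ℓ := ℓ) c
    have h2 : ∃ μ, ordX ℓ μ (Θ (vr2 ℓ (xc c))) ≠ 0 := by
      by_contra hcon
      push Not at hcon
      exact h1 (mem_Ax_iff_coords (hA.x_gen c) hcon)
    obtain ⟨μ, hμ⟩ := h2
    exact ⟨μ, hne_zero hμ⟩
  let e : l ≃ k := Equiv.ofBijective ρ ⟨hinj, hsurj⟩
  have he : ∀ c, ρ (e.symm c) = c := fun c => e.apply_symm_apply c
  refine ⟨e.symm, fun c => Ent Θ (e.symm c) c, e.symm.bijective, ?_, ?_⟩
  · intro c
    have := hρ (e.symm c)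
    rwa [he] at this
  · intro c
    rw [← sub_eq_zero]
    apply mem_Ax_iff_coords
    · exact sub_mem (hA.x_gen c) (Submodule.smul_mem _ _ (Submodule.subset_span ⟨_, rfl⟩))
    · intro τ
      rw [map_sub, map_smul, ordX_xc_xc]
      by_cases hτ : e.symm c = τ
      · subst hτ
        rw [if_pos rfl, smul_eq_mul, mul_one]
        exact sub_self _
      · rw [if_neg hτ, smul_zero, sub_zero]
        by_contra hne
        apply hτ
        have := hne_zero hne
        rw [← this]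
        exact e.symm_apply_apply τ

/-- A class all of whose orders at `x - μ` vanish and all of whose restrictions are single
points is a multiple of the class of a prime of `y`-degree one. -/
theorem single_of_restrictions {z : V ℓ (K2 l)} (hz : z ≠ 0) (h1 : ∀ μ, ordX ℓ μ z = 0)
    (h2 : ∀ μ, ∃ (ν : l) (n : ZMod ℓ), rhoX ℓ μ z = n • vr1 ℓ (X - C ν)) :
    ∃ (g : R2 l) (n : ZMod ℓ), Prime g ∧ g.natDegree = 1 ∧ n ≠ 0 ∧ z = n • vr2 ℓ g := by
  obtain ⟨s, hs1, hs2, hs3, -, hs5⟩ := exists_expansion (F := K2 l) (unitsDiv2 (k := l) (ℓ := ℓ)) z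
  have hpos : ∀ p ∈ s, 0 < p.natDegree := by
    intro p hp
    by_contra h0
    have h3 : p.natDegree = 0 := by omega
    obtain ⟨c, hc⟩ := exists_assoc_xc (hs1 p hp) h3
    apply hs3 p hp
    rw [ordV_congr (hs1 p hp) hc]
    exact h1 c
  have hne : s.Nonempty := by
    by_contra hemp
    rw [Finset.not_nonempty_iff_eq_empty] at hemp
    rw [hemp, Finset.sum_empty] at hs5
    exact hz hs5
  have hgen : ∀ᶠ μ in cofinite, ∀ p ∈ s, (evX μ p).natDegree = p.natDegree ∧
      ∀ a, (evX μ p).eval a = 0 → (derivative (evX μ p)).eval a ≠ 0 ∧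
        ∀ q ∈ s.erase p, (evX μ q).eval a ≠ 0 := by
    rw [Filter.eventually_all_finset]
    intro p hp
    apply generic_simple (hs1 p hp) (hpos p hp)
    intro q hq
    obtain ⟨hq1, hq2⟩ := Finset.mem_erase.1 hq
    exact ⟨hs1 q hq2, hpos q hq2, fun h => hq1 (hs2 p hp q hq2 h).symm⟩
  obtain ⟨μ, hμ⟩ := hgen.exists
  obtain ⟨ν, n₀, hν⟩ := h2 μ
  have hrho : rhoX ℓ μ z = ∑ q ∈ s, ordV ℓ (K2 l) q z • vr1 ℓ (evX μ q) := by
    conv_lhs => rw [hs5]
    rw [map_sum]
    apply Finset.sum_congr rfl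
    intro q hq
    rw [map_smul, rhoX_vr μ (xc_dvd_of_prime_natDegree (hs1 q hq) (hpos q hq))]
  -- every root of a restriction is `ν`
  have hroot : ∀ p ∈ s, ∀ a, (evX μ p).eval a = 0 → a = ν := by
    intro p hp a ha
    obtain ⟨h3, h4⟩ := (hμ p hp).2 a ha
    have h5 : ord1 ℓ a (rhoX ℓ μ z) = ordV ℓ (K2 l) p z := by
      rw [hrho, map_sum, Finset.sum_eq_single p]
      · rw [map_smul, ord1_vr1_simple ha h3, smul_eq_mul, mul_one]
      · intro q hq hqp
        rw [map_smul, ord1_vr1_of_eval_ne (h4 q (Finset.mem_erase.2 ⟨hqp, hq⟩)), smul_zero]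
      · intro h
        exact absurd hp h
    rw [hν, map_smul, ord1_X_sub_C] at h5
    by_contra hne
    rw [if_neg (Ne.symm hne), smul_zero] at h5
    exact hs3 p hp h5.symm
  have hexroot : ∀ p ∈ s, (evX μ p).eval ν = 0 := by
    intro p hp
    have hdeg : (evX μ p).degree ≠ 0 := by
      have h3 : (evX μ p).natDegree ≠ 0 := by
        rw [(hμ p hp).1]
        exact (hpos p hp).ne'
      intro h
      exact h3 (natDegree_eq_of_degree_eq_some h)
    obtain ⟨a, ha⟩ := IsAlgClosed.exists_root (evX μ p) hdeg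
    have ha' : (evX μ p).eval a = 0 := ha
    rw [← hroot p hp a ha']
    exact ha'
  obtain ⟨p, hp⟩ := hne
  have hsing : s = {p} := by
    ext q
    simp only [Finset.mem_singleton]
    constructor
    · intro hq
      by_contra hqp
      exact ((hμ p hp).2 ν (hexroot p hp)).2 q (Finset.mem_erase.2 ⟨hqp, hq⟩) (hexroot q hq)
    · rintro rfl
      exact hp
  -- the degree is one
  have hdeg1 : p.natDegree = 1 := by
    rw [← (hμ p hp).1]
    obtain ⟨r, hr⟩ := dvd_iff_isRoot.2 (hexroot p hp)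
    have hdv := ((hμ p hp).2 ν (hexroot p hp)).1
    have hrν : r.eval ν ≠ 0 := by
      intro h0
      apply hdv
      rw [hr]
      simp only [derivative_mul, derivative_sub, derivative_X, derivative_C, sub_zero, one_mul,
        eval_add, eval_mul, eval_sub, eval_X, eval_C, sub_self, zero_mul, add_zero]
      exact h0
    have hr0 : r ≠ 0 := by
      rintro rfl
      simp at hrν
    have hrdeg : r.degree = 0 := by
      by_contra hne
      obtain ⟨a, ha⟩ := IsAlgClosed.exists_root r hne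
      have ha' : r.eval a = 0 := ha
      have h3 : (evX μ p).eval a = 0 := by
        rw [hr, eval_mul, ha', mul_zero]
      have h4 := hroot p hp a h3
      rw [h4] at ha'
      exact hrν ha'
    rw [hr, natDegree_mul (X_sub_C_ne_zero ν) hr0, natDegree_X_sub_C,
      natDegree_eq_of_degree_eq_some hrdeg]
    rfl
  refine ⟨p, ordV ℓ (K2 l) p z, hs1 p hp, hdeg1, hs3 p hp, ?_⟩
  conv_lhs => rw [hs5, hsing, Finset.sum_singleton]

lemma rhoX_line (μ b d : l) : evX μ (line b d) = X - C (b * μ + d) := by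
  simp [line]

lemma evX_line_not_dvd (μ b d : l) : ¬ xc μ ∣ line b d := by
  rw [xc_dvd_iff, rhoX_line]
  exact X_sub_C_ne_zero _

lemma prime_line (b d : l) : Prime (line b d) := prime_X_sub_C _

lemma natDegree_line (b d : l) : (line b d).natDegree = 1 := natDegree_X_sub_C _

lemma vr2_line_ne_zero (b d : l) : vr2 ℓ (line b d) ≠ 0 := by
  intro h
  have := ordV_vr_self (ℓ := ℓ) (F := K2 l) (line b d) (prime_line b d)
  have h' : vr ℓ (K2 l) (line b d) = 0 := h
  rw [h', map_zero] at this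
  exact zmod_one_ne this.symm

/-- Data of a normalized map: both pencils are mapped monomially. -/
structure NormalData (Θ : V ℓ (K2 k) ≃ₗ[ZMod ℓ] V ℓ (K2 l)) (π π' : k → l) (ε ε' : k → ZMod ℓ) :
    Prop where
  adm : Adm Θ
  nx : NX Θ
  bij : Function.Bijective π
  bij' : Function.Bijective π'
  ne : ∀ c, ε c ≠ 0
  ne' : ∀ c, ε' c ≠ 0
  hx : ∀ c, Θ (vr2 ℓ (xc c)) = ε c • vr2 ℓ (xc (π c))
  hy : ∀ a, Θ (vr2 ℓ (yc a)) = ε' a • vr2 ℓ (yc (π' a))

lemma NormalData.ent {Θ : V ℓ (K2 k) ≃ₗ[ZMod ℓ] V ℓ (K2 l)} {π π' : k → l} {ε ε' : k → ZMod ℓ}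
    (D : NormalData Θ π π' ε ε') (c : k) : Ent Θ (π c) c = ε c := by
  rw [Ent, D.hx, map_smul, ordX_xc_self, smul_eq_mul, mul_one]

lemma NormalData.ordX_line {Θ : V ℓ (K2 k) ≃ₗ[ZMod ℓ] V ℓ (K2 l)} {π π' : k → l}
    {ε ε' : k → ZMod ℓ} (D : NormalData Θ π π' ε ε') {b : k} (hb : b ≠ 0) (d : k) (μ : l) :
    ordX ℓ μ (Θ (vr2 ℓ (line b d))) = 0 := by
  rw [line_ord D.adm hb d μ, mbar_eq_zero_of_NX D.adm D.nx]

lemma NormalData.rhoX_line {Θ : V ℓ (K2 k) ≃ₗ[ZMod ℓ] V ℓ (K2 l)} {π π' : k → l}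
    {ε ε' : k → ZMod ℓ} (D : NormalData Θ π π' ε ε') {b : k} (hb : b ≠ 0) (d c : k) :
    rhoX ℓ (π c) (Θ (vr2 ℓ (line b d))) = ε' (b * c + d) • vr1 ℓ (X - C (π' (b * c + d))) := by
  have h := spade D.adm hb d c (π c)
  have e1 : ordX ℓ (π c) (Θ (vr2 ℓ (xc c))) = ε c := D.ent c
  rw [e1, D.ordX_line hb, sub_zero] at h
  have h2 := smul_right_injective _ (D.ne c) h
  rw [← h2, D.hy, map_smul, rhoX_yc]

lemma line_eq (b d : l) : line b d = X - C (C b) * C X - C (C d) := by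
  simp only [line, C_add, C_mul]
  ring

/-- The swap of a line is a multiple of a line. -/
lemma swR_line {b : l} (hb : b ≠ 0) (d : l) :
    swR (line b⁻¹ (-(d * b⁻¹))) = C (C (-b⁻¹)) * line b d := by
  have h1 : (C (C b⁻¹) : R2 l) * C (C b) = 1 := by
    rw [← C_mul, ← C_mul, inv_mul_cancel₀ hb]
    simp
  rw [line_eq, line_eq]
  simp only [map_sub, map_mul, swR_apply, Polynomial.Bivariate.swap_X, Polynomial.Bivariate.swap_Y,
    Polynomial.Bivariate.swap_C_C]
  have e1 : (C (C (-(d * b⁻¹))) : R2 l) = - (C (C b⁻¹) * C (C d)) := by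
    rw [← C_mul, ← C_mul, ← C_neg, ← C_neg, mul_comm]
  have e2 : (C (C (-b⁻¹)) : R2 l) = - C (C b⁻¹) := by
    rw [← C_neg, ← C_neg]
  rw [e1, e2]
  linear_combination (-(C X : R2 l)) * h1

lemma vr2_swR_line {b : l} (hb : b ≠ 0) (d : l) :
    vr2 ℓ (swR (line b⁻¹ (-(d * b⁻¹)))) = vr2 ℓ (line b d) := by
  rw [swR_line hb d]
  have h0 : (C (C (-b⁻¹)) : R2 l) ≠ 0 := by
    simpa using hb
  have h1 : vr2 ℓ (C (C (-b⁻¹)) * line b d) = vr2 ℓ (C (C (-b⁻¹))) + vr2 ℓ (line b d) :=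
    vr_mul h0 (line_ne_zero b d)
  rw [h1, vr2_CC, zero_add]

lemma natDegree_eq_of_associated {p q : R2 l} (hp : p ≠ 0) (h : Associated p q) :
    p.natDegree = q.natDegree := by
  obtain ⟨u, rfl⟩ := h
  rw [natDegree_mul hp u.ne_zero, natDegree_eq_zero_of_isUnit u.isUnit, add_zero]

/-- A prime of bidegree `(1,1)` with constant leading coefficient in `y` is a multiple of a line. -/
lemma exists_line_of_bidegree {g : R2 l} (hg0 : g ≠ 0) (hg1 : g.natDegree = 1)
    (hg2 : (swR g).natDegree = 1) (hA : ∀ μ : l, (g.coeff 1).eval μ ≠ 0) :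
    ∃ (α B E : l), α ≠ 0 ∧ B ≠ 0 ∧ g = C (C α) * line B E := by
  have hform := eq_X_add_C_of_natDegree_le_one (p := g) hg1.le
  set A := g.coeff 1 with hAdef
  set B₀ := g.coeff 0 with hB₀
  have hAdeg : A.degree = 0 := by
    by_contra hne
    obtain ⟨a, ha⟩ := IsAlgClosed.exists_root A hne
    exact hA a ha
  obtain ⟨α, hα⟩ : ∃ α, A = C α := ⟨_, eq_C_of_degree_eq_zero hAdeg⟩
  have hα0 : α ≠ 0 := by
    rintro rfl
    have := hA 0
    rw [hα] at this
    simp at this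
  have hsw : swR g = C (C α) * C X + B₀.map C := by
    conv_lhs => rw [hform, hα]
    simp only [map_add, map_mul, swR_apply, Polynomial.Bivariate.swap_X, Polynomial.Bivariate.swap_Y,
      Polynomial.Bivariate.swap_C_C, Polynomial.Bivariate.swap_C, Polynomial.map_C]
  have h1 : (C (C α) * C X : R2 l).natDegree = 0 := by
    rw [← C_mul, natDegree_C]
  have hB₀deg : B₀.natDegree = 1 := by
    have hm : (B₀.map (C : l →+* l[X])).natDegree = B₀.natDegree :=
      natDegree_map_eq_of_injective C_injective _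
    rw [hsw] at hg2
    by_contra hne
    by_cases h0 : B₀.natDegree = 0
    · have h2 : (C (C α) * C X + B₀.map C : R2 l).natDegree = 0 := by
        have := natDegree_add_le (C (C α) * C X : R2 l) (B₀.map C)
        rw [h1, hm, h0] at this
        omega
      omega
    · have hlt : (C (C α) * C X : R2 l).natDegree < (B₀.map C).natDegree := by
        rw [h1, hm]
        omega
      rw [natDegree_add_eq_right_of_natDegree_lt hlt, hm] at hg2
      exact hne hg2
  have hB₀form := eq_X_add_C_of_natDegree_le_one (p := B₀) hB₀deg.le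
  set β₁ := B₀.coeff 1 with hβ₁
  set β₀ := B₀.coeff 0 with hβ₀
  have hβ₁0 : β₁ ≠ 0 := by
    intro h
    have : B₀.leadingCoeff = 0 := by
      rw [leadingCoeff, hB₀deg, ← hβ₁, h]
    rw [leadingCoeff_eq_zero] at this
    rw [this] at hB₀deg
    simp at hB₀deg
  refine ⟨α, -β₁ / α, -β₀ / α, hα0, div_ne_zero (neg_ne_zero.2 hβ₁0) hα0, ?_⟩
  rw [line_eq]
  conv_lhs => rw [hform, hα, hB₀form]
  have e1 : (C (C α) : R2 l) * C (C (-β₁ / α)) = - C (C β₁) := by
    rw [← C_mul, ← C_mul, mul_div_cancel₀ _ hα0]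
    simp
  have e2 : (C (C α) : R2 l) * C (C (-β₀ / α)) = - C (C β₀) := by
    rw [← C_mul, ← C_mul, mul_div_cancel₀ _ hα0]
    simp
  simp only [C_add, C_mul]
  linear_combination (C X : R2 l) * e1 + e2

/-- The image of a line under a normalized map. -/
theorem line_analysis {Θ : V ℓ (K2 k) ≃ₗ[ZMod ℓ] V ℓ (K2 l)} {π π' : k → l} {ε ε' : k → ZMod ℓ}
    (D : NormalData Θ π π' ε ε') (D' : NormalData (conjSw Θ) π' π ε' ε) {b : k} (hb : b ≠ 0)
    (d : k) :
    ∃ (B E : l) (n : ZMod ℓ), B ≠ 0 ∧ n ≠ 0 ∧ Θ (vr2 ℓ (line b d)) = n • vr2 ℓ (line B E) ∧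
      ∀ c, π' (b * c + d) = B * π c + E ∧ ε' (b * c + d) = n := by
  set F := Θ (vr2 ℓ (line b d)) with hF
  have hF0 : F ≠ 0 := by
    simpa [hF] using vr2_line_ne_zero (ℓ := ℓ) b d
  have hne1 : ∀ c, rhoX ℓ (π c) F ≠ 0 := by
    intro c
    rw [hF, D.rhoX_line hb d c]
    exact smul_ne_zero (D.ne' _) (vr1_X_sub_C_ne_zero _)
  obtain ⟨g, n, hgp, hg1, hn, hFg⟩ := single_of_restrictions hF0 (fun μ => D.ordX_line hb d μ)
    (fun μ => by
      obtain ⟨c, rfl⟩ := D.bij.2 μ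
      exact ⟨_, _, D.rhoX_line hb d c⟩)
  -- the swapped line
  have hb' : b⁻¹ ≠ 0 := inv_ne_zero hb
  have hsw : conjSw Θ (vr2 ℓ (line b⁻¹ (-(d * b⁻¹)))) = swV ℓ F := by
    rw [conjSw_vr, vr2_swR_line hb d]
  have hF0' : swV ℓ F ≠ 0 := by
    simpa using hF0
  obtain ⟨g', n', hgp', hg1', hn', hFg'⟩ := single_of_restrictions hF0'
    (fun μ => by
      rw [← hsw]
      exact D'.ordX_line hb' _ μ)
    (fun μ => by
      obtain ⟨c, rfl⟩ := D'.bij.2 μ
      rw [← hsw]
      exact ⟨_, _, D'.rhoX_line hb' _ c⟩)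
  have hswF : swV ℓ F = n • vr2 ℓ (swR g) := by
    rw [hFg, map_smul, swV_vr]
  have hpsw : Prime (swR g) := prime_swR hgp
  have hassoc : Associated (swR g) g' := by
    by_contra hna
    have h1 := congrArg (ordV ℓ (K2 l) (swR g)) (hswF.symm.trans hFg')
    rw [map_smul, map_smul, ordV_vr_self _ hpsw, ordV_vr_of_not_associated hpsw hgp' hna] at h1
    simp only [smul_eq_mul, mul_one, mul_zero] at h1
    exact hn h1
  have hdeg2 : (swR g).natDegree = 1 := by
    rw [natDegree_eq_of_associated hpsw.ne_zero hassoc, hg1']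
  -- the leading coefficient has no zero
  have hAne : ∀ μ : l, (g.coeff 1).eval μ ≠ 0 := by
    intro μ h0
    obtain ⟨c, rfl⟩ := D.bij.2 μ
    apply hne1 c
    have hform := eq_X_add_C_of_natDegree_le_one (p := g) hg1.le
    have hev : evX (π c) g = C ((g.coeff 0).eval (π c)) := by
      conv_lhs => rw [hform]
      simp [h0]
    rw [hFg, map_smul, rhoX_vr _ (xc_dvd_of_prime_natDegree hgp (by omega)), hev, vr1_C, smul_zero]
  obtain ⟨α, B, E, hα, hB, hgform⟩ := exists_line_of_bidegree hgp.ne_zero hg1 hdeg2 hAne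
  have hvr : vr2 ℓ g = vr2 ℓ (line B E) := by
    rw [hgform]
    have h0 : (C (C α) : R2 l) ≠ 0 := by simpa using hα
    have h1 : vr2 ℓ (C (C α) * line B E) = vr2 ℓ (C (C α)) + vr2 ℓ (line B E) :=
      vr_mul h0 (line_ne_zero B E)
    rw [h1, vr2_CC, zero_add]
  have hF2 : F = n • vr2 ℓ (line B E) := by rw [hFg, hvr]
  refine ⟨B, E, n, hB, hn, hF2, fun c => ?_⟩
  have h1 := D.rhoX_line hb d c
  rw [← hF, hF2, map_smul, rhoX_vr _ (evX_line_not_dvd _ _ _), rhoX_line] at h1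
  have h2 := congrArg (ord1 ℓ (π' (b * c + d))) h1
  rw [map_smul, map_smul, ord1_X_sub_C, ord1_X_sub_C, if_pos rfl, smul_eq_mul, smul_eq_mul,
    mul_one] at h2
  by_cases h3 : B * π c + E = π' (b * c + d)
  · rw [if_pos h3, mul_one] at h2
    exact ⟨h3.symm, h2.symm⟩
  · rw [if_neg h3, mul_zero] at h2
    exact absurd h2.symm (D.ne' _)

end Vale.Agent.Lib.P019
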