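import Vale.Agent.Lib.P019.Point

/-!
The residues of the second pencil along a moving member of the first pencil: local computations
at the intersection points.
-/

set_option linter.unusedSectionVars false
set_option linter.style.haveILetI false

namespace Vale.Agent.Lib.P019

open Polynomial Algebra TensorProduct

universe u

section Unique

variable {l E : Type*} [Field l] [Field E] {ℓ : ℕ} [hℓ : Fact ℓ.Prime]

lemma ev2_ne_of_assoc {a b : l} {r q : R2 l} (h : Associated r q) (hq : ev2 a b q ≠ 0) :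
    ev2 a b r ≠ 0 := by
  obtain ⟨u, rfl⟩ := h
  intro h0
  rw [map_mul, h0, zero_mul] at hq
  exact hq rfl

lemma ev2_eq_zero_of_assoc {a b : l} {r q : R2 l} (h : Associated r q) (hq : ev2 a b q = 0) :
    ev2 a b r = 0 := by
  by_contra h0
  exact ev2_ne_of_assoc h.symm h0 hq

/-- A curve not dividing any local parameter. -/
lemma not_dvd_of_Jac {F t : R2 l} {a b : l} (hF0 : ev2 a b F = 0) (hJ : Jac a b F t ≠ 0) : ¬ F ∣ t := by
  rintro ⟨w, rfl⟩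
  apply hJ
  rw [Jac, px_mul, py_mul]
  simp only [map_add, map_mul, hF0]
  ring

/-- Two local parameters have the same order. -/
theorem ordAt_eq_one {F : R2 l} (hF : Prime F) {φ : R2 l →+* E} (hE : ResField F E φ) {a b : l}
    (hF0 : ev2 a b F = 0) {t t' : R2 l} (ht0 : ev2 a b t = 0) (hJ : Jac a b F t ≠ 0)
    (ht0' : ev2 a b t' = 0) (hJ' : Jac a b F t' ≠ 0) (ω : V ℓ E →ₗ[ZMod ℓ] ZMod ℓ)
    (h1 : ω (clsF ℓ (φ t)) = 1) (h2 : ∀ f, ev2 a b f ≠ 0 → ω (clsF ℓ (φ f)) = 0) :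
    ω (clsF ℓ (φ t')) = 1 := by
  obtain ⟨F₁, F₂, hF1, hF2, hF3⟩ := taylor a b F
  obtain ⟨t₁, t₂, ht1, ht2, ht3⟩ := taylor a b t
  obtain ⟨x₁, x₂, hx1, hx2, hx3⟩ := taylor a b t'
  rw [hF0] at hF1
  rw [ht0] at ht1
  rw [ht0'] at hx1
  simp only [map_zero, add_zero] at hF1 ht1 hx1
  set D := F₁ * t₂ - F₂ * t₁ with hD
  set W := x₂ * F₁ - x₁ * F₂ with hW
  have hD0 : ev2 a b D ≠ 0 := by
    rw [hD, map_sub, map_mul, map_mul, hF2, hF3, ht2, ht3]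
    exact hJ
  have hW0 : ev2 a b W ≠ 0 := by
    rw [hW, map_sub, map_mul, map_mul, hF2, hF3, hx2, hx3]
    intro h0
    apply hJ'
    rw [Jac]
    linear_combination h0
  have hrel : F ∣ D * t' - t * W := by
    refine ⟨x₁ * t₂ - x₂ * t₁, ?_⟩
    rw [hx1, hD, hW]
    linear_combination (-(x₂ * F₁ - x₁ * F₂)) * ht1 + (-(x₁ * t₂ - x₂ * t₁)) * hF1
  have he : φ D * φ t' = φ t * φ W := by
    have := (hE.ker _).2 hrel
    rw [map_sub, map_mul, map_mul] at this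
    exact sub_eq_zero.1 this
  have nz : ∀ f, ¬ F ∣ f → φ f ≠ 0 := fun f hf h0 => hf ((hE.ker f).1 h0)
  have nz' : ∀ f, ev2 a b f ≠ 0 → φ f ≠ 0 := by
    intro f hf h0
    obtain ⟨w, rfl⟩ := (hE.ker f).1 h0
    apply hf
    rw [map_mul, hF0, zero_mul]
  have hD1 := nz' D hD0
  have hW1 := nz' W hW0
  have ht1' := nz t (not_dvd_of_Jac hF0 hJ)
  have hx1' := nz t' (not_dvd_of_Jac hF0 hJ')
  have h3 : ω (clsF ℓ (φ D * φ t')) = ω (clsF ℓ (φ t * φ W)) := by rw [he]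
  rw [clsF_mul hD1 hx1', clsF_mul ht1' hW1, map_add, map_add, h2 D hD0, h2 W hW0, h1, zero_add,
    add_zero] at h3
  exact h3

lemma Jac_xc (F : R2 l) (a₁ a b : l) : Jac a b F (xc a₁) = - ev2 a b (py F) := by
  have h1 : px (xc a₁ : R2 l) = 1 := by
    simp [px, xc, Polynomial.Bivariate.swap_C]
  have h2 : py (xc a₁ : R2 l) = 0 := by
    simp [py, xc]
  rw [Jac, h1, h2]
  simp

lemma Jac_yc (F : R2 l) (b₁ a b : l) : Jac a b F (yc b₁) = ev2 a b (px F) := by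
  have h1 : px (yc b₁ : R2 l) = 0 := by
    have : (yc b₁ : R2 l) = X + C (C (-b₁)) := by
      simp [yc, sub_eq_add_neg]
    rw [this, px_add, px_X, px_CC, add_zero]
  have h2 : py (yc b₁ : R2 l) = 1 := by
    simp [py, yc]
  rw [Jac, h1, h2]
  simp

lemma Jac_add (F G H : R2 l) (a b : l) : Jac a b F (G + H) = Jac a b F G + Jac a b F H := by
  simp only [Jac, px_add, py_add, map_add]
  ring

/-- A linear form separating two points, transversal to a curve at the first one. -/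
lemma exists_linear {a₁ b₁ a₂ b₂ : l} (hne : a₁ ≠ a₂ ∨ b₁ ≠ b₂) {F G : R2 l}
    (hJ : Jac a₁ b₁ F G ≠ 0) :
    ∃ L : R2 l, ev2 a₁ b₁ L = 0 ∧ ev2 a₂ b₂ L ≠ 0 ∧ Jac a₁ b₁ F L ≠ 0 := by
  set p := ev2 a₁ b₁ (px F) with hp
  set r := ev2 a₁ b₁ (py F) with hr
  have hgrad : p ≠ 0 ∨ r ≠ 0 := by
    by_contra hcon
    push Not at hcon
    apply hJ
    rw [Jac, ← hp, ← hr, hcon.1, hcon.2]
    ring
  have ev_xc : ∀ a b c : l, ev2 a b (xc c) = a - c := by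
    intro a b c
    simp [xc]
  have ev_yc : ∀ a b c : l, ev2 a b (yc c) = b - c := by
    intro a b c
    simp [yc]
  by_cases h1 : a₂ - a₁ ≠ 0 ∧ r ≠ 0
  · refine ⟨xc a₁, by rw [ev_xc, sub_self], by rw [ev_xc]; exact h1.1, ?_⟩
    rw [Jac_xc, ← hr]
    exact neg_ne_zero.2 h1.2
  by_cases h2 : b₂ - b₁ ≠ 0 ∧ p ≠ 0
  · refine ⟨yc b₁, by rw [ev_yc, sub_self], by rw [ev_yc]; exact h2.1, ?_⟩
    rw [Jac_yc, ← hp]
    exact h2.2
  refine ⟨xc a₁ + yc b₁, by rw [map_add, ev_xc, ev_yc, sub_self, sub_self, add_zero],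
    ?_, ?_⟩
  · rw [map_add, ev_xc, ev_yc]
    intro h0
    have hu : a₂ - a₁ ≠ 0 ∨ b₂ - b₁ ≠ 0 := by
      rcases hne with h | h
      · exact Or.inl (sub_ne_zero.2 (Ne.symm h))
      · exact Or.inr (sub_ne_zero.2 (Ne.symm h))
    have hu1 : a₂ - a₁ ≠ 0 ∧ b₂ - b₁ ≠ 0 := by
      constructor
      · intro h3
        rw [h3, zero_add] at h0
        rcases hu with h | h
        · exact h h3
        · exact h h0
      · intro h3
        rw [h3, add_zero] at h0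
        rcases hu with h | h
        · exact h h0
        · exact h h3
    have hr0 : r = 0 := by
      by_contra hr1
      exact h1 ⟨hu1.1, hr1⟩
    have hp0 : p = 0 := by
      by_contra hp1
      exact h2 ⟨hu1.2, hp1⟩
    rcases hgrad with h | h
    · exact h hp0
    · exact h hr0
  · rw [Jac_add, Jac_xc, Jac_yc, ← hp, ← hr]
    intro h0
    have hpr : p = r := by linear_combination h0
    by_cases hr0 : r = 0
    · rcases hgrad with h | h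
      · exact h (hpr.trans hr0)
      · exact h hr0
    · have hp0 : p ≠ 0 := by rwa [hpr]
      have hu1 : a₂ - a₁ = 0 := by
        by_contra h3
        exact h1 ⟨h3, hr0⟩
      have hu2 : b₂ - b₁ = 0 := by
        by_contra h3
        exact h2 ⟨h3, hp0⟩
      rcases hne with h | h
      · exact h (sub_eq_zero.1 hu1).symm
      · exact h (sub_eq_zero.1 hu2).symm

end Unique

section Alg

variable {s l : Type*} [Field s] [Field l] [Algebra s l]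

lemma ev2_alg_alg (a₀ b₀ : s) (g : R2 s) :
    ev2 (algebraMap s l a₀) (algebraMap s l b₀) (hat g) = algebraMap s l (ev2 a₀ b₀ g) := by
  induction g using R2_induction with
  | hc t => simp
  | hx => simp
  | hy => simp
  | hadd f g hf hg => simp only [map_add, hf, hg]
  | hmul f g hf hg => simp only [map_mul, hf, hg]

end Alg

section Res

variable {s s₂ l : Type u} [Field s] [Field l] [Field s₂] [Algebra s l] [Algebra s₂ l]
  [IsAlgClosed s] [CharZero s] [IsAlgClosed s₂] [CharZero s₂] [IsAlgClosed l] [CharZero l]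
  {ℓ : ℕ} [hℓ : Fact ℓ.Prime]

lemma fib_of_mem (C₂ D₂ : R2 s₂) (ν₂ : s₂) :
    (hat (C₂ - C (C ν₂) * D₂) : R2 l) = hat C₂ - C (C (algebraMap s₂ l ν₂)) * hat D₂ := by
  rw [map_sub, map_mul, hat_CC]

/-- A moving component of the second pencil. -/
theorem exists_moving {J : Set (V ℓ (K2 l))} {σ : K2 s} {C' D' : R2 s} (hy : PencilOf s J σ C' D')
    (hr : Set.range (algebraMap s l) ⊆ Set.range (algebraMap s₂ l)) {w : V ℓ (K2 l)} (hw : w ∈ J)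
    (hw₂ : w ∉ VS ℓ l s₂) :
    ∃ ν : l, ν ∉ Set.range (algebraMap s₂ l) ∧ Prime (fib C' D' ν) ∧
      ordV ℓ (K2 l) (fib C' D' ν) w ≠ 0 := by
  have h1 : ∃ p : R2 l, Prime p ∧ ordV ℓ (K2 l) p w ≠ 0 ∧ ¬ OverS s₂ p := by
    by_contra hcon
    push Not at hcon
    exact hw₂ (mem_VS_of_forall fun p hp hne => hcon p hp hne)
  obtain ⟨p, hp, hne, hov⟩ := h1
  have hovs : ¬ OverS s p := fun h => hov (h.mono hr)
  obtain ⟨ν, hν⟩ := hy.fibre hp hovs ⟨w, hw, hne⟩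
  refine ⟨ν, ?_, hν.prime_iff.1 hp, ?_⟩
  · rintro ⟨ν₂, rfl⟩
    apply hov
    obtain ⟨C₂, hC₂⟩ := exists_hat_of_range hr C'
    obtain ⟨D₂, hD₂⟩ := exists_hat_of_range hr D'
    refine ⟨C₂ - C (C ν₂) * D₂, ?_⟩
    rw [fib_of_mem, hC₂, hD₂]
    exact hν
  · rw [← ordV_congr hp hν]
    exact hne

/-- The residue of an element of the second pencil at an intersection point. -/
theorem ord_res_eq {I J : Set (V ℓ (K2 l))} {τ σ : K2 s} {A B C' D' : R2 s}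
    (hx : PencilOf s I τ A B) (hy : PencilOf s J σ C' D')
    (hind : ¬ IsAlgebraic (Algebra.adjoin s {τ}) σ)
    (hr : Set.range (algebraMap s l) ⊆ Set.range (algebraMap s₂ l))
    {F₂ : R2 s₂} (hF₂ : Prime F₂) (hov : ¬ OverS s (hat F₂ : R2 l))
    (hFI : ∃ w ∈ I, ordV ℓ (K2 l) (hat F₂ : R2 l) w ≠ 0)
    {E : Type*} [Field E] {φ : R2 l →+* E} (hE : ResField (hat F₂ : R2 l) E φ)
    {ν : l} (hν : ν ∉ Set.range (algebraMap s₂ l)) (hG : Prime (fib C' D' ν))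
    {a b : l} (h0 : ev2 a b (hat F₂ : R2 l) = 0) (h1 : ev2 a b (fib C' D' ν) = 0)
    (h2 : ev2 a b (hat D' : R2 l) ≠ 0) :
    Jac a b (hat F₂ : R2 l) (fib C' D' ν) ≠ 0 ∧
    ∃ ω : V ℓ E →ₗ[ZMod ℓ] ZMod ℓ, ω (clsF ℓ (φ (fib C' D' ν))) = 1 ∧
      (∀ f, ev2 a b f ≠ 0 → ω (clsF ℓ (φ f)) = 0) ∧
      ∀ w ∈ J, ω (resF ℓ (prime_hat hF₂) hE w) = ordV ℓ (K2 l) (fib C' D' ν) w := by
  obtain ⟨C₂, hC₂⟩ := exists_hat_of_range hr C'
  obtain ⟨D₂, hD₂⟩ := exists_hat_of_range hr D'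
  have hJ : Jac a b (hat F₂ : R2 l) (fib C' D' ν) ≠ 0 := by
    have e : fib C' D' ν = hat C₂ - C (C ν) * hat D₂ := by
      rw [fib, hC₂, hD₂]
    rw [e]
    refine tv hF₂ hν h0 ?_ ?_
    · rw [← e]
      exact h1
    · rw [hD₂]
      exact h2
  refine ⟨hJ, ?_⟩
  obtain ⟨ω, hω1, hω0⟩ := exists_ordAt (ℓ := ℓ) (prime_hat hF₂) hE h0 h1 hJ
  refine ⟨ω, hω1, hω0, ?_⟩
  intro w hw
  have hFw : ordV ℓ (K2 l) (hat F₂ : R2 l) w = 0 :=
    ord_other_pencil hx hy hind (prime_hat hF₂) hov hFI hw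
  refine ord_local (prime_hat hF₂) hE ω hG hω1 hω0 hFw ?_
  intro r hr' hne hass
  by_cases hovr : OverS s₂ r
  · obtain ⟨g, hg⟩ := hovr
    have hg0 : g ≠ 0 := by
      rintro rfl
      rw [map_zero] at hg
      exact hr'.ne_zero (by simpa using hg)
    obtain ⟨g', hg', hass'⟩ := overS_of_dvd hr' hg0 hg.dvd
    intro h3
    have h4 : ev2 a b (hat g' : R2 l) = 0 := ev2_eq_zero_of_assoc hass'.symm h3
    have hnd : ¬ F₂ ∣ g' := by
      intro hd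
      have h5 : Associated F₂ g' := hF₂.associated_of_dvd hg' hd
      have h6 : Associated (hat F₂ : R2 l) (hat g') := h5.map (hat : R2 s₂ →+* R2 l)
      have h7 : ordV ℓ (K2 l) r = ordV ℓ (K2 l) (hat F₂ : R2 l) :=
        ordV_congr hr' (hass'.trans h6.symm)
      rw [h7] at hne
      exact hne hFw
    obtain ⟨⟨a₀, rfl⟩, ⟨b₀, rfl⟩⟩ := common_zero_mem hF₂ hnd h0 h4
    apply hν
    have h5 : ev2 (algebraMap s₂ l a₀) (algebraMap s₂ l b₀) (hat D₂ : R2 l) ≠ 0 := by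
      rw [hD₂]
      exact h2
    rw [ev2_alg_alg] at h5
    have h6 : fib C' D' ν = hat C₂ - C (C ν) * hat D₂ := by
      rw [fib, hC₂, hD₂]
    rw [h6, map_sub, map_mul, ev2_alg_alg, ev2_alg_alg] at h1
    simp only [ev2_C, eval_C] at h1
    refine ⟨ev2 a₀ b₀ C₂ / ev2 a₀ b₀ D₂, ?_⟩
    rw [map_div₀]
    rw [div_eq_iff h5]
    linear_combination h1
  · have hovs : ¬ OverS s r := fun h => hovr (h.mono hr)
    obtain ⟨ν', hν'⟩ := hy.fibre hr' hovs ⟨w, hw, hne⟩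
    refine ev2_ne_of_assoc hν' ?_
    have hne' : ν' ≠ ν := by
      rintro rfl
      exact hass hν'
    have h3 : ev2 a b (fib C' D' ν') = (ν - ν') * ev2 a b (hat D' : R2 l) := by
      rw [fib] at h1 ⊢
      rw [map_sub, map_mul] at h1 ⊢
      simp only [ev2_C, eval_C] at h1 ⊢
      linear_combination h1
    rw [h3]
    exact mul_ne_zero (sub_ne_zero.2 (Ne.symm hne')) h2

/-- Data of a curve of the first pencil. -/
structure CurveData (s s₂ : Type u) [Field s] [Field s₂] [Algebra s l] [Algebra s₂ l]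
    (A B : R2 s) (μ : l) (F₂ : R2 s₂) : Prop where
  range : Set.range (algebraMap s l) ⊆ Set.range (algebraMap s₂ l)
  mu₂ : μ ∈ Set.range (algebraMap s₂ l)
  prime : Prime F₂
  assoc : Associated (hat F₂ : R2 l) (fib A B μ)
  nov : ¬ OverS s (hat F₂ : R2 l)

lemma CurveData.mu {A B : R2 s} {μ : l} {F₂ : R2 s₂} (h : CurveData s s₂ A B μ F₂) :
    μ ∉ Set.range (algebraMap s l) := by
  rintro ⟨t, rfl⟩
  apply h.nov
  refine ⟨A - C (C t) * B, ?_⟩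
  rw [fib_of_mem]
  exact h.assoc

/-- A moving element of the second pencil has nonzero residue. -/
theorem res_ne_zero {I J : Set (V ℓ (K2 l))} {τ σ : K2 s} {A B C' D' : R2 s}
    (hx : PencilOf s I τ A B) (hy : PencilOf s J σ C' D')
    (hind : ¬ IsAlgebraic (Algebra.adjoin s {τ}) σ) {μ : l} {F₂ : R2 s₂}
    (hd : CurveData s s₂ A B μ F₂) (hFI : ∃ w ∈ I, ordV ℓ (K2 l) (hat F₂ : R2 l) w ≠ 0)
    {E : Type*} [Field E] {φ : R2 l →+* E} (hE : ResField (hat F₂ : R2 l) E φ)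
    {w : V ℓ (K2 l)} (hw : w ∈ J) (hw₂ : w ∉ VS ℓ l s₂) :
    resF ℓ (prime_hat hd.prime) hE w ≠ 0 := by
  obtain ⟨ν, hν, hG, hne⟩ := exists_moving hy hd.range hw hw₂
  have hτ : Transcendental s τ := transc_of_not_mem hx.nc
  have hν' : Transcendental (Algebra.adjoin s {μ}) ν := transc_adjoin hd.range hd.mu₂ hν
  obtain ⟨ψ, hψ, hψτ, hψσ⟩ := exists_point hτ hind (transc_of_not_mem hd.mu) hν'
  obtain ⟨e1, -⟩ := ev2_fib_of_hom hψ hx.ne hx.eq hψτ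
  obtain ⟨e3, e4⟩ := ev2_fib_of_hom hψ hy.ne hy.eq hψσ
  have h0 := ev2_eq_zero_of_assoc hd.assoc e1
  obtain ⟨-, ω, -, -, hω⟩ := ord_res_eq hx hy hind hd.range hd.prime hd.nov hFI hE hν hG h0 e3 e4
  intro h5
  have h6 := hω w hw
  rw [h5, map_zero] at h6
  exact hne h6.symm

/-- Two intersection points are forbidden when the residues of the second pencil generate. -/
theorem surj_of_LT {I J : Set (V ℓ (K2 l))} {τ σ : K2 s} {A B C' D' : R2 s}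
    (hx : PencilOf s I τ A B) (hy : PencilOf s J σ C' D')
    (hind : ¬ IsAlgebraic (Algebra.adjoin s {τ}) σ) {μ : l} {F₂ : R2 s₂}
    (hd : CurveData s s₂ A B μ F₂) (hFI : ∃ w ∈ I, ordV ℓ (K2 l) (hat F₂ : R2 l) w ≠ 0)
    {E : Type*} [Field E] {φ : R2 l →+* E} (hE : ResField (hat F₂ : R2 l) E φ)
    (hLT : ∀ v, ordV ℓ (K2 l) (hat F₂ : R2 l) v = 0 →
      ∃ w ∈ J, resF ℓ (prime_hat hd.prime) hE v = resF ℓ (prime_hat hd.prime) hE w)
    {w₀ : V ℓ (K2 l)} (hw₀ : w₀ ∈ J) (hw₂ : w₀ ∉ VS ℓ l s₂) (hτ : Transcendental s τ) (e : K2 s) :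
    e ∈ Set.range (homOf hτ hind) := by
  by_contra he
  obtain ⟨ν, hν, hG, hne⟩ := exists_moving hy hd.range hw₀ hw₂
  have hν' : Transcendental (Algebra.adjoin s {μ}) ν := transc_adjoin hd.range hd.mu₂ hν
  obtain ⟨ψ₁, ψ₂, ⟨h1, h2, h3⟩, ⟨h4, h5, h6⟩, hne2⟩ :=
    exists_two_points hτ hind (transc_of_not_mem hd.mu) hν' he
  have hq : ψ₁ (algebraMap (R2 s) (K2 s) (C X)) ≠ ψ₂ (algebraMap (R2 s) (K2 s) (C X)) ∨
      ψ₁ (algebraMap (R2 s) (K2 s) X) ≠ ψ₂ (algebraMap (R2 s) (K2 s) X) := by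
    by_contra hcon
    push Not at hcon
    obtain ⟨hc1, hc2⟩ := hcon
    apply hne2
    have h7 : ψ₁ = ψ₂ := by
      apply IsLocalization.ringHom_ext (nonZeroDivisors (R2 s))
      refine RingHom.ext fun g => ?_
      simp only [RingHom.comp_apply]
      rw [← ev2_of_hom h1, ← ev2_of_hom h4, hc1, hc2]
    rw [h7]
  obtain ⟨e1, -⟩ := ev2_fib_of_hom h1 hx.ne hx.eq h2
  obtain ⟨e3, e4⟩ := ev2_fib_of_hom h1 hy.ne hy.eq h3
  have h0 := ev2_eq_zero_of_assoc hd.assoc e1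
  obtain ⟨hJ₁, ω₁, hω₁, hω₁0, hω₁r⟩ :=
    ord_res_eq hx hy hind hd.range hd.prime hd.nov hFI hE hν hG h0 e3 e4
  obtain ⟨e1', -⟩ := ev2_fib_of_hom h4 hx.ne hx.eq h5
  obtain ⟨e3', e4'⟩ := ev2_fib_of_hom h4 hy.ne hy.eq h6
  have h0' := ev2_eq_zero_of_assoc hd.assoc e1'
  obtain ⟨hJ₂, ω₂, hω₂, hω₂0, hω₂r⟩ :=
    ord_res_eq hx hy hind hd.range hd.prime hd.nov hFI hE hν hG h0' e3' e4'
  obtain ⟨L, hL1, hL2, hL3⟩ := exists_linear hq hJ₁
  have hnd : ¬ (hat F₂ : R2 l) ∣ L := not_dvd_of_Jac h0 hL3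
  obtain ⟨w, hw, hres⟩ := hLT (vr2 ℓ L) (ordV_vr_of_not_dvd _ (prime_hat hd.prime) hnd)
  rw [resF_vr (prime_hat hd.prime) hE hnd] at hres
  have h8 := ordAt_eq_one (prime_hat hd.prime) hE h0 e3 hJ₁ hL1 hL3 ω₁ hω₁ hω₁0
  have h9 := hω₂0 L hL2
  rw [hres, hω₁r w hw] at h8
  rw [hres, hω₂r w hw, h8] at h9
  exact one_ne_zero h9

end Res

section Curve

variable {W : Type*} [AddCommGroup W] {ℓ : ℕ} [hℓ : Fact ℓ.Prime] [Module (ZMod ℓ) W]
  {U : Type*} [AddCommGroup U] [Module (ZMod ℓ) U]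

/-- The residue map normalized to vanish at a given element. -/
noncomputable def rCurve (res : U →ₗ[ZMod ℓ] W) (θ : U →ₗ[ZMod ℓ] ZMod ℓ) (ξ₀ : U) :
    U →ₗ[ZMod ℓ] W :=
  res - (LinearMap.toSpanSingleton (ZMod ℓ) W ((θ ξ₀)⁻¹ • res ξ₀)).comp θ

lemma rCurve_apply (res : U →ₗ[ZMod ℓ] W) (θ : U →ₗ[ZMod ℓ] ZMod ℓ) (ξ₀ z : U) :
    rCurve res θ ξ₀ z = res z - θ z • ((θ ξ₀)⁻¹ • res ξ₀) := by
  simp [rCurve]

lemma rCurve_self (res : U →ₗ[ZMod ℓ] W) {θ : U →ₗ[ZMod ℓ] ZMod ℓ} {ξ₀ : U} (h : θ ξ₀ ≠ 0) :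
    rCurve res θ ξ₀ ξ₀ = 0 := by
  rw [rCurve_apply, smul_smul, mul_inv_cancel₀ h, one_smul, sub_self]

lemma rCurve_of_zero (res : U →ₗ[ZMod ℓ] W) {θ : U →ₗ[ZMod ℓ] ZMod ℓ} (ξ₀ : U) {z : U}
    (h : θ z = 0) : rCurve res θ ξ₀ z = res z := by
  rw [rCurve_apply, h, zero_smul, sub_zero]

lemma rCurve_tame {res : U →ₗ[ZMod ℓ] W} {θ : U →ₗ[ZMod ℓ] ZMod ℓ} (ξ₀ : U) {z w : U}
    (h : θ w • res z = θ z • res w) :
    θ w • rCurve res θ ξ₀ z = θ z • rCurve res θ ξ₀ w := by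
  rw [rCurve_apply, rCurve_apply, smul_sub, smul_sub, h, smul_comm (θ w) (θ z)]

end Curve

section Tame

universe v

variable {k : Type v} {s s₂ l : Type u} [Field k] [Field s] [Field l] [Field s₂] [Algebra s l]
  [Algebra s₂ l] [IsAlgClosed k] [CharZero k]
  [IsAlgClosed s] [CharZero s] [IsAlgClosed s₂] [CharZero s₂] [IsAlgClosed l] [CharZero l]
  {ℓ : ℕ} [hℓ : Fact ℓ.Prime]

/-- The tame pair attached to a curve of the first pencil. -/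
theorem tamePair_of_curve {Θ : V ℓ (K2 k) ≃ₗ[ZMod ℓ] V ℓ (K2 l)} (hΘ : Compatible Θ)
    {τ σ : K2 s} {A B C' D' : R2 s}
    (hx : PencilOf s (Θ '' (Ax ℓ k : Set (V ℓ (K2 k)))) τ A B)
    (hy : PencilOf s (Θ '' (Ay ℓ k : Set (V ℓ (K2 k)))) σ C' D')
    (hind : ¬ IsAlgebraic (Algebra.adjoin s {τ}) σ) {μ : l} {F₂ : R2 s₂}
    (hd : CurveData s s₂ A B μ F₂) {c₀ : k}
    (hc₀ : ordV ℓ (K2 l) (hat F₂ : R2 l) (Θ (vr2 ℓ (xc c₀))) ≠ 0)
    {E : Type*} [Field E] {φ : R2 l →+* E} (hE : ResField (hat F₂ : R2 l) E φ)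
    {k₂ : Type*} [Field k₂] [Algebra k₂ k] [IsAlgClosed k₂] [Countable k₂]
    (hsub : ∀ w ∈ VS ℓ l s₂, Θ.symm w ∈ VS ℓ k k₂) :
    TamePair ((ordV ℓ (K2 l) (hat F₂ : R2 l)).comp Θ.toLinearMap)
      ((rCurve (resF ℓ (prime_hat hd.prime) hE) (ordV ℓ (K2 l) (hat F₂ : R2 l))
        (Θ (vr2 ℓ (xc c₀)))).comp Θ.toLinearMap)
      (Set.range (algebraMap k₂ k)) := by
  have hFI : ∃ w ∈ Θ '' (Ax ℓ k : Set (V ℓ (K2 k))), ordV ℓ (K2 l) (hat F₂ : R2 l) w ≠ 0 :=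
    ⟨_, ⟨_, Submodule.subset_span ⟨c₀, rfl⟩, rfl⟩, hc₀⟩
  have hzero : ∀ z ∈ Ay ℓ k, ordV ℓ (K2 l) (hat F₂ : R2 l) (Θ z) = 0 := fun z hz =>
    ord_other_pencil hx hy hind (prime_hat hd.prime) hd.nov hFI ⟨z, hz, rfl⟩
  have htame : ∀ {z w : V ℓ (K2 k)}, z ⊗ₜ[ZMod ℓ] w ∈ steinberg ℓ (K2 k) →
      ordV ℓ (K2 l) (hat F₂ : R2 l) (Θ w) • rCurve (resF ℓ (prime_hat hd.prime) hE)
        (ordV ℓ (K2 l) (hat F₂ : R2 l)) (Θ (vr2 ℓ (xc c₀))) (Θ z) =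
      ordV ℓ (K2 l) (hat F₂ : R2 l) (Θ z) • rCurve (resF ℓ (prime_hat hd.prime) hE)
        (ordV ℓ (K2 l) (hat F₂ : R2 l)) (Θ (vr2 ℓ (xc c₀))) (Θ w) := by
    intro z w h
    exact rCurve_tame _ (tame_rel (prime_hat hd.prime) hE (hΘ.mem h))
  refine ⟨fun h => htame h, ?_, ?_, ?_, Set.countable_range _⟩
  · intro c
    have h1 := htame (Ax_tensor (ℓ := ℓ) (Submodule.subset_span ⟨c, rfl⟩ : vr2 ℓ (xc c) ∈ Ax ℓ k)
      (Submodule.subset_span ⟨c₀, rfl⟩ : vr2 ℓ (xc c₀) ∈ Ax ℓ k))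
    rw [rCurve_self _ hc₀, smul_zero] at h1
    exact (smul_eq_zero.1 h1).resolve_left hc₀
  · intro a
    exact hzero _ (Submodule.subset_span ⟨a, rfl⟩)
  · intro z hz a ha hne
    change rCurve (resF ℓ (prime_hat hd.prime) hE) (ordV ℓ (K2 l) (hat F₂ : R2 l))
      (Θ (vr2 ℓ (xc c₀))) (Θ z) ≠ 0
    rw [rCurve_of_zero _ _ (hzero z hz)]
    refine res_ne_zero hx hy hind hd hFI hE ⟨z, hz, rfl⟩ ?_
    intro hmem
    have h1 := hsub _ hmem
    rw [LinearEquiv.symm_apply_apply] at h1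
    exact hne (ordV_eq_zero_of_mem_VS (prime_yc a) (not_overS_yc ha) h1)

end Tame

end Vale.Agent.Lib.P019
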