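import Vale.Agent.Lib.P019.Rows

/-!
The row lemma and the normalization of an admissible map by Moebius changes of coordinates.
-/

set_option linter.unusedSectionVars false

namespace Vale.Agent.Lib.P019

open Polynomial TensorProduct nonZeroDivisors UniqueFactorizationMonoid Filter
open scoped Classical

variable {k l : Type*} [Field k] [Field l]
variable [IsAlgClosed k] [IsAlgClosed l] [CharZero k] [CharZero l] {ℓ : ℕ} [hℓ : Fact ℓ.Prime]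

/-- The matrix entries of `Θ` on the pencil `Ax`. -/
noncomputable def Ent (Θ : V ℓ (K2 k) ≃ₗ[ZMod ℓ] V ℓ (K2 l)) (μ : l) (c : k) : ZMod ℓ :=
  ordX ℓ μ (Θ (vr2 ℓ (xc c)))

theorem row_lemma {Θ : V ℓ (K2 k) ≃ₗ[ZMod ℓ] V ℓ (K2 l)} (hA : Adm Θ) {b : k} (hb : b ≠ 0)
    (d : k) (μ : l) {c₁ c₂ : k} (hc : c₁ ≠ c₂) :
    Ent Θ μ c₁ = ordX ℓ μ (Θ (vr2 ℓ (line b d))) ∨ Ent Θ μ c₂ = ordX ℓ μ (Θ (vr2 ℓ (line b d))) := by
  by_contra hcon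
  push Not at hcon
  obtain ⟨h₁, h₂⟩ := hcon
  have s₁ := spade hA hb d c₁ μ
  have s₂ := spade hA hb d c₂ μ
  change (Ent Θ μ c₁ - _) • _ = Ent Θ μ c₁ • _ at s₁
  change (Ent Θ μ c₂ - _) • _ = Ent Θ μ c₂ • _ at s₂
  set m := ordX ℓ μ (Θ (vr2 ℓ (line b d))) with hm
  set ζ := rhoX ℓ μ (Θ (vr2 ℓ (line b d))) with hζ
  set E₁ := Ent Θ μ c₁
  set E₂ := Ent Θ μ c₂
  set a₁ := b * c₁ + d
  set a₂ := b * c₂ + d
  have ha : a₁ ≠ a₂ := by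
    intro h
    apply hc
    have h2 : b * c₁ = b * c₂ := add_right_cancel h
    exact mul_left_cancel₀ hb h2
  have h1E : E₁ - m ≠ 0 := sub_ne_zero.2 h₁
  have h2E : E₂ - m ≠ 0 := sub_ne_zero.2 h₂
  set w : V ℓ (K2 k) := (E₂ * (E₁ - m)) • vr2 ℓ (yc a₁) - (E₁ * (E₂ - m)) • vr2 ℓ (yc a₂) with hw
  have hwmem : w ∈ Ay ℓ k :=
    sub_mem (Submodule.smul_mem _ _ (Submodule.subset_span ⟨_, rfl⟩))
      (Submodule.smul_mem _ _ (Submodule.subset_span ⟨_, rfl⟩))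
  have hΘw : rhoX ℓ μ (Θ w) = 0 := by
    rw [hw]
    simp only [map_sub, map_smul]
    linear_combination (norm := module) E₂ • s₁ - E₁ • s₂
  have hw0 : Θ w = 0 := eq_zero_of_mem_Ay_of_rhoX μ (hA.y_mem hwmem) hΘw
  have hw1 : w = 0 := by simpa using hw0
  have e1 := congrArg (ordV ℓ (K2 k) (yc a₁)) hw1
  have e2 := congrArg (ordV ℓ (K2 k) (yc a₂)) hw1
  simp only [hw, map_sub, map_smul, map_zero, ordV_yc_yc, if_pos, if_neg ha, if_neg ha.symm,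
    smul_eq_mul, mul_one, mul_zero, sub_zero, zero_sub, neg_eq_zero] at e1 e2
  have hE₂ : E₂ = 0 := (mul_eq_zero.1 e1).resolve_right h1E
  have hE₁ : E₁ = 0 := (mul_eq_zero.1 e2).resolve_right h2E
  rw [hE₁, zero_smul] at s₁
  have hm0 : (0 : ZMod ℓ) - m ≠ 0 := by
    rw [hE₁] at h1E
    exact h1E
  have hh : rhoX ℓ μ (Θ (vr2 ℓ (yc a₁))) = 0 := (smul_eq_zero.1 s₁).resolve_left hm0
  have h3 : Θ (vr2 ℓ (yc a₁)) = 0 := eq_zero_of_mem_Ay_of_rhoX μ (hA.y_gen a₁) hh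
  have h4 : vr2 ℓ (yc a₁) = 0 := by simpa using h3
  exact vr2_yc_ne_zero a₁ h4

/-- The generic value of the row `μ`. -/
noncomputable def mbar (Θ : V ℓ (K2 k) ≃ₗ[ZMod ℓ] V ℓ (K2 l)) (μ : l) : ZMod ℓ :=
  ordX ℓ μ (Θ (vr2 ℓ (line 1 0)))

theorem row_mbar {Θ : V ℓ (K2 k) ≃ₗ[ZMod ℓ] V ℓ (K2 l)} (hA : Adm Θ) (μ : l) {c₁ c₂ : k}
    (hc : c₁ ≠ c₂) : Ent Θ μ c₁ = mbar Θ μ ∨ Ent Θ μ c₂ = mbar Θ μ := by
  unfold mbar
  exact row_lemma hA (b := 1) one_ne_zero 0 μ hc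

omit [IsAlgClosed l] [CharZero k] [CharZero l] in
lemma exists_three : ∃ c₁ c₂ c₃ : k, c₁ ≠ c₂ ∧ c₁ ≠ c₃ ∧ c₂ ≠ c₃ := by
  obtain ⟨t₁, -⟩ := Infinite.exists_notMem_finset ({0} : Finset k)
  obtain ⟨t₂, h2⟩ := Infinite.exists_notMem_finset ({t₁} : Finset k)
  obtain ⟨t₃, h3⟩ := Infinite.exists_notMem_finset ({t₁, t₂} : Finset k)
  simp only [Finset.mem_insert, Finset.mem_singleton, not_or] at h2 h3
  exact ⟨t₁, t₂, t₃, Ne.symm h2, Ne.symm h3.1, Ne.symm h3.2⟩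

omit [IsAlgClosed k] [IsAlgClosed l] [CharZero k] [CharZero l] in
lemma abstract_row_eq {Z : Type*} {e : k → Z} {m m' : Z} {c₁ c₂ c₃ : k}
    (h12 : c₁ ≠ c₂) (h13 : c₁ ≠ c₃) (h23 : c₂ ≠ c₃)
    (h : ∀ c c', c ≠ c' → e c = m ∨ e c' = m) (h' : ∀ c c', c ≠ c' → e c = m' ∨ e c' = m') :
    m = m' := by
  by_contra hne
  have n : ∀ c, ¬ (e c = m ∧ e c = m') := fun c hc => hne (hc.1.symm.trans hc.2)
  have a1 := h _ _ h12
  have a2 := h _ _ h13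
  have a3 := h _ _ h23
  have b1 := h' _ _ h12
  have b2 := h' _ _ h13
  have b3 := h' _ _ h23
  have n1 := n c₁
  have n2 := n c₂
  have n3 := n c₃
  tauto

theorem line_ord {Θ : V ℓ (K2 k) ≃ₗ[ZMod ℓ] V ℓ (K2 l)} (hA : Adm Θ) {b : k} (hb : b ≠ 0)
    (d : k) (μ : l) : ordX ℓ μ (Θ (vr2 ℓ (line b d))) = mbar Θ μ := by
  obtain ⟨c₁, c₂, c₃, h12, h13, h23⟩ := exists_three (k := k)
  exact abstract_row_eq h12 h13 h23 (fun c c' hc => row_lemma hA hb d μ hc)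
    (fun c c' hc => row_mbar hA μ hc)

lemma mbar_eq_of_two {Θ : V ℓ (K2 k) ≃ₗ[ZMod ℓ] V ℓ (K2 l)} (hA : Adm Θ) (μ : l) {c₁ c₂ : k}
    (hc : c₁ ≠ c₂) {v : ZMod ℓ} (h₁ : Ent Θ μ c₁ = v) (h₂ : Ent Θ μ c₂ = v) : mbar Θ μ = v := by
  rcases row_mbar hA μ hc with h | h
  · rw [← h, h₁]
  · rw [← h, h₂]

lemma ordX_comp_of_pure {Θ : V ℓ (K2 k) ≃ₗ[ZMod ℓ] V ℓ (K2 l)} (hA : Adm Θ) {μ : l} {c : k}
    (hm : mbar Θ μ = 0) (hE : Ent Θ μ c ≠ 0) {w : V ℓ (K2 k)} (hw : w ∈ Ax ℓ k) :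
    ordX ℓ μ (Θ w) = Ent Θ μ c * ordX ℓ c w := by
  induction hw using Submodule.span_induction with
  | mem x h =>
    obtain ⟨c', rfl⟩ := h
    change ordX ℓ μ (Θ (vr2 ℓ (xc c'))) = Ent Θ μ c * ordX ℓ c (vr2 ℓ (xc c'))
    rw [ordX_xc_xc]
    split_ifs with h
    · subst h
      rw [mul_one]
      rfl
    · rw [mul_zero]
      rcases row_mbar hA μ h with h1 | h1
      · rw [hm] at h1
        exact h1
      · rw [hm] at h1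
        exact absurd h1 hE
  | zero => simp
  | add x y _ _ hx hy => rw [map_add, map_add, hx, hy, map_add, mul_add]
  | smul a x _ hx =>
    rw [map_smul, map_smul, hx, map_smul]
    simp only [smul_eq_mul]
    ring

lemma pure_unique {Θ : V ℓ (K2 k) ≃ₗ[ZMod ℓ] V ℓ (K2 l)} (hA : Adm Θ) {μ τ : l} {c : k}
    (hne : μ ≠ τ) (hm : mbar Θ μ = 0) (hn : mbar Θ τ = 0) (hE : Ent Θ μ c ≠ 0)
    (hF : Ent Θ τ c ≠ 0) : False := by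
  have h1 : vr2 ℓ (xc μ) ∈ (Ax ℓ k).map Θ.toLinearMap := by
    rw [hA.mapX]
    exact Submodule.subset_span ⟨_, rfl⟩
  obtain ⟨w, hw, hw2⟩ := h1
  have hw3 : Θ w = vr2 ℓ (xc μ) := hw2
  have h2 := ordX_comp_of_pure hA hm hE hw
  have h3 := ordX_comp_of_pure hA hn hF hw
  rw [hw3, ordX_xc_self] at h2
  rw [hw3, ordX_xc_xc, if_neg hne] at h3
  have h4 : ordX ℓ c w ≠ 0 := by
    intro h5
    rw [h5, mul_zero] at h2
    exact zmod_one_ne h2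
  exact (mul_ne_zero hF h4) h3.symm

lemma exists_mbar_row_ne {Θ : V ℓ (K2 k) ≃ₗ[ZMod ℓ] V ℓ (K2 l)} (hA : Adm Θ) (μ : l) :
    ∃ c, Ent Θ μ c ≠ 0 := by
  by_contra hcon
  push Not at hcon
  have h1 : vr2 ℓ (xc μ) ∈ (Ax ℓ k).map Θ.toLinearMap := by
    rw [hA.mapX]
    exact Submodule.subset_span ⟨_, rfl⟩
  obtain ⟨w, hw, hw2⟩ := h1
  have hw3 : Θ w = vr2 ℓ (xc μ) := hw2
  have key : ∀ w ∈ Ax ℓ k, ordX ℓ μ (Θ w) = 0 := by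
    intro w hw
    induction hw using Submodule.span_induction with
    | mem x h =>
      obtain ⟨c', rfl⟩ := h
      exact hcon c'
    | zero => simp
    | add x y _ _ hx hy => rw [map_add, map_add, hx, hy, add_zero]
    | smul a x _ hx => rw [map_smul, map_smul, hx, smul_zero]
  have h2 := key w hw
  rw [hw3, ordX_xc_self] at h2
  exact zmod_one_ne h2

lemma mem_span_of_mem_Ax {z : V ℓ (K2 l)} (hz : z ∈ Ax ℓ l) :
    z ∈ Submodule.span (ZMod ℓ) ((fun τ : l => vr2 ℓ (xc τ)) '' {τ | ordX ℓ τ z ≠ 0}) := by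
  obtain ⟨g, hg⟩ := (Finsupp.mem_span_range_iff_exists_finsupp).1 hz
  rw [← hg]
  apply Submodule.sum_mem
  intro τ hτ
  apply Submodule.smul_mem
  apply Submodule.subset_span
  refine ⟨τ, ?_, rfl⟩
  change ordX ℓ τ _ ≠ 0
  rw [map_finsuppSum]
  rw [Finsupp.sum, Finset.sum_eq_single τ]
  · rw [map_smul, ordX_xc_self]
    simpa using Finsupp.mem_support_iff.1 hτ
  · intro b _ hb
    rw [map_smul, ordX_xc_xc, if_neg hb, smul_zero]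
  · intro h
    exact absurd hτ h

lemma finite_no_pure {Θ : V ℓ (K2 k) ≃ₗ[ZMod ℓ] V ℓ (K2 l)} (hA : Adm Θ)
    (hM : {τ : l | mbar Θ τ ≠ 0}.Finite) :
    {c : k | ∀ τ, mbar Θ τ = 0 → Ent Θ τ c = 0}.Finite := by
  set S := {c : k | ∀ τ, mbar Θ τ = 0 → Ent Θ τ c = 0} with hS
  have hli : LinearIndependent (ZMod ℓ) (fun c : S => Θ (vr2 ℓ (xc (c : k)))) := by
    have h1 : LinearIndependent (ZMod ℓ) (fun c : k => Θ (vr2 ℓ (xc c))) :=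
      (linearIndependent_xc (l := k)).map' Θ.toLinearMap (LinearEquiv.ker Θ)
    exact h1.comp _ Subtype.val_injective
  have : Finite ((fun τ : l => vr2 ℓ (xc τ)) '' {τ : l | mbar Θ τ ≠ 0}) :=
    (hM.image _).to_subtype
  have hfin : Finite S := by
    apply hli.finite_of_le_span_finite _ ((fun τ : l => vr2 ℓ (xc τ)) '' {τ : l | mbar Θ τ ≠ 0})
    rintro _ ⟨c, rfl⟩
    have h2 := mem_span_of_mem_Ax (hA.x_gen (c : k))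
    refine Submodule.span_mono ?_ h2
    apply Set.image_mono
    intro τ hτ
    by_contra h3
    exact hτ (c.2 τ (not_not.1 h3))
  exact Set.toFinite S

lemma finite_mbar_ne {Θ : V ℓ (K2 k) ≃ₗ[ZMod ℓ] V ℓ (K2 l)} (hA : Adm Θ) :
    {τ : l | mbar Θ τ ≠ 0}.Finite := by
  obtain ⟨c₁, c₂, c₃, h12, -, -⟩ := exists_three (k := k)
  apply ((finite_ordX_ne (Θ (vr2 ℓ (xc c₁)))).union (finite_ordX_ne (Θ (vr2 ℓ (xc c₂))))).subset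
  intro τ hτ
  rcases row_mbar hA τ h12 with h | h
  · left
    change Ent Θ τ c₁ ≠ 0
    rw [h]
    exact hτ
  · right
    change Ent Θ τ c₂ ≠ 0
    rw [h]
    exact hτ

/-- The point at infinity functional along the image of the pencil. -/
noncomputable def dInf (Θ : V ℓ (K2 k) ≃ₗ[ZMod ℓ] V ℓ (K2 l)) (c : k) : ZMod ℓ :=
  ordX ℓ 0 (invV ℓ (Θ (vr2 ℓ (xc c))))

lemma exists_good {Θ : V ℓ (K2 k) ≃ₗ[ZMod ℓ] V ℓ (K2 l)} (hA : Adm Θ) :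
    ∃ (c₀ : k) (μ₀ : l) (d₀ : ZMod ℓ), mbar Θ μ₀ = 0 ∧ Ent Θ μ₀ c₀ ≠ 0 ∧
      (∀ τ, τ ≠ μ₀ → Ent Θ τ c₀ = mbar Θ τ) ∧ dInf Θ c₀ = d₀ ∧
      (∀ c c', c ≠ c' → dInf Θ c = d₀ ∨ dInf Θ c' = d₀) := by
  have hM := finite_mbar_ne hA
  have hS := finite_no_pure hA hM
  have hA' : Adm (Θ.trans (invV ℓ)) := hA.trans adm_invV
  set d₀ := mbar (Θ.trans (invV ℓ)) (0 : l) with hd₀
  have hrow : ∀ c c', c ≠ c' → dInf Θ c = d₀ ∨ dInf Θ c' = d₀ := fun c c' hc =>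
    row_mbar hA' 0 hc
  have hsub : ∀ {e : k → ZMod ℓ} {m : ZMod ℓ}, (∀ c c', c ≠ c' → e c = m ∨ e c' = m) →
      {c | e c ≠ m}.Finite := by
    intro e m h
    apply Set.Subsingleton.finite
    intro c hc c' hc'
    by_contra hne
    rcases h c c' hne with h1 | h1
    · exact hc h1
    · exact hc' h1
  have hB2 : (⋃ τ ∈ {τ : l | mbar Θ τ ≠ 0}, {c | Ent Θ τ c ≠ mbar Θ τ}).Finite := by
    apply hM.biUnion
    intro τ _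
    exact hsub fun c c' hc => row_mbar hA τ hc
  have hB3 : {c | dInf Θ c ≠ d₀}.Finite := hsub hrow
  have hall := (hS.union (hB2.union hB3)).infinite_compl
  obtain ⟨c₀, hc₀⟩ := hall.nonempty
  simp only [Set.mem_compl_iff, Set.mem_union, not_or] at hc₀
  obtain ⟨h1, h2, h3⟩ := hc₀
  have h1' : ∃ τ, mbar Θ τ = 0 ∧ Ent Θ τ c₀ ≠ 0 := by
    by_contra hcon
    push Not at hcon
    exact h1 hcon
  obtain ⟨μ₀, hμ1, hμ2⟩ := h1'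
  refine ⟨c₀, μ₀, d₀, hμ1, hμ2, ?_, ?_, hrow⟩
  · intro τ hτ
    by_cases hm : mbar Θ τ = 0
    · rw [hm]
      by_contra hne
      exact pure_unique hA hτ hm hμ1 hne hμ2
    · by_contra hne
      apply h2
      simp only [Set.mem_iUnion]
      exact ⟨τ, hm, hne⟩
  · by_contra hne
    exact h3 hne

/-- The normalized map: conjugation by Moebius transformations in `x` and `u`. -/
noncomputable def normMap (Θ : V ℓ (K2 k) ≃ₗ[ZMod ℓ] V ℓ (K2 l)) (c₀ : k) (μ₀ : l) :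
    V ℓ (K2 k) ≃ₗ[ZMod ℓ] V ℓ (K2 l) :=
  (invV ℓ).trans ((trV ℓ (-c₀)).trans (Θ.trans ((trV ℓ μ₀).trans (invV ℓ))))

lemma normMap_apply (Θ : V ℓ (K2 k) ≃ₗ[ZMod ℓ] V ℓ (K2 l)) (c₀ : k) (μ₀ : l) (z : V ℓ (K2 k)) :
    normMap Θ c₀ μ₀ z = invV ℓ (trV ℓ μ₀ (Θ (trV ℓ (-c₀) (invV ℓ z)))) := rfl

lemma adm_normMap {Θ : V ℓ (K2 k) ≃ₗ[ZMod ℓ] V ℓ (K2 l)} (hA : Adm Θ) (c₀ : k) (μ₀ : l) :
    Adm (normMap Θ c₀ μ₀) :=
  adm_invV.trans ((adm_trV _).trans (hA.trans ((adm_trV _).trans adm_invV)))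

lemma ordX_invV_of_ne {σ : l} (hσ : σ ≠ 0) {w : V ℓ (K2 l)} (hw : w ∈ Ax ℓ l) :
    ordX ℓ σ (invV ℓ w) = ordX ℓ σ⁻¹ w := by
  induction hw using Submodule.span_induction with
  | mem x h =>
    obtain ⟨τ, rfl⟩ := h
    change ordX ℓ σ (invV ℓ (vr2 ℓ (xc τ))) = ordX ℓ σ⁻¹ (vr2 ℓ (xc τ))
    by_cases hτ : τ = 0
    · subst hτ
      rw [invV_xc_zero, map_neg, ordX_xc_xc, ordX_xc_xc, if_neg hσ.symm,
        if_neg (inv_ne_zero hσ).symm, neg_zero]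
    · rw [invV_xc ℓ hτ, map_sub, ordX_xc_xc, ordX_xc_xc, ordX_xc_xc, if_neg hσ.symm, sub_zero]
      by_cases h : τ = σ⁻¹
      · rw [if_pos h, if_pos (by rw [h, inv_inv])]
      · rw [if_neg h, if_neg]
        intro h2
        apply h
        rw [← h2, inv_inv]
  | zero => simp
  | add x y _ _ hx hy => rw [map_add, map_add, map_add, hx, hy]
  | smul a x _ hx => rw [map_smul, map_smul, map_smul, hx]

lemma ordX_trV {σ e : l} {w : V ℓ (K2 l)} (hw : w ∈ Ax ℓ l) :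
    ordX ℓ σ (trV ℓ e w) = ordX ℓ (σ + e) w := by
  induction hw using Submodule.span_induction with
  | mem x h =>
    obtain ⟨τ, rfl⟩ := h
    change ordX ℓ σ (trV ℓ e (vr2 ℓ (xc τ))) = ordX ℓ (σ + e) (vr2 ℓ (xc τ))
    rw [trV_xc, ordX_xc_xc, ordX_xc_xc]
    have : (τ - e = σ) ↔ (τ = σ + e) := sub_eq_iff_eq_add
    simp only [this]
  | zero => simp
  | add x y _ _ hx hy => rw [map_add, map_add, map_add, hx, hy]
  | smul a x _ hx => rw [map_smul, map_smul, map_smul, hx]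

lemma ordX_zero_invV_xc (τ : l) : ordX ℓ 0 (invV ℓ (vr2 ℓ (xc τ))) = -1 := by
  by_cases hτ : τ = 0
  · subst hτ
    rw [invV_xc_zero, map_neg, ordX_xc_self]
  · rw [invV_xc ℓ hτ, map_sub, ordX_xc_self, ordX_xc_xc, if_neg (inv_ne_zero hτ), zero_sub]

lemma ordX_zero_invV_trV {e : l} {w : V ℓ (K2 l)} (hw : w ∈ Ax ℓ l) :
    ordX ℓ 0 (invV ℓ (trV ℓ e w)) = ordX ℓ 0 (invV ℓ w) := by
  induction hw using Submodule.span_induction with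
  | mem x h =>
    obtain ⟨τ, rfl⟩ := h
    change ordX ℓ 0 (invV ℓ (trV ℓ e (vr2 ℓ (xc τ)))) = ordX ℓ 0 (invV ℓ (vr2 ℓ (xc τ)))
    rw [trV_xc, ordX_zero_invV_xc, ordX_zero_invV_xc]
  | zero => simp
  | add x y _ _ hx hy => rw [map_add, map_add, map_add, map_add, map_add, hx, hy]
  | smul a x _ hx => rw [map_smul, map_smul, map_smul, map_smul, map_smul, hx]

lemma normMap_xc (Θ : V ℓ (K2 k) ≃ₗ[ZMod ℓ] V ℓ (K2 l)) (c₀ : k) (μ₀ : l) {t : k} (ht : t ≠ 0) :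
    normMap Θ c₀ μ₀ (vr2 ℓ (xc t)) =
      invV ℓ (trV ℓ μ₀ (Θ (vr2 ℓ (xc (t⁻¹ + c₀))) - Θ (vr2 ℓ (xc c₀)))) := by
  rw [normMap_apply, invV_xc ℓ ht, map_sub, trV_xc, trV_xc, map_sub]
  simp only [sub_neg_eq_add, zero_add]

lemma Ent_normMap_of_ne {Θ : V ℓ (K2 k) ≃ₗ[ZMod ℓ] V ℓ (K2 l)} (hA : Adm Θ) (c₀ : k) (μ₀ : l)
    {σ : l} (hσ : σ ≠ 0) {t : k} (ht : t ≠ 0) :
    Ent (normMap Θ c₀ μ₀) σ t = Ent Θ (σ⁻¹ + μ₀) (t⁻¹ + c₀) - Ent Θ (σ⁻¹ + μ₀) c₀ := by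
  have hmem : Θ (vr2 ℓ (xc (t⁻¹ + c₀))) - Θ (vr2 ℓ (xc c₀)) ∈ Ax ℓ l :=
    sub_mem (hA.x_gen _) (hA.x_gen _)
  have hmem2 : trV ℓ μ₀ (Θ (vr2 ℓ (xc (t⁻¹ + c₀))) - Θ (vr2 ℓ (xc c₀))) ∈ Ax ℓ l :=
    (adm_trV μ₀).x_mem hmem
  rw [Ent, normMap_xc Θ c₀ μ₀ ht, ordX_invV_of_ne hσ hmem2, ordX_trV hmem, map_sub]
  rfl

lemma Ent_normMap_zero {Θ : V ℓ (K2 k) ≃ₗ[ZMod ℓ] V ℓ (K2 l)} (hA : Adm Θ) (c₀ : k) (μ₀ : l)
    {t : k} (ht : t ≠ 0) :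
    Ent (normMap Θ c₀ μ₀) 0 t = dInf Θ (t⁻¹ + c₀) - dInf Θ c₀ := by
  have hmem : Θ (vr2 ℓ (xc (t⁻¹ + c₀))) - Θ (vr2 ℓ (xc c₀)) ∈ Ax ℓ l :=
    sub_mem (hA.x_gen _) (hA.x_gen _)
  rw [Ent, normMap_xc Θ c₀ μ₀ ht, ordX_zero_invV_trV hmem, map_sub, map_sub]
  rfl

omit [IsAlgClosed l] [CharZero k] [CharZero l] in
lemma two_good {Z : Type*} {e : k → Z} {m : Z} (h : ∀ c c', c ≠ c' → e c = m ∨ e c' = m) (c₀ : k) :
    ∃ t₁ t₂ : k, t₁ ≠ t₂ ∧ t₁ ≠ 0 ∧ t₂ ≠ 0 ∧ e (t₁⁻¹ + c₀) = m ∧ e (t₂⁻¹ + c₀) = m := by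
  obtain ⟨t₁, h1⟩ := Infinite.exists_notMem_finset ({0} : Finset k)
  obtain ⟨t₂, h2⟩ := Infinite.exists_notMem_finset ({0, t₁} : Finset k)
  obtain ⟨t₃, h3⟩ := Infinite.exists_notMem_finset ({0, t₁, t₂} : Finset k)
  simp only [Finset.mem_insert, Finset.mem_singleton, not_or] at h1 h2 h3
  have inj : ∀ {s t : k}, s ≠ t → s⁻¹ + c₀ ≠ t⁻¹ + c₀ := by
    intro s t hst h
    exact hst (inv_injective (add_right_cancel h))
  have p12 := h _ _ (inj (Ne.symm h2.2))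
  have p13 := h _ _ (inj (Ne.symm h3.2.1))
  have p23 := h _ _ (inj (Ne.symm h3.2.2))
  by_cases a1 : e (t₁⁻¹ + c₀) = m
  · by_cases a2 : e (t₂⁻¹ + c₀) = m
    · exact ⟨t₁, t₂, Ne.symm h2.2, h1, h2.1, a1, a2⟩
    · have a3 : e (t₃⁻¹ + c₀) = m := p23.resolve_left a2
      exact ⟨t₁, t₃, Ne.symm h3.2.1, h1, h3.1, a1, a3⟩
  · have a2 := p12.resolve_left a1
    have a3 := p13.resolve_left a1
    exact ⟨t₂, t₃, Ne.symm h3.2.2, h2.1, h3.1, a2, a3⟩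

/-- The normalized condition: every row is pure. -/
def NX (Θ : V ℓ (K2 k) ≃ₗ[ZMod ℓ] V ℓ (K2 l)) : Prop :=
  ∀ σ t t', t ≠ t' → Ent Θ σ t = 0 ∨ Ent Θ σ t' = 0

theorem exists_normalization {Θ : V ℓ (K2 k) ≃ₗ[ZMod ℓ] V ℓ (K2 l)} (hA : Adm Θ) :
    ∃ (c₀ : k) (μ₀ : l), NX (normMap Θ c₀ μ₀) := by
  obtain ⟨c₀, μ₀, d₀, h1, h2, h3, h4, h5⟩ := exists_good hA
  refine ⟨c₀, μ₀, ?_⟩
  have hA' := adm_normMap hA c₀ μ₀
  have hm : ∀ σ, mbar (normMap Θ c₀ μ₀) σ = 0 := by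
    intro σ
    by_cases hσ : σ = 0
    · subst hσ
      obtain ⟨t₁, t₂, ht, ht₁, ht₂, e1, e2⟩ := two_good h5 c₀
      apply mbar_eq_of_two hA' 0 ht
      · rw [Ent_normMap_zero hA c₀ μ₀ ht₁, e1, h4, sub_self]
      · rw [Ent_normMap_zero hA c₀ μ₀ ht₂, e2, h4, sub_self]
    · have hτ : σ⁻¹ + μ₀ ≠ μ₀ := by
        intro h
        have : σ⁻¹ = 0 := by simpa using h
        exact inv_ne_zero hσ this
      obtain ⟨t₁, t₂, ht, ht₁, ht₂, e1, e2⟩ :=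
        two_good (fun c c' hc => row_mbar hA (σ⁻¹ + μ₀) hc) c₀
      apply mbar_eq_of_two hA' σ ht
      · rw [Ent_normMap_of_ne hA c₀ μ₀ hσ ht₁, e1, h3 _ hτ, sub_self]
      · rw [Ent_normMap_of_ne hA c₀ μ₀ hσ ht₂, e2, h3 _ hτ, sub_self]
  intro σ t t' htt
  have := row_mbar hA' σ htt
  rwa [hm σ] at this

end Vale.Agent.Lib.P019
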