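import Vale.Agent.Lib.P019.Count

/-!
Isotropic subsets with infinitely many components over `s`: the moving components are the fibres of
one rational function.
-/

set_option linter.unusedSectionVars false
set_option linter.style.haveILetI false

namespace Vale.Agent.Lib.P019

open Polynomial Algebra TensorProduct

universe u

section Tens

variable {F : Type*} [Field F] {ℓ : ℕ} [hℓ : Fact ℓ.Prime]

lemma steinberg_mem' {x y : F} (hx : x ≠ 0) (hy : y ≠ 0) (h : x + y = 1) :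
    clsF ℓ x ⊗ₜ[ZMod ℓ] clsF ℓ y ∈ steinberg ℓ F := by
  rw [clsF_of_ne hx, clsF_of_ne hy]
  exact steinberg_mem _ _ (by simpa using h)

/-- The tensor square of a class is a relation when `-1` is trivial. -/
lemma tensor_self (hm1 : clsF ℓ (-1 : F) = 0) (f : F) :
    clsF ℓ f ⊗ₜ[ZMod ℓ] clsF ℓ f ∈ steinberg ℓ F := by
  by_cases hf : f = 0
  · simp [hf]
  by_cases hf1 : f = 1
  · simp [hf1]
  have h1 : (1 : F) - f ≠ 0 := sub_ne_zero.2 (Ne.symm hf1)
  have h2 := steinberg_mem' (ℓ := ℓ) hf h1 (by ring)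
  have h3 : (1 : F) - f⁻¹ ≠ 0 := by
    intro h
    apply hf1
    field_simp at h
    linear_combination h
  have h4 := steinberg_mem' (ℓ := ℓ) (inv_ne_zero hf) h3 (by ring)
  have h5 : clsF ℓ ((1 : F) - f⁻¹) = clsF ℓ ((1 : F) - f) - clsF ℓ f := by
    have : (1 : F) - f⁻¹ = (-1) * (1 - f) / f := by
      field_simp
      ring
    rw [this, clsF_div (mul_ne_zero (by simp) h1) hf, clsF_mul (by simp) h1, hm1, zero_add]
  rw [clsF_inv, h5] at h4
  have h6 : clsF ℓ f ⊗ₜ[ZMod ℓ] clsF ℓ f =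
      (-clsF ℓ f) ⊗ₜ[ZMod ℓ] (clsF ℓ ((1 : F) - f) - clsF ℓ f) +
        clsF ℓ f ⊗ₜ[ZMod ℓ] clsF ℓ ((1 : F) - f) := by
    rw [TensorProduct.neg_tmul, TensorProduct.tmul_sub]
    abel
  rw [h6]
  exact add_mem h4 h2

/-- Members of a pencil with trivial constants are relations with each other. -/
lemma tensor_sub (hm1 : clsF ℓ (-1 : F) = 0) (e c c' : F)
    (hc : c ≠ c' → clsF ℓ (c' - c) = 0) :
    clsF ℓ (e - c) ⊗ₜ[ZMod ℓ] clsF ℓ (e - c') ∈ steinberg ℓ F := by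
  by_cases h : c = c'
  · rw [← h]
    exact tensor_self hm1 _
  by_cases h1 : e - c = 0
  · simp [h1]
  by_cases h2 : e - c' = 0
  · simp [h2]
  have h3 : c' - c ≠ 0 := sub_ne_zero.2 (Ne.symm h)
  have h4 : c - c' ≠ 0 := sub_ne_zero.2 h
  have h5 := steinberg_mem' (ℓ := ℓ) (div_ne_zero h1 h3) (div_ne_zero h2 h4) (by
    field_simp
    ring)
  have h6 : clsF ℓ (c - c') = 0 := by
    have : c - c' = (-1) * (c' - c) := by ring
    rw [this, clsF_mul (by simp) h3, hm1, hc h, zero_add]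
  rw [clsF_div h1 h3, clsF_div h2 h4, hc h, h6, sub_zero, sub_zero] at h5
  exact h5

/-- Relations among generators extend to the span. -/
lemma tensor_span {G : Set (V ℓ F)} (hG : ∀ a ∈ G, ∀ b ∈ G, a ⊗ₜ[ZMod ℓ] b ∈ steinberg ℓ F)
    {z w : V ℓ F} (hz : z ∈ Submodule.span (ZMod ℓ) G) (hw : w ∈ Submodule.span (ZMod ℓ) G) :
    z ⊗ₜ[ZMod ℓ] w ∈ steinberg ℓ F := by
  induction hz using Submodule.span_induction with
  | mem a ha =>
    induction hw using Submodule.span_induction with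
    | mem b hb => exact hG a ha b hb
    | zero => simp
    | add x y _ _ hx hy =>
      rw [TensorProduct.tmul_add]
      exact add_mem hx hy
    | smul c x _ hx =>
      rw [TensorProduct.tmul_smul]
      exact Submodule.smul_mem _ _ hx
  | zero => simp
  | add x y _ _ hx hy =>
    rw [TensorProduct.add_tmul]
    exact add_mem hx hy
  | smul c x _ hx =>
    rw [← TensorProduct.smul_tmul']
    exact Submodule.smul_mem _ _ hx

end Tens

section Pen

variable {l : Type u} [Field l] [IsAlgClosed l] [CharZero l] {ℓ : ℕ} [hℓ : Fact ℓ.Prime]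

/-- The pencil of an element `e` of `l(x,y)`. -/
noncomputable def Ypen (ℓ : ℕ) {l : Type u} [Field l] (e : K2 l) : Submodule (ZMod ℓ) (V ℓ (K2 l)) :=
  Submodule.span (ZMod ℓ)
    (Set.range fun μ : l => clsF ℓ (e - algebraMap (R2 l) (K2 l) (C (C μ))))

lemma clsF_const (c : l) : clsF ℓ (algebraMap (R2 l) (K2 l) (C (C c))) = 0 := vr2_CC c

lemma Ypen_tensor (e : K2 l) {z w : V ℓ (K2 l)} (hz : z ∈ Ypen ℓ e) (hw : w ∈ Ypen ℓ e) :
    z ⊗ₜ[ZMod ℓ] w ∈ steinberg ℓ (K2 l) := by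
  refine tensor_span ?_ hz hw
  rintro _ ⟨μ, rfl⟩ _ ⟨μ', rfl⟩
  apply tensor_sub clsF_neg_one_K2
  intro _
  rw [← map_sub, ← C_sub, ← C_sub]
  exact clsF_const _

lemma alg_xc_sub (c : l) : algebraMap (R2 l) (K2 l) (xc c) =
    algebraMap (R2 l) (K2 l) (C X) - algebraMap (R2 l) (K2 l) (C (C c)) := by
  rw [xc, C_sub, map_sub]

lemma alg_yc_sub (c : l) : algebraMap (R2 l) (K2 l) (yc c) =
    algebraMap (R2 l) (K2 l) X - algebraMap (R2 l) (K2 l) (C (C c)) := by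
  rw [yc, map_sub]

/-- The coordinate pencils are isotropic. -/
lemma Ax_le_Ypen : Ax ℓ l ≤ Ypen ℓ (algebraMap (R2 l) (K2 l) (C X)) := by
  rw [Ax, Submodule.span_le]
  rintro _ ⟨c, rfl⟩
  refine Submodule.subset_span ⟨c, ?_⟩
  simp only [← alg_xc_sub]
  rfl

lemma Ay_le_Ypen : Ay ℓ l ≤ Ypen ℓ (algebraMap (R2 l) (K2 l) X) := by
  rw [Ay, Submodule.span_le]
  rintro _ ⟨c, rfl⟩
  refine Submodule.subset_span ⟨c, ?_⟩
  simp only [← alg_yc_sub]
  rfl

lemma Ax_tensor {z w : V ℓ (K2 l)} (hz : z ∈ Ax ℓ l) (hw : w ∈ Ax ℓ l) :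
    z ⊗ₜ[ZMod ℓ] w ∈ steinberg ℓ (K2 l) :=
  Ypen_tensor _ (Ax_le_Ypen hz) (Ax_le_Ypen hw)

lemma Ay_tensor {z w : V ℓ (K2 l)} (hz : z ∈ Ay ℓ l) (hw : w ∈ Ay ℓ l) :
    z ⊗ₜ[ZMod ℓ] w ∈ steinberg ℓ (K2 l) :=
  Ypen_tensor _ (Ay_le_Ypen hz) (Ay_le_Ypen hw)

end Pen

section Pencil

variable {s l : Type u} [Field s] [Field l] [Algebra s l] [IsAlgClosed s] [CharZero s]
  [IsAlgClosed l] [CharZero l] {ℓ : ℕ} [hℓ : Fact ℓ.Prime]

/-- The moving member of the pencil `A - μ B`. -/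
noncomputable def fib (A B : R2 s) (μ : l) : R2 l := hat A - C (C μ) * hat B

/-- `I` is a pencil of `τ = A / B` up to classes over `s`. -/
structure PencilOf (s : Type u) [Field s] [Algebra s l] [IsAlgClosed s] (I : Set (V ℓ (K2 l)))
    (τ : K2 s) (A B : R2 s) : Prop where
  rel : IsRelPrime A B
  ne : B ≠ 0
  eq : τ = algebraMap (R2 s) (K2 s) A / algebraMap (R2 s) (K2 s) B
  nc : τ ∉ Set.range (algebraMap s (K2 s))
  const : ∀ {p : R2 l} {E : Type u} [Field E] {φ : R2 l →+* E} (h : Pt s p E φ),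
    (∃ w ∈ I, ordV ℓ (K2 l) p w ≠ 0) → h.E1 = IntermediateField.adjoin s {τ}

/-- Existence of the pencil. -/
theorem exists_pencil {I : Set (V ℓ (K2 l))} (hI : Isotropic I) {D : Set (R2 s)} (hD : Fam s I D)
    {p₀ : R2 l} (hp₀ : Prime p₀) (hov : ¬ OverS s p₀) {w₀ : V ℓ (K2 l)} (hw₀ : w₀ ∈ I)
    (hord : ordV ℓ (K2 l) p₀ w₀ ≠ 0) :
    ∃ (τ : K2 s) (A B : R2 s), PencilOf s I τ A B := by
  obtain ⟨E₀, _, φ₀, hE₀⟩ := exists_resField hp₀
  have h₀ : Pt s p₀ E₀ φ₀ := ⟨hp₀, hE₀, hov⟩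
  obtain ⟨f, hf, -, hf'⟩ := exists_common_constant hI hD h₀ hw₀ hord h₀ hw₀ hord
  obtain ⟨P, hP, ψ, hψ, hC, hreg, hnc⟩ := exists_line hf'
  obtain ⟨τ, hτ, hτE⟩ := gordan hP hψ hC h₀.E1 hf hreg hnc
    (fun e he => h₀.isAlgebraic_of_mem_E1 hf hf' he)
  have hτnc : τ ∉ Set.range (algebraMap s (K2 s)) := by
    rintro ⟨t, rfl⟩
    apply hf'
    have h1 : f ∈ IntermediateField.adjoin s {algebraMap s (K2 s) t} := by
      rw [← hτE]
      exact hf
    rw [IntermediateField.adjoin_simple_eq_bot_iff.2 (IntermediateField.algebraMap_mem _ _)] at h1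
    exact IntermediateField.mem_bot.1 h1
  refine ⟨τ, IsFractionRing.num (R2 s) τ, (IsFractionRing.den (R2 s) τ : R2 s),
    IsFractionRing.num_den_reduced (R2 s) τ,
    nonZeroDivisors.ne_zero (IsFractionRing.den (R2 s) τ).2,
    (IsFractionRing.mk'_num_den' (R2 s) τ).symm, hτnc, ?_⟩
  intro p E _ φ h hw
  obtain ⟨w, hwI, hw⟩ := hw
  rw [← hτE]
  obtain ⟨f', h1, h2, h3⟩ := exists_common_constant hI hD h₀ hw₀ hord h hwI hw
  exact le_antisymm (Pt.E1_le_of_common h h₀ h2 h1 h3) (Pt.E1_le_of_common h₀ h h1 h2 h3)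

lemma PencilOf.mem_E1 {I : Set (V ℓ (K2 l))} {τ : K2 s} {A B : R2 s} (hP : PencilOf s I τ A B)
    {p : R2 l} {E : Type u} [Field E] {φ : R2 l →+* E} (h : Pt s p E φ)
    (hw : ∃ w ∈ I, ordV ℓ (K2 l) p w ≠ 0) : τ ∈ h.E1 := by
  rw [hP.const h hw]
  exact IntermediateField.mem_adjoin_simple_self s τ

/-- Every moving component is a member of the pencil. -/
theorem PencilOf.fibre {I : Set (V ℓ (K2 l))} {τ : K2 s} {A B : R2 s} (hP : PencilOf s I τ A B)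
    {p : R2 l} (hp : Prime p) (hov : ¬ OverS s p) (hw : ∃ w ∈ I, ordV ℓ (K2 l) p w ≠ 0) :
    ∃ μ : l, Associated p (fib A B μ) := by
  obtain ⟨E, _, φ, hE⟩ := exists_resField hp
  have h : Pt s p E φ := ⟨hp, hE, hov⟩
  obtain ⟨μ, hμ⟩ := hP.mem_E1 h hw
  exact ⟨μ, bk h (hP.const h hw) hP.nc hP.rel hP.ne hP.eq hμ⟩

omit hℓ in
/-- Fibres relate to the pencil of `τ` in `l(x,y)`. -/
lemma vr_fib {A B : R2 s} (hB : B ≠ 0) (μ : l) (hF : fib A B μ ≠ 0) :
    vr2 ℓ (fib A B μ) = clsF ℓ (algebraMap (R2 l) (K2 l) (hat A) / algebraMap (R2 l) (K2 l) (hat B) -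
      algebraMap (R2 l) (K2 l) (C (C μ))) + vr2 ℓ (hat B : R2 l) := by
  have hB' : (hat B : R2 l) ≠ 0 := hat_ne_zero hB
  have hBK : algebraMap (R2 l) (K2 l) (hat B) ≠ 0 := algebraMap_ne hB'
  have h1 : algebraMap (R2 l) (K2 l) (fib A B μ) =
      (algebraMap (R2 l) (K2 l) (hat A) / algebraMap (R2 l) (K2 l) (hat B) -
        algebraMap (R2 l) (K2 l) (C (C μ))) * algebraMap (R2 l) (K2 l) (hat B) := by
    rw [fib, map_sub, map_mul]
    field_simp
  have h2 : (algebraMap (R2 l) (K2 l) (hat A) / algebraMap (R2 l) (K2 l) (hat B) -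
        algebraMap (R2 l) (K2 l) (C (C μ))) ≠ 0 := by
    intro h0
    rw [h0, zero_mul] at h1
    exact algebraMap_ne hF h1
  change clsF ℓ (algebraMap (R2 l) (K2 l) (fib A B μ)) = _
  rw [h1, clsF_mul h2 hBK]
  rfl

/-- Every element of `I` lies in the pencil of `τ` up to classes over `s`. -/
theorem mem_sup_of_fibres {I : Set (V ℓ (K2 l))} {A B : R2 s} (hB : B ≠ 0)
    (hf : ∀ p : R2 l, Prime p → ¬ OverS s p → (∃ w ∈ I, ordV ℓ (K2 l) p w ≠ 0) →
      ∃ μ : l, Associated p (fib A B μ)) {w : V ℓ (K2 l)} (hw : w ∈ I) :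
    w ∈ Ypen ℓ (algebraMap (R2 l) (K2 l) (hat A) / algebraMap (R2 l) (K2 l) (hat B)) ⊔ VS ℓ l s := by
  classical
  obtain ⟨S, hS1, hS2, hS3, hS4, hS5⟩ :=
    exists_expansion (F := K2 l) (unitsDiv2 (k := l) (ℓ := ℓ)) w
  rw [hS5]
  apply Submodule.sum_mem
  intro p hp
  apply Submodule.smul_mem
  by_cases hov : OverS s p
  · obtain ⟨g, hg⟩ := hov
    have h3 : vr ℓ (K2 l) p = vr2 ℓ (hat g : R2 l) := vr_congr unitsDiv2 hg
    rw [h3]
    exact Submodule.mem_sup_right (vr_mem_VS g)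
  · obtain ⟨μ, hμ⟩ := hf p (hS1 p hp) hov ⟨w, hw, hS3 p hp⟩
    have h3 : vr ℓ (K2 l) p = vr2 ℓ (fib A B μ) := vr_congr unitsDiv2 hμ
    have hF : fib A B μ ≠ 0 := fun h0 => (hS1 p hp).ne_zero (by
      rw [h0] at hμ
      simpa using hμ)
    rw [h3, vr_fib hB μ hF]
    exact Submodule.add_mem_sup (Submodule.subset_span ⟨μ, rfl⟩) (vr_mem_VS B)

end Pencil

end Vale.Agent.Lib.P019
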