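import Vale.Agent.Lib.P019.Local

/-!
The two pencils generate the function field.
-/

set_option linter.unusedSectionVars false
set_option linter.style.haveILetI false

namespace Vale.Agent.Lib.P019

open Polynomial Algebra TensorProduct

universe u v

section Count

variable {k : Type v} {l : Type u} [Field k] [Field l] [IsAlgClosed k] [IsAlgClosed l]
  [CharZero k] [CharZero l] {ℓ : ℕ} [hℓ : Fact ℓ.Prime]

lemma vr2_xc_injective : Function.Injective (fun c : k => vr2 ℓ (xc c)) :=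
  linearIndependent_xc.injective

lemma vr2_yc_injective : Function.Injective (fun c : k => vr2 ℓ (yc c)) := by
  intro c c' h
  have h1 : ordV ℓ (K2 k) (yc c') (vr2 ℓ (yc c)) = ordV ℓ (K2 k) (yc c') (vr2 ℓ (yc c')) := by
    simp only at h
    rw [h]
  rw [ordV_yc_yc, ordV_yc_yc, if_pos rfl] at h1
  by_contra hne
  rw [if_neg hne] at h1
  exact zero_ne_one h1

/-- The image of a generic `x - c` is not defined over a given countable field. -/
lemma exists_xc_not_VS [Uncountable k] (Θ : V ℓ (K2 k) ≃ₗ[ZMod ℓ] V ℓ (K2 l)) (s : Type*) [Field s]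
    [Algebra s l] [Countable s] : ∃ c : k, Θ (vr2 ℓ (xc c)) ∉ VS ℓ l s := by
  by_contra hcon
  push Not at hcon
  have h1 : (Set.range fun c : k => Θ (vr2 ℓ (xc c))).Countable :=
    (countable_VS (ℓ := ℓ) (l := l) s).mono (by
      rintro _ ⟨c, rfl⟩
      exact hcon c)
  have h2 : Function.Injective (fun c : k => Θ (vr2 ℓ (xc c))) :=
    Θ.injective.comp vr2_xc_injective
  have h3 : Countable k := by
    have := h1.to_subtype
    exact Function.Injective.countable (f := Set.rangeFactorization (fun c : k => Θ (vr2 ℓ (xc c))))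
      (fun a b hab => h2 (congrArg Subtype.val hab))
  exact not_countable (α := k) h3

end Count

section Main

variable {k : Type v} {s l : Type u} [Field k] [Field s] [Field l] [Algebra s l] [IsAlgClosed k]
  [CharZero k] [IsAlgClosed s] [CharZero s] [IsAlgClosed l] [CharZero l] {ℓ : ℕ} [hℓ : Fact ℓ.Prime]

/-- The two functions generate the function field. -/
theorem homOf_surjective [Uncountable k] [Countable s] {Θ : V ℓ (K2 k) ≃ₗ[ZMod ℓ] V ℓ (K2 l)}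
    (hΘ : Compatible Θ) {τ σ : K2 s} {A B C' D' : R2 s}
    (hx : PencilOf s (Θ '' (Ax ℓ k : Set (V ℓ (K2 k)))) τ A B)
    (hy : PencilOf s (Θ '' (Ay ℓ k : Set (V ℓ (K2 k)))) σ C' D')
    (hind : ¬ IsAlgebraic (Algebra.adjoin s {τ}) σ) (hτ : Transcendental s τ)
    {c₃ : k} (hc₃ : Θ (vr2 ℓ (xc c₃)) ∈ VS ℓ l s) (e : K2 s) :
    e ∈ Set.range (homOf hτ hind) := by
  classical
  obtain ⟨c₀, hc₀⟩ := exists_xc_not_VS Θ s
  -- a moving component
  have h1 : ∃ p : R2 l, Prime p ∧ ordV ℓ (K2 l) p (Θ (vr2 ℓ (xc c₀))) ≠ 0 ∧ ¬ OverS s p := by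
    by_contra hcon
    push Not at hcon
    exact hc₀ (mem_VS_of_forall fun p hp hne => hcon p hp hne)
  obtain ⟨p, hp, hpne, hpov⟩ := h1
  have hmem : Θ (vr2 ℓ (xc c₀)) ∈ Θ '' (Ax ℓ k : Set (V ℓ (K2 k))) :=
    ⟨_, Submodule.subset_span ⟨c₀, rfl⟩, rfl⟩
  obtain ⟨μ, hμ⟩ := hx.fibre hp hpov ⟨_, hmem, hpne⟩
  -- the field of definition of the curve
  obtain ⟨s₂, _, _, hs1, hs2, hs3, hs4, -⟩ := exists_sub_of_countable (l := l) (ℓ := ℓ)
    (∅ : Set (V ℓ (K2 l))) Set.countable_empty (Set.range (algebraMap s l) ∪ {μ})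
    ((Set.countable_range _).union (Set.countable_singleton μ))
  haveI := hs1
  haveI := hs2
  haveI := hs3
  have hr : Set.range (algebraMap s l) ⊆ Set.range (algebraMap s₂ l) :=
    fun x hx' => hs4 (Or.inl hx')
  have hμ₂ : μ ∈ Set.range (algebraMap s₂ l) := hs4 (Or.inr rfl)
  obtain ⟨μ₂, hμ₂'⟩ := hμ₂
  obtain ⟨A₂, hA₂⟩ := exists_hat_of_range hr A
  obtain ⟨B₂, hB₂⟩ := exists_hat_of_range hr B
  have hfib : fib A B μ = hat (A₂ - C (C μ₂) * B₂) := by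
    rw [fib_of_mem, hA₂, hB₂, hμ₂']
    rfl
  have hG0 : A₂ - C (C μ₂) * B₂ ≠ 0 := by
    intro h0
    rw [h0, map_zero] at hfib
    rw [hfib] at hμ
    exact hp.ne_zero (by simpa using hμ)
  obtain ⟨F₂, hF₂, hass⟩ := overS_of_dvd hp hG0 (by rw [← hfib]; exact hμ.dvd)
  have hd : CurveData s s₂ A B μ F₂ :=
    ⟨hr, ⟨μ₂, hμ₂'⟩, hF₂, hass.symm.trans hμ, fun h => hpov (by
      obtain ⟨g, hg⟩ := h
      exact ⟨g, hass.trans hg⟩)⟩
  have hc₀' : ordV ℓ (K2 l) (hat F₂ : R2 l) (Θ (vr2 ℓ (xc c₀))) ≠ 0 := by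
    rw [← ordV_congr hp hass]
    exact hpne
  have hFI : ∃ w ∈ Θ '' (Ax ℓ k : Set (V ℓ (K2 k))), ordV ℓ (K2 l) (hat F₂ : R2 l) w ≠ 0 :=
    ⟨_, hmem, hc₀'⟩
  -- the field of definition on the other side
  obtain ⟨k₂, _, _, hk1, hk2, hk3, -, hk5⟩ := exists_sub_of_countable (l := k) (ℓ := ℓ)
    (Θ.symm '' (VS ℓ l s₂ : Set (V ℓ (K2 l)))) ((countable_VS (ℓ := ℓ) (l := l) s₂).image _) ∅
    Set.countable_empty
  haveI := hk1
  haveI := hk3
  have hsub : ∀ w ∈ VS ℓ l s₂, Θ.symm w ∈ VS ℓ k k₂ := fun w hw => hk5 ⟨w, hw, rfl⟩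
  obtain ⟨E, _, φ, hE⟩ := exists_resField (prime_hat (l := l) hF₂)
  have TP := tamePair_of_curve hΘ hx hy hind hd hc₀' hE hsub
  -- purity
  have hθ₀ : ((ordV ℓ (K2 l) (hat F₂ : R2 l)).comp Θ.toLinearMap) (vr2 ℓ (xc c₀)) ≠ 0 := hc₀'
  have hθ₃ : ((ordV ℓ (K2 l) (hat F₂ : R2 l)).comp Θ.toLinearMap) (vr2 ℓ (xc c₃)) = 0 :=
    ordV_eq_zero_of_mem_VS (prime_hat hF₂) hd.nov hc₃
  have hθ : ∀ c, c ≠ c₀ →
      ((ordV ℓ (K2 l) (hat F₂ : R2 l)).comp Θ.toLinearMap) (vr2 ℓ (xc c)) = 0 := by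
    intro c hc
    by_contra hne
    exact hc (TP.purity hθ₃ hne hθ₀)
  have hzero : ∀ z ∈ Ay ℓ k, ordV ℓ (K2 l) (hat F₂ : R2 l) (Θ z) = 0 := fun z hz =>
    ord_other_pencil hx hy hind (prime_hat hF₂) hd.nov hFI ⟨z, hz, rfl⟩
  -- the conclusion of the tame pair
  have hLT : ∀ v, ordV ℓ (K2 l) (hat F₂ : R2 l) v = 0 →
      ∃ w ∈ Θ '' (Ay ℓ k : Set (V ℓ (K2 k))),
        resF ℓ (prime_hat hd.prime) hE v = resF ℓ (prime_hat hd.prime) hE w := by
    intro v hv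
    obtain ⟨y₀, hy₀, hR⟩ := TP.exists_Ay hθ₀ hθ (Θ.symm v)
    refine ⟨Θ y₀, ⟨y₀, hy₀, rfl⟩, ?_⟩
    change rCurve (resF ℓ (prime_hat hd.prime) hE) (ordV ℓ (K2 l) (hat F₂ : R2 l))
      (Θ (vr2 ℓ (xc c₀))) (Θ (Θ.symm v)) = rCurve (resF ℓ (prime_hat hd.prime) hE)
      (ordV ℓ (K2 l) (hat F₂ : R2 l)) (Θ (vr2 ℓ (xc c₀))) (Θ y₀) at hR
    rw [LinearEquiv.apply_symm_apply, rCurve_of_zero _ _ hv, rCurve_of_zero _ _ (hzero y₀ hy₀)] at hR
    exact hR
  -- a moving element of the second pencil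
  obtain ⟨a, ha⟩ := exists_not_mem_countable (Set.countable_range (algebraMap k₂ k))
  have hw₂ : Θ (vr2 ℓ (yc a)) ∉ VS ℓ l s₂ := by
    intro hm
    have h2 := hsub _ hm
    rw [LinearEquiv.symm_apply_apply] at h2
    have h3 := ordV_eq_zero_of_mem_VS (prime_yc a) (not_overS_yc ha) h2
    rw [ordV_yc_yc, if_pos rfl] at h3
    exact one_ne_zero h3
  exact surj_of_LT hx hy hind hd hFI hE hLT ⟨_, Submodule.subset_span ⟨a, rfl⟩, rfl⟩ hw₂ hτ e

end Main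

end Vale.Agent.Lib.P019
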