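import Vale.Agent.Lib.P019.Iface

/-!
The constants of a moving curve: the field of rational functions over the small field which are
constant along a curve not defined over the small field.
-/

set_option linter.unusedSectionVars false

namespace Vale.Agent.Lib.P019

open Polynomial TensorProduct Algebra

section Trdeg

variable (s : Type*) [Field s]

theorem trdeg_K2 : Algebra.trdeg s (K2 s) = 2 := by
  have h1 : Algebra.trdeg s (R2 s) = 2 := by
    have := trdeg_add_eq s (Polynomial s) (A := R2 s)
    rw [Polynomial.trdeg_of_isDomain, Polynomial.trdeg_of_isDomain] at this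
    rw [← this]
    norm_num
  have h2 : Algebra.trdeg (R2 s) (K2 s) = 0 := by
    rw [trdeg_eq_zero_iff]
    exact IsLocalization.isAlgebraic _ (nonZeroDivisors (R2 s))
  have := trdeg_add_eq s (R2 s) (A := K2 s)
  rw [h1, h2, add_zero] at this
  exact this.symm

variable {s}

/-- If `f, e` are algebraically independent then `k(x,y)` is algebraic over `s[f,e]`. -/
theorem isAlgebraic_adjoin_pair {f e : K2 s} (hf : Transcendental s f)
    (he : Transcendental (Algebra.adjoin s {f}) e) (z : K2 s) :
    IsAlgebraic (Algebra.adjoin s {f, e}) z := by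
  let x : Unit → K2 s := fun _ => f
  have hx : AlgebraicIndependent s x := algebraicIndependent_unique_type_iff.2 hf
  have hr : Set.range x = {f} := by
    ext a
    simp [x, eq_comm]
  have hopt : AlgebraicIndependent s (fun o : Option Unit => o.elim e x) :=
    AlgebraicIndependent.option_iff.2 ⟨hx, by rw [hr]; exact he⟩
  have hb : IsTranscendenceBasis s (fun o : Option Unit => o.elim e x) := by
    apply hopt.isTranscendenceBasis_of_lift_trdeg_le_of_finite
    rw [trdeg_K2]
    simp
  have halg := hb.isAlgebraic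
  have hr2 : Set.range (fun o : Option Unit => o.elim e x) = {f, e} := by
    ext a
    constructor
    · rintro ⟨o, rfl⟩
      cases o <;> simp [x]
    · rintro (rfl | rfl)
      · exact ⟨some (), rfl⟩
      · exact ⟨none, rfl⟩
  rw [hr2] at halg
  exact halg.isAlgebraic z

end Trdeg

section Rho

variable {s l E : Type*} [Field s] [Field l] [Field E] [Algebra s l]

/-- A curve not defined over `s`, with a residue field. -/
structure Pt (s : Type*) [Field s] {l : Type*} [Field l] [Algebra s l] (p : R2 l) (E : Type*)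
    [Field E] (φ : R2 l →+* E) : Prop where
  prime : Prime p
  res : ResField p E φ
  nov : ¬ OverS s p

variable [IsAlgClosed s] {p : R2 l} {φ : R2 l →+* E} (h : Pt s p E φ)

include h

lemma Pt.phi_hat_ne {g : R2 s} (hg : g ≠ 0) : φ (hat g) ≠ 0 := by
  intro h0
  obtain ⟨g', -, ha⟩ := overS_of_dvd h.prime hg ((h.res.ker _).1 h0)
  exact h.nov ⟨g', ha⟩

lemma Pt.inj : Function.Injective (φ.comp (hat : R2 s →+* R2 l)) := by
  rw [injective_iff_map_eq_zero]
  intro g hg
  by_contra hg0
  exact h.phi_hat_ne hg0 hg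

/-- The specialization of `s(x,y)` to the function field of the curve. -/
noncomputable def Pt.rho : K2 s →+* E := IsFractionRing.lift h.inj

@[simp] lemma Pt.rho_alg (g : R2 s) : h.rho (algebraMap (R2 s) (K2 s) g) = φ (hat g) :=
  IsFractionRing.lift_algebraMap h.inj g

lemma Pt.rho_const (t : s) : h.rho (algebraMap s (K2 s) t) = φ (C (C (algebraMap s l t))) := by
  rw [algebraMap_K2, h.rho_alg, hat_CC]

lemma Pt.const_inj {a b : l} (hab : φ (C (C a)) = φ (C (C b))) : a = b :=
  (φ.comp (C.comp C)).injective hab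

/-- The subfield of `s(x,y)` of the functions constant along the curve. -/
noncomputable def Pt.E1 : IntermediateField s (K2 s) where
  carrier := {e | ∃ a : l, h.rho e = φ (C (C a))}
  mul_mem' := by
    rintro _ _ ⟨a, ha⟩ ⟨b, hb⟩
    exact ⟨a * b, by rw [map_mul, ha, hb, C_mul, C_mul, map_mul]⟩
  add_mem' := by
    rintro _ _ ⟨a, ha⟩ ⟨b, hb⟩
    exact ⟨a + b, by rw [map_add, ha, hb, C_add, C_add, map_add]⟩
  algebraMap_mem' t := ⟨algebraMap s l t, h.rho_const t⟩
  inv_mem' := by
    rintro _ ⟨a, ha⟩
    refine ⟨a⁻¹, ?_⟩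
    rw [map_inv₀, ha]
    exact (map_inv₀ (φ.comp (C.comp C)) a).symm

lemma Pt.mem_E1 {e : K2 s} : e ∈ h.E1 ↔ ∃ a : l, h.rho e = φ (C (C a)) := Iff.rfl

variable [IsAlgClosed l] [CharZero l]

/-- The constants along a curve are algebraically closed in `s(x,y)`. -/
lemma Pt.mem_E1_of_isAlgebraic (S : Subalgebra s (K2 s)) (hS : ∀ c ∈ S, c ∈ h.E1) {e : K2 s}
    (he : IsAlgebraic S e) : e ∈ h.E1 := by
  classical
  let _ : Algebra l E := (φ.comp (C.comp C)).toAlgebra
  have halg : ∀ a : l, algebraMap l E a = φ (C (C a)) := fun _ => rfl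
  choose ψf hψf using fun c : S => (hS c c.2 : ∃ a : l, h.rho c = φ (C (C a)))
  let ψ : S →+* l :=
    { toFun := ψf
      map_one' := by
        apply h.const_inj
        rw [← hψf]
        simp
      map_mul' := fun a b => by
        apply h.const_inj
        rw [← hψf, C_mul, C_mul, map_mul, ← hψf, ← hψf]
        simp
      map_zero' := by
        apply h.const_inj
        rw [← hψf]
        simp
      map_add' := fun a b => by
        apply h.const_inj
        rw [← hψf, C_add, C_add, map_add, ← hψf, ← hψf]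
        simp }
  have hψ : ∀ c : S, φ (C (C (ψ c))) = h.rho c := fun c => (hψf c).symm
  have hcomp : (algebraMap l E).comp ψ = h.rho.comp (algebraMap S (K2 s)) := by
    ext c
    exact hψ c
  obtain ⟨q, hq0, hq⟩ := he
  have hinj : Function.Injective ψ := by
    intro a b hab
    apply Subtype.ext
    apply h.rho.injective
    have h1 := hψ a
    have h2 := hψ b
    rw [hab] at h1
    rw [← h1, h2]
  have h1 : aeval (h.rho e) (q.map ψ) = 0 := by
    rw [aeval_def, eval₂_map, hcomp]
    have := Polynomial.hom_eval₂ q (algebraMap S (K2 s)) h.rho e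
    rw [← this]
    have h2 : eval₂ (algebraMap S (K2 s)) e q = 0 := by
      rw [← aeval_def]
      exact hq
    rw [h2, map_zero]
  have h3 : IsAlgebraic l (h.rho e) :=
    ⟨q.map ψ, (Polynomial.map_ne_zero_iff hinj).2 hq0, h1⟩
  obtain ⟨a, ha⟩ := mem_range_of_isAlgebraic h3
  exact ⟨a, ha.symm⟩

/-- The field of constants along a curve has transcendence degree at most one. -/
lemma Pt.isAlgebraic_of_mem_E1 {f e : K2 s} (hf : f ∈ h.E1)
    (hf' : f ∉ Set.range (algebraMap s (K2 s))) (he : e ∈ h.E1) :
    IsAlgebraic (Algebra.adjoin s {f}) e := by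
  by_contra hcon
  have hft : Transcendental s f := fun hal => hf' (mem_range_of_isAlgebraic hal)
  have hS : ∀ c ∈ Algebra.adjoin s {f, e}, c ∈ h.E1 := by
    have : Algebra.adjoin s {f, e} ≤ h.E1.toSubalgebra := by
      apply Algebra.adjoin_le
      rintro _ (rfl | rfl)
      · exact hf
      · exact he
    exact fun c hc => this hc
  have hall : ∀ z : K2 s, z ∈ h.E1 := fun z =>
    h.mem_E1_of_isAlgebraic _ hS (isAlgebraic_adjoin_pair hft hcon z)
  obtain ⟨a, ha⟩ := hall (algebraMap (R2 s) (K2 s) (C X))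
  obtain ⟨b, hb⟩ := hall (algebraMap (R2 s) (K2 s) X)
  rw [h.rho_alg] at ha hb
  have hxa : p ∣ xc a := by
    rw [← h.res.ker, xc, C_sub, map_sub, ← ha]
    simp
  have hyb : p ∣ yc b := by
    rw [← h.res.ker, yc, map_sub, ← hb]
    simp
  have h1 := h.prime.associated_of_dvd (prime_xc a) hxa
  have h2 := h.prime.associated_of_dvd (prime_yc b) hyb
  exact not_associated_xc_yc a b (h1.symm.trans h2)

omit h

/-- Two curves with a common nonconstant constant have the same constants. -/
lemma Pt.E1_le_of_common {p₂ : R2 l} {E₂ : Type*} [Field E₂] {φ₂ : R2 l →+* E₂}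
    (h : Pt s p E φ) (h₂ : Pt s p₂ E₂ φ₂) {f : K2 s} (hf : f ∈ h.E1) (hf₂ : f ∈ h₂.E1)
    (hf' : f ∉ Set.range (algebraMap s (K2 s))) : h.E1 ≤ h₂.E1 := by
  intro e he
  have hS : ∀ c ∈ Algebra.adjoin s {f}, c ∈ h₂.E1 := by
    have : Algebra.adjoin s {f} ≤ h₂.E1.toSubalgebra := by
      apply Algebra.adjoin_le
      rintro _ rfl
      exact hf₂
    exact fun c hc => this hc
  exact h₂.mem_E1_of_isAlgebraic _ hS (h.isAlgebraic_of_mem_E1 hf hf' he)

end Rho

section Unique

variable {A : Type*} [CommRing A] [IsDomain A]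

/-- In a domain, a relation between products of pairwise nonassociated primes forces equal
supports. -/
lemma prod_pow_support {N : ℕ} {g : Fin N → A} (hg : ∀ i, Prime (g i))
    (hinj : ∀ i j, Associated (g i) (g j) → i = j) {m m' : Fin N → ℕ} {u : A} (hu : IsUnit u)
    (h : ∏ i, g i ^ m i = u * ∏ i, g i ^ m' i) (i : Fin N) (hi : m i ≠ 0) : m' i ≠ 0 := by
  classical
  intro h0
  have h1 : g i ∣ ∏ j, g j ^ m j :=
    (dvd_pow_self (g i) hi).trans (Finset.dvd_prod_of_mem _ (Finset.mem_univ i))
  rw [h] at h1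
  rcases (hg i).dvd_or_dvd h1 with h2 | h2
  · exact (hg i).not_isUnit (isUnit_of_dvd_unit h2 hu)
  · obtain ⟨j, -, hj⟩ := (Prime.dvd_finsetProd_iff (hg i) _).1 h2
    have h3 : m' j ≠ 0 := by
      intro h4
      rw [h4, pow_zero] at hj
      exact (hg i).not_isUnit (isUnit_of_dvd_one hj)
    have h5 := (hg i).dvd_of_dvd_pow hj
    have h6 := hinj i j ((hg i).associated_of_dvd (hg j) h5)
    subst h6
    exact h3 h0

end Unique

end Vale.Agent.Lib.P019
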