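import Vale.Agent.Lib.P019.Pencil1

/-!
Isotropic families: any two moving components share a nonconstant constant.
-/

set_option linter.unusedSectionVars false

namespace Vale.Agent.Lib.P019

open Polynomial TensorProduct Algebra

section Iso

variable {s l : Type*} [Field s] [Field l] [Algebra s l] [IsAlgClosed s] [CharZero s]
  [IsAlgClosed l] [CharZero l] {ℓ : ℕ} [hℓ : Fact ℓ.Prime]

/-- A set of classes whose pairwise tensors are relations. -/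
def Isotropic (I : Set (V ℓ (K2 l))) : Prop :=
  ∀ z ∈ I, ∀ w ∈ I, z ⊗ₜ[ZMod ℓ] w ∈ steinberg ℓ (K2 l)

/-- An infinite family of pairwise nonassociated primes over `s` in the support of `I`. -/
structure Fam (s : Type*) [Field s] [Algebra s l] (I : Set (V ℓ (K2 l))) (D : Set (R2 s)) :
    Prop where
  prime : ∀ g ∈ D, Prime g
  supp : ∀ g ∈ D, ∃ z ∈ I, ordV ℓ (K2 l) (hat g : R2 l) z ≠ 0
  noassoc : ∀ g ∈ D, ∀ g' ∈ D, Associated (hat g : R2 l) (hat g') → g = g'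
  infinite : D.Infinite

lemma finite_bad {D : Set (R2 s)} (hn : ∀ g ∈ D, ∀ g' ∈ D, Associated (hat g : R2 l) (hat g') → g = g')
    (hp : ∀ g ∈ D, Prime g) (w : V ℓ (K2 l)) :
    {g ∈ D | ordV ℓ (K2 l) (hat g : R2 l) w ≠ 0}.Finite := by
  classical
  obtain ⟨S, hS1, hS2, hS3, hS4, hS5⟩ :=
    exists_expansion (F := K2 l) (unitsDiv2 (k := l) (ℓ := ℓ)) w
  have hfin : (⋃ q ∈ S, {g ∈ D | Associated (hat g : R2 l) q}).Finite := by
    apply Set.Finite.biUnion (Finset.finite_toSet S)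
    intro q _
    apply Set.Subsingleton.finite
    rintro g ⟨hg, hgq⟩ g' ⟨hg', hgq'⟩
    exact hn g hg g' hg' (hgq.trans hgq'.symm)
  apply hfin.subset
  rintro g ⟨hg, hne⟩
  obtain ⟨q, hq, hgq⟩ := hS4 _ (prime_hat (hp g hg)) hne
  simp only [Set.mem_iUnion]
  exact ⟨q, hq, hg, hgq⟩

/-- The data attached to a moving component of an element of an isotropic set. -/
lemma curve_data {I : Set (V ℓ (K2 l))} (hI : Isotropic I) {D : Set (R2 s)} (hD : Fam s I D)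
    {p : R2 l} {E : Type*} [Field E] {φ : R2 l →+* E} (h : Pt s p E φ) {w : V ℓ (K2 l)}
    (hw : w ∈ I) (hpw : ordV ℓ (K2 l) p w ≠ 0) :
    ∃ p' δ : R2 l, Prime p' ∧ ResField p' E φ ∧ ¬ p' ∣ δ ∧ Associated p p' ∧
      ∀ g ∈ D, ordV ℓ (K2 l) (hat g : R2 l) w = 0 → ∀ a b, ev2 a b p' = 0 →
        ev2 a b (hat g) = 0 → ev2 a b δ = 0 := by
  obtain ⟨p', d, hass, hnd⟩ := exists_derivation_not_dvd h.prime.ne_zero h.nov
  have hp' : Prime p' := hass.prime_iff.1 h.prime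
  have hord : ordV ℓ (K2 l) p' w ≠ 0 := by
    rw [← ordV_congr h.prime hass]
    exact hpw
  obtain ⟨r, hr1, hr2⟩ := exists_rest w hp'
  refine ⟨p', dC2 d p' * r, hp', ⟨?_, h.res.gen⟩, ?_, hass, ?_⟩
  · intro a
    rw [h.res.ker]
    exact hass.dvd_iff_dvd_left
  · intro hdvd
    rcases hp'.dvd_or_dvd hdvd with h1 | h1
    · exact hnd h1
    · exact hr1 h1
  · intro g hg hgw a b hp0 hg0
    rw [map_mul]
    by_cases h0 : ev2 a b (dC2 d p') = 0
    · rw [h0, zero_mul]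
    · have hJ := transv_core (hD.prime g hg) p' d hg0 hp0 h0
      obtain ⟨z, hz, hzg⟩ := hD.supp g hg
      have := lemmaA (hI z hz w hw) (prime_hat (hD.prime g hg)) hzg hgw hp' hord hr2 hg0 hp0 hJ
      rw [this, mul_zero]

/-- Two moving components of elements of an isotropic set have a common constant. -/
theorem exists_common_constant {I : Set (V ℓ (K2 l))} (hI : Isotropic I) {D : Set (R2 s)}
    (hD : Fam s I D)
    {p₁ : R2 l} {E₁ : Type*} [Field E₁] {φ₁ : R2 l →+* E₁} (h₁ : Pt s p₁ E₁ φ₁)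
    {w₁ : V ℓ (K2 l)} (hw₁ : w₁ ∈ I) (hp₁ : ordV ℓ (K2 l) p₁ w₁ ≠ 0)
    {p₂ : R2 l} {E₂ : Type*} [Field E₂] {φ₂ : R2 l →+* E₂} (h₂ : Pt s p₂ E₂ φ₂)
    {w₂ : V ℓ (K2 l)} (hw₂ : w₂ ∈ I) (hp₂ : ordV ℓ (K2 l) p₂ w₂ ≠ 0) :
    ∃ f : K2 s, f ∈ h₁.E1 ∧ f ∈ h₂.E1 ∧ f ∉ Set.range (algebraMap s (K2 s)) := by
  classical
  obtain ⟨P₁, δ₁, hP₁, hE₁, hδ₁, hass₁, hc₁⟩ := curve_data hI hD h₁ hw₁ hp₁
  obtain ⟨P₂, δ₂, hP₂, hE₂, hδ₂, hass₂, hc₂⟩ := curve_data hI hD h₂ hw₂ hp₂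
  let _ : Algebra l E₁ := (φ₁.comp (C.comp C)).toAlgebra
  let _ : Algebra l E₂ := (φ₂.comp (C.comp C)).toAlgebra
  obtain ⟨N, hN⟩ := sunit_relation₂ hP₁ hP₂ hE₁ hE₂ (fun _ => rfl) (fun _ => rfl) hδ₁ hδ₂
  have hbad := (finite_bad (ℓ := ℓ) hD.noassoc hD.prime w₁).union
    (finite_bad (ℓ := ℓ) hD.noassoc hD.prime w₂)
  have hinf := hD.infinite.sdiff hbad
  let e := hinf.natEmbedding
  let g : Fin N → R2 s := fun i => (e i : R2 s)
  have hgD : ∀ i, g i ∈ D := fun i => (e i).2.1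
  have hg1 : ∀ i, ordV ℓ (K2 l) (hat (g i) : R2 l) w₁ = 0 := by
    intro i
    by_contra hne
    exact (e i).2.2 (Or.inl ⟨hgD i, hne⟩)
  have hg2 : ∀ i, ordV ℓ (K2 l) (hat (g i) : R2 l) w₂ = 0 := by
    intro i
    by_contra hne
    exact (e i).2.2 (Or.inr ⟨hgD i, hne⟩)
  have hgne : ∀ i, g i ≠ 0 := fun i => (hD.prime _ (hgD i)).ne_zero
  have hginj : ∀ i j, Associated (g i) (g j) → i = j := by
    intro i j hij
    have h1 : g i = g j := hD.noassoc _ (hgD i) _ (hgD j) (by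
      obtain ⟨u, hu⟩ := hij
      refine ⟨⟨hat (u : R2 s), hat ((u⁻¹ : (R2 s)ˣ) : R2 s), ?_, ?_⟩, ?_⟩
      · rw [← map_mul, Units.mul_inv, map_one]
      · rw [← map_mul, Units.inv_mul, map_one]
      · simp only
        rw [← map_mul, hu])
    have h2 : e i = e j := Subtype.ext h1
    have h3 := e.injective h2
    exact Fin.ext (by simpa using h3)
  obtain ⟨m, m', ⟨i₀, hi₀⟩, hmm, ⟨a₁, ha₁0, ha₁⟩, ⟨a₂, ha₂0, ha₂⟩⟩ := hN (fun i => hat (g i))
    (fun i hd => by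
      obtain ⟨g', -, ha⟩ := overS_of_dvd hP₁ (hgne i) hd
      exact h₁.nov ⟨g', hass₁.trans ha⟩)
    (fun i hd => by
      obtain ⟨g', -, ha⟩ := overS_of_dvd hP₂ (hgne i) hd
      exact h₂.nov ⟨g', hass₂.trans ha⟩)
    (fun i a b => hc₁ _ (hgD i) (hg1 i) a b) (fun i a b => hc₂ _ (hgD i) (hg2 i) a b)
  set A : R2 s := ∏ i, g i ^ m i with hA
  set B : R2 s := ∏ i, g i ^ m' i with hB
  have hA0 : A ≠ 0 := Finset.prod_ne_zero_iff.2 fun i _ => pow_ne_zero _ (hgne i)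
  have hB0 : B ≠ 0 := Finset.prod_ne_zero_iff.2 fun i _ => pow_ne_zero _ (hgne i)
  have hAh : (∏ i, (hat (g i) : R2 l) ^ m i) = hat A := by
    rw [hA, map_prod]
    simp only [map_pow]
  have hBh : (∏ i, (hat (g i) : R2 l) ^ m' i) = hat B := by
    rw [hB, map_prod]
    simp only [map_pow]
  rw [hAh, hBh] at ha₁ ha₂
  have hBK : algebraMap (R2 s) (K2 s) B ≠ 0 := algebraMap_ne hB0
  refine ⟨algebraMap (R2 s) (K2 s) A / algebraMap (R2 s) (K2 s) B, ⟨a₁, ?_⟩, ⟨a₂, ?_⟩, ?_⟩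
  · rw [map_div₀, h₁.rho_alg, h₁.rho_alg, ha₁]
    have := h₁.phi_hat_ne hB0
    field_simp
    rfl
  · rw [map_div₀, h₂.rho_alg, h₂.rho_alg, ha₂]
    have := h₂.phi_hat_ne hB0
    field_simp
    rfl
  · rintro ⟨t, ht⟩
    rw [algebraMap_K2] at ht
    have h1 : algebraMap (R2 s) (K2 s) (C (C t) * B) = algebraMap (R2 s) (K2 s) A := by
      rw [map_mul, ht]
      field_simp
    have h2 : A = C (C t) * B := (IsFractionRing.injective (R2 s) (K2 s) h1).symm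
    have ht0 : t ≠ 0 := by
      rintro rfl
      apply hA0
      rw [h2]
      simp
    have hu : IsUnit (C (C t) : R2 s) :=
      Polynomial.isUnit_C.2 (Polynomial.isUnit_C.2 (isUnit_iff_ne_zero.2 ht0))
    have hu' : IsUnit (C (C t⁻¹) : R2 s) :=
      Polynomial.isUnit_C.2 (Polynomial.isUnit_C.2 (isUnit_iff_ne_zero.2 (inv_ne_zero ht0)))
    have h3 : B = C (C t⁻¹) * A := by
      rw [h2, ← mul_assoc, ← C_mul, ← C_mul, inv_mul_cancel₀ ht0]
      simp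
    have hg' : ∀ i, Prime (g i) := fun i => hD.prime _ (hgD i)
    have h4 := prod_pow_support hg' hginj hu h2
    have h5 := prod_pow_support hg' hginj hu' h3
    apply hi₀
    rcases hmm i₀ with h6 | h6
    · by_contra hne
      rw [h6] at hne
      have h7 : m' i₀ ≠ 0 := fun h => hne h.symm
      exact h5 i₀ h7 h6
    · by_contra hne
      rw [h6] at hne
      exact h4 i₀ hne h6

end Iso

end Vale.Agent.Lib.P019
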