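import Vale.Agent.Lib.P019.LT

/-!
Points with prescribed generic values of two algebraically independent functions.
-/

set_option linter.unusedSectionVars false
set_option linter.style.haveILetI false

namespace Vale.Agent.Lib.P019

open Polynomial Algebra

section Ev

variable {s L : Type*} [Field s] [Field L] [Algebra s L]

/-- Evaluation of a bivariate polynomial over `s` at a pair of elements of an `s`-algebra. -/
noncomputable def evS (a b : L) : R2 s →+* L :=
  eval₂RingHom ((aeval a : s[X] →ₐ[s] L) : s[X] →+* L) b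

@[simp] lemma evS_C (a b : L) (p : s[X]) : evS a b (C p) = aeval a p := by
  simp [evS]

@[simp] lemma evS_CC (a b : L) (t : s) : evS a b (C (C t) : R2 s) = algebraMap s L t := by
  simp [evS]

@[simp] lemma evS_CX (a b : L) : evS a b (C X : R2 s) = a := by
  simp [evS]

@[simp] lemma evS_X (a b : L) : evS a b (X : R2 s) = b := by
  simp [evS]

lemma evS_ne_zero {a b : L} (ha : Transcendental s a) (hb : Transcendental (Algebra.adjoin s {a}) b)
    {f : R2 s} (hf : f ≠ 0) : evS a b f ≠ 0 := by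
  intro h0
  let a' : Algebra.adjoin s {a} := ⟨a, Algebra.self_mem_adjoin_singleton s a⟩
  let g : s[X] →+* Algebra.adjoin s {a} := ((aeval a' : s[X] →ₐ[s] Algebra.adjoin s {a}) : s[X] →+* _)
  have hga : ∀ p : s[X], ((g p : Algebra.adjoin s {a}) : L) = aeval a p := by
    intro p
    change ((aeval a' p : Algebra.adjoin s {a}) : L) = _
    rw [← Subalgebra.val_apply, ← Polynomial.aeval_algHom_apply]
    rfl
  have hginj : Function.Injective g := by
    rw [injective_iff_map_eq_zero]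
    intro p hp
    by_contra hp0
    apply ha
    refine ⟨p, hp0, ?_⟩
    rw [← hga, hp]
    rfl
  apply hb
  refine ⟨f.map g, (Polynomial.map_ne_zero_iff hginj).2 hf, ?_⟩
  rw [aeval_def, eval₂_map]
  have h1 : (algebraMap (Algebra.adjoin s {a}) L).comp g =
      ((aeval a : s[X] →ₐ[s] L) : s[X] →+* L) := by
    ext p
    · simp only [RingHom.comp_apply]
      exact hga _
    · simp only [RingHom.comp_apply]
      exact hga _
  rw [h1]
  exact h0

lemma evS_injective {a b : L} (ha : Transcendental s a)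
    (hb : Transcendental (Algebra.adjoin s {a}) b) : Function.Injective (evS a b : R2 s →+* L) := by
  rw [injective_iff_map_eq_zero]
  intro f hf
  by_contra h0
  exact evS_ne_zero ha hb h0 hf

/-- The homomorphism `s(x,y) → L` with `x ↦ a`, `y ↦ b`. -/
noncomputable def homOf {a b : L} (ha : Transcendental s a)
    (hb : Transcendental (Algebra.adjoin s {a}) b) : K2 s →+* L :=
  IsFractionRing.lift (evS_injective ha hb)

@[simp] lemma homOf_alg {a b : L} (ha : Transcendental s a)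
    (hb : Transcendental (Algebra.adjoin s {a}) b) (g : R2 s) :
    homOf ha hb (algebraMap (R2 s) (K2 s) g) = evS a b g :=
  IsFractionRing.lift_algebraMap _ _

lemma homOf_const {a b : L} (ha : Transcendental s a)
    (hb : Transcendental (Algebra.adjoin s {a}) b) (t : s) :
    homOf ha hb (algebraMap s (K2 s) t) = algebraMap s L t := by
  rw [algebraMap_K2, homOf_alg, evS_CC]

end Ev

section Lift

variable {A B D : Type*} [Field A] [Field B] [Field D] [IsAlgClosed D]

theorem exists_lift_of_algebraic (Φ : A →+* B) (j : A →+* D)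
    (halg : ∀ z : B, ∃ p : A[X], p ≠ 0 ∧ eval₂ Φ z p = 0) : ∃ ψ : B →+* D, ψ.comp Φ = j := by
  letI : Algebra A B := Φ.toAlgebra
  letI : Algebra A D := j.toAlgebra
  haveI : Algebra.IsAlgebraic A B := ⟨fun z => by
    obtain ⟨p, hp, h⟩ := halg z
    exact ⟨p, hp, h⟩⟩
  let ψ : B →ₐ[A] D := IsAlgClosed.lift
  refine ⟨ψ, ?_⟩
  ext a
  exact ψ.commutes a

theorem two_lifts [CharZero A] (Φ : A →+* B) (j : A →+* D)
    (halg : ∀ z : B, ∃ p : A[X], p ≠ 0 ∧ eval₂ Φ z p = 0) {e : B} (he : e ∉ Set.range Φ) :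
    ∃ ψ₁ ψ₂ : B →+* D, ψ₁.comp Φ = j ∧ ψ₂.comp Φ = j ∧ ψ₁ e ≠ ψ₂ e := by
  classical
  letI : Algebra A B := Φ.toAlgebra
  letI : Algebra A D := j.toAlgebra
  haveI : Algebra.IsAlgebraic A B := ⟨fun z => by
    obtain ⟨p, hp, h⟩ := halg z
    exact ⟨p, hp, h⟩⟩
  have hint : IsIntegral A e := Algebra.IsIntegral.isIntegral e
  set m := minpoly A e with hm
  have hirr : Irreducible m := minpoly.irreducible hint
  have hsep : m.Separable := hirr.separable
  have hsplit : (m.map (algebraMap A D)).Splits := IsAlgClosed.splits _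
  have hcard := card_rootSet_eq_natDegree (K := D) hsep hsplit
  have hdeg : 1 < m.natDegree := by
    have h1 : m.natDegree ≠ 0 := (minpoly.natDegree_pos hint).ne'
    have h2 : m.natDegree ≠ 1 := by
      intro h3
      apply he
      have h4 : m.degree = 1 := by
        rw [degree_eq_natDegree hirr.ne_zero, h3]
        rfl
      exact minpoly.mem_range_of_degree_eq_one A e h4
    omega
  rw [← hcard, Fintype.one_lt_card_iff] at hdeg
  obtain ⟨r₁, r₂, hne⟩ := hdeg
  have hK : ∀ z : B, IsIntegral A z ∧ ((minpoly A z).map (algebraMap A D)).Splits :=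
    fun z => ⟨Algebra.IsIntegral.isIntegral z, IsAlgClosed.splits _⟩
  have hroot : ∀ r : m.rootSet D, aeval (r : D) (minpoly A e) = 0 := by
    intro r
    exact (Polynomial.mem_rootSet.1 r.2).2
  obtain ⟨ψ₁, h₁⟩ := IntermediateField.exists_algHom_of_splits_of_aeval hK (hroot r₁)
  obtain ⟨ψ₂, h₂⟩ := IntermediateField.exists_algHom_of_splits_of_aeval hK (hroot r₂)
  refine ⟨ψ₁, ψ₂, ?_, ?_, ?_⟩
  · ext a
    exact ψ₁.commutes a
  · ext a
    exact ψ₂.commutes a
  · change ψ₁ e ≠ ψ₂ e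
    rw [h₁, h₂]
    exact fun h => hne (Subtype.ext h)

end Lift

section Pair

variable {s l : Type*} [Field s] [Field l] [Algebra s l]

/-- `k(x,y)` is algebraic over the image of the homomorphism given by an algebraically independent
pair. -/
lemma homOf_algebraic {τ σ : K2 s} (hτ : Transcendental s τ)
    (hσ : Transcendental (Algebra.adjoin s {τ}) σ) (z : K2 s) :
    ∃ p : (K2 s)[X], p ≠ 0 ∧ eval₂ (homOf hτ hσ) z p = 0 := by
  obtain ⟨q, hq0, hq⟩ := isAlgebraic_adjoin_pair hτ hσ z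
  have hx : homOf hτ hσ (algebraMap (R2 s) (K2 s) (C X)) = τ := by
    rw [homOf_alg, evS_CX]
  have hy : homOf hτ hσ (algebraMap (R2 s) (K2 s) X) = σ := by
    rw [homOf_alg, evS_X]
  have hsub : ∀ c ∈ Algebra.adjoin s {τ, σ}, c ∈ Set.range (homOf hτ hσ) := by
    intro c hc
    induction hc using Algebra.adjoin_induction with
    | mem x hx' =>
      rcases hx' with rfl | hx'
      · exact ⟨_, hx⟩
      · rw [Set.mem_singleton_iff.1 hx']
        exact ⟨_, hy⟩
    | algebraMap t => exact ⟨_, homOf_const hτ hσ t⟩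
    | add a b _ _ ha hb =>
      obtain ⟨a', rfl⟩ := ha
      obtain ⟨b', rfl⟩ := hb
      exact ⟨a' + b', map_add _ _ _⟩
    | mul a b _ _ ha hb =>
      obtain ⟨a', rfl⟩ := ha
      obtain ⟨b', rfl⟩ := hb
      exact ⟨a' * b', map_mul _ _ _⟩
  have hl : q.map (algebraMap (Algebra.adjoin s {τ, σ}) (K2 s)) ∈ lifts (homOf hτ hσ) := by
    rw [lifts_iff_coeff_lifts]
    intro n
    rw [coeff_map]
    exact hsub _ (q.coeff n).2
  obtain ⟨p, hp⟩ := (mem_lifts _).1 hl
  have hinj : Function.Injective (algebraMap (Algebra.adjoin s {τ, σ}) (K2 s)) := Subtype.val_injective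
  refine ⟨p, ?_, ?_⟩
  · rintro rfl
    rw [Polynomial.map_zero] at hp
    exact hq0 ((Polynomial.map_eq_zero_iff hinj).1 hp.symm)
  · rw [← eval_map, hp, eval_map]
    exact hq

/-- A point with prescribed values of the two functions. -/
theorem exists_point [IsAlgClosed l] {τ σ : K2 s} (hτ : Transcendental s τ)
    (hσ : Transcendental (Algebra.adjoin s {τ}) σ) {μ ν : l} (hμ : Transcendental s μ)
    (hν : Transcendental (Algebra.adjoin s {μ}) ν) :
    ∃ ψ : K2 s →+* l, (∀ t : s, ψ (algebraMap s (K2 s) t) = algebraMap s l t) ∧ ψ τ = μ ∧ ψ σ = ν := by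
  obtain ⟨ψ, hψ⟩ := exists_lift_of_algebraic (homOf hτ hσ) (homOf hμ hν) (homOf_algebraic hτ hσ)
  have h1 : ∀ z, ψ (homOf hτ hσ z) = homOf hμ hν z := fun z => RingHom.congr_fun hψ z
  refine ⟨ψ, ?_, ?_, ?_⟩
  · intro t
    rw [← homOf_const hτ hσ t, h1, homOf_const]
  · have h2 := h1 (algebraMap (R2 s) (K2 s) (C X))
    simpa only [homOf_alg, evS_CX] using h2
  · have h2 := h1 (algebraMap (R2 s) (K2 s) X)
    simpa only [homOf_alg, evS_X] using h2

/-- Two different points when the two functions do not generate. -/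
theorem exists_two_points [IsAlgClosed l] [CharZero s] {τ σ : K2 s} (hτ : Transcendental s τ)
    (hσ : Transcendental (Algebra.adjoin s {τ}) σ) {μ ν : l} (hμ : Transcendental s μ)
    (hν : Transcendental (Algebra.adjoin s {μ}) ν) {e : K2 s} (he : e ∉ Set.range (homOf hτ hσ)) :
    ∃ ψ₁ ψ₂ : K2 s →+* l,
      ((∀ t : s, ψ₁ (algebraMap s (K2 s) t) = algebraMap s l t) ∧ ψ₁ τ = μ ∧ ψ₁ σ = ν) ∧
      ((∀ t : s, ψ₂ (algebraMap s (K2 s) t) = algebraMap s l t) ∧ ψ₂ τ = μ ∧ ψ₂ σ = ν) ∧
      ψ₁ e ≠ ψ₂ e := by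
  haveI : CharZero (K2 s) :=
    (RingHom.charZero_iff (algebraMap s (K2 s)).injective).1 inferInstance
  obtain ⟨ψ₁, ψ₂, hψ₁, hψ₂, hne⟩ := two_lifts (homOf hτ hσ) (homOf hμ hν) (homOf_algebraic hτ hσ) he
  have key : ∀ ψ : K2 s →+* l, ψ.comp (homOf hτ hσ) = homOf hμ hν →
      (∀ t : s, ψ (algebraMap s (K2 s) t) = algebraMap s l t) ∧ ψ τ = μ ∧ ψ σ = ν := by
    intro ψ hψ
    have h1 : ∀ z, ψ (homOf hτ hσ z) = homOf hμ hν z := fun z => RingHom.congr_fun hψ z
    refine ⟨?_, ?_, ?_⟩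
    · intro t
      rw [← homOf_const hτ hσ t, h1, homOf_const]
    · have h2 := h1 (algebraMap (R2 s) (K2 s) (C X))
      simpa only [homOf_alg, evS_CX] using h2
    · have h2 := h1 (algebraMap (R2 s) (K2 s) X)
      simpa only [homOf_alg, evS_X] using h2
  exact ⟨ψ₁, ψ₂, key ψ₁ hψ₁, key ψ₂ hψ₂, hne⟩

/-- The coordinates of a point. -/
lemma ev2_of_hom {ψ : K2 s →+* l} (hψ : ∀ t : s, ψ (algebraMap s (K2 s) t) = algebraMap s l t)
    (g : R2 s) :
    ev2 (ψ (algebraMap (R2 s) (K2 s) (C X))) (ψ (algebraMap (R2 s) (K2 s) X)) (hat g) =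
      ψ (algebraMap (R2 s) (K2 s) g) := by
  have h : ((ev2 (ψ (algebraMap (R2 s) (K2 s) (C X))) (ψ (algebraMap (R2 s) (K2 s) X))).comp
      (hat : R2 s →+* R2 l)) = ψ.comp (algebraMap (R2 s) (K2 s)) := by
    apply R2_ringHom_ext
    · intro t
      simp only [RingHom.comp_apply, hat_CC]
      rw [← algebraMap_K2, hψ]
      simp
    · simp only [RingHom.comp_apply]
      simp [hat]
    · simp only [RingHom.comp_apply, hat_X]
      simp
  exact RingHom.congr_fun h g

/-- A point with a given value of `A / B` lies on the fibre. -/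
lemma ev2_fib_of_hom {ψ : K2 s →+* l} (hψ : ∀ t : s, ψ (algebraMap s (K2 s) t) = algebraMap s l t)
    {τ : K2 s} {A B : R2 s} (hB : B ≠ 0)
    (hτ : τ = algebraMap (R2 s) (K2 s) A / algebraMap (R2 s) (K2 s) B) {μ : l} (hμ : ψ τ = μ) :
    ev2 (ψ (algebraMap (R2 s) (K2 s) (C X))) (ψ (algebraMap (R2 s) (K2 s) X))
      (hat A - C (C μ) * hat B) = 0 ∧
    ev2 (ψ (algebraMap (R2 s) (K2 s) (C X))) (ψ (algebraMap (R2 s) (K2 s) X)) (hat B) ≠ 0 := by
  have h0 : ψ (algebraMap (R2 s) (K2 s) B) ≠ 0 :=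
    (map_ne_zero ψ).2 (algebraMap_ne hB)
  have h1 : ev2 (ψ (algebraMap (R2 s) (K2 s) (C X))) (ψ (algebraMap (R2 s) (K2 s) X)) (hat B) ≠ 0 := by
    rw [ev2_of_hom hψ]
    exact h0
  refine ⟨?_, h1⟩
  rw [map_sub, map_mul, ev2_of_hom hψ, ev2_of_hom hψ]
  simp only [ev2_C, eval_C]
  rw [← hμ, hτ, map_div₀]
  field_simp
  ring

omit [Algebra s l] in
lemma transc_of_not_mem [Algebra s l] [IsAlgClosed s] {μ : l}
    (hμ : μ ∉ Set.range (algebraMap s l)) : Transcendental s μ :=
  fun h => hμ (mem_range_of_isAlgebraic h)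

/-- Independence from a larger field containing the first element. -/
lemma transc_adjoin {s₂ : Type*} [Field s₂] [Algebra s₂ l] [IsAlgClosed s₂]
    (hr : Set.range (algebraMap s l) ⊆ Set.range (algebraMap s₂ l)) {μ ν : l}
    (hμ : μ ∈ Set.range (algebraMap s₂ l)) (hν : ν ∉ Set.range (algebraMap s₂ l)) :
    Transcendental (Algebra.adjoin s {μ}) ν := by
  rintro ⟨q, hq0, hq⟩
  have hsub : ∀ c ∈ Algebra.adjoin s {μ}, c ∈ Set.range (algebraMap s₂ l) := by
    intro c hc
    induction hc using Algebra.adjoin_induction with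
    | mem x hx' =>
      rw [Set.mem_singleton_iff.1 hx']
      exact hμ
    | algebraMap t => exact hr ⟨t, rfl⟩
    | add a b _ _ ha hb =>
      obtain ⟨a', rfl⟩ := ha
      obtain ⟨b', rfl⟩ := hb
      exact ⟨a' + b', map_add _ _ _⟩
    | mul a b _ _ ha hb =>
      obtain ⟨a', rfl⟩ := ha
      obtain ⟨b', rfl⟩ := hb
      exact ⟨a' * b', map_mul _ _ _⟩
  have hl : q.map (algebraMap (Algebra.adjoin s {μ}) l) ∈ lifts (algebraMap s₂ l) := by
    rw [lifts_iff_coeff_lifts]
    intro n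
    rw [coeff_map]
    exact hsub _ (q.coeff n).2
  obtain ⟨p, hp⟩ := (mem_lifts _).1 hl
  have hinj : Function.Injective (algebraMap (Algebra.adjoin s {μ}) l) := Subtype.val_injective
  apply hν
  apply mem_range_of_isAlgebraic
  refine ⟨p, ?_, ?_⟩
  · rintro rfl
    rw [Polynomial.map_zero] at hp
    exact hq0 ((Polynomial.map_eq_zero_iff hinj).1 hp.symm)
  · rw [aeval_def, ← eval_map, hp, eval_map]
    exact hq

end Pair

end Vale.Agent.Lib.P019
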