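import Vale.Agent.Lib.P019.Sub

/-!
Partial derivatives, Taylor expansion at a point, and the order function of a curve at a point
where it is met transversally.
-/

set_option linter.unusedSectionVars false

namespace Vale.Agent.Lib.P019

open Polynomial TensorProduct nonZeroDivisors UniqueFactorizationMonoid Filter

section Partials

variable {k : Type*} [Field k]

/-- The `y`-derivative. -/
noncomputable def py (h : R2 k) : R2 k := derivative h

/-- The `x`-derivative. -/
noncomputable def px (h : R2 k) : R2 k := swR (derivative (swR h))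

lemma py_add (f g : R2 k) : py (f + g) = py f + py g := derivative_add

lemma px_add (f g : R2 k) : px (f + g) = px f + px g := by
  simp only [px, map_add]

lemma py_mul (f g : R2 k) : py (f * g) = py f * g + f * py g := derivative_mul

lemma px_mul (f g : R2 k) : px (f * g) = px f * g + f * px g := by
  simp only [px, map_mul, derivative_mul, map_add, swR_swR]

@[simp] lemma py_CC (t : k) : py (C (C t) : R2 k) = 0 := by simp [py]

@[simp] lemma px_CC (t : k) : px (C (C t) : R2 k) = 0 := by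
  simp [px, Polynomial.Bivariate.swap_C]

@[simp] lemma py_CX : py (C X : R2 k) = 0 := by simp [py]

@[simp] lemma px_CX : px (C X : R2 k) = 1 := by
  simp [px, Polynomial.Bivariate.swap_X]

@[simp] lemma py_X : py (X : R2 k) = 1 := by simp [py]

@[simp] lemma px_X : px (X : R2 k) = 0 := by
  simp [px, Polynomial.Bivariate.swap_Y]

/-- The value at `(a,b)` of the Jacobian determinant of `f` and `g`. -/
noncomputable def Jac (a b : k) (f g : R2 k) : k :=
  ev2 a b (px f) * ev2 a b (py g) - ev2 a b (py f) * ev2 a b (px g)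

lemma ev2_xc (a b : k) : ev2 a b (xc a) = 0 := by simp [xc]

lemma ev2_yc (a b : k) : ev2 a b (yc b) = 0 := by simp [yc]

@[simp] lemma ev2_CC_self (a b t : k) : ev2 a b (C (C t) : R2 k) = t := by simp


/-- Induction principle for `k[x][y]`. -/
lemma R2_induction {P : R2 k → Prop} (hc : ∀ t, P (C (C t))) (hx : P (C X)) (hy : P X)
    (hadd : ∀ f g, P f → P g → P (f + g)) (hmul : ∀ f g, P f → P g → P (f * g)) (h : R2 k) :
    P h := by
  induction h using Polynomial.induction_on with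
  | C p =>
    induction p using Polynomial.induction_on with
    | C t => exact hc t
    | add p q hp hq =>
      rw [C_add]
      exact hadd _ _ hp hq
    | monomial n t ih =>
      rw [pow_succ, ← mul_assoc, C_mul]
      exact hmul _ _ ih hx
  | add p q hp hq => exact hadd _ _ hp hq
  | monomial n p ih =>
    rw [pow_succ, ← mul_assoc]
    exact hmul _ _ ih hy

/-- First order Taylor expansion at a point. -/
theorem taylor (a b : k) (f : R2 k) : ∃ f₁ f₂ : R2 k,
    f = xc a * f₁ + yc b * f₂ + C (C (ev2 a b f)) ∧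
      ev2 a b f₁ = ev2 a b (px f) ∧ ev2 a b f₂ = ev2 a b (py f) := by
  induction f using R2_induction with
  | hc t => exact ⟨0, 0, by simp, by simp, by simp⟩
  | hx => exact ⟨1, 0, by simp [xc], by simp, by simp⟩
  | hy => exact ⟨0, 1, by simp [yc], by simp, by simp⟩
  | hadd f g hf hg =>
    obtain ⟨f₁, f₂, h1, h2, h3⟩ := hf
    obtain ⟨g₁, g₂, h4, h5, h6⟩ := hg
    refine ⟨f₁ + g₁, f₂ + g₂, ?_, ?_, ?_⟩
    · simp only [map_add]
      linear_combination h1 + h4
    · rw [px_add, map_add, map_add, h2, h5]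
    · rw [py_add, map_add, map_add, h3, h6]
  | hmul f g hf hg =>
    obtain ⟨f₁, f₂, h1, h2, h3⟩ := hf
    obtain ⟨g₁, g₂, h4, h5, h6⟩ := hg
    refine ⟨f₁ * g + C (C (ev2 a b f)) * g₁, f₂ * g + C (C (ev2 a b f)) * g₂, ?_, ?_, ?_⟩
    · simp only [map_mul]
      linear_combination g * h1 + C (C (ev2 a b f)) * h4
    · rw [px_mul]
      simp only [map_add, map_mul, h2, h5, ev2_C, eval_C]
    · rw [py_mul]
      simp only [map_add, map_mul, h3, h6, ev2_C, eval_C]

end Partials

section OrdAt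

/-- The `P`-adic order on a Noetherian domain localized at a prime with principal maximal
ideal. -/
theorem exists_ord_of_principal {A : Type*} [CommRing A] [IsDomain A] [IsNoetherianRing A]
    {E : Type*} [Field E] [Algebra A E] [IsFractionRing A E] (ℓ : ℕ) [hℓ : Fact ℓ.Prime]
    (m : Ideal A) [hm : m.IsPrime] (t : A) (ht : t ∈ m) (ht0 : t ≠ 0)
    (H : ∀ a ∈ m, ∃ b, b ∉ m ∧ t ∣ b * a) :
    ∃ ω : V ℓ E →ₗ[ZMod ℓ] ZMod ℓ, ω (clsF ℓ (algebraMap A E t)) = 1 ∧
      ∀ a, a ∉ m → ω (clsF ℓ (algebraMap A E a)) = 0 := by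
  classical
  let O := Localization.AtPrime m
  haveI : IsDomain O := IsLocalization.isDomain_localization m.primeCompl_le_nonZeroDivisors
  haveI : IsNoetherianRing O := IsLocalization.isNoetherianRing m.primeCompl O inferInstance
  have hinj : Function.Injective (algebraMap A O) :=
    IsLocalization.injective O m.primeCompl_le_nonZeroDivisors
  set π : O := algebraMap A O t with hπ
  have hπ0 : π ≠ 0 := by
    intro h
    apply ht0
    apply hinj
    rw [map_zero]
    exact h
  have hmax : IsLocalRing.maximalIdeal O = Ideal.span {π} := by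
    apply le_antisymm
    · intro x hx
      obtain ⟨⟨a, u⟩, rfl⟩ := IsLocalization.mk'_surjective m.primeCompl x
      have hxm : a ∈ m := by
        by_contra hcon
        apply (IsLocalRing.mem_maximalIdeal _).1 hx
        rw [IsLocalization.AtPrime.isUnit_mk'_iff O m]
        exact hcon
      obtain ⟨b, hb, w, hw⟩ := H a hxm
      rw [Ideal.mem_span_singleton]
      refine ⟨IsLocalization.mk' O w (⟨b, hb⟩ * u), ?_⟩
      rw [hπ, IsLocalization.mul_mk'_eq_mk'_of_mul, IsLocalization.mk'_eq_iff_eq]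
      congr 1
      simp only [Submonoid.coe_mul]
      linear_combination (u : A) * hw
    · rw [Ideal.span_singleton_le_iff_mem]
      rw [IsLocalRing.mem_maximalIdeal, mem_nonunits_iff, hπ,
        IsLocalization.AtPrime.isUnit_to_map_iff O m]
      simpa using ht
  have hprinc : (IsLocalRing.maximalIdeal O).IsPrincipal := ⟨π, hmax⟩
  haveI : IsPrincipalIdealRing O :=
    ((tfae_of_isNoetherianRing_of_isLocalRing_of_isDomain O).out 0 4).2 hprinc
  have hπp : Prime π := by
    have h1 : (Ideal.span {π}).IsPrime := by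
      rw [← hmax]
      exact (IsLocalRing.maximalIdeal.isMaximal O).isPrime
    exact (Ideal.span_singleton_prime hπ0).1 h1
  let mm : A⁰ →* O⁰ :=
    { toFun := fun a => ⟨algebraMap A O a, mem_nonZeroDivisors_of_ne_zero (by
        intro h
        exact nonZeroDivisors.ne_zero a.2 (hinj (h.trans (map_zero _).symm)))⟩
      map_one' := by ext; simp
      map_mul' := by intro a b; ext; simp }
  let f : A⁰ →* Multiplicative (ZMod ℓ) := (ordMon ℓ π hπp).comp mm
  let ω : V ℓ E →ₗ[ZMod ℓ] ZMod ℓ :=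
    AddMonoidHom.toZModLinearMap ℓ (vLift (zmod_smul_eq_zero ℓ) (fracLift E f))
  have hω : ∀ a : A, a ≠ 0 → ω (clsF ℓ (algebraMap A E a)) =
      ((multiplicity π (algebraMap A O a) : ℕ) : ZMod ℓ) := by
    intro a ha
    have hne : algebraMap A E a ≠ 0 := (map_ne_zero_iff _ (IsFractionRing.injective A E)).2 ha
    have h := fracLift_of E f (Units.mk0 (algebraMap A E a) hne)
      (a := ⟨a, mem_nonZeroDivisors_of_ne_zero ha⟩) (by simp)
    rw [clsF_of_ne hne]
    change Multiplicative.toAdd (fracLift E f (Units.mk0 (algebraMap A E a) hne)) = _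
    rw [h]
    rfl
  refine ⟨ω, ?_, ?_⟩
  · rw [hω t ht0, ← hπ, multiplicity_self]
    simp
  · intro a ha
    have ha0 : a ≠ 0 := by
      rintro rfl
      exact ha m.zero_mem
    rw [hω a ha0]
    have hu : IsUnit (algebraMap A O a) := by
      rw [IsLocalization.AtPrime.isUnit_to_map_iff O m]
      exact ha
    have : ¬ π ∣ algebraMap A O a := fun h => hπp.not_isUnit (isUnit_of_dvd_unit h hu)
    rw [multiplicity_eq_zero.2 this]
    simp

end OrdAt

section Quot

variable {R : Type*} [CommRing R]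

lemma exists_resField_gen {R : Type u_1} [CommRing R] {F : R} (hF : Prime F) :
    ∃ (E : Type u_1) (_ : Field E) (φ : R →+* E), (∀ a, φ a = 0 ↔ F ∣ a) ∧
      ∀ e : E, ∃ a b, φ b ≠ 0 ∧ e = φ a / φ b := by
  haveI : (Ideal.span {F}).IsPrime := (Ideal.span_singleton_prime hF.ne_zero).2 hF
  refine ⟨FractionRing (R ⧸ Ideal.span {F}), inferInstance,
    (algebraMap (R ⧸ Ideal.span {F}) (FractionRing (R ⧸ Ideal.span {F}))).comp
      (Ideal.Quotient.mk (Ideal.span {F})), ?_, ?_⟩
  · intro a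
    simp only [RingHom.comp_apply]
    rw [map_eq_zero_iff _ (IsFractionRing.injective (R ⧸ Ideal.span {F}) (FractionRing _)),
      Ideal.Quotient.eq_zero_iff_mem, Ideal.mem_span_singleton]
  · intro e
    obtain ⟨a, b, hb, rfl⟩ := IsFractionRing.div_surjective (A := R ⧸ Ideal.span {F}) e
    obtain ⟨a', rfl⟩ := Ideal.Quotient.mk_surjective a
    obtain ⟨b', rfl⟩ := Ideal.Quotient.mk_surjective b
    refine ⟨a', b', ?_, rfl⟩
    simp only [RingHom.comp_apply]
    rw [Ne, map_eq_zero_iff _ (IsFractionRing.injective (R ⧸ Ideal.span {F}) (FractionRing _))]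
    exact nonZeroDivisors.ne_zero hb

theorem exists_ord_quot [IsNoetherianRing R] {E l : Type*} [Field E] [Field l] {F : R} (hF : Prime F)
    {φ : R →+* E} (hker : ∀ a, φ a = 0 ↔ F ∣ a) (hgen : ∀ e : E, ∃ a b, φ b ≠ 0 ∧ e = φ a / φ b)
    (η : R →+* l) (hη : η F = 0) (t : R) (ht : η t = 0) (ht_ne : ¬ F ∣ t)
    (H : ∀ x, η x = 0 → ∃ d w, η d ≠ 0 ∧ F ∣ d * x - t * w) (ℓ : ℕ) [hℓ : Fact ℓ.Prime] :
    ∃ ω : V ℓ E →ₗ[ZMod ℓ] ZMod ℓ, ω (clsF ℓ (φ t)) = 1 ∧
      ∀ f, η f ≠ 0 → ω (clsF ℓ (φ f)) = 0 := by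
  classical
  haveI : (Ideal.span {F}).IsPrime := (Ideal.span_singleton_prime hF.ne_zero).2 hF
  have hker1 : ∀ x ∈ Ideal.span {F}, φ x = 0 := by
    intro x hx
    exact (hker x).2 (Ideal.mem_span_singleton.1 hx)
  let φA : R ⧸ Ideal.span {F} →+* E := Ideal.Quotient.lift _ φ hker1
  have hφA : Function.Injective φA := by
    rw [injective_iff_map_eq_zero]
    intro x hx
    obtain ⟨x', rfl⟩ := Ideal.Quotient.mk_surjective x
    rw [Ideal.Quotient.lift_mk] at hx
    rw [Ideal.Quotient.eq_zero_iff_mem, Ideal.mem_span_singleton]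
    exact (hker x').1 hx
  letI : Algebra (R ⧸ Ideal.span {F}) E := φA.toAlgebra
  haveI : FaithfulSMul (R ⧸ Ideal.span {F}) E :=
    (faithfulSMul_iff_algebraMap_injective (R ⧸ Ideal.span {F}) E).2 hφA
  haveI : IsFractionRing (R ⧸ Ideal.span {F}) E := IsFractionRing.of_field _ E (by
    intro e
    obtain ⟨x, y, -, rfl⟩ := hgen e
    exact ⟨Ideal.Quotient.mk _ x, Ideal.Quotient.mk _ y, rfl⟩)
  have hker2 : ∀ x ∈ Ideal.span {F}, η x = 0 := by
    intro x hx
    obtain ⟨w, rfl⟩ := Ideal.mem_span_singleton.1 hx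
    rw [map_mul, hη, zero_mul]
  let η' : R ⧸ Ideal.span {F} →+* l := Ideal.Quotient.lift _ η hker2
  haveI hm : (RingHom.ker η').IsPrime := RingHom.ker_isPrime η'
  have hmem : ∀ x : R, Ideal.Quotient.mk (Ideal.span {F}) x ∈ RingHom.ker η' ↔ η x = 0 := by
    intro x
    rw [RingHom.mem_ker, Ideal.Quotient.lift_mk]
  have ht_ne' : Ideal.Quotient.mk (Ideal.span {F}) t ≠ 0 := by
    rw [Ne, Ideal.Quotient.eq_zero_iff_mem, Ideal.mem_span_singleton]
    exact ht_ne
  obtain ⟨ω, h1, h2⟩ := exists_ord_of_principal (E := E) ℓ (RingHom.ker η')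
    (Ideal.Quotient.mk _ t) ((hmem t).2 ht) ht_ne' (by
      intro x hx
      obtain ⟨x', rfl⟩ := Ideal.Quotient.mk_surjective x
      obtain ⟨d, w, hd, hw⟩ := H x' ((hmem x').1 hx)
      refine ⟨Ideal.Quotient.mk _ d, ?_, Ideal.Quotient.mk _ w, ?_⟩
      · rw [hmem]
        exact hd
      · rw [← map_mul, ← map_mul, Ideal.Quotient.eq, Ideal.mem_span_singleton]
        exact hw)
  refine ⟨ω, h1, ?_⟩
  intro f hf
  have := h2 (Ideal.Quotient.mk _ f) (by rw [hmem]; exact hf)
  exact this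

end Quot

section ResField

variable {l : Type*} [Field l]

/-- `E` with `φ : k[x,y] → E` is a residue field at `F`. -/
structure ResField (F : R2 l) (E : Type*) [Field E] (φ : R2 l →+* E) : Prop where
  ker : ∀ a, φ a = 0 ↔ F ∣ a
  gen : ∀ e : E, ∃ a b, φ b ≠ 0 ∧ e = φ a / φ b

lemma exists_resField {l : Type u_1} [Field l] {F : R2 l} (hF : Prime F) :
    ∃ (E : Type u_1) (_ : Field E) (φ : R2 l →+* E), ResField F E φ := by
  obtain ⟨E, i, φ, h1, h2⟩ := exists_resField_gen hF
  exact ⟨E, i, φ, h1, h2⟩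

variable {ℓ : ℕ} [hℓ : Fact ℓ.Prime]

/-- The order function of a curve at a point where it meets another curve transversally. -/
theorem exists_ordAt {F : R2 l} (hF : Prime F) {E : Type*} [Field E] {φ : R2 l →+* E}
    (hE : ResField F E φ) {a b : l} (hF0 : ev2 a b F = 0) {t : R2 l} (ht0 : ev2 a b t = 0)
    (hJ : Jac a b F t ≠ 0) :
    ∃ ω : V ℓ E →ₗ[ZMod ℓ] ZMod ℓ, ω (clsF ℓ (φ t)) = 1 ∧
      ∀ f, ev2 a b f ≠ 0 → ω (clsF ℓ (φ f)) = 0 := by
  obtain ⟨F₁, F₂, hF1, hF2, hF3⟩ := taylor a b F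
  obtain ⟨t₁, t₂, ht1, ht2, ht3⟩ := taylor a b t
  rw [hF0] at hF1
  rw [ht0] at ht1
  simp only [map_zero, add_zero] at hF1 ht1
  have hD : ev2 a b (F₁ * t₂ - F₂ * t₁) ≠ 0 := by
    rw [map_sub, map_mul, map_mul, hF2, hF3, ht2, ht3]
    exact hJ
  have ht_ne : ¬ F ∣ t := by
    rintro ⟨w, rfl⟩
    apply hJ
    rw [Jac, px_mul, py_mul]
    simp only [map_add, map_mul, hF0]
    ring
  refine exists_ord_quot hF hE.ker hE.gen (ev2 a b) hF0 t ht0 ht_ne ?_ ℓ
  intro x hx0
  obtain ⟨x₁, x₂, hx1, -, -⟩ := taylor a b x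
  rw [hx0] at hx1
  simp only [map_zero, add_zero] at hx1
  refine ⟨F₁ * t₂ - F₂ * t₁, x₂ * F₁ - x₁ * F₂, hD, x₁ * t₂ - x₂ * t₁, ?_⟩
  rw [hx1]
  linear_combination (-(x₂ * F₁ - x₁ * F₂)) * ht1 + (-(x₁ * t₂ - x₂ * t₁)) * hF1

end ResField

end Vale.Agent.Lib.P019
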