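import Vale.Agent.Lib.P019.Generic

/-!
Rigidity: a compatible automorphism of `V ℓ k(x,y)` fixing all `[x - c]` and `[y - a]` is
the identity (char 0).
-/

set_option linter.unusedSectionVars false

namespace Vale.Agent.Lib.P019

open Polynomial TensorProduct nonZeroDivisors UniqueFactorizationMonoid Filter
open Polynomial.Bivariate (swap)

section Swap

variable {k : Type*} [Field k]

/-- The swap of the variables on `k[x][y]` as a ring isomorphism. -/
noncomputable def swR : R2 k ≃+* R2 k := (Polynomial.Bivariate.swap (R := k)).toRingEquiv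

@[simp] lemma swR_apply (h : R2 k) : swR h = Polynomial.Bivariate.swap h := rfl

lemma swR_swR (h : R2 k) : swR (swR h) = h := Polynomial.Bivariate.swap_swap_apply h

/-- The swap of the variables on `k(x,y)`. -/
noncomputable def swK : K2 k ≃+* K2 k := IsFractionRing.ringEquivOfRingEquiv (swR (k := k))

lemma swK_algebraMap (h : R2 k) : swK (algebraMap (R2 k) (K2 k) h) = algebraMap _ _ (swR h) :=
  IsFractionRing.ringEquivOfRingEquiv_algebraMap (swR (k := k)) h

variable (ℓ : ℕ)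

/-- The swap on `V ℓ k(x,y)`. -/
noncomputable def swV : V ℓ (K2 k) ≃ₗ[ZMod ℓ] V ℓ (K2 k) := mapVEquiv ℓ swK

lemma swV_vr (h : R2 k) : swV ℓ (vr2 ℓ h) = vr2 ℓ (swR h) := by
  rw [swV, vr2, vr, mapVEquiv_clsF, swK_algebraMap]
  rfl

lemma swV_swV (z : V ℓ (K2 k)) : swV ℓ (swV ℓ z) = z := by
  obtain ⟨x, rfl⟩ := cls_surjective z
  simp only [swV, mapVEquiv_cls]
  congr 1
  ext
  simp only [Units.coe_map, MonoidHom.coe_coe, RingHom.coe_coe]
  obtain ⟨a, b, hb, hab⟩ := IsFractionRing.div_surjective (A := R2 k) (x : K2 k)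
  rw [← hab]
  simp only [map_div₀]
  simp only [swK_algebraMap, swR_swR]

lemma swR_xc (c : k) : swR (xc c) = yc c := by
  rw [swR_apply, xc, Polynomial.Bivariate.swap_C]
  simp [yc]

lemma swR_yc (c : k) : swR (yc c) = xc c := by
  rw [← swR_xc, swR_swR]

/-- The `x`-degree. -/
noncomputable def degX (h : R2 k) : ℕ := (swR h).natDegree

/-- The sum of the `x`- and `y`-degrees. -/
noncomputable def mu (h : R2 k) : ℕ := degX h + h.natDegree

lemma degX_swR (h : R2 k) : degX (swR h) = h.natDegree := by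
  rw [degX, swR_swR]

lemma mu_swR (h : R2 k) : mu (swR h) = mu h := by
  rw [mu, mu, degX_swR, degX, add_comm]

lemma mu_mul {a b : R2 k} (ha : a ≠ 0) (hb : b ≠ 0) : mu (a * b) = mu a + mu b := by
  have ha' : swR a ≠ 0 := by simpa using ha
  have hb' : swR b ≠ 0 := by simpa using hb
  rw [mu, mu, mu, degX, degX, degX, map_mul, natDegree_mul ha' hb', natDegree_mul ha hb]
  omega

lemma isUnit_of_mu_eq_zero {a : R2 k} (ha : a ≠ 0) (h : mu a = 0) : IsUnit a := by
  have h1 : a.natDegree = 0 := by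
    rw [mu] at h
    omega
  have h2 : (swR a).natDegree = 0 := by
    rw [mu, degX] at h
    omega
  obtain ⟨r, rfl⟩ := natDegree_eq_zero.1 h1
  rw [swR_apply, Polynomial.Bivariate.swap_C, natDegree_map_eq_of_injective C_injective] at h2
  obtain ⟨t, rfl⟩ := natDegree_eq_zero.1 h2
  have ht : t ≠ 0 := by
    rintro rfl
    simp at ha
  exact Polynomial.isUnit_C.2 (Polynomial.isUnit_C.2 (isUnit_iff_ne_zero.2 ht))

/-- The polynomial `f(c, y)` viewed in `k[x][y]`. -/
noncomputable def fc (c : k) (f : R2 k) : R2 k := (evX c f).map C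

lemma evX_map_C (c : k) (p : k[X]) : evX c (p.map C) = p := by
  rw [evX_apply, Polynomial.map_map]
  have : (evalRingHom c).comp (C : k →+* k[X]) = RingHom.id k := by
    ext t
    simp
  rw [this, Polynomial.map_id]

lemma evX_fc (c : k) (f : R2 k) : evX c (fc c f) = evX c f := evX_map_C c _

lemma xc_dvd_sub_fc (c : k) (f : R2 k) : xc c ∣ f - fc c f := by
  rw [xc_dvd_iff, map_sub, evX_fc, sub_self]

lemma swR_fc (c : k) (f : R2 k) : swR (fc c f) = C (evX c f) :=
  Polynomial.Bivariate.swap_map_C _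

lemma natDegree_fc_le (c : k) (f : R2 k) : (fc c f).natDegree ≤ f.natDegree := by
  rw [fc, natDegree_map_eq_of_injective C_injective]
  exact natDegree_map_le

lemma degX_fc (c : k) (f : R2 k) : degX (fc c f) = 0 := by
  rw [degX, swR_fc, natDegree_C]

lemma natDegree_yc (a : k) : (yc a).natDegree = 1 := natDegree_X_sub_C _

lemma degX_xc (c : k) : degX (xc c) = 1 := by
  rw [degX, swR_xc, natDegree_yc]

lemma mu_xc (c : k) : mu (xc c) = 1 := by
  rw [mu, degX_xc, xc, natDegree_C]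

lemma mu_fc_lt {f : R2 k} (c : k) (h : 0 < degX f) : mu (fc c f) < mu f := by
  rw [mu, mu, degX_fc]
  have := natDegree_fc_le c f
  omega

/-- A coefficient of positive degree. -/
lemma exists_coeff_natDegree_pos {f : R2 k} (h : 0 < degX f) : ∃ j, 0 < (f.coeff j).natDegree := by
  by_contra hcon
  push Not at hcon
  have h1 : ∀ j, ∃ t : k, f.coeff j = C t := fun j =>
    ⟨_, eq_C_of_natDegree_le_zero (hcon j)⟩
  have h2 : f = fc 0 f := by
    ext1 j
    obtain ⟨t, ht⟩ := h1 j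
    rw [fc, coeff_map, evX_apply, coeff_map, ht]
    simp
  have h3 : degX f = 0 := by
    rw [h2, degX_fc]
  omega

end Swap

section Main

variable {k : Type*} [Field k] [IsAlgClosed k] {ℓ : ℕ} [hℓ : Fact ℓ.Prime]

lemma finite_xc_dvd {h : R2 k} (hh : h ≠ 0) : {c : k | xc c ∣ h}.Finite := by
  obtain ⟨j, hj⟩ : ∃ j, h.coeff j ≠ 0 := by
    by_contra hcon
    push Not at hcon
    exact hh (Polynomial.ext (by simpa using hcon))
  apply (Polynomial.finite_setOfPred_isRoot hj).subset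
  intro c hc
  have h1 : evX c h = 0 := (xc_dvd_iff c h).1 hc
  have h2 := congrArg (fun p => p.coeff j) h1
  simpa [IsRoot] using h2

lemma finite_ordX_ne (z : V ℓ (K2 k)) : {c : k | ordX ℓ c z ≠ 0}.Finite := by
  obtain ⟨h, hh, rfl⟩ := vr_surjective (A := R2 k) (F := K2 k) hℓ.out.ne_zero z
  apply (finite_xc_dvd hh).subset
  intro c hc
  by_contra hd
  exact hc (ordV_vr_of_not_dvd _ (prime_xc c) hd)

variable [CharZero k]

lemma finite_xc_dvd_cofactor {f : R2 k} (hf : 0 < degX f) :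
    {c : k | ∃ g, f - fc c f = xc c * g ∧ xc c ∣ g}.Finite := by
  obtain ⟨j, hj⟩ := exists_coeff_natDegree_pos hf
  have hq : derivative (f.coeff j) ≠ 0 := by
    intro h0
    have := Polynomial.derivative_eq_zero.1 h0
    omega
  apply (Polynomial.finite_setOfPred_isRoot hq).subset
  rintro c ⟨g, hg, g', rfl⟩
  have h1 : f.coeff j - C ((f.coeff j).eval c) = (X - C c) ^ 2 * g'.coeff j := by
    have h2 := congrArg (fun p => p.coeff j) hg
    simp only [coeff_sub, fc, coeff_map, evX_apply, xc] at h2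
    have e1 : ((C (X - C c) * (C (X - C c) * g')).coeff j) = (X - C c) ^ 2 * g'.coeff j := by
      rw [coeff_C_mul, coeff_C_mul]
      ring
    rw [e1] at h2
    simpa using h2
  have h3 := congrArg derivative h1
  have h4 := congrArg (fun p => p.eval c) h3
  simp only [derivative_sub, derivative_C, sub_zero, derivative_mul, derivative_pow] at h4
  simpa [IsRoot] using h4

lemma rhoX_delta_eq_zero (Θ : V ℓ (K2 k) ≃ₗ[ZMod ℓ] V ℓ (K2 k)) (hΘ : Compatible Θ)
    {f : R2 k} (hfp : Prime f) (hX : 0 < degX f) (hY : 0 < f.natDegree)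
    (H : ∀ h : R2 k, h ≠ 0 → mu h < mu f → Θ (vr2 ℓ h) = vr2 ℓ h) (c : k)
    (hc : ordX ℓ c (Θ (vr2 ℓ f) - vr2 ℓ f) = 0)
    (hc2 : c ∉ {c : k | ∃ g, f - fc c f = xc c * g ∧ xc c ∣ g}) :
    rhoX ℓ c (Θ (vr2 ℓ f) - vr2 ℓ f) = 0 := by
  set δ := Θ (vr2 ℓ f) - vr2 ℓ f with hδ
  have hf0 : f ≠ 0 := hfp.ne_zero
  have hnd : ¬ xc c ∣ f := xc_dvd_of_prime_natDegree hfp hY
  have hevf : evX c f ≠ 0 := fun h => hnd ((xc_dvd_iff c f).2 h)
  have hfc0 : fc c f ≠ 0 := by
    rw [fc]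
    intro h
    exact hevf ((Polynomial.map_eq_zero_iff C_injective).1 h)
  have hndc : ¬ xc c ∣ fc c f := by
    rw [xc_dvd_iff, evX_fc]
    exact hevf
  obtain ⟨g, hg⟩ := xc_dvd_sub_fc c f
  have hxc0 : xc c ≠ 0 := (prime_xc c).ne_zero
  have hne : f - fc c f ≠ 0 := by
    intro h0
    have : f = fc c f := sub_eq_zero.1 h0
    rw [this, degX_fc] at hX
    omega
  have hg0 : g ≠ 0 := by
    rintro rfl
    rw [mul_zero] at hg
    exact hne hg
  have hndg : ¬ xc c ∣ g := fun h => hc2 ⟨g, hg, h⟩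
  -- degree bounds
  have hmu_g : mu g < mu f := by
    have h1 : (xc c * g).natDegree = g.natDegree := by
      rw [xc, natDegree_C_mul (by simpa using (prime_X_sub_C c).ne_zero)]
    have h2 : (f - fc c f).natDegree ≤ f.natDegree := by
      refine (natDegree_sub_le _ _).trans ?_
      exact max_le le_rfl (natDegree_fc_le c f)
    have h3 : degX (xc c * g) = 1 + degX g := by
      rw [degX, degX, map_mul, natDegree_mul (by simpa using hxc0) (by simpa using hg0), swR_xc,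
        natDegree_yc]
    have h4 : degX (f - fc c f) ≤ degX f := by
      rw [degX, degX, map_sub, swR_fc]
      refine (natDegree_sub_le _ _).trans ?_
      rw [natDegree_C]
      exact max_le le_rfl (Nat.zero_le _)
    rw [← hg] at h1 h3
    rw [mu, mu]
    omega
  have hmu_fc : mu (fc c f) < mu f := mu_fc_lt c hX
  have hmu_xc : mu (xc c) < mu f := by
    rw [mu_xc, mu]
    omega
  have hθg := H g hg0 hmu_g
  have hθfc := H (fc c f) hfc0 hmu_fc
  have hθxc := H (xc c) hxc0 hmu_xc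
  -- the Steinberg pair
  have hfF : algebraMap (R2 k) (K2 k) f ≠ 0 := algebraMap_ne hf0
  set s : (K2 k)ˣ := Units.mk0 (algebraMap (R2 k) (K2 k) (fc c f) / algebraMap (R2 k) (K2 k) f)
    (div_ne_zero (algebraMap_ne hfc0) hfF) with hs
  set t : (K2 k)ˣ := Units.mk0 (algebraMap (R2 k) (K2 k) (xc c * g) / algebraMap (R2 k) (K2 k) f)
    (div_ne_zero (algebraMap_ne (mul_ne_zero hxc0 hg0)) hfF) with ht
  have hst : (s : K2 k) + t = 1 := by
    simp only [hs, ht, Units.val_mk0]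
    rw [← add_div, ← map_add, ← hg]
    rw [add_sub_cancel, div_self hfF]
  have ha : cls ℓ s = vr2 ℓ (fc c f) - vr2 ℓ f := by
    rw [← clsF_units, hs, Units.val_mk0]
    exact clsF_frac hfc0 hf0
  have hb : cls ℓ t = vr2 ℓ (xc c) + vr2 ℓ g - vr2 ℓ f := by
    rw [← clsF_units, ht, Units.val_mk0, clsF_frac (mul_ne_zero hxc0 hg0) hf0, vr_mul hxc0 hg0]
  have hθa : Θ (cls ℓ s) = cls ℓ s - δ := by
    rw [ha, map_sub, hθfc, hδ]
    abel
  have hθb : Θ (cls ℓ t) = cls ℓ t - δ := by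
    rw [hb, map_sub, map_add, hθxc, hθg, hδ]
    abel
  -- the tame form
  have hsm := steinberg_mem (ℓ := ℓ) s t hst
  have hsm' := hΘ.mem hsm
  have hT1 := tameForm_steinberg (phiX c) (xc c) (prime_xc c) (phiX_eq_zero_iff c)
    (clsF_neg_one_K1 (k := k) (ℓ := ℓ)) hsm
  have hT2 := tameForm_steinberg (phiX c) (xc c) (prime_xc c) (phiX_eq_zero_iff c)
    (clsF_neg_one_K1 (k := k) (ℓ := ℓ)) hsm'
  rw [tameForm_tmul] at hT1 hT2
  change ordX ℓ c _ • rhoX ℓ c _ - ordX ℓ c _ • rhoX ℓ c _ = 0 at hT1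
  change ordX ℓ c _ • rhoX ℓ c _ - ordX ℓ c _ • rhoX ℓ c _ = 0 at hT2
  rw [hθa, hθb] at hT2
  simp only [map_sub, sub_smul, smul_sub] at hT2
  rw [hc] at hT2
  simp only [zero_smul, smul_zero, sub_zero, zero_sub] at hT2
  -- orders of the classes
  have hordb : ordX ℓ c (cls ℓ t) = 1 + 0 - 0 := by
    rw [hb, map_sub, map_add]
    congr 1
    · congr 1
      exact ordV_vr_self _ (prime_xc c)
      exact ordV_vr_of_not_dvd _ (prime_xc c) hndg
    · exact ordV_vr_of_not_dvd _ (prime_xc c) hnd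
  have horda : ordX ℓ c (cls ℓ s) = 0 := by
    rw [ha, map_sub]
    rw [ordX, ordV_vr_of_not_dvd _ (prime_xc c) hndc, ordV_vr_of_not_dvd _ (prime_xc c) hnd,
      sub_zero]
  rw [hordb, horda] at hT2
  simp only [add_zero, sub_zero, one_smul, zero_smul, zero_sub, smul_zero] at hT2
  have hT1' : ordX ℓ c (cls ℓ t) • rhoX ℓ c (cls ℓ s) = ordX ℓ c (cls ℓ s) • rhoX ℓ c (cls ℓ t) :=
    sub_eq_zero.1 hT1
  rw [hordb, horda] at hT1'
  simp only [add_zero, sub_zero, one_smul, zero_smul] at hT1'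
  rw [hT1'] at hT2
  simpa using hT2

/-- One half of the inductive step of the rigidity theorem. -/
lemma delta_mem_Ax (Θ : V ℓ (K2 k) ≃ₗ[ZMod ℓ] V ℓ (K2 k)) (hΘ : Compatible Θ)
    {f : R2 k} (hfp : Prime f) (hX : 0 < degX f) (hY : 0 < f.natDegree)
    (H : ∀ h : R2 k, h ≠ 0 → mu h < mu f → Θ (vr2 ℓ h) = vr2 ℓ h) :
    Θ (vr2 ℓ f) - vr2 ℓ f ∈ Ax ℓ k := by
  apply mem_Ax_of_infinite
  have h1 := finite_ordX_ne (Θ (vr2 ℓ f) - vr2 ℓ f)
  have h2 := finite_xc_dvd_cofactor hX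
  have h3 := (h1.union h2).infinite_compl
  apply h3.mono
  intro c hc
  simp only [Set.mem_compl_iff, Set.mem_union, not_or] at hc
  obtain ⟨hc1, hc2⟩ := hc
  have hc1' : ordX ℓ c (Θ (vr2 ℓ f) - vr2 ℓ f) = 0 := by
    by_contra h
    exact hc1 h
  exact rhoX_delta_eq_zero Θ hΘ hfp hX hY H c hc1' hc2

lemma ordV_eq_zero_of_mem_Ax {P : R2 k} (hP : Prime P) (hne : ∀ c, ¬ Associated P (xc c))
    {z : V ℓ (K2 k)} (hz : z ∈ Ax ℓ k) : ordV ℓ (K2 k) P z = 0 := by
  induction hz using Submodule.span_induction with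
  | mem x h =>
    obtain ⟨c, rfl⟩ := h
    exact ordV_vr_of_not_associated hP (prime_xc c) (hne c)
  | zero => simp
  | add x y _ _ hx hy => rw [map_add, hx, hy, add_zero]
  | smul a x _ hx => rw [map_smul, hx, smul_zero]

lemma swV_mem_Ax_iff_ordV {P : R2 k} (hP : Prime P) (hne : ∀ c, ¬ Associated P (yc c))
    {z : V ℓ (K2 k)} (hz : swV ℓ z ∈ Ax ℓ k) : ordV ℓ (K2 k) P z = 0 := by
  have key : ∀ w ∈ Ax ℓ k, ordV ℓ (K2 k) P (swV ℓ w) = 0 := by
    intro w hw
    induction hw using Submodule.span_induction with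
    | mem x h =>
      obtain ⟨c, rfl⟩ := h
      rw [swV_vr, swR_xc]
      exact ordV_vr_of_not_associated hP (prime_yc c) (hne c)
    | zero => simp
    | add x y _ _ hx hy => rw [map_add, map_add, hx, hy, add_zero]
    | smul a x _ hx => rw [map_smul, map_smul, hx, smul_zero]
  have := key _ hz
  rwa [swV_swV] at this

lemma not_associated_xc_yc (c a : k) : ¬ (Associated (xc c) (yc a)) := by
  rintro ⟨u, hu⟩
  have h1 := congrArg natDegree hu
  rw [natDegree_mul (prime_xc c).ne_zero u.ne_zero, natDegree_eq_zero_of_isUnit u.isUnit,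
    natDegree_yc, xc, natDegree_C] at h1
  omega

lemma eq_zero_of_mem_Ax_of_swV {z : V ℓ (K2 k)} (h1 : z ∈ Ax ℓ k) (h2 : swV ℓ z ∈ Ax ℓ k) :
    z = 0 := by
  apply eq_zero_of_forall_ordV (A := R2 k) unitsDiv2
  intro P hP
  by_cases hx : ∃ c, Associated P (xc c)
  · obtain ⟨c, hc⟩ := hx
    apply swV_mem_Ax_iff_ordV hP _ h2
    intro a ha
    exact not_associated_xc_yc c a (hc.symm.trans ha)
  · push Not at hx
    exact ordV_eq_zero_of_mem_Ax hP hx h1

/-- Conjugation of a map by the swap. -/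
noncomputable def conjSw {l : Type*} [Field l] (Θ : V ℓ (K2 k) ≃ₗ[ZMod ℓ] V ℓ (K2 l)) :
    V ℓ (K2 k) ≃ₗ[ZMod ℓ] V ℓ (K2 l) :=
  (swV ℓ).trans (Θ.trans (swV ℓ))

lemma conjSw_apply {l : Type*} [Field l] (Θ : V ℓ (K2 k) ≃ₗ[ZMod ℓ] V ℓ (K2 l)) (z : V ℓ (K2 k)) :
    conjSw Θ z = swV ℓ (Θ (swV ℓ z)) := rfl

lemma conjSw_vr {l : Type*} [Field l] (Θ : V ℓ (K2 k) ≃ₗ[ZMod ℓ] V ℓ (K2 l)) (h : R2 k) :
    conjSw Θ (vr2 ℓ h) = swV ℓ (Θ (vr2 ℓ (swR h))) := by
  rw [conjSw_apply, swV_vr]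

lemma compatible_swV {k : Type*} [Field k] : Compatible (swV ℓ (k := k)) := by
  unfold swV
  exact compatible_mapVEquiv (ℓ := ℓ) (swK (k := k))

lemma compatible_conjSw {l : Type*} [Field l] {Θ : V ℓ (K2 k) ≃ₗ[ZMod ℓ] V ℓ (K2 l)}
    (hΘ : Compatible Θ) : Compatible (conjSw Θ) := by
  unfold conjSw
  exact Compatible.trans compatible_swV (Compatible.trans hΘ compatible_swV)

lemma prime_swR {f : R2 k} (hfp : Prime f) : Prime (swR f) :=
  (MulEquiv.prime_iff (swR (k := k))).2 hfp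

lemma rigidity_prime_case (Θ : V ℓ (K2 k) ≃ₗ[ZMod ℓ] V ℓ (K2 k)) (hΘ : Compatible Θ)
    {f : R2 k} (hfp : Prime f) (hX : 0 < degX f) (hY : 0 < f.natDegree)
    (H : ∀ h : R2 k, h ≠ 0 → mu h < mu f → Θ (vr2 ℓ h) = vr2 ℓ h) :
    Θ (vr2 ℓ f) = vr2 ℓ f := by
  have h1 := delta_mem_Ax Θ hΘ hfp hX hY H
  have hX2 : 0 < degX (swR f) := by rwa [degX_swR]
  have hY2 : 0 < (swR f).natDegree := hX
  have H' : ∀ h : R2 k, h ≠ 0 → mu h < mu (swR f) → conjSw Θ (vr2 ℓ h) = vr2 ℓ h := by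
    intro h hh hlt
    rw [mu_swR] at hlt
    have hh' : swR h ≠ 0 := by simpa using hh
    rw [conjSw_vr, H (swR h) hh' (by rwa [mu_swR]), swV_vr, swR_swR]
  have h2 := delta_mem_Ax (conjSw Θ) (compatible_conjSw hΘ) (prime_swR hfp) hX2 hY2 H'
  have h3 : conjSw Θ (vr2 ℓ (swR f)) - vr2 ℓ (swR f) = swV ℓ (Θ (vr2 ℓ f) - vr2 ℓ f) := by
    rw [conjSw_vr, swR_swR, map_sub, swV_vr]
  rw [h3] at h2
  have := eq_zero_of_mem_Ax_of_swV h1 h2
  exact sub_eq_zero.1 this

lemma exists_nontrivial_factor {f : R2 k} (hu : ¬ IsUnit f) (hp : ¬ Irreducible f) :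
    ∃ a b : R2 k, f = a * b ∧ ¬ IsUnit a ∧ ¬ IsUnit b := by
  by_contra hcon
  push Not at hcon
  apply hp
  refine ⟨hu, ?_⟩
  intro a b hab
  by_cases ha : IsUnit a
  · exact Or.inl ha
  · exact Or.inr (hcon a b hab ha)

/-- Rigidity theorem. -/
theorem rigidity (Θ : V ℓ (K2 k) ≃ₗ[ZMod ℓ] V ℓ (K2 k)) (hΘ : Compatible Θ)
    (hx : ∀ c, Θ (vr2 ℓ (xc c)) = vr2 ℓ (xc c)) (hy : ∀ a, Θ (vr2 ℓ (yc a)) = vr2 ℓ (yc a))
    (z : V ℓ (K2 k)) : Θ z = z := by
  have main : ∀ n : ℕ, ∀ h : R2 k, h ≠ 0 → mu h = n → Θ (vr2 ℓ h) = vr2 ℓ h := by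
    intro n
    induction n using Nat.strong_induction_on with
    | _ n ih =>
      intro f hf0 hn
      have H : ∀ h : R2 k, h ≠ 0 → mu h < mu f → Θ (vr2 ℓ h) = vr2 ℓ h := fun h hh hlt =>
        ih (mu h) (hn ▸ hlt) h hh rfl
      by_cases hu : IsUnit f
      · have : vr2 ℓ f = 0 := vr_isUnit unitsDiv2 hu
        rw [this, map_zero]
      by_cases hp : Irreducible f
      · have hfp : Prime f := hp.prime
        by_cases hY : f.natDegree = 0
        · obtain ⟨c, hc⟩ := exists_assoc_xc hfp hY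
          have h1 : vr2 ℓ f = vr2 ℓ (xc c) := vr_congr unitsDiv2 hc
          rw [h1, hx]
        by_cases hX : degX f = 0
        · obtain ⟨c, hc⟩ := exists_assoc_xc (prime_swR hfp) hX
          have h2 : Associated f (yc c) := by
            have := hc.map (swR (k := k) : R2 k →+* R2 k)
            simp only [RingEquiv.coe_toRingHom, swR_swR, swR_xc] at this
            exact this
          have h1 : vr2 ℓ f = vr2 ℓ (yc c) := vr_congr unitsDiv2 h2
          rw [h1, hy]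
        exact rigidity_prime_case Θ hΘ hfp (Nat.pos_of_ne_zero hX) (Nat.pos_of_ne_zero hY) H
      · -- a nontrivial factorization
        obtain ⟨a, b, hab, hau, hbu⟩ := exists_nontrivial_factor hu hp
        have ha0 : a ≠ 0 := by
          rintro rfl
          rw [zero_mul] at hab
          exact hf0 hab
        have hb0 : b ≠ 0 := by
          rintro rfl
          rw [mul_zero] at hab
          exact hf0 hab
        have hmu := mu_mul ha0 hb0
        rw [← hab] at hmu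
        have hma : 0 < mu a := Nat.pos_of_ne_zero fun h => hau (isUnit_of_mu_eq_zero ha0 h)
        have hmb : 0 < mu b := Nat.pos_of_ne_zero fun h => hbu (isUnit_of_mu_eq_zero hb0 h)
        have h1 := H a ha0 (by omega)
        have h2 := H b hb0 (by omega)
        have h3 : vr2 ℓ (a * b) = vr2 ℓ a + vr2 ℓ b := vr_mul ha0 hb0
        rw [hab, h3, map_add, h1, h2]
  obtain ⟨h, hh, rfl⟩ := vr_surjective (A := R2 k) (F := K2 k) hℓ.out.ne_zero z
  exact main _ h hh rfl

end Main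

end Vale.Agent.Lib.P019
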