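import Vale.Agent.Lib.P019.Auto

/-!
Compatible maps preserving both coordinate pencils: the row lemma.
-/

set_option linter.unusedSectionVars false

namespace Vale.Agent.Lib.P019

open Polynomial TensorProduct nonZeroDivisors UniqueFactorizationMonoid Filter
open scoped Classical

lemma zmod_one_ne {ℓ : ℕ} [hℓ : Fact ℓ.Prime] : (1 : ZMod ℓ) ≠ 0 := one_ne_zero

section Lemmas

variable {l : Type*} [Field l] [IsAlgClosed l] [CharZero l] {ℓ : ℕ} [hℓ : Fact ℓ.Prime]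

lemma ordX_eq_zero_of_mem_Ay (μ : l) {z : V ℓ (K2 l)} (hz : z ∈ Ay ℓ l) : ordX ℓ μ z = 0 := by
  induction hz using Submodule.span_induction with
  | mem x h =>
    obtain ⟨a, rfl⟩ := h
    exact ordV_vr_of_not_associated (prime_xc μ) (prime_yc a) (not_associated_xc_yc μ a)
  | zero => simp
  | add x y _ _ hx hy => rw [map_add, hx, hy, add_zero]
  | smul a x _ hx => rw [map_smul, hx, smul_zero]

lemma ordX_xc_xc (μ τ : l) : ordX ℓ μ (vr2 ℓ (xc τ)) = if τ = μ then 1 else 0 := by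
  split_ifs with h
  · subst h
    exact ordV_vr_self _ (prime_xc τ)
  · apply ordV_vr_of_not_dvd _ (prime_xc μ)
    rw [xc_dvd_iff, evX_xc]
    intro h3
    apply h
    have h4 : μ - τ = 0 := C_eq_zero.1 h3
    exact (sub_eq_zero.1 h4).symm

lemma ordV_yc_yc (a' a : l) : ordV ℓ (K2 l) (yc a') (vr2 ℓ (yc a)) = if a = a' then 1 else 0 := by
  split_ifs with h
  · subst h
    exact ordV_vr_self _ (prime_yc a)
  · apply ordV_vr_of_not_dvd _ (prime_yc a')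
    rw [yc, yc, dvd_iff_isRoot]
    intro h3
    apply h
    have h4 : (C a' : l[X]) - C a = 0 := by simpa [IsRoot] using h3
    have h5 : C a' = (C a : l[X]) := sub_eq_zero.1 h4
    exact (C_injective h5).symm

lemma ordX_xc_self (μ : l) : ordX ℓ μ (vr2 ℓ (xc μ)) = 1 := by
  rw [ordX_xc_xc, if_pos rfl]

lemma evX_yc (μ a : l) : evX μ (yc a) = X - C a := by
  simp [yc]

lemma not_xc_dvd_yc (μ a : l) : ¬ xc μ ∣ yc a := by
  rw [xc_dvd_iff, evX_yc]
  exact X_sub_C_ne_zero a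

lemma rhoX_yc (μ a : l) : rhoX ℓ μ (vr2 ℓ (yc a)) = vr1 ℓ (X - C a) := by
  rw [rhoX_vr μ (not_xc_dvd_yc μ a), evX_yc]

lemma ord1_X_sub_C (a' a : l) : ord1 ℓ a' (vr1 ℓ (X - C a)) = if a = a' then 1 else 0 := by
  split_ifs with h
  · subst h
    exact ordV_vr_self _ (prime_X_sub_C a)
  · apply ordV_vr_of_not_dvd _ (prime_X_sub_C a')
    rw [dvd_iff_isRoot]
    intro h3
    apply h
    have h4 : a' - a = 0 := by simpa [IsRoot] using h3
    exact (sub_eq_zero.1 h4).symm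

lemma ord1_rhoX_of_mem_Ay (μ a : l) {z : V ℓ (K2 l)} (hz : z ∈ Ay ℓ l) :
    ord1 ℓ a (rhoX ℓ μ z) = ordV ℓ (K2 l) (yc a) z := by
  induction hz using Submodule.span_induction with
  | mem x h =>
    obtain ⟨a', rfl⟩ := h
    rw [rhoX_yc, ord1_X_sub_C, ordV_yc_yc]
  | zero => simp
  | add x y _ _ hx hy => rw [map_add, map_add, map_add, hx, hy]
  | smul c x _ hx => rw [map_smul, map_smul, map_smul, hx]

lemma ordV_eq_zero_of_mem_Ay {P : R2 l} (hP : Prime P) (hne : ∀ c, ¬ Associated P (yc c))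
    {z : V ℓ (K2 l)} (hz : z ∈ Ay ℓ l) : ordV ℓ (K2 l) P z = 0 := by
  induction hz using Submodule.span_induction with
  | mem x h =>
    obtain ⟨c, rfl⟩ := h
    exact ordV_vr_of_not_associated hP (prime_yc c) (hne c)
  | zero => simp
  | add x y _ _ hx hy => rw [map_add, hx, hy, add_zero]
  | smul a x _ hx => rw [map_smul, hx, smul_zero]

/-- The residue map at `x - μ` is injective on the pencil `Ay`. -/
lemma eq_zero_of_mem_Ay_of_rhoX (μ : l) {z : V ℓ (K2 l)} (hz : z ∈ Ay ℓ l)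
    (h : rhoX ℓ μ z = 0) : z = 0 := by
  apply eq_zero_of_forall_ordV (A := R2 l) unitsDiv2
  intro P hP
  by_cases hy : ∃ c, Associated P (yc c)
  · obtain ⟨c, hc⟩ := hy
    rw [ordV_congr hP hc, ← ord1_rhoX_of_mem_Ay μ c hz, h, map_zero]
  · push Not at hy
    exact ordV_eq_zero_of_mem_Ay hP hy hz

lemma vr2_xc_ne_zero (c : l) : vr2 ℓ (xc c) ≠ 0 := by
  intro h
  have := ordX_xc_self (ℓ := ℓ) c
  rw [h, map_zero] at this
  exact zmod_one_ne this.symm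

lemma vr2_yc_ne_zero (c : l) : vr2 ℓ (yc c) ≠ 0 := by
  intro h
  have := ordV_yc_yc (ℓ := ℓ) c c
  rw [h, map_zero, if_pos rfl] at this
  exact zmod_one_ne this.symm

lemma vr1_X_sub_C_ne_zero (c : l) : vr1 ℓ (X - C c) ≠ 0 := by
  intro h
  have := ord1_X_sub_C (ℓ := ℓ) c c
  rw [h, map_zero, if_pos rfl] at this
  exact zmod_one_ne this.symm

lemma linearIndependent_xc : LinearIndependent (ZMod ℓ) (fun c : l => vr2 ℓ (xc c)) := by
  rw [linearIndependent_iff']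
  intro s g hg c hc
  have h1 := congrArg (ordX ℓ c) hg
  rw [map_sum, Finset.sum_eq_single c] at h1
  · rw [map_smul, ordX_xc_self] at h1
    simpa using h1
  · intro b _ hb
    rw [map_smul, ordX_xc_xc, if_neg hb, smul_zero]
  · intro h
    exact absurd hc h

lemma mem_Ax_iff_coords {z : V ℓ (K2 l)} (hz : z ∈ Ax ℓ l) (h : ∀ μ, ordX ℓ μ z = 0) : z = 0 := by
  apply eq_zero_of_forall_ordV (A := R2 l) unitsDiv2
  intro P hP
  by_cases hx : ∃ c, Associated P (xc c)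
  · obtain ⟨c, hc⟩ := hx
    rw [ordV_congr hP hc]
    exact h c
  · push Not at hx
    exact ordV_eq_zero_of_mem_Ax hP hx hz

end Lemmas

section Adm

variable {k l m : Type*} [Field k] [Field l] [Field m]
variable [IsAlgClosed k] [IsAlgClosed l] [CharZero k] [CharZero l] {ℓ : ℕ} [hℓ : Fact ℓ.Prime]

/-- Admissible maps: compatible isomorphisms preserving both coordinate pencils. -/
structure Adm (Θ : V ℓ (K2 k) ≃ₗ[ZMod ℓ] V ℓ (K2 l)) : Prop where
  compat : Compatible Θ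
  mapX : (Ax ℓ k).map Θ.toLinearMap = Ax ℓ l
  mapY : (Ay ℓ k).map Θ.toLinearMap = Ay ℓ l

lemma Adm.x_mem {Θ : V ℓ (K2 k) ≃ₗ[ZMod ℓ] V ℓ (K2 l)} (h : Adm Θ) {z : V ℓ (K2 k)}
    (hz : z ∈ Ax ℓ k) : Θ z ∈ Ax ℓ l := by
  rw [← h.mapX]
  exact ⟨z, hz, rfl⟩

lemma Adm.y_mem {Θ : V ℓ (K2 k) ≃ₗ[ZMod ℓ] V ℓ (K2 l)} (h : Adm Θ) {z : V ℓ (K2 k)}
    (hz : z ∈ Ay ℓ k) : Θ z ∈ Ay ℓ l := by
  rw [← h.mapY]
  exact ⟨z, hz, rfl⟩

lemma Adm.x_gen {Θ : V ℓ (K2 k) ≃ₗ[ZMod ℓ] V ℓ (K2 l)} (h : Adm Θ) (c : k) :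
    Θ (vr2 ℓ (xc c)) ∈ Ax ℓ l :=
  h.x_mem (Submodule.subset_span ⟨c, rfl⟩)

lemma Adm.y_gen {Θ : V ℓ (K2 k) ≃ₗ[ZMod ℓ] V ℓ (K2 l)} (h : Adm Θ) (c : k) :
    Θ (vr2 ℓ (yc c)) ∈ Ay ℓ l :=
  h.y_mem (Submodule.subset_span ⟨c, rfl⟩)

lemma Adm.trans {Θ : V ℓ (K2 k) ≃ₗ[ZMod ℓ] V ℓ (K2 l)} {Ψ : V ℓ (K2 l) ≃ₗ[ZMod ℓ] V ℓ (K2 m)}
    (h : Adm Θ) (h' : Adm Ψ) : Adm (Θ.trans Ψ) := by
  refine ⟨h.compat.trans h'.compat, ?_, ?_⟩
  · rw [← h'.mapX, ← h.mapX, ← Submodule.map_comp]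
    rfl
  · rw [← h'.mapY, ← h.mapY, ← Submodule.map_comp]
    rfl

lemma map_eq_of_le_of_inverse {W : Type*} [AddCommGroup W] [Module (ZMod ℓ) W]
    {f g : W ≃ₗ[ZMod ℓ] W} (A : Submodule (ZMod ℓ) W) (hf : ∀ z ∈ A, f z ∈ A)
    (hg : ∀ z ∈ A, g z ∈ A) (hfg : ∀ z, f (g z) = z) : A.map f.toLinearMap = A := by
  apply le_antisymm
  · rintro _ ⟨z, hz, rfl⟩
    exact hf z hz
  · intro z hz
    exact ⟨g z, hg z hz, hfg z⟩

lemma adm_trV (e : k) : Adm (trV ℓ e) := by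
  have hinv : ∀ e' : k, ∀ z, trV ℓ e' (trV ℓ (-e') z) = z := by
    intro e' z
    obtain ⟨a, ha, rfl⟩ := vr_surjective (A := R2 k) (F := K2 k) hℓ.out.ne_zero z
    change trV ℓ e' (trV ℓ (-e') (vr2 ℓ a)) = vr2 ℓ a
    rw [trV_vr, trV_vr]
    congr 1
    have : (trR e').toRingHom.comp (trR (-e')).toRingHom = RingHom.id _ := by
      apply Polynomial.ringHom_ext'
      · apply Polynomial.ringHom_ext'
        · refine RingHom.ext fun t => ?_
          simp [trR_C]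
        · simp [trR_C]
      · simp [trR_X]
    exact RingHom.congr_fun this a
  have hX : ∀ e' : k, ∀ z ∈ Ax ℓ k, trV ℓ e' z ∈ Ax ℓ k := by
    intro e' z hz
    induction hz using Submodule.span_induction with
    | mem x h =>
      obtain ⟨c, rfl⟩ := h
      change trV ℓ e' (vr2 ℓ (xc c)) ∈ _
      rw [trV_xc]
      exact Submodule.subset_span ⟨_, rfl⟩
    | zero => simp
    | add x y _ _ hx hy => rw [map_add]; exact add_mem hx hy
    | smul a x _ hx => rw [map_smul]; exact Submodule.smul_mem _ _ hx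
  have hY : ∀ e' : k, ∀ z ∈ Ay ℓ k, trV ℓ e' z ∈ Ay ℓ k := by
    intro e' z hz
    induction hz using Submodule.span_induction with
    | mem x h =>
      obtain ⟨c, rfl⟩ := h
      change trV ℓ e' (vr2 ℓ (yc c)) ∈ _
      rw [trV_yc]
      exact Submodule.subset_span ⟨_, rfl⟩
    | zero => simp
    | add x y _ _ hx hy => rw [map_add]; exact add_mem hx hy
    | smul a x _ hx => rw [map_smul]; exact Submodule.smul_mem _ _ hx
  exact ⟨compatible_trV ℓ e, map_eq_of_le_of_inverse _ (hX e) (hX (-e)) (hinv e),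
    map_eq_of_le_of_inverse _ (hY e) (hY (-e)) (hinv e)⟩

lemma adm_invV : Adm (invV ℓ (k := k)) := by
  have hX : ∀ z ∈ Ax ℓ k, invV ℓ z ∈ Ax ℓ k := by
    intro z hz
    induction hz using Submodule.span_induction with
    | mem x h =>
      obtain ⟨c, rfl⟩ := h
      change invV ℓ (vr2 ℓ (xc c)) ∈ _
      by_cases hc : c = 0
      · subst hc
        rw [invV_xc_zero]
        exact neg_mem (Submodule.subset_span ⟨_, rfl⟩)
      · rw [invV_xc ℓ hc]
        exact sub_mem (Submodule.subset_span ⟨_, rfl⟩) (Submodule.subset_span ⟨_, rfl⟩)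
    | zero => simp
    | add x y _ _ hx hy => rw [map_add]; exact add_mem hx hy
    | smul a x _ hx => rw [map_smul]; exact Submodule.smul_mem _ _ hx
  have hY : ∀ z ∈ Ay ℓ k, invV ℓ z ∈ Ay ℓ k := by
    intro z hz
    induction hz using Submodule.span_induction with
    | mem x h =>
      obtain ⟨c, rfl⟩ := h
      change invV ℓ (vr2 ℓ (yc c)) ∈ _
      rw [invV_yc]
      exact Submodule.subset_span ⟨_, rfl⟩
    | zero => simp
    | add x y _ _ hx hy => rw [map_add]; exact add_mem hx hy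
    | smul a x _ hx => rw [map_smul]; exact Submodule.smul_mem _ _ hx
  exact ⟨compatible_invV ℓ, map_eq_of_le_of_inverse _ hX hX (invV_invV ℓ),
    map_eq_of_le_of_inverse _ hY hY (invV_invV ℓ)⟩

lemma swV_Ax (z : V ℓ (K2 k)) (hz : z ∈ Ax ℓ k) : swV ℓ z ∈ Ay ℓ k := by
  induction hz using Submodule.span_induction with
  | mem x h =>
    obtain ⟨c, rfl⟩ := h
    change swV ℓ (vr2 ℓ (xc c)) ∈ _
    rw [swV_vr, swR_xc]
    exact Submodule.subset_span ⟨_, rfl⟩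
  | zero => simp
  | add x y _ _ hx hy => rw [map_add]; exact add_mem hx hy
  | smul a x _ hx => rw [map_smul]; exact Submodule.smul_mem _ _ hx

lemma swV_Ay (z : V ℓ (K2 k)) (hz : z ∈ Ay ℓ k) : swV ℓ z ∈ Ax ℓ k := by
  induction hz using Submodule.span_induction with
  | mem x h =>
    obtain ⟨c, rfl⟩ := h
    change swV ℓ (vr2 ℓ (yc c)) ∈ _
    rw [swV_vr, swR_yc]
    exact Submodule.subset_span ⟨_, rfl⟩
  | zero => simp
  | add x y _ _ hx hy => rw [map_add]; exact add_mem hx hy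
  | smul a x _ hx => rw [map_smul]; exact Submodule.smul_mem _ _ hx

lemma Adm.conjSw {Θ : V ℓ (K2 k) ≃ₗ[ZMod ℓ] V ℓ (K2 l)} (h : Adm Θ) : Adm (conjSw Θ) := by
  refine ⟨compatible_conjSw h.compat, ?_, ?_⟩
  · apply le_antisymm
    · rintro _ ⟨z, hz, rfl⟩
      exact swV_Ay _ (h.y_mem (swV_Ax z hz))
    · intro z hz
      have h1 : swV ℓ z ∈ Ay ℓ l := swV_Ax z hz
      rw [← h.mapY] at h1
      obtain ⟨w, hw, hw2⟩ := h1
      refine ⟨swV ℓ w, swV_Ay w hw, ?_⟩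
      change swV ℓ (Θ (swV ℓ (swV ℓ w))) = z
      rw [swV_swV]
      have h3 : Θ w = swV ℓ z := hw2
      rw [h3, swV_swV]
  · apply le_antisymm
    · rintro _ ⟨z, hz, rfl⟩
      exact swV_Ax _ (h.x_mem (swV_Ay z hz))
    · intro z hz
      have h1 : swV ℓ z ∈ Ax ℓ l := swV_Ay z hz
      rw [← h.mapX] at h1
      obtain ⟨w, hw, hw2⟩ := h1
      refine ⟨swV ℓ w, swV_Ax w hw, ?_⟩
      change swV ℓ (Θ (swV ℓ (swV ℓ w))) = z
      rw [swV_swV]
      have h3 : Θ w = swV ℓ z := hw2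
      rw [h3, swV_swV]

/-- The line `y - b x - d`. -/
noncomputable def line (b d : k) : R2 k := X - C (C b * X + C d)

lemma line_ne_zero (b d : k) : line b d ≠ 0 := X_sub_C_ne_zero _

lemma yc_eq_line (b d c : k) : yc (b * c + d) = line b d + C (C b) * xc c := by
  simp only [yc, line, xc, C_add, C_mul, C_sub]
  ring

lemma tame_compat {F : Type*} [Field F] {Θ : V ℓ F ≃ₗ[ZMod ℓ] V ℓ (K2 l)} (hΘ : Compatible Θ)
    (μ : l) (s t : Fˣ) (hst : (s : F) + t = 1) :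
    ordX ℓ μ (Θ (cls ℓ t)) • rhoX ℓ μ (Θ (cls ℓ s)) =
      ordX ℓ μ (Θ (cls ℓ s)) • rhoX ℓ μ (Θ (cls ℓ t)) := by
  have hsm' := hΘ.mem (steinberg_mem (ℓ := ℓ) s t hst)
  have hT2 := tameForm_steinberg (phiX μ) (xc μ) (prime_xc μ) (phiX_eq_zero_iff μ)
    (clsF_neg_one_K1 (k := l) (ℓ := ℓ)) hsm'
  rw [tameForm_tmul] at hT2
  exact sub_eq_zero.1 hT2

/-- The basic relation between a line and the pencils. -/
theorem spade {Θ : V ℓ (K2 k) ≃ₗ[ZMod ℓ] V ℓ (K2 l)} (hA : Adm Θ) {b : k} (hb : b ≠ 0)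
    (d c : k) (μ : l) :
    (ordX ℓ μ (Θ (vr2 ℓ (xc c))) - ordX ℓ μ (Θ (vr2 ℓ (line b d)))) •
        rhoX ℓ μ (Θ (vr2 ℓ (yc (b * c + d)))) =
      ordX ℓ μ (Θ (vr2 ℓ (xc c))) • rhoX ℓ μ (Θ (vr2 ℓ (line b d))) := by
  set f := line b d with hf
  have hf0 : f ≠ 0 := line_ne_zero b d
  have hfF : algebraMap (R2 k) (K2 k) f ≠ 0 := algebraMap_ne hf0
  have hyc0 : yc (b * c + d) ≠ 0 := (prime_yc _).ne_zero
  have hxc0 : xc c ≠ 0 := (prime_xc _).ne_zero
  have hC0 : C (C (-b)) ≠ (0 : R2 k) := by simpa using hb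
  have hnum0 : C (C (-b)) * xc c ≠ 0 := mul_ne_zero hC0 hxc0
  set s : (K2 k)ˣ := Units.mk0 (algebraMap (R2 k) (K2 k) (yc (b * c + d)) / algebraMap (R2 k) (K2 k) f)
    (div_ne_zero (algebraMap_ne hyc0) hfF) with hs
  set t : (K2 k)ˣ := Units.mk0 (algebraMap (R2 k) (K2 k) (C (C (-b)) * xc c) / algebraMap (R2 k) (K2 k) f)
    (div_ne_zero (algebraMap_ne hnum0) hfF) with ht
  have hst : (s : K2 k) + t = 1 := by
    simp only [hs, ht, Units.val_mk0]
    rw [← add_div, ← map_add]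
    have : yc (b * c + d) + C (C (-b)) * xc c = f := by
      rw [yc_eq_line, ← hf]
      simp only [C_neg]
      ring
    rw [this, div_self hfF]
  have ha : cls ℓ s = vr2 ℓ (yc (b * c + d)) - vr2 ℓ f := by
    rw [← clsF_units, hs, Units.val_mk0]
    exact clsF_frac hyc0 hf0
  have hb' : cls ℓ t = vr2 ℓ (xc c) - vr2 ℓ f := by
    rw [← clsF_units, ht, Units.val_mk0, clsF_frac hnum0 hf0]
    have h1 : vr2 ℓ (C (C (-b)) * xc c) = vr2 ℓ (C (C (-b))) + vr2 ℓ (xc c) := vr_mul hC0 hxc0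
    have h2 : vr ℓ (K2 k) (C (C (-b)) * xc c) = vr2 ℓ (xc c) :=
      h1.trans (by rw [vr2_CC, zero_add])
    rw [h2]
  have hT := tame_compat hA.compat μ s t hst
  rw [ha, hb'] at hT
  simp only [map_sub] at hT
  rw [rhoX_eq_zero_of_mem_Ax μ (hA.x_gen c), ordX_eq_zero_of_mem_Ay μ (hA.y_gen _)] at hT
  linear_combination (norm := module) hT

end Adm

end Vale.Agent.Lib.P019
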