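import Vale.Agent.Lib.P019.Chart

/-!
The S-unit theorem on a plane curve: up to constants, the functions whose zeros on the curve lie in
a fixed finite set form a group of finite rank.
-/

set_option linter.unusedSectionVars false

namespace Vale.Agent.Lib.P019

open Polynomial IsDedekindDomain
open scoped IntermediateField IntermediateField.algebraAdjoinAdjoin WithZero

section Val

variable {E : Type*} [Field E]

/-- A valuation is at most one on elements integral over a subring where it is at most one. -/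
lemma val_le_one_of_isIntegral {Γ : Type*} [LinearOrderedCommGroupWithZero Γ] (v : Valuation E Γ)
    {l : Type*} [Field l] [Algebra l E] (S : Subalgebra l E) (hS : ∀ y ∈ S, v y ≤ 1) {x : E}
    (hx : IsIntegral S x) : v x ≤ 1 := by
  have hI : v.Integers v.integer := Valuation.integer.integers v
  let f : S →+* v.integer :=
    { toFun := fun y => ⟨y, hS y y.2⟩
      map_one' := rfl
      map_mul' := fun _ _ => rfl
      map_zero' := rfl
      map_add' := fun _ _ => rfl }
  have hx' : IsIntegral v.integer x := by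
    have := hx.map_of_comp_eq f (RingHom.id E) (by ext y; rfl)
    simpa using this
  exact hI.mem_of_integral hx'

variable {l : Type*} [Field l] [Algebra l E] [IsAlgClosed l]

/-- An element integral over `l[t]` and over `l[1/t]` is constant. -/
lemma mem_range_of_two_integral {t x : E} (h1 : IsIntegral (Algebra.adjoin l {t}) x)
    (h2 : IsIntegral (Algebra.adjoin l {t⁻¹}) x) : x ∈ Set.range (algebraMap l E) := by
  by_contra hx
  let R : Subring E := (algebraMap l E).range
  have hcl : ∀ {z : E}, IsIntegral R z → z ∈ R := by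
    intro z hz
    have hz' : IsIntegral l z := by
      let f : R →+* l :=
        { toFun := fun y => y.2.choose
          map_one' := by
            apply (algebraMap l E).injective
            rw [(show (1 : R).1 ∈ (algebraMap l E).range from (1 : R).2).choose_spec]
            simp
          map_mul' := fun a b => by
            apply (algebraMap l E).injective
            rw [map_mul, (a * b).2.choose_spec, a.2.choose_spec, b.2.choose_spec]
            rfl
          map_zero' := by
            apply (algebraMap l E).injective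
            rw [(show (0 : R).1 ∈ (algebraMap l E).range from (0 : R).2).choose_spec]
            simp
          map_add' := fun a b => by
            apply (algebraMap l E).injective
            rw [map_add, (a + b).2.choose_spec, a.2.choose_spec, b.2.choose_spec]
            rfl }
      have hf : ∀ y : R, algebraMap l E (f y) = y := fun y => y.2.choose_spec
      have := hz.map_of_comp_eq f (RingHom.id E) (by
        ext y
        exact hf y)
      simpa using this
    exact mem_range_of_isAlgebraic hz'.isAlgebraic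
  have : IsIntegrallyClosedIn R E := Subring.isIntegrallyClosedIn_iff.2 (fun x hx => hcl hx)
  obtain ⟨V, hRV, hxV⟩ := Subring.exists_le_valuationSubring_of_isIntegrallyClosedIn
    (R := R) (x := x) (fun h => hx h)
  have hle : ∀ {u : E}, u ∈ V → ∀ y ∈ Algebra.adjoin l {u}, V.valuation y ≤ 1 := by
    intro u hu y hy
    rw [ValuationSubring.valuation_le_one_iff]
    induction hy using Algebra.adjoin_induction with
    | mem z hz =>
      rw [Set.mem_singleton_iff] at hz
      rw [hz]
      exact hu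
    | algebraMap a => exact hRV ⟨a, rfl⟩
    | add a b _ _ ha hb => exact V.add_mem _ _ ha hb
    | mul a b _ _ ha hb => exact V.mul_mem _ _ ha hb
  rcases V.mem_or_inv_mem t with ht | ht
  · apply hxV
    rw [← ValuationSubring.valuation_le_one_iff]
    exact val_le_one_of_isIntegral _ _ (hle ht) h1
  · apply hxV
    rw [← ValuationSubring.valuation_le_one_iff]
    exact val_le_one_of_isIntegral _ _ (hle ht) h2

end Val

section Relation

/-- More unknowns than equations. -/
lemma exists_int_relation {J : Type*} [Fintype J] {N : ℕ} (hN : Fintype.card J < N)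
    (M : J → Fin N → ℤ) : ∃ n : Fin N → ℤ, n ≠ 0 ∧ ∀ j, ∑ i, M j i * n i = 0 := by
  classical
  let f : (Fin N → ℤ) →ₗ[ℤ] (Fin (Fintype.card J) → ℤ) :=
    (Matrix.mulVecLin (Matrix.of fun j i => M ((Fintype.equivFin J).symm j) i))
  have hnot : ¬ Function.Injective f := fun hinj => by
    have := le_of_fin_injective ℤ f hinj
    omega
  obtain ⟨n, hn0, hn⟩ : ∃ n, n ≠ 0 ∧ f n = 0 := by
    by_contra hcon
    push Not at hcon
    apply hnot
    rw [injective_iff_map_eq_zero]
    intro n hn
    by_contra h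
    exact hcon n h hn
  refine ⟨n, hn0, fun j => ?_⟩
  have := congrFun hn (Fintype.equivFin J j)
  simpa [f, Matrix.mulVec, dotProduct] using this

end Relation

section Core

variable {l E : Type*} [Field l] [Field E] [Algebra l E] [IsAlgClosed l] [CharZero l]

lemma map_eq_eval₂ {R : Type*} [CommRing R] (φ : R2 l →+* R) (P : R2 l) :
    φ P = eval₂ (φ.comp C) (φ X) P := by
  have : (eval₂RingHom (φ.comp C) (φ X)) = φ := by
    apply Polynomial.ringHom_ext
    · intro a
      simp
    · simp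
  conv_lhs => rw [← this]
  rfl

lemma dvd_C_imp {P : R2 l} (hdeg : 0 < P.natDegree) {f : l[X]} (h : P ∣ C f) : f = 0 := by
  by_contra hf
  have := natDegree_le_of_dvd h (by simpa using hf)
  simp at this
  omega

/-- The function field of a plane curve not a vertical line is a finite extension of `l(x)`. -/
lemma res_fd {P : R2 l} (hP : Prime P) (hdeg : 0 < P.natDegree) {φ : R2 l →+* E}
    (hE : ResField P E φ) (hC : ∀ a, φ (C (C a)) = algebraMap l E a) :
    Transcendental l (φ (C X)) ∧ FiniteDimensional l⟮φ (C X)⟯ E := by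
  set t := φ (C X) with ht
  set w := φ X with hw
  have hCf : ∀ f : l[X], φ (C f) = aeval t f := by
    intro f
    induction f using Polynomial.induction_on with
    | C a => simp [hC]
    | add p q hp hq => simp [hp, hq]
    | monomial n a ih =>
      rw [pow_succ, ← mul_assoc, C_mul, map_mul, ih, map_mul (aeval t) _ X, aeval_X]
  have hinj : Function.Injective (fun f : l[X] => φ (C f)) := by
    intro f g hfg
    have h0 : φ (C (f - g)) = 0 := by
      rw [C_sub, map_sub]
      exact sub_eq_zero.2 hfg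
    exact sub_eq_zero.1 (dvd_C_imp hdeg ((hE.ker _).1 h0))
  have htr : Transcendental l t := by
    rw [transcendental_iff_injective]
    intro f g hfg
    apply hinj
    simp only [hCf]
    exact hfg
  refine ⟨htr, ?_⟩
  let K₀ := l⟮t⟯
  let toK : l[X] →+* K₀ :=
    { toFun := fun f => ⟨φ (C f), by
        rw [hCf]
        exact Subalgebra.mem_carrier.1 (by
          have : aeval t f ∈ Algebra.adjoin l {t} := by
            rw [Algebra.adjoin_singleton_eq_range_aeval]
            exact ⟨f, rfl⟩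
          exact (IntermediateField.algebra_adjoin_le_adjoin l {t}) this)⟩
      map_one' := by ext; simp
      map_mul' := fun a b => by ext; simp
      map_zero' := by ext; simp
      map_add' := fun a b => by ext; simp }
  have htoK : ∀ f, ((toK f : K₀) : E) = φ (C f) := fun _ => rfl
  have hinjK : Function.Injective toK := by
    intro f g hfg
    apply hinj
    exact congrArg Subtype.val hfg
  have hPne : P.map toK ≠ 0 := by
    rw [Ne, Polynomial.map_eq_zero_iff hinjK]
    exact hP.ne_zero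
  have hwint : IsIntegral K₀ w := by
    rw [← isAlgebraic_iff_isIntegral]
    refine ⟨P.map toK, hPne, ?_⟩
    rw [aeval_def, eval₂_map]
    have h1 : (algebraMap K₀ E).comp toK = φ.comp C := RingHom.ext fun f => htoK f
    rw [h1, ← map_eq_eval₂]
    exact (hE.ker P).2 dvd_rfl
  have hmem : ∀ f : R2 l, φ f ∈ K₀⟮w⟯ := by
    intro f
    induction f using R2_induction with
    | hc a =>
      rw [hC]
      exact algebraMap_mem K₀⟮w⟯ (⟨algebraMap l E a, K₀.algebraMap_mem a⟩ : K₀)
    | hx =>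
      exact algebraMap_mem K₀⟮w⟯ (⟨t, IntermediateField.mem_adjoin_simple_self l t⟩ : K₀)
    | hy => exact IntermediateField.mem_adjoin_simple_self K₀ w
    | hadd f g hf hg =>
      rw [map_add]
      exact add_mem hf hg
    | hmul f g hf hg =>
      rw [map_mul]
      exact mul_mem hf hg
  have htop : K₀⟮w⟯ = ⊤ := by
    rw [eq_top_iff]
    intro e _
    obtain ⟨a, b, -, rfl⟩ := hE.gen e
    exact div_mem (hmem a) (hmem b)
  have h2 : FiniteDimensional K₀ (⊤ : IntermediateField K₀ E) :=
    htop ▸ IntermediateField.adjoin.finiteDimensional hwint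
  exact (IntermediateField.topEquiv (F := K₀) (E := E)).toLinearEquiv.finiteDimensional

lemma adjoin_inv_eq (t : E) : l⟮t⁻¹⟯ = l⟮t⟯ := by
  apply le_antisymm
  · rw [IntermediateField.adjoin_simple_le_iff]
    exact inv_mem (IntermediateField.mem_adjoin_simple_self l t)
  · rw [IntermediateField.adjoin_simple_le_iff]
    have := inv_mem (IntermediateField.mem_adjoin_simple_self l t⁻¹)
    simpa using this

lemma mem_adjoin_aeval (t : E) (f : l[X]) : aeval t f ∈ Algebra.adjoin l {t} := by
  rw [Algebra.adjoin_singleton_eq_range_aeval]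
  exact ⟨f, rfl⟩

/-- The S-unit theorem for a plane curve, with the chart `x`. -/
theorem sunit_core {P δ : R2 l} (hP : Prime P) (hdeg : 0 < P.natDegree) {φ : R2 l →+* E}
    (hE : ResField P E φ) (hC : ∀ a, φ (C (C a)) = algebraMap l E a) (hδ : ¬ P ∣ δ) :
    ∃ T : Finset (Valuation E ℤᵐ⁰), ∀ 𝒢 : Set (R2 l),
      (∀ g ∈ 𝒢, ∀ a b, ev2 a b P = 0 → ev2 a b g = 0 → ev2 a b δ = 0) →
      ∀ x ∈ Subgroup.closure {u : Eˣ | ∃ g ∈ 𝒢, (u : E) = φ g},
        (∀ v ∈ T, v (x : E) = 1) → ∃ a : l, (x : E) = algebraMap l E a := by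
  classical
  obtain ⟨htr, hfd⟩ := res_fd hP hdeg hE hC
  set t := φ (C X) with ht
  set w := φ X with hw
  have ht0 : t ≠ 0 := by
    intro h0
    apply htr
    rw [h0]
    exact isAlgebraic_zero
  have hfd' : FiniteDimensional l⟮t⁻¹⟯ E := by
    rw [adjoin_inv_eq]
    exact hfd
  obtain ⟨W, C1, C2, C3, C4⟩ := chart (l := l) t
  obtain ⟨W', C1', C2', C3', -⟩ := chart (l := l) t⁻¹
  let A := Algebra.adjoin l {t}
  let A' := Algebra.adjoin l {t⁻¹}
  have hCf : ∀ f : l[X], φ (C f) = aeval t f := by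
    intro f
    induction f using Polynomial.induction_on with
    | C a => simp [hC]
    | add p q hp hq => simp [hp, hq]
    | monomial n a ih =>
      rw [pow_succ, ← mul_assoc, C_mul, map_mul, ih, map_mul (aeval t) _ X, aeval_X]
  have hfA : ∀ f : l[X], φ (C f) ∈ A := by
    intro f
    rw [hCf]
    exact mem_adjoin_aeval t f
  let toA : l[X] →+* A :=
    { toFun := fun f => ⟨φ (C f), hfA f⟩
      map_one' := by ext; simp
      map_mul' := fun a b => by ext; simp
      map_zero' := by ext; simp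
      map_add' := fun a b => by ext; simp }
  have htoA : ∀ f, ((toA f : A) : E) = φ (C f) := fun _ => rfl
  have hinjA : Function.Injective toA := by
    intro f g hfg
    have h0 : φ (C (f - g)) = 0 := by
      rw [C_sub, map_sub]
      exact sub_eq_zero.2 (congrArg Subtype.val hfg)
    exact sub_eq_zero.1 (dvd_C_imp hdeg ((hE.ker _).1 h0))
  set c := P.leadingCoeff with hc
  set ct := φ (C c) with hct
  have hc0 : c ≠ 0 := by
    rw [hc, Ne, leadingCoeff_eq_zero]
    exact hP.ne_zero
  have hct0 : ct ≠ 0 := by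
    intro h0
    exact hc0 (dvd_C_imp hdeg ((hE.ker _).1 h0))
  have hcint : ∀ f : l[X], IsIntegral A (φ (C f)) := fun f =>
    isIntegral_algebraMap (x := (⟨_, hfA f⟩ : A))
  have hcw : IsIntegral A (ct * w) := by
    have h1 : eval₂ (algebraMap A E) w (P.map toA) = 0 := by
      rw [eval₂_map]
      have h1 : (algebraMap A E).comp toA = φ.comp C := RingHom.ext fun f => htoA f
      rw [h1, ← map_eq_eval₂]
      exact (hE.ker P).2 dvd_rfl
    have h2 := (algebraMap A E).isIntegralElem_leadingCoeff_mul (P.map toA) w h1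
    rw [leadingCoeff_map_of_injective hinjA] at h2
    exact h2
  have Q : ∀ f : R2 l, ∃ M : ℕ, IsIntegral A (ct ^ M * φ f) := by
    intro f
    induction f using R2_induction with
    | hc a =>
      refine ⟨0, ?_⟩
      rw [pow_zero, one_mul]
      exact hcint _
    | hx =>
      refine ⟨0, ?_⟩
      rw [pow_zero, one_mul]
      exact hcint _
    | hy =>
      refine ⟨1, ?_⟩
      rw [pow_one]
      exact hcw
    | hadd f g hf hg =>
      obtain ⟨M₁, h1⟩ := hf
      obtain ⟨M₂, h2⟩ := hg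
      refine ⟨M₁ + M₂, ?_⟩
      have : ct ^ (M₁ + M₂) * φ (f + g) =
          ct ^ M₂ * (ct ^ M₁ * φ f) + ct ^ M₁ * (ct ^ M₂ * φ g) := by
        rw [map_add, pow_add]
        ring
      rw [this]
      exact ((hcint c).pow M₂ |>.mul h1).add ((hcint c).pow M₁ |>.mul h2)
    | hmul f g hf hg =>
      obtain ⟨M₁, h1⟩ := hf
      obtain ⟨M₂, h2⟩ := hg
      refine ⟨M₁ + M₂, ?_⟩
      have : ct ^ (M₁ + M₂) * φ (f * g) = (ct ^ M₁ * φ f) * (ct ^ M₂ * φ g) := by
        rw [map_mul, pow_add]
        ring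
      rw [this]
      exact h1.mul h2
  obtain ⟨N, hN⟩ := Q δ
  set yδ := ct ^ N * φ δ with hyδ
  have hδ0 : φ δ ≠ 0 := fun h => hδ ((hE.ker δ).1 h)
  have hyδ0 : yδ ≠ 0 := mul_ne_zero (pow_ne_zero _ hct0) hδ0
  have hcyint : IsIntegral A (ct * yδ) := (hcint c).mul hN
  have hT₀ : {v ∈ W | v (ct * yδ) < 1}.Finite := C3 _ hcyint (mul_ne_zero hct0 hyδ0)
  have hT₁ : {v ∈ W' | v t⁻¹ < 1}.Finite := C3' t⁻¹
    (isIntegral_algebraMap (x := (⟨t⁻¹, Algebra.self_mem_adjoin_singleton l t⁻¹⟩ : A')))
    (inv_ne_zero ht0)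
  have key : ∀ v ∈ W, ¬ v (ct * yδ) < 1 → ∃ a b : l, ev2 a b P = 0 ∧ ev2 a b δ ≠ 0 ∧
      ∀ g : R2 l, ev2 a b g ≠ 0 → v (φ g) = 1 := by
    intro v hv hv1
    obtain ⟨π, hπ1, hπ2⟩ := C4 v hv
    let D := integralClosure A E
    let ctD : D := ⟨ct, hcint c⟩
    let tD : D := ⟨t, hcint X⟩
    let wD : D := ⟨ct * w, hcw⟩
    have hvle : ∀ y, IsIntegral A y → v y ≤ 1 := C2 v hv
    have hvct : v ct = 1 := by
      apply le_antisymm (hvle _ (hcint c))
      by_contra hcon
      push Not at hcon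
      apply hv1
      rw [map_mul]
      calc v ct * v yδ ≤ v ct * 1 := by gcongr; exact hvle _ hN
        _ = v ct := mul_one _
        _ < 1 := hcon
    have hγ : π ctD ≠ 0 := by
      intro h
      have := (hπ2 ctD).1 h
      change v ct < 1 at this
      rw [hvct] at this
      exact lt_irrefl _ this
    set γ := π ctD with hγdef
    let a := π tD
    let b := π wD / γ
    have R : ∀ f : R2 l, ∃ (M : ℕ) (y : D), (y : E) = ct ^ M * φ f ∧ π y = γ ^ M * ev2 a b f := by
      intro f
      induction f using R2_induction with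
      | hc r =>
        refine ⟨0, ⟨algebraMap l E r, ?_⟩, ?_, ?_⟩
        · rw [← hC]
          exact hcint _
        · simp [hC]
        · rw [hπ1 _ r rfl]
          simp
      | hx =>
        refine ⟨0, tD, by simp [tD, ht], ?_⟩
        simp [a]
      | hy =>
        refine ⟨1, wD, by simp [wD, hw], ?_⟩
        simp only [pow_one, ev2_X]
        change π wD = γ * (π wD / γ)
        field_simp
      | hadd f g hf hg =>
        obtain ⟨M₁, y₁, h1, h2⟩ := hf
        obtain ⟨M₂, y₂, h3, h4⟩ := hg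
        refine ⟨M₁ + M₂, ctD ^ M₂ * y₁ + ctD ^ M₁ * y₂, ?_, ?_⟩
        · change ct ^ M₂ * (y₁ : E) + ct ^ M₁ * (y₂ : E) = _
          rw [h1, h3, map_add, pow_add]
          ring
        · rw [map_add, map_mul, map_mul, map_pow, map_pow, h2, h4, map_add, pow_add]
          ring
      | hmul f g hf hg =>
        obtain ⟨M₁, y₁, h1, h2⟩ := hf
        obtain ⟨M₂, y₂, h3, h4⟩ := hg
        refine ⟨M₁ + M₂, y₁ * y₂, ?_, ?_⟩
        · change (y₁ : E) * (y₂ : E) = _
          rw [h1, h3, map_mul, pow_add]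
          ring
        · rw [map_mul, h2, h4, map_mul, pow_add]
          ring
    have R' : ∀ (f : R2 l) (M : ℕ) (y : D), (y : E) = ct ^ M * φ f →
        π y = γ ^ M * ev2 a b f := by
      intro f M y hy
      obtain ⟨M₀, y₀, h1, h2⟩ := R f
      have h3 : ctD ^ M₀ * y = ctD ^ M * y₀ := by
        apply Subtype.ext
        change ct ^ M₀ * (y : E) = ct ^ M * (y₀ : E)
        rw [hy, h1]
        ring
      have h4 := congrArg π h3
      rw [map_mul, map_mul, map_pow, map_pow, h2] at h4
      apply mul_left_cancel₀ (pow_ne_zero M₀ hγ)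
      rw [h4]
      ring
    refine ⟨a, b, ?_, ?_, ?_⟩
    · have := R' P 0 0 (by simp [(hE.ker P).2 dvd_rfl])
      simpa using this.symm
    · intro h0
      have := R' δ N ⟨yδ, hN⟩ rfl
      rw [h0, mul_zero] at this
      have h2 := (hπ2 _).1 this
      change v yδ < 1 at h2
      apply hv1
      rw [map_mul]
      calc v ct * v yδ ≤ 1 * v yδ := by gcongr; exact hvle _ (hcint c)
        _ = v yδ := one_mul _
        _ < 1 := h2
    · intro g hg
      obtain ⟨M, y, h1, h2⟩ := R g
      have h3 : π y ≠ 0 := by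
        rw [h2]
        exact mul_ne_zero (pow_ne_zero _ hγ) hg
      have h4 : ¬ v (y : E) < 1 := fun h => h3 ((hπ2 y).2 h)
      have h5 : v (y : E) = 1 := le_antisymm (hvle _ y.2) (not_lt.1 h4)
      rw [h1, map_mul, map_pow, hvct, one_pow, one_mul] at h5
      exact h5
  refine ⟨(hT₀.union hT₁).toFinset, ?_⟩
  intro 𝒢 h𝒢 x hx hT
  have hT' : ∀ v, (v ∈ {v ∈ W | v (ct * yδ) < 1} ∨ v ∈ {v ∈ W' | v t⁻¹ < 1}) → v (x : E) = 1 := by
    intro v hv
    apply hT v
    rw [Set.Finite.mem_toFinset]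
    exact hv
  have hv1' : ∀ v ∈ W, ¬ v (ct * yδ) < 1 → ∀ y ∈ Subgroup.closure {u : Eˣ | ∃ g ∈ 𝒢, (u : E) = φ g},
      v (y : E) = 1 := by
    intro v hv hv1 y hy
    obtain ⟨a, b, h1, h2, h3⟩ := key v hv hv1
    induction hy using Subgroup.closure_induction with
    | mem u hu =>
      obtain ⟨g, hg, hu⟩ := hu
      rw [hu]
      apply h3
      intro h0
      exact h2 (h𝒢 g hg a b h1 h0)
    | one => simp
    | mul u u' _ _ h h' => rw [Units.val_mul, map_mul, h, h', one_mul]
    | inv u _ h =>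
      rw [Units.val_inv_eq_inv_val, map_inv₀, h, inv_one]
  have hv1 : ∀ v ∈ W, ¬ v (ct * yδ) < 1 → v (x : E) = 1 := fun v hv h => hv1' v hv h x hx
  have hint1 : IsIntegral A (x : E) := by
    apply C1
    intro v hv
    by_cases h : v (ct * yδ) < 1
    · exact (hT' v (Or.inl ⟨hv, h⟩)).le
    · exact (hv1 v hv h).le
  have hint2 : IsIntegral A' (x : E) := by
    apply C1'
    intro v hv
    by_cases h : v t⁻¹ < 1
    · exact (hT' v (Or.inr ⟨hv, h⟩)).le
    · have hle := C2' v hv
      have h1 : v t⁻¹ = 1 := le_antisymm (hle _ (isIntegral_algebraMap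
        (x := (⟨t⁻¹, Algebra.self_mem_adjoin_singleton l t⁻¹⟩ : A')))) (not_lt.1 h)
      have h2 : v t = 1 := by
        rw [map_inv₀] at h1
        exact inv_eq_one.1 h1
      refine val_le_one_of_isIntegral v A ?_ hint1
      intro y hy
      induction hy using Algebra.adjoin_induction with
      | mem z hz =>
        rw [Set.mem_singleton_iff] at hz
        rw [hz, h2]
      | algebraMap r =>
        exact hle _ (isIntegral_algebraMap (x := (⟨algebraMap l E r, A'.algebraMap_mem r⟩ : A')))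
      | add a b _ _ ha hb => exact v.map_add_le ha hb
      | mul a b _ _ ha hb =>
        rw [map_mul]
        exact mul_le_one' ha hb
  obtain ⟨a, ha⟩ := mem_range_of_two_integral hint1 hint2
  exact ⟨a, ha.symm⟩


lemma ev2_swR (a b : l) (f : R2 l) : ev2 a b (swR f) = ev2 b a f := by
  induction f using R2_induction with
  | hc t =>
    rw [swR_apply, Polynomial.Bivariate.swap_C]
    simp
  | hx =>
    rw [swR_apply, Polynomial.Bivariate.swap_X]
    simp
  | hy =>
    rw [swR_apply, Polynomial.Bivariate.swap_Y]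
    simp
  | hadd f g hf hg => rw [map_add, map_add, map_add, hf, hg]
  | hmul f g hf hg => rw [map_mul, map_mul, map_mul, hf, hg]

lemma swR_dvd_iff {a b : R2 l} : swR a ∣ b ↔ a ∣ swR b := by
  constructor
  · rintro ⟨c, rfl⟩
    exact ⟨swR c, by rw [map_mul, swR_swR]⟩
  · rintro ⟨c, hc⟩
    exact ⟨swR c, by rw [← swR_swR b, hc, map_mul]⟩

lemma resField_swR {F : R2 l} {φ : R2 l →+* E} (hE : ResField F E φ) :
    ResField (swR F) E (φ.comp (swR (k := l)).toRingHom) := by
  refine ⟨fun a => ?_, fun e => ?_⟩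
  · change φ (swR a) = 0 ↔ _
    rw [hE.ker, swR_dvd_iff]
  · obtain ⟨a, b, hb, rfl⟩ := hE.gen e
    refine ⟨swR a, swR b, ?_, ?_⟩
    · change φ (swR (swR b)) ≠ 0
      rwa [swR_swR]
    · change _ = φ (swR (swR a)) / φ (swR (swR b))
      rw [swR_swR, swR_swR]

/-- A prime of degree zero in `y` has positive degree in `x`. -/
lemma natDegree_swR_pos {P : R2 l} (hP : Prime P) (h : P.natDegree = 0) :
    0 < (swR P).natDegree := by
  by_contra hcon
  have h0 : (swR P).natDegree = 0 := by omega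
  apply hP.not_isUnit
  apply isUnit_of_mu_eq_zero hP.ne_zero
  rw [mu, degX, h, h0]

/-- The S-unit theorem for a plane curve. -/
theorem sunit {P δ : R2 l} (hP : Prime P) {φ : R2 l →+* E}
    (hE : ResField P E φ) (hC : ∀ a, φ (C (C a)) = algebraMap l E a) (hδ : ¬ P ∣ δ) :
    ∃ T : Finset (Valuation E ℤᵐ⁰), ∀ 𝒢 : Set (R2 l),
      (∀ g ∈ 𝒢, ∀ a b, ev2 a b P = 0 → ev2 a b g = 0 → ev2 a b δ = 0) →
      ∀ x ∈ Subgroup.closure {u : Eˣ | ∃ g ∈ 𝒢, (u : E) = φ g},
        (∀ v ∈ T, v (x : E) = 1) → ∃ a : l, (x : E) = algebraMap l E a := by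
  by_cases hdeg : 0 < P.natDegree
  · exact sunit_core hP hdeg hE hC hδ
  · have hP' : Prime (swR P) := (MulEquiv.prime_iff (swR (k := l))).2 hP
    have hδ' : ¬ swR P ∣ swR δ := fun h => hδ (by
      rw [swR_dvd_iff, swR_swR] at h
      exact h)
    obtain ⟨T, hT⟩ := sunit_core hP' (natDegree_swR_pos hP (by omega)) (resField_swR hE)
      (by
        intro a
        change φ (swR (C (C a))) = _
        rw [swR_apply, Polynomial.Bivariate.swap_C]
        simp [hC]) hδ'
    refine ⟨T, fun 𝒢 h𝒢 x hx hv => ?_⟩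
    refine hT (swR '' 𝒢) ?_ x ?_ hv
    · rintro _ ⟨g, hg, rfl⟩ a b h1 h2
      rw [ev2_swR] at h1 h2 ⊢
      exact h𝒢 g hg b a h1 h2
    · have : {u : Eˣ | ∃ g ∈ 𝒢, (u : E) = φ g} ⊆
          {u : Eˣ | ∃ g ∈ swR '' 𝒢, (u : E) = (φ.comp (swR (k := l)).toRingHom) g} := by
        rintro u ⟨g, hg, hu⟩
        refine ⟨swR g, ⟨g, hg, rfl⟩, ?_⟩
        rw [hu]
        change _ = φ (swR (swR g))
        rw [swR_swR]
      exact Subgroup.closure_mono this hx

lemma val_prod_zpow {F : Type*} [Field F] {N : ℕ} (n : Fin N → ℤ) (v : Valuation F ℤᵐ⁰)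
    (u : Fin N → Fˣ) (h : ∑ i, WithZero.log (v (u i : F)) * n i = 0) :
    v ((∏ i, u i ^ n i : Fˣ) : F) = 1 := by
  have hvx : v ((∏ i, u i ^ n i : Fˣ) : F) = ∏ i, (v (u i : F)) ^ n i := by
    simp only [Units.coe_prod, map_prod, Units.val_zpow_eq_zpow_val, map_zpow₀]
  have hu : ∀ i, v (u i : F) ^ n i = WithZero.exp (WithZero.log (v (u i : F)) * n i) := by
    intro i
    have h0 : v (u i : F) ≠ 0 := by
      rw [Ne, map_eq_zero]
      exact (u i).ne_zero
    rw [mul_comm, ← smul_eq_mul, WithZero.exp_zsmul, WithZero.exp_log h0]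
  rw [hvx]
  simp only [hu]
  have hsum : ∀ s : Finset (Fin N), ∏ i ∈ s, WithZero.exp (WithZero.log (v (u i : F)) * n i) =
      WithZero.exp (∑ i ∈ s, WithZero.log (v (u i : F)) * n i) := by
    intro s
    induction s using Finset.induction_on with
    | empty => simp
    | insert a s ha ih => rw [Finset.prod_insert ha, Finset.sum_insert ha, ih, WithZero.exp_add]
  rw [hsum, h, WithZero.exp_zero]

/-- A simultaneous multiplicative relation at finitely many valuations on two fields. -/
lemma exists_rel₂ {E₂ : Type*} [Field E₂] (T₁ : Finset (Valuation E ℤᵐ⁰))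
    (T₂ : Finset (Valuation E₂ ℤᵐ⁰)) {N : ℕ} (hN : T₁.card + T₂.card < N)
    (u₁ : Fin N → Eˣ) (u₂ : Fin N → E₂ˣ) :
    ∃ n : Fin N → ℤ, n ≠ 0 ∧ (∀ v ∈ T₁, v ((∏ i, u₁ i ^ n i : Eˣ) : E) = 1) ∧
      (∀ v ∈ T₂, v ((∏ i, u₂ i ^ n i : E₂ˣ) : E₂) = 1) := by
  classical
  let M : (T₁ ⊕ T₂) → Fin N → ℤ := fun j i => match j with
    | Sum.inl v => WithZero.log (v.1 (u₁ i : E))
    | Sum.inr v => WithZero.log (v.1 (u₂ i : E₂))
  obtain ⟨n, hn0, hn⟩ := exists_int_relation (J := T₁ ⊕ T₂) (N := N) (by simpa using hN) M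
  exact ⟨n, hn0, fun v hv => val_prod_zpow n v u₁ (hn (Sum.inl ⟨v, hv⟩)),
    fun v hv => val_prod_zpow n v u₂ (hn (Sum.inr ⟨v, hv⟩))⟩

/-- Extraction of the positive and negative exponents of a relation. -/
lemma rel_of_zpow {N : ℕ} {φ : R2 l →+* E} (g : Fin N → R2 l) (hne : ∀ i, φ (g i) ≠ 0) (n : Fin N → ℤ)
    {a : l} (ha : (∏ i, (φ (g i)) ^ n i) = algebraMap l E a) :
    φ (∏ i, g i ^ (n i).toNat) = algebraMap l E a * φ (∏ i, g i ^ (-n i).toNat) := by
  simp only [map_prod, map_pow]
  have h1 : ∀ i, (φ (g i)) ^ (n i).toNat = (φ (g i)) ^ n i * (φ (g i)) ^ (-n i).toNat := by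
    intro i
    rw [← zpow_natCast, ← zpow_natCast, ← zpow_add₀ (hne i)]
    congr 1
    omega
  simp only [h1, Finset.prod_mul_distrib]
  rw [ha]

/-- Finite rank on two curves at once: many functions whose zeros on the two curves lie in a fixed
finite set are multiplicatively dependent modulo constants on both curves, with the same
exponents. -/
theorem sunit_relation₂ {E₂ : Type*} [Field E₂] [Algebra l E₂]
    {P δ P₂ δ₂ : R2 l} (hP : Prime P) (hP₂ : Prime P₂) {φ : R2 l →+* E} {φ₂ : R2 l →+* E₂}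
    (hE : ResField P E φ) (hE₂ : ResField P₂ E₂ φ₂)
    (hC : ∀ a, φ (C (C a)) = algebraMap l E a) (hC₂ : ∀ a, φ₂ (C (C a)) = algebraMap l E₂ a)
    (hδ : ¬ P ∣ δ) (hδ₂ : ¬ P₂ ∣ δ₂) :
    ∃ N : ℕ, ∀ g : Fin N → R2 l, (∀ i, ¬ P ∣ g i) → (∀ i, ¬ P₂ ∣ g i) →
      (∀ i a b, ev2 a b P = 0 → ev2 a b (g i) = 0 → ev2 a b δ = 0) →
      (∀ i a b, ev2 a b P₂ = 0 → ev2 a b (g i) = 0 → ev2 a b δ₂ = 0) →
      ∃ m m' : Fin N → ℕ, (∃ i, m i ≠ m' i) ∧ (∀ i, m i = 0 ∨ m' i = 0) ∧
        (∃ a : l, a ≠ 0 ∧ φ (∏ i, g i ^ m i) = algebraMap l E a * φ (∏ i, g i ^ m' i)) ∧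
        (∃ a : l, a ≠ 0 ∧ φ₂ (∏ i, g i ^ m i) = algebraMap l E₂ a * φ₂ (∏ i, g i ^ m' i)) := by
  classical
  obtain ⟨T, hT⟩ := sunit hP hE hC hδ
  obtain ⟨T₂, hT₂⟩ := sunit hP₂ hE₂ hC₂ hδ₂
  refine ⟨T.card + T₂.card + 1, fun g hg hg₂ hg3 hg4 => ?_⟩
  have hne : ∀ i, φ (g i) ≠ 0 := fun i h => hg i ((hE.ker _).1 h)
  have hne₂ : ∀ i, φ₂ (g i) ≠ 0 := fun i h => hg₂ i ((hE₂.ker _).1 h)
  let u : Fin (T.card + T₂.card + 1) → Eˣ := fun i => Units.mk0 (φ (g i)) (hne i)
  let u₂ : Fin (T.card + T₂.card + 1) → E₂ˣ := fun i => Units.mk0 (φ₂ (g i)) (hne₂ i)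
  obtain ⟨n, hn0, hn, hn₂⟩ := exists_rel₂ T T₂ (Nat.lt_succ_self _) u u₂
  obtain ⟨a, ha⟩ := hT (Set.range g) (by
    rintro _ ⟨i, rfl⟩ a b h1 h2
    exact hg3 i a b h1 h2) _ (by
      apply Subgroup.prod_mem
      intro i _
      apply Subgroup.zpow_mem
      exact Subgroup.subset_closure ⟨g i, ⟨i, rfl⟩, rfl⟩) hn
  obtain ⟨a₂, ha₂⟩ := hT₂ (Set.range g) (by
    rintro _ ⟨i, rfl⟩ a b h1 h2
    exact hg4 i a b h1 h2) _ (by
      apply Subgroup.prod_mem
      intro i _
      apply Subgroup.zpow_mem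
      exact Subgroup.subset_closure ⟨g i, ⟨i, rfl⟩, rfl⟩) hn₂
  have ha0 : a ≠ 0 := by
    rintro rfl
    rw [map_zero] at ha
    exact Units.ne_zero _ ha
  have ha₂0 : a₂ ≠ 0 := by
    rintro rfl
    rw [map_zero] at ha₂
    exact Units.ne_zero _ ha₂
  refine ⟨fun i => (n i).toNat, fun i => (-n i).toNat, ?_, ?_, ⟨a, ha0, ?_⟩, ⟨a₂, ha₂0, ?_⟩⟩
  · by_contra hcon
    push Not at hcon
    apply hn0
    funext i
    have := hcon i
    simp only [Pi.zero_apply]
    omega
  · intro i
    simp only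
    omega
  · apply rel_of_zpow g hne n
    rw [← ha]
    simp only [Units.coe_prod, Units.val_zpow_eq_zpow_val, u, Units.val_mk0]
  · apply rel_of_zpow g hne₂ n
    rw [← ha₂]
    simp only [Units.coe_prod, Units.val_zpow_eq_zpow_val, u₂, Units.val_mk0]

end Core

end Vale.Agent.Lib.P019
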