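import Vale.Agent.Lib.P019.ThmE

/-!
Base change of bivariate polynomials along an extension of algebraically closed fields:
specialization, irreducibility is preserved, prime factors of polynomials over the small
field are defined over the small field.
-/

set_option linter.unusedSectionVars false

namespace Vale.Agent.Lib.P019

open Polynomial TensorProduct nonZeroDivisors UniqueFactorizationMonoid Filter

section SwapCoeff

variable {k : Type*} [Field k]

lemma swR_coeff (h : R2 k) (i j : ℕ) : ((swR h).coeff i).coeff j = (h.coeff j).coeff i := by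
  induction h using Polynomial.induction_on' with
  | add p q hp hq => simp only [map_add, coeff_add, hp, hq]
  | monomial n a =>
    induction a using Polynomial.induction_on' with
    | add p q hp hq =>
      rw [map_add, map_add, coeff_add, coeff_add, coeff_add, hp, hq, coeff_add]
    | monomial m r =>
      rw [swR_apply, Polynomial.Bivariate.swap_monomial_monomial]
      rw [coeff_monomial, coeff_monomial]
      by_cases h1 : m = i <;> by_cases h2 : n = j <;> simp [h1, h2, coeff_monomial]

lemma degX_le_iff (h : R2 k) (n : ℕ) : degX h ≤ n ↔ ∀ j, (h.coeff j).natDegree ≤ n := by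
  rw [degX, natDegree_le_iff_coeff_eq_zero]
  constructor
  · intro H j
    rw [natDegree_le_iff_coeff_eq_zero]
    intro i hi
    rw [← swR_coeff, H i hi]
    simp
  · intro H i hi
    ext j
    rw [swR_coeff]
    simp only [coeff_zero]
    exact coeff_eq_zero_of_natDegree_lt (lt_of_le_of_lt (H j) hi)

end SwapCoeff

section Hat

variable {s l : Type*} [Field s] [Field l] [Algebra s l]

/-- Base change of bivariate polynomials. -/
noncomputable def hat : R2 s →+* R2 l := mapRingHom (mapRingHom (algebraMap s l))

@[simp] lemma hat_apply (g : R2 s) : hat g = g.map (mapRingHom (algebraMap s l)) := rfl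

lemma hat_injective : Function.Injective (hat : R2 s → R2 l) :=
  Polynomial.map_injective _ (Polynomial.map_injective _ (algebraMap s l).injective)

lemma hat_ne_zero {g : R2 s} (hg : g ≠ 0) : (hat g : R2 l) ≠ 0 := by
  intro h
  exact hg (hat_injective (h.trans (map_zero hat).symm))

@[simp] lemma hat_CC (t : s) : (hat (C (C t)) : R2 l) = C (C (algebraMap s l t)) := by
  simp [hat]

@[simp] lemma hat_C (p : s[X]) : (hat (C p) : R2 l) = C (p.map (algebraMap s l)) := by
  simp [hat]

@[simp] lemma hat_X : (hat (X : R2 s) : R2 l) = X := by
  simp [hat]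

lemma natDegree_hat (g : R2 s) : (hat g : R2 l).natDegree = g.natDegree := by
  rw [hat_apply]
  exact natDegree_map_eq_of_injective (Polynomial.map_injective _ (algebraMap s l).injective) g

lemma hat_swR (g : R2 s) : (hat (swR g) : R2 l) = swR (hat g) := by
  induction g using Polynomial.induction_on with
  | C a =>
    induction a using Polynomial.induction_on with
    | C a => simp [Polynomial.Bivariate.swap_C]
    | add p q hp hq =>
      simp only [map_add] at hp hq ⊢
      rw [hp, hq]
    | monomial n a ih =>
      have e : (C (C a * X ^ (n + 1)) : R2 s) = C (C a * X ^ n) * C X := by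
        simp [pow_succ, mul_assoc]
      rw [e, map_mul, map_mul, ih]
      simp only [map_mul]
      simp [Polynomial.Bivariate.swap_C]
  | add p q hp hq => simp only [map_add, hp, hq]
  | monomial n a ih =>
    have e : (C a * X ^ (n + 1) : R2 s) = C a * X ^ n * X := by ring
    rw [e, map_mul, map_mul, ih]
    simp only [map_mul, swR_apply]
    congr 1
    simp [Polynomial.Bivariate.swap_Y]

lemma degX_hat (g : R2 s) : degX (hat g : R2 l) = degX g := by
  rw [degX, degX, ← hat_swR, natDegree_hat]

lemma mu_hat (g : R2 s) : mu (hat g : R2 l) = mu g := by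
  rw [mu, mu, degX_hat, natDegree_hat]

/-- The ring homomorphism on polynomials induced by a homomorphism of coefficients. -/
noncomputable def hatOf {A B : Type*} [CommRing A] [CommRing B] (f : A →+* B) :
    A[X][X] →+* B[X][X] := mapRingHom (mapRingHom f)

lemma exists_lift2 {A B : Type*} [CommRing A] [CommRing B] (f : A →+* B) (G : B[X][X])
    (h : ∀ i j, (G.coeff i).coeff j ∈ Set.range f) : ∃ G' : A[X][X], hatOf f G' = G := by
  have h1 : ∀ i, G.coeff i ∈ lifts f := fun i => (lifts_iff_coeff_lifts _).2 (h i)
  have h2 : G ∈ lifts (mapRingHom f) := by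
    rw [lifts_iff_coeff_lifts]
    intro n
    obtain ⟨q, hq⟩ := (mem_lifts _).1 (h1 n)
    exact ⟨q, hq⟩
  obtain ⟨G', hG'⟩ := (mem_lifts _).1 h2
  exact ⟨G', hG'⟩

/-- All the coefficients of `G`. -/
noncomputable def coefs (G : R2 l) : Set l := {a | ∃ i j, (G.coeff i).coeff j = a ∧ a ≠ 0}

lemma coefs_finite (G : R2 l) : (coefs G).Finite := by
  classical
  apply Set.Finite.subset
    (Finset.finite_toSet (G.support.biUnion fun i => (G.coeff i).support.image (G.coeff i).coeff))
  rintro a ⟨i, j, rfl, ha⟩
  simp only [Finset.coe_biUnion, Set.mem_iUnion, Finset.mem_coe, Finset.mem_image, exists_prop]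
  have hi : i ∈ G.support := by
    rw [mem_support_iff]
    intro h
    rw [h] at ha
    simp at ha
  exact ⟨i, hi, j, mem_support_iff.2 ha, rfl⟩

end Hat

section Spec

variable {s l : Type*} [Field s] [Field l] [Algebra s l] [IsAlgClosed s]

/-- Nullstellensatz: a finitely generated subalgebra of `l` has an `s`-point. -/
lemma exists_algHom_of_adjoin (S : Set l) (hS : S.Finite) :
    Nonempty (Algebra.adjoin s S →ₐ[s] s) := by
  classical
  set A := Algebra.adjoin s S
  have hfg : A.FG := ⟨hS.toFinset, by simp [A]⟩
  haveI : Algebra.FiniteType s A := (Subalgebra.fg_iff_finiteType A).1 hfg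
  obtain ⟨m, hm⟩ := Ideal.exists_maximal A
  letI : Field (A ⧸ m) := Ideal.Quotient.field m
  haveI : Module.Finite s (A ⧸ m) := finite_of_finite_type_of_isJacobsonRing s (A ⧸ m)
  have hbij : Function.Bijective (algebraMap s (A ⧸ m)) :=
    IsAlgClosed.algebraMap_bijective_of_isIntegral
  let e : s ≃ₐ[s] (A ⧸ m) := AlgEquiv.ofBijective (Algebra.ofId s (A ⧸ m)) hbij
  exact ⟨(e.symm.toAlgHom).comp (Ideal.Quotient.mkₐ s m)⟩


/-- Irreducibility is preserved under extension of the algebraically closed base field. -/
theorem irreducible_hat {g : R2 s} (hg : Irreducible g) : Irreducible (hat g : R2 l) := by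
  classical
  refine ⟨?_, ?_⟩
  · intro h
    apply hg.1
    have h0 : mu (hat g : R2 l) = 0 := by
      have := natDegree_eq_zero_of_isUnit h
      obtain ⟨r, hr⟩ := natDegree_eq_zero.1 this
      have h1 : IsUnit r := by
        rw [← hr] at h
        exact Polynomial.isUnit_C.1 h
      have h2 : r.natDegree = 0 := natDegree_eq_zero_of_isUnit h1
      rw [mu, degX, ← hr, swR_apply, Polynomial.Bivariate.swap_C,
        natDegree_map_eq_of_injective C_injective, h2, natDegree_C]
    rw [mu_hat] at h0
    exact isUnit_of_mu_eq_zero hg.ne_zero h0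
  · intro G H hGH
    -- specialization
    set S : Set l := coefs G ∪ coefs H with hS
    have hSf : S.Finite := (coefs_finite G).union (coefs_finite H)
    obtain ⟨π⟩ := exists_algHom_of_adjoin (s := s) S hSf
    set A := Algebra.adjoin s S with hA
    have lift_of : ∀ W : R2 l, coefs W ⊆ S → ∃ W' : A[X][X], hatOf A.val.toRingHom W' = W := by
      intro W hW
      apply exists_lift2
      intro i j
      by_cases h0 : (W.coeff i).coeff j = 0
      · exact ⟨0, by simpa using h0.symm⟩
      · have : (W.coeff i).coeff j ∈ S := hW ⟨i, j, rfl, h0⟩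
        exact ⟨⟨_, Algebra.subset_adjoin this⟩, rfl⟩
    obtain ⟨G', hG'⟩ := lift_of G Set.subset_union_left
    obtain ⟨H', hH'⟩ := lift_of H Set.subset_union_right
    set incl : A →+* l := A.val.toRingHom with hincl
    set rest : s →+* A := algebraMap s A with hrest
    have hcomp : incl.comp rest = algebraMap s l := by
      ext t
      rfl
    have hcomp2 : (π : A →+* s).comp rest = RingHom.id s := by
      ext t
      exact π.commutes t
    have hincl_inj : Function.Injective incl := Subtype.val_injective
    have hinj : Function.Injective (hatOf incl) :=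
      Polynomial.map_injective _ (Polynomial.map_injective _ hincl_inj)
    set πr : A →+* s := (π : A →+* s) with hπr
    have e1 : hatOf incl (hatOf rest g) = (hat g : R2 l) := by
      simp only [hatOf, hat, coe_mapRingHom, Polynomial.map_map, mapRingHom_comp, hcomp]
    have e2 : G' * H' = hatOf rest g := by
      apply hinj
      rw [map_mul, hG', hH', e1, hGH]
    have e3 : hatOf πr (hatOf rest g) = g := by
      simp only [hatOf, coe_mapRingHom, Polynomial.map_map]
      rw [mapRingHom_comp, hcomp2, mapRingHom_id, Polynomial.map_id]
    set G₀ := hatOf πr G' with hG₀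
    set H₀ := hatOf πr H' with hH₀
    have e4 : G₀ * H₀ = g := by
      rw [hG₀, hH₀, ← map_mul, e2, e3]
    have hG₀0 : G₀ ≠ 0 := by
      intro h
      rw [h, zero_mul] at e4
      exact hg.ne_zero e4.symm
    have hH₀0 : H₀ ≠ 0 := by
      intro h
      rw [h, mul_zero] at e4
      exact hg.ne_zero e4.symm
    have hG0 : G ≠ 0 := by
      intro h
      rw [h, zero_mul] at hGH
      exact hat_ne_zero hg.ne_zero hGH
    have hH0 : H ≠ 0 := by
      intro h
      rw [h, mul_zero] at hGH
      exact hat_ne_zero hg.ne_zero hGH
    have bound : ∀ (W : R2 l) (W' : A[X][X]), hatOf incl W' = W → mu (hatOf πr W') ≤ mu W := by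
      intro W W' hW
      have a1 : (hatOf πr W').natDegree ≤ W.natDegree := by
        rw [← hW]
        have : (hatOf incl W').natDegree = W'.natDegree :=
          natDegree_map_eq_of_injective (Polynomial.map_injective _ hincl_inj) W'
        rw [this]
        exact natDegree_map_le
      have a2 : degX (hatOf πr W') ≤ degX W := by
        rw [degX_le_iff]
        intro j
        have a3 : (W'.coeff j).natDegree = (W.coeff j).natDegree := by
          rw [← hW]
          simp only [hatOf, coe_mapRingHom, coeff_map]
          exact (natDegree_map_eq_of_injective hincl_inj _).symm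
        calc ((hatOf πr W').coeff j).natDegree = ((W'.coeff j).map πr).natDegree := by
              simp [hatOf]
          _ ≤ (W'.coeff j).natDegree := natDegree_map_le
          _ = (W.coeff j).natDegree := a3
          _ ≤ degX W := (degX_le_iff W _).1 le_rfl j
      rw [mu, mu]
      omega
    have m1 : mu G₀ ≤ mu G := bound G G' hG'
    have m2 : mu H₀ ≤ mu H := bound H H' hH'
    have m3 : mu G₀ + mu H₀ = mu G + mu H := by
      rw [← mu_mul hG₀0 hH₀0, e4, ← mu_mul hG0 hH0, ← hGH, mu_hat]
    rcases hg.isUnit_or_isUnit e4.symm with h | h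
    · left
      have h0 : mu G₀ = 0 := by
        obtain ⟨r, hr⟩ := natDegree_eq_zero.1 (natDegree_eq_zero_of_isUnit h)
        have h1 : IsUnit r := by
          rw [← hr] at h
          exact Polynomial.isUnit_C.1 h
        have h2 : r.natDegree = 0 := natDegree_eq_zero_of_isUnit h1
        rw [mu, degX, ← hr, swR_apply, Polynomial.Bivariate.swap_C,
          natDegree_map_eq_of_injective C_injective, h2, natDegree_C]
      exact isUnit_of_mu_eq_zero hG0 (by omega)
    · right
      have h0 : mu H₀ = 0 := by
        obtain ⟨r, hr⟩ := natDegree_eq_zero.1 (natDegree_eq_zero_of_isUnit h)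
        have h1 : IsUnit r := by
          rw [← hr] at h
          exact Polynomial.isUnit_C.1 h
        have h2 : r.natDegree = 0 := natDegree_eq_zero_of_isUnit h1
        rw [mu, degX, ← hr, swR_apply, Polynomial.Bivariate.swap_C,
          natDegree_map_eq_of_injective C_injective, h2, natDegree_C]
      exact isUnit_of_mu_eq_zero hH0 (by omega)

/-- A polynomial of `l[x,y]` is over `s` if it is associated with the base change of a polynomial
of `s[x,y]`. -/
def OverS (s : Type*) [Field s] [Algebra s l] (p : R2 l) : Prop := ∃ g : R2 s, Associated p (hat g)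

lemma prime_hat {g : R2 s} (hg : Prime g) : Prime (hat g : R2 l) :=
  (irreducible_hat hg.irreducible).prime

/-- A prime factor of a nonzero polynomial over `s` is over `s`. -/
theorem overS_of_dvd {p : R2 l} (hp : Prime p) {g : R2 s} (hg : g ≠ 0) (h : p ∣ hat g) :
    ∃ g' : R2 s, Prime g' ∧ Associated p (hat g') := by
  classical
  induction g using UniqueFactorizationMonoid.induction_on_prime with
  | h₁ => exact absurd rfl hg
  | h₂ u hu =>
    exfalso
    rw [isUnit_iff_dvd_one] at hu
    obtain ⟨w, hw⟩ := hu
    have h1 : (hat u : R2 l) * hat w = 1 := by rw [← map_mul, ← hw, map_one]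
    exact hp.not_isUnit (isUnit_of_dvd_one (h.trans (Dvd.intro _ h1)))
  | h₃ a q ha hq ih =>
    have h0 : a ≠ 0 := right_ne_zero_of_mul hg
    rw [map_mul] at h
    rcases hp.dvd_or_dvd h with h1 | h1
    · exact ⟨q, hq, hp.associated_of_dvd (prime_hat hq) h1⟩
    · exact ih h0 h1

end Spec

end Vale.Agent.Lib.P019
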