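import Vale.Agent.Lib.P019.Basic

/-!
`P`-adic order and residue maps on `V ℓ F` for `F` the fraction field of a UFD; the tame identity.
-/

set_option linter.unusedSectionVars false

namespace Vale.Agent.Lib.P019

open TensorProduct nonZeroDivisors

section Padic

variable {A : Type*} [CommRing A] [IsDomain A] [UniqueFactorizationMonoid A]

lemma finMult {P a : A} (hP : Prime P) (ha : a ≠ 0) : FiniteMultiplicity P a :=
  FiniteMultiplicity.of_prime_left hP ha

open scoped Classical in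
/-- The part of `a` prime to `P`. -/
noncomputable def copart (P a : A) : A :=
  if h : FiniteMultiplicity P a then (h.exists_eq_pow_mul_and_not_dvd).choose else 0

lemma copart_spec {P a : A} (hP : Prime P) (ha : a ≠ 0) :
    a = P ^ multiplicity P a * copart P a ∧ ¬ P ∣ copart P a := by
  have h := finMult hP ha
  rw [copart, dif_pos h]
  exact h.exists_eq_pow_mul_and_not_dvd.choose_spec

lemma copart_unique {P a c : A} (hP : Prime P) {n : ℕ} (h : a = P ^ n * c) (hc : ¬ P ∣ c) :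
    n = multiplicity P a ∧ c = copart P a := by
  have ha : a ≠ 0 := by
    rw [h]
    refine mul_ne_zero (pow_ne_zero _ hP.ne_zero) ?_
    rintro rfl
    exact hc (dvd_zero _)
  obtain ⟨h1, h2⟩ := copart_spec hP ha
  have hn : n = multiplicity P a := by
    have hfin := finMult hP ha
    have hc0 : c ≠ 0 := by
      rintro rfl
      exact hc (dvd_zero _)
    rw [h, multiplicity_mul hP (by rw [← h]; exact hfin)]
    have hm1 : multiplicity P c = 0 := multiplicity_eq_zero.2 hc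
    have hm2 : multiplicity P (P ^ n) = n :=
      multiplicity_pow_self hP.ne_zero hP.not_isUnit n
    rw [hm1, hm2, add_zero]
  refine ⟨hn, ?_⟩
  rw [← hn] at h1
  have : P ^ n * c = P ^ n * copart P a := by rw [← h, ← h1]
  exact mul_left_cancel₀ (pow_ne_zero _ hP.ne_zero) this

lemma copart_mul {P a b : A} (hP : Prime P) (ha : a ≠ 0) (hb : b ≠ 0) :
    copart P (a * b) = copart P a * copart P b := by
  obtain ⟨h1, h2⟩ := copart_spec hP ha
  obtain ⟨h3, h4⟩ := copart_spec hP hb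
  have : a * b = P ^ (multiplicity P a + multiplicity P b) * (copart P a * copart P b) := by
    conv_lhs => rw [h1, h3]
    ring
  have h5 : ¬ P ∣ copart P a * copart P b := by
    intro h
    rcases hP.dvd_or_dvd h with h | h
    · exact h2 h
    · exact h4 h
  exact (copart_unique hP this h5).2.symm

lemma copart_of_not_dvd {P a : A} (hP : Prime P) (h : ¬ P ∣ a) : copart P a = a := by
  have : a = P ^ 0 * a := by simp
  exact (copart_unique hP this h).2.symm

lemma copart_self {P : A} (hP : Prime P) : copart P P = 1 := by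
  have : P = P ^ 1 * 1 := by simp
  exact (copart_unique hP this (fun h => hP.not_isUnit (isUnit_of_dvd_one h))).2.symm

lemma copart_not_dvd {P a : A} (hP : Prime P) (ha : a ≠ 0) : ¬ P ∣ copart P a :=
  (copart_spec hP ha).2

variable (ℓ : ℕ) (F : Type*) [Field F] [Algebra A F] [IsFractionRing A F]

/-- The monoid homomorphism `a ↦ mult_P(a) mod ℓ`. -/
noncomputable def ordMon (P : A) (hP : Prime P) : A⁰ →* Multiplicative (ZMod ℓ) where
  toFun a := Multiplicative.ofAdd ((multiplicity P (a : A) : ℕ) : ZMod ℓ)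
  map_one' := by
    have : multiplicity P (1 : A) = 0 := multiplicity_eq_zero.2 (fun h => hP.not_isUnit (isUnit_of_dvd_one h))
    simp [this]
  map_mul' a b := by
    have ha : (a : A) ≠ 0 := nonZeroDivisors.ne_zero a.2
    have hb : (b : A) ≠ 0 := nonZeroDivisors.ne_zero b.2
    have : multiplicity P ((a : A) * b) = multiplicity P (a : A) + multiplicity P (b : A) :=
      multiplicity_mul hP (finMult hP (mul_ne_zero ha hb))
    simp only [Submonoid.coe_mul, this, Nat.cast_add, ofAdd_add]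

lemma zmod_smul_eq_zero (n : ZMod ℓ) : ℓ • n = 0 := by
  simp

open scoped Classical in
/-- The `P`-adic order mod `ℓ`, as a linear map `V ℓ F → ZMod ℓ` (zero if `P` is not prime). -/
noncomputable def ordV (P : A) : V ℓ F →ₗ[ZMod ℓ] ZMod ℓ :=
  if hP : Prime P then
    AddMonoidHom.toZModLinearMap ℓ (vLift (zmod_smul_eq_zero ℓ) (fracLift F (ordMon ℓ P hP)))
  else 0

/-- The class of an element of `A` in `V ℓ F`. -/
noncomputable def vr (a : A) : V ℓ F := clsF ℓ (algebraMap A F a)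

variable {ℓ F}

lemma algebraMap_ne {a : A} (ha : a ≠ 0) : algebraMap A F a ≠ 0 := by
  simpa using ha

lemma vr_mul {a b : A} (ha : a ≠ 0) (hb : b ≠ 0) : vr ℓ F (a * b) = vr ℓ F a + vr ℓ F b := by
  simp only [vr, map_mul]
  exact clsF_mul (algebraMap_ne ha) (algebraMap_ne hb)

lemma vr_pow {a : A} (ha : a ≠ 0) (n : ℕ) : vr ℓ F (a ^ n) = n • vr ℓ F a := by
  simp only [vr, map_pow]
  exact clsF_pow (algebraMap_ne ha) n

@[simp] lemma vr_one : vr ℓ F (1 : A) = 0 := by
  simp [vr]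

@[simp] lemma vr_zero : vr ℓ F (0 : A) = 0 := by
  simp [vr]

lemma clsF_frac {a b : A} (ha : a ≠ 0) (hb : b ≠ 0) :
    clsF ℓ (algebraMap A F a / algebraMap A F b) = vr ℓ F a - vr ℓ F b :=
  clsF_div (algebraMap_ne ha) (algebraMap_ne hb)

lemma vr_surjective (hℓ : ℓ ≠ 0) (z : V ℓ F) : ∃ a : A, a ≠ 0 ∧ vr ℓ F a = z := by
  obtain ⟨x, hx, rfl⟩ := clsF_surjective z
  obtain ⟨a, b, hb, hab⟩ := IsFractionRing.div_surjective (A := A) x
  have hb0 : b ≠ 0 := nonZeroDivisors.ne_zero hb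
  have ha0 : a ≠ 0 := by
    rintro rfl
    simp only [map_zero, zero_div] at hab
    exact hx hab.symm
  refine ⟨a * b ^ (ℓ - 1), mul_ne_zero ha0 (pow_ne_zero _ hb0), ?_⟩
  rw [← hab, clsF_frac ha0 hb0, vr_mul ha0 (pow_ne_zero _ hb0), vr_pow hb0]
  have h1 : ℓ • vr ℓ F b = 0 := smul_V_eq_zero ℓ F _
  obtain ⟨m, rfl⟩ : ∃ m, ℓ = m + 1 := ⟨ℓ - 1, by omega⟩
  simp only [Nat.add_sub_cancel]
  rw [succ_nsmul] at h1
  rw [sub_eq_add_neg]
  congr 1
  exact eq_neg_of_add_eq_zero_left h1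

lemma ordV_cls (P : A) (hP : Prime P) (x : Fˣ) :
    ordV ℓ F P (cls ℓ x) = Multiplicative.toAdd (fracLift F (ordMon ℓ P hP) x) := by
  rw [ordV, dif_pos hP]
  rfl

lemma ordV_vr (P : A) (hP : Prime P) {a : A} (ha : a ≠ 0) :
    ordV ℓ F P (vr ℓ F a) = ((multiplicity P a : ℕ) : ZMod ℓ) := by
  have h := fracLift_of F (ordMon ℓ P hP) (Units.mk0 (algebraMap A F a) (algebraMap_ne ha))
    (a := ⟨a, mem_nonZeroDivisors_of_ne_zero ha⟩) (by simp)
  rw [vr, clsF_of_ne (algebraMap_ne ha), ordV_cls P hP, h]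
  rfl

lemma ordV_vr_of_not_dvd (P : A) (hP : Prime P) {a : A} (h : ¬ P ∣ a) :
    ordV ℓ F P (vr ℓ F a) = 0 := by
  have ha : a ≠ 0 := by
    rintro rfl
    exact h (dvd_zero _)
  rw [ordV_vr P hP ha, multiplicity_eq_zero.2 h]
  simp

lemma ordV_vr_self (P : A) (hP : Prime P) : ordV ℓ F P (vr ℓ F P) = 1 := by
  rw [ordV_vr P hP hP.ne_zero, multiplicity_self]
  simp

/-- The monoid homomorphism `a ↦ [φ(a / P^mult)]`. -/
noncomputable def resMon (ℓ : ℕ) {E : Type*} [Field E] (φ : A →+* E) (P : A) (hP : Prime P)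
    (hφ : ∀ a, φ a = 0 ↔ P ∣ a) : A⁰ →* Multiplicative (V ℓ E) where
  toFun a := Multiplicative.ofAdd (clsF ℓ (φ (copart P (a : A))))
  map_one' := by
    have : copart P (1 : A) = 1 := copart_of_not_dvd hP (fun h => hP.not_isUnit (isUnit_of_dvd_one h))
    simp [this]
  map_mul' a b := by
    have ha : (a : A) ≠ 0 := nonZeroDivisors.ne_zero a.2
    have hb : (b : A) ≠ 0 := nonZeroDivisors.ne_zero b.2
    simp only [Submonoid.coe_mul, copart_mul hP ha hb, map_mul]
    rw [clsF_mul]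
    · rfl
    · exact fun h => copart_not_dvd hP ha ((hφ _).1 h)
    · exact fun h => copart_not_dvd hP hb ((hφ _).1 h)

variable (ℓ F) in
/-- The residue map `V ℓ F → V ℓ E` at `P` with respect to the uniformizer `P`. -/
noncomputable def resV {E : Type*} [Field E] (φ : A →+* E) (P : A) (hP : Prime P)
    (hφ : ∀ a, φ a = 0 ↔ P ∣ a) : V ℓ F →ₗ[ZMod ℓ] V ℓ E :=
  AddMonoidHom.toZModLinearMap ℓ
    (vLift (smul_V_eq_zero ℓ E) (fracLift F (resMon ℓ φ P hP hφ)))

section Res

variable {E : Type*} [Field E] (φ : A →+* E) (P : A) (hP : Prime P)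
    (hφ : ∀ a, φ a = 0 ↔ P ∣ a)

lemma resV_cls (x : Fˣ) :
    resV ℓ F φ P hP hφ (cls ℓ x) = Multiplicative.toAdd (fracLift F (resMon ℓ φ P hP hφ) x) := rfl

lemma resV_vr {a : A} (ha : a ≠ 0) :
    resV ℓ F φ P hP hφ (vr ℓ F a) = clsF ℓ (φ (copart P a)) := by
  have h := fracLift_of F (resMon ℓ φ P hP hφ) (Units.mk0 (algebraMap A F a) (algebraMap_ne ha))
    (a := ⟨a, mem_nonZeroDivisors_of_ne_zero ha⟩) (by simp)
  rw [vr, clsF_of_ne (algebraMap_ne ha), resV_cls, h]
  rfl

lemma resV_vr_of_not_dvd {a : A} (h : ¬ P ∣ a) :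
    resV ℓ F φ P hP hφ (vr ℓ F a) = clsF ℓ (φ a) := by
  have ha : a ≠ 0 := by
    rintro rfl
    exact h (dvd_zero _)
  rw [resV_vr φ P hP hφ ha, copart_of_not_dvd hP h]

lemma resV_vr_self : resV ℓ F φ P hP hφ (vr ℓ F P) = 0 := by
  rw [resV_vr φ P hP hφ hP.ne_zero, copart_self hP]
  simp

/-- The tame identity. -/
theorem tame_identity (hm1 : clsF ℓ (-1 : E) = 0) (s t : Fˣ) (hst : (s : F) + t = 1) :
    ordV ℓ F P (cls ℓ t) • resV ℓ F φ P hP hφ (cls ℓ s) =
      ordV ℓ F P (cls ℓ s) • resV ℓ F φ P hP hφ (cls ℓ t) := by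
  -- reduced fraction
  set a : A := IsFractionRing.num A (s : F) with ha_def
  set b : A := (IsFractionRing.den A (s : F) : A) with hb_def
  have hrel : IsRelPrime a b := IsFractionRing.num_den_reduced A (s : F)
  have hb0 : b ≠ 0 := nonZeroDivisors.ne_zero (IsFractionRing.den A (s : F)).2
  have hs : algebraMap A F a / algebraMap A F b = s := IsFractionRing.mk'_num_den' A (s : F)
  have ha0 : a ≠ 0 := by
    intro h
    rw [h] at hs
    simp only [map_zero, zero_div] at hs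
    exact s.ne_zero hs.symm
  have hbF : algebraMap A F b ≠ 0 := algebraMap_ne hb0
  have ht : algebraMap A F (b - a) / algebraMap A F b = t := by
    have : (t : F) = 1 - s := by rw [← hst]; ring
    rw [this, ← hs, map_sub]
    field_simp
  have hd0 : b - a ≠ 0 := by
    intro h
    rw [h] at ht
    simp only [map_zero, zero_div] at ht
    exact t.ne_zero ht.symm
  have hS : cls ℓ s = vr ℓ F a - vr ℓ F b := by
    rw [← clsF_units, ← hs, clsF_frac ha0 hb0]
  have hT : cls ℓ t = vr ℓ F (b - a) - vr ℓ F b := by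
    rw [← clsF_units, ← ht, clsF_frac hd0 hb0]
  rw [hS, hT]
  simp only [map_sub]
  have hnot : ¬ (P ∣ a ∧ P ∣ b) := fun ⟨h1, h2⟩ => hP.not_isUnit (hrel h1 h2)
  by_cases hPa : P ∣ a
  · have hPb : ¬ P ∣ b := fun h => hnot ⟨hPa, h⟩
    have hPd : ¬ P ∣ b - a := by
      intro h
      apply hPb
      have := dvd_add h hPa
      simpa using this
    have hφa : φ a = 0 := (hφ a).2 hPa
    rw [ordV_vr_of_not_dvd P hP hPd, ordV_vr_of_not_dvd P hP hPb,
      resV_vr_of_not_dvd φ P hP hφ hPd, resV_vr_of_not_dvd φ P hP hφ hPb, map_sub, hφa]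
    simp
  · by_cases hPb : P ∣ b
    · have hPd : ¬ P ∣ b - a := by
        intro h
        apply hPa
        have := dvd_sub hPb h
        simpa using this
      have hφb : φ b = 0 := (hφ b).2 hPb
      have h1 : clsF ℓ (φ (b - a)) = clsF ℓ (φ a) := by
        have hφa' : φ a ≠ 0 := fun h => hPa ((hφ a).1 h)
        rw [map_sub, hφb, zero_sub, ← neg_one_mul, clsF_mul (by simp) hφa', hm1, zero_add]
      rw [ordV_vr_of_not_dvd P hP hPd, ordV_vr_of_not_dvd P hP hPa,
        resV_vr_of_not_dvd φ P hP hφ hPd, resV_vr_of_not_dvd φ P hP hφ hPa, h1]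
    · by_cases hPd : P ∣ b - a
      · have h2 : φ b = φ a := by
          have := (hφ _).2 hPd
          rw [map_sub] at this
          exact sub_eq_zero.1 this
        rw [ordV_vr_of_not_dvd P hP hPa, ordV_vr_of_not_dvd P hP hPb,
          resV_vr_of_not_dvd φ P hP hφ hPa, resV_vr_of_not_dvd φ P hP hφ hPb, h2]
        simp
      · rw [ordV_vr_of_not_dvd P hP hPa, ordV_vr_of_not_dvd P hP hPb,
          ordV_vr_of_not_dvd P hP hPd]
        simp

/-- The tame form on `V ⊗ V`. -/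
noncomputable def tameForm : V ℓ F ⊗[ZMod ℓ] V ℓ F →ₗ[ZMod ℓ] V ℓ E :=
  TensorProduct.lift
    (LinearMap.mk₂ (ZMod ℓ)
      (fun z w => ordV ℓ F P w • resV ℓ F φ P hP hφ z - ordV ℓ F P z • resV ℓ F φ P hP hφ w)
      (by intro a b c; simp only [map_add, add_smul, smul_add]; abel)
      (by intro c a b; simp only [map_smul, smul_eq_mul, mul_smul, smul_sub, smul_comm c])
      (by intro a b c; simp only [map_add, add_smul, smul_add]; abel)
      (by intro c a b; simp only [map_smul, smul_eq_mul, mul_smul, smul_sub, smul_comm c]))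

lemma tameForm_tmul (z w : V ℓ F) :
    tameForm (ℓ := ℓ) (F := F) φ P hP hφ (z ⊗ₜ[ZMod ℓ] w) =
      ordV ℓ F P w • resV ℓ F φ P hP hφ z - ordV ℓ F P z • resV ℓ F φ P hP hφ w := by
  simp [tameForm]

lemma tameForm_steinberg (hm1 : clsF ℓ (-1 : E) = 0) {T : V ℓ F ⊗[ZMod ℓ] V ℓ F}
    (hT : T ∈ steinberg ℓ F) : tameForm (ℓ := ℓ) (F := F) φ P hP hφ T = 0 := by
  induction hT using Submodule.span_induction with
  | mem x h =>
    obtain ⟨s, t, hst, rfl⟩ := h
    rw [tameForm_tmul, tame_identity φ P hP hφ hm1 s t hst, sub_self]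
  | zero => simp
  | add x y _ _ hx hy => rw [map_add, hx, hy, add_zero]
  | smul c x _ hx => rw [map_smul, hx, smul_zero]

end Res

end Padic

section Compat

variable {ℓ : ℕ} {K L M : Type*} [Field K] [Field L] [Field M]

lemma Compatible.mem {Θ : V ℓ K ≃ₗ[ZMod ℓ] V ℓ L} (h : Compatible Θ) {z w : V ℓ K}
    (hzw : z ⊗ₜ[ZMod ℓ] w ∈ steinberg ℓ K) :
    Θ z ⊗ₜ[ZMod ℓ] Θ w ∈ steinberg ℓ L := by
  rw [← h]
  exact ⟨_, hzw, by simp⟩

lemma steinberg_mem (s t : Kˣ) (h : (s : K) + t = 1) :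
    cls ℓ s ⊗ₜ[ZMod ℓ] cls ℓ t ∈ steinberg ℓ K :=
  Submodule.subset_span ⟨s, t, h, rfl⟩

lemma Compatible.symm {Θ : V ℓ K ≃ₗ[ZMod ℓ] V ℓ L} (h : Compatible Θ) :
    Compatible Θ.symm := by
  unfold Compatible at *
  rw [← h, ← Submodule.map_comp, ← TensorProduct.map_comp]
  have : (Θ.symm.toLinearMap ∘ₗ Θ.toLinearMap) = LinearMap.id := by
    ext; simp
  rw [this, TensorProduct.map_id, Submodule.map_id]

lemma Compatible.trans {Θ : V ℓ K ≃ₗ[ZMod ℓ] V ℓ L} {Ψ : V ℓ L ≃ₗ[ZMod ℓ] V ℓ M}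
    (h : Compatible Θ) (h' : Compatible Ψ) : Compatible (Θ.trans Ψ) := by
  unfold Compatible at *
  rw [← h', ← h, ← Submodule.map_comp, ← TensorProduct.map_comp]
  rfl

/-- Field isomorphisms act on `V`. -/
noncomputable def mapVEquiv (ℓ : ℕ) (α : K ≃+* L) : V ℓ K ≃ₗ[ZMod ℓ] V ℓ L :=
  LinearEquiv.ofLinearMap (mapV ℓ (α : K →+* L)) (mapV ℓ (α.symm : L →+* K))
    (by
      ext z
      obtain ⟨x, rfl⟩ := cls_surjective z
      simp only [LinearMap.comp_apply, mapV_cls, LinearMap.id_apply]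
      congr 1
      ext
      simp)
    (by
      ext z
      obtain ⟨x, rfl⟩ := cls_surjective z
      simp only [LinearMap.comp_apply, mapV_cls, LinearMap.id_apply]
      congr 1
      ext
      simp)

@[simp] lemma mapVEquiv_cls (α : K ≃+* L) (x : Kˣ) :
    mapVEquiv ℓ α (cls ℓ x) = cls ℓ (Units.map (α : K →* L) x) := rfl

lemma mapVEquiv_clsF (α : K ≃+* L) (x : K) :
    mapVEquiv ℓ α (clsF ℓ x) = clsF ℓ (α x) :=
  mapV_clsF (α : K →+* L) x

lemma mapVEquiv_symm (α : K ≃+* L) : (mapVEquiv ℓ α).symm = mapVEquiv ℓ α.symm := rfl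

lemma map_steinberg_le (α : K ≃+* L) :
    (steinberg ℓ K).map (TensorProduct.map (mapVEquiv ℓ α).toLinearMap (mapVEquiv ℓ α).toLinearMap)
      ≤ steinberg ℓ L := by
  rw [steinberg, Submodule.map_span, Submodule.span_le]
  rintro _ ⟨_, ⟨x, y, hxy, rfl⟩, rfl⟩
  refine Submodule.subset_span ⟨Units.map (α : K →* L) x, Units.map (α : K →* L) y, ?_, ?_⟩
  · simp only [Units.coe_map, MonoidHom.coe_coe]
    rw [← map_add, hxy, map_one]
  · simp

/-- A field isomorphism induces a compatible isomorphism. -/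
theorem compatible_mapVEquiv (α : K ≃+* L) : Compatible (mapVEquiv ℓ α) := by
  apply le_antisymm (map_steinberg_le α)
  have h := map_steinberg_le (ℓ := ℓ) α.symm
  intro T hT
  refine ⟨TensorProduct.map (mapVEquiv ℓ α.symm).toLinearMap (mapVEquiv ℓ α.symm).toLinearMap T,
    h ⟨T, hT, rfl⟩, ?_⟩
  rw [← LinearMap.comp_apply, ← TensorProduct.map_comp]
  have : (mapVEquiv ℓ α).toLinearMap ∘ₗ (mapVEquiv ℓ α.symm).toLinearMap = LinearMap.id := by
    ext z
    exact (mapVEquiv ℓ α).apply_symm_apply z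
  rw [this, TensorProduct.map_id]
  rfl

end Compat

end Vale.Agent.Lib.P019
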