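import Vale.Agent.Lib.P019.Lines
import Vale.Agent.Lib.P019.Functional

/-!
Theorem: a compatible isomorphism preserving both coordinate pencils comes from a field
isomorphism, up to a scalar.
-/

set_option linter.unusedSectionVars false

namespace Vale.Agent.Lib.P019

open Polynomial TensorProduct nonZeroDivisors UniqueFactorizationMonoid Filter
open scoped Classical

section Scale

variable {ℓ : ℕ} [hℓ : Fact ℓ.Prime] {F : Type*} [Field F]

/-- Multiplication by a unit of `ZMod ℓ` on `V ℓ F`. -/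
noncomputable def scaleV (ℓ : ℕ) [Fact ℓ.Prime] (F : Type*) [Field F] (c : (ZMod ℓ)ˣ) :
    V ℓ F ≃ₗ[ZMod ℓ] V ℓ F := LinearEquiv.smulOfUnit c

lemma scaleV_apply (c : (ZMod ℓ)ˣ) (z : V ℓ F) : scaleV ℓ F c z = (c : ZMod ℓ) • z := rfl

lemma compatible_scaleV (c : (ZMod ℓ)ˣ) : Compatible (scaleV ℓ F c) := by
  have key : ∀ (d : (ZMod ℓ)ˣ) (T : V ℓ F ⊗[ZMod ℓ] V ℓ F),
      TensorProduct.map (scaleV ℓ F d).toLinearMap (scaleV ℓ F d).toLinearMap T =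
        ((d : ZMod ℓ) * d) • T := by
    intro d T
    induction T using TensorProduct.induction_on with
    | zero => simp
    | tmul x y =>
      simp only [TensorProduct.map_tmul, LinearEquiv.coe_toLinearMap, scaleV_apply,
        TensorProduct.smul_tmul', TensorProduct.tmul_smul, smul_smul]
    | add x y hx hy => rw [map_add, hx, hy, smul_add]
  apply le_antisymm
  · rintro _ ⟨T, hT, rfl⟩
    rw [key]
    exact Submodule.smul_mem _ _ hT
  · intro T hT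
    refine ⟨(((c⁻¹ : (ZMod ℓ)ˣ) : ZMod ℓ) * ((c⁻¹ : (ZMod ℓ)ˣ) : ZMod ℓ)) • T,
      Submodule.smul_mem _ _ hT, ?_⟩
    rw [key, smul_smul]
    have : ((c : ZMod ℓ) * c) * (((c⁻¹ : (ZMod ℓ)ˣ) : ZMod ℓ) * ((c⁻¹ : (ZMod ℓ)ˣ) : ZMod ℓ)) = 1 := by
      have h : (c : ZMod ℓ) * ((c⁻¹ : (ZMod ℓ)ˣ) : ZMod ℓ) = 1 := Units.mul_inv c
      linear_combination ((c : ZMod ℓ) * ((c⁻¹ : (ZMod ℓ)ˣ) : ZMod ℓ) + 1) * h
    rw [this, one_smul]

end Scale

section Good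

variable {k l : Type*} [Field k] [Field l]

lemma algebraMap_K2 (t : k) :
    algebraMap k (K2 k) t = algebraMap (R2 k) (K2 k) (C (C t)) := by
  rw [IsScalarTower.algebraMap_apply k (R2 k) (K2 k)]
  rfl

variable {ℓ : ℕ} [hℓ : Fact ℓ.Prime]

/-- Working form of the conclusion. -/
def GoodU (Θ : V ℓ (K2 k) ≃ₗ[ZMod ℓ] V ℓ (K2 l)) : Prop :=
  ∃ (c : (ZMod ℓ)ˣ) (α : K2 k ≃+* K2 l),
    α '' Set.range (algebraMap k (K2 k)) = Set.range (algebraMap l (K2 l)) ∧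
      ∀ x : (K2 k)ˣ, Θ (cls ℓ x) = (c : ZMod ℓ) • cls ℓ (Units.map (α : K2 k →* K2 l) x)

lemma GoodU.good {Θ : V ℓ (K2 k) ≃ₗ[ZMod ℓ] V ℓ (K2 l)} (h : GoodU Θ) : Good Θ := by
  obtain ⟨c, α, h1, h2⟩ := h
  refine ⟨c, α, ?_, ?_⟩
  · intro t
    constructor
    · intro ht
      rw [← h1]
      exact ⟨t, ht, rfl⟩
    · intro ht
      rw [← h1] at ht
      obtain ⟨t', ht', he⟩ := ht
      rw [← α.injective he]
      exact ht'
  · intro x
    by_cases hx : x = 0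
    · simp [hx]
    · have h3 := h2 (Units.mk0 x hx)
      rw [clsF_of_ne hx, h3, clsF_of_ne ((map_ne_zero α).2 hx)]
      congr 2
      ext
      simp

/-- Automorphisms fixing the constants. -/
def FixC (σ : K2 k ≃+* K2 k) : Prop := ∀ t : k, σ (algebraMap k (K2 k) t) = algebraMap k (K2 k) t

lemma GoodU.congr {Θ Θ' : V ℓ (K2 k) ≃ₗ[ZMod ℓ] V ℓ (K2 l)} (h : GoodU Θ) (e : ∀ z, Θ' z = Θ z) :
    GoodU Θ' := by
  obtain ⟨c, α, h1, h2⟩ := h
  exact ⟨c, α, h1, fun x => by rw [e, h2]⟩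

lemma GoodU.of_pre {σ : K2 k ≃+* K2 k} (hσ : FixC σ) {Θ : V ℓ (K2 k) ≃ₗ[ZMod ℓ] V ℓ (K2 l)}
    (h : GoodU ((mapVEquiv ℓ σ).trans Θ)) : GoodU Θ := by
  obtain ⟨c, α, h1, h2⟩ := h
  refine ⟨c, σ.symm.trans α, ?_, ?_⟩
  · rw [← h1]
    ext z
    simp only [Set.mem_image, Set.mem_range, exists_exists_eq_and, RingEquiv.trans_apply]
    constructor
    · rintro ⟨t, rfl⟩
      refine ⟨t, ?_⟩
      congr 1
      exact ((RingEquiv.symm_apply_eq _).2 (hσ t).symm).symm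
    · rintro ⟨t, rfl⟩
      refine ⟨t, ?_⟩
      congr 1
      exact (RingEquiv.symm_apply_eq _).2 (hσ t).symm
  · intro x
    have h3 := h2 (Units.map (σ.symm : K2 k →* K2 k) x)
    simp only [LinearEquiv.trans_apply, mapVEquiv_cls] at h3
    have h4 : Units.map (σ : K2 k →* K2 k) (Units.map (σ.symm : K2 k →* K2 k) x) = x := by
      ext
      simp
    rw [h4] at h3
    rw [h3]
    congr 2

lemma GoodU.of_post {τ : K2 l ≃+* K2 l} (hτ : FixC τ) {Θ : V ℓ (K2 k) ≃ₗ[ZMod ℓ] V ℓ (K2 l)}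
    (h : GoodU (Θ.trans (mapVEquiv ℓ τ))) : GoodU Θ := by
  obtain ⟨c, α, h1, h2⟩ := h
  refine ⟨c, α.trans τ.symm, ?_, ?_⟩
  · ext z
    constructor
    · rintro ⟨_, ⟨t, rfl⟩, rfl⟩
      have : α (algebraMap k (K2 k) t) ∈ Set.range (algebraMap l (K2 l)) := by
        rw [← h1]
        exact ⟨_, ⟨t, rfl⟩, rfl⟩
      obtain ⟨t', ht'⟩ := this
      refine ⟨t', ?_⟩
      simp only [RingEquiv.trans_apply]
      rw [← ht', RingEquiv.eq_symm_apply]
      exact hτ t'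
    · rintro ⟨t', rfl⟩
      have : algebraMap l (K2 l) t' ∈ α '' Set.range (algebraMap k (K2 k)) := by
        rw [h1]
        exact ⟨t', rfl⟩
      obtain ⟨_, ⟨t, rfl⟩, ht⟩ := this
      refine ⟨_, ⟨t, rfl⟩, ?_⟩
      simp only [RingEquiv.trans_apply]
      rw [ht, RingEquiv.symm_apply_eq]
      exact (hτ t').symm
  · intro x
    have h3 := h2 x
    simp only [LinearEquiv.trans_apply] at h3
    have h4 := congrArg (mapVEquiv ℓ τ).symm h3
    rw [LinearEquiv.symm_apply_apply, map_smul, mapVEquiv_symm, mapVEquiv_cls] at h4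
    rw [h4]
    congr 2

end Good

section Fix

variable {k : Type*} [Field k]

lemma fixC_trK (e : k) : FixC (trK e) := by
  intro t
  rw [algebraMap_K2, trK_algebraMap, trR_C, aeval_C]
  rfl

lemma fixC_swK : FixC (swK (k := k)) := by
  intro t
  rw [algebraMap_K2, swK_algebraMap, swR_apply, Polynomial.Bivariate.swap_C_C]

lemma fixC_invK [IsAlgClosed k] : FixC (invK (k := k)) := by
  intro t
  rw [algebraMap_K2, invK_algebraMap, invHom_CC]

end Fix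

section Affine

variable {l : Type*} [Field l]

/-- The automorphism `x ↦ (x - D)/A`, `y ↦ y` of `l[x][y]`. -/
noncomputable def affX (A D : l) (hA : A ≠ 0) : R2 l ≃+* R2 l :=
  letI : Invertible A⁻¹ := invertibleOfNonzero (inv_ne_zero hA)
  Polynomial.mapEquiv (algEquivCMulXAddC A⁻¹ (-(D * A⁻¹))).toRingEquiv

lemma affX_C (A D : l) (hA : A ≠ 0) (p : l[X]) :
    affX A D hA (C p) = C (aeval (C A⁻¹ * X + C (-(D * A⁻¹))) p) := by
  simp [affX, algEquivCMulXAddC_apply]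

lemma affX_X (A D : l) (hA : A ≠ 0) : affX A D hA X = X := by
  simp [affX]

lemma affX_xc (A D : l) (hA : A ≠ 0) (t : l) :
    affX A D hA (xc t) = C (C A⁻¹) * xc (A * t + D) := by
  rw [xc, xc, affX_C, ← C_mul]
  congr 1
  simp only [map_sub, aeval_X, aeval_C, algebraMap_eq, C_add, C_mul, C_neg]
  have h1 : (C A⁻¹ : l[X]) * C A = 1 := by
    rw [← C_mul, inv_mul_cancel₀ hA, C_1]
  linear_combination (C t : l[X]) * h1

lemma affX_CC (A D : l) (hA : A ≠ 0) (t : l) : affX A D hA (C (C t)) = C (C t) := by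
  rw [affX_C, aeval_C]
  rfl

lemma affX_yc (A D : l) (hA : A ≠ 0) (t : l) : affX A D hA (yc t) = yc t := by
  rw [yc, map_sub, affX_X, affX_CC]

/-- The automorphism `x ↦ x`, `y ↦ (y - D)/A` of `l[x][y]`. -/
noncomputable def affY (A D : l) (hA : A ≠ 0) : R2 l ≃+* R2 l :=
  swR.trans ((affX A D hA).trans swR)

lemma affY_apply (A D : l) (hA : A ≠ 0) (h : R2 l) : affY A D hA h = swR (affX A D hA (swR h)) :=
  rfl

lemma affY_CC (A D : l) (hA : A ≠ 0) (t : l) : affY A D hA (C (C t)) = C (C t) := by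
  have h1 : swR (C (C t) : R2 l) = C (C t) := Polynomial.Bivariate.swap_C_C t
  rw [affY_apply, h1, affX_CC, h1]

lemma affY_xc (A D : l) (hA : A ≠ 0) (t : l) : affY A D hA (xc t) = xc t := by
  rw [affY_apply, swR_xc, affX_yc, swR_yc]

lemma affY_yc (A D : l) (hA : A ≠ 0) (t : l) :
    affY A D hA (yc t) = C (C A⁻¹) * yc (A * t + D) := by
  have h1 : swR (C (C A⁻¹) : R2 l) = C (C A⁻¹) := Polynomial.Bivariate.swap_C_C _
  rw [affY_apply, swR_yc, affX_xc, map_mul, swR_xc, h1]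

end Affine

section Main

variable {k l : Type*} [Field k] [Field l]

/-- The ring isomorphism `k[x][y] ≃ l[x][y]` induced by a field isomorphism. -/
noncomputable def liftR (ν : k ≃+* l) : R2 k ≃+* R2 l := Polynomial.mapEquiv (Polynomial.mapEquiv ν)

lemma liftR_CC (ν : k ≃+* l) (t : k) : liftR ν (C (C t)) = C (C (ν t)) := by
  simp [liftR]

lemma liftR_xc (ν : k ≃+* l) (t : k) : liftR ν (xc t) = xc (ν t) := by
  simp [liftR, xc]

lemma liftR_yc (ν : k ≃+* l) (t : k) : liftR ν (yc t) = yc (ν t) := by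
  simp [liftR, yc]

variable [IsAlgClosed k] [IsAlgClosed l] [CharZero k] [CharZero l] {ℓ : ℕ} [hℓ : Fact ℓ.Prime]

lemma vr2_CC_mul {t : l} (ht : t ≠ 0) {h : R2 l} (hh : h ≠ 0) :
    vr2 ℓ (C (C t) * h) = vr2 ℓ h := by
  have h0 : (C (C t) : R2 l) ≠ 0 := by simpa using ht
  have h1 : vr2 ℓ (C (C t) * h) = vr2 ℓ (C (C t)) + vr2 ℓ h := vr_mul h0 hh
  rw [h1, vr2_CC, zero_add]

/-- Construction of the map from the field isomorphism and the affine data. -/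
theorem good_of_data {Θ : V ℓ (K2 k) ≃ₗ[ZMod ℓ] V ℓ (K2 l)} (hΘ : Compatible Θ)
    (ν : k ≃+* l) (e : (ZMod ℓ)ˣ) {A D A' D' : l} (hA : A ≠ 0) (hA' : A' ≠ 0)
    (hx : ∀ c, Θ (vr2 ℓ (xc c)) = (e : ZMod ℓ) • vr2 ℓ (xc (A * ν c + D)))
    (hy : ∀ a, Θ (vr2 ℓ (yc a)) = (e : ZMod ℓ) • vr2 ℓ (yc (A' * ν a + D'))) : GoodU Θ := by
  set ψ : R2 k ≃+* R2 l := (liftR ν).trans ((affX A D hA).trans (affY A' D' hA')) with hψ
  have hψapp : ∀ h, ψ h = affY A' D' hA' (affX A D hA (liftR ν h)) := fun h => rfl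
  set α : K2 k ≃+* K2 l := IsFractionRing.ringEquivOfRingEquiv ψ with hα
  have hαalg : ∀ h, α (algebraMap (R2 k) (K2 k) h) = algebraMap (R2 l) (K2 l) (ψ h) := fun h =>
    IsFractionRing.ringEquivOfRingEquiv_algebraMap ψ h
  have hαV : ∀ h, mapVEquiv ℓ α (vr2 ℓ h) = vr2 ℓ (ψ h) := by
    intro h
    rw [vr2, vr, mapVEquiv_clsF, hαalg]
    rfl
  have hconst : ∀ t : k, α (algebraMap k (K2 k) t) = algebraMap l (K2 l) (ν t) := by
    intro t
    rw [algebraMap_K2, algebraMap_K2, hαalg, hψapp, liftR_CC, affX_CC, affY_CC]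
  have hαx : ∀ c, mapVEquiv ℓ α (vr2 ℓ (xc c)) = vr2 ℓ (xc (A * ν c + D)) := by
    intro c
    rw [hαV, hψapp, liftR_xc, affX_xc, map_mul, affY_CC, affY_xc,
      vr2_CC_mul (inv_ne_zero hA) (prime_xc _).ne_zero]
  have hαy : ∀ c, mapVEquiv ℓ α (vr2 ℓ (yc c)) = vr2 ℓ (yc (A' * ν c + D')) := by
    intro c
    rw [hαV, hψapp, liftR_yc, affX_yc, affY_yc, vr2_CC_mul (inv_ne_zero hA') (prime_yc _).ne_zero]
  set Φ : V ℓ (K2 k) ≃ₗ[ZMod ℓ] V ℓ (K2 k) :=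
    Θ.trans ((mapVEquiv ℓ α).symm.trans (scaleV ℓ (K2 k) e⁻¹)) with hΦ
  have hΦapp : ∀ z, Φ z = ((e⁻¹ : (ZMod ℓ)ˣ) : ZMod ℓ) • (mapVEquiv ℓ α).symm (Θ z) := fun z => rfl
  have hcomp : Compatible Φ :=
    hΘ.trans ((compatible_mapVEquiv α).symm.trans (compatible_scaleV _))
  have hee : ((e⁻¹ : (ZMod ℓ)ˣ) : ZMod ℓ) * (e : ZMod ℓ) = 1 := Units.inv_mul e
  have hΦx : ∀ c, Φ (vr2 ℓ (xc c)) = vr2 ℓ (xc c) := by
    intro c
    rw [hΦapp, hx, map_smul, ← hαx, LinearEquiv.symm_apply_apply, smul_smul, hee, one_smul]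
  have hΦy : ∀ c, Φ (vr2 ℓ (yc c)) = vr2 ℓ (yc c) := by
    intro c
    rw [hΦapp, hy, map_smul, ← hαy, LinearEquiv.symm_apply_apply, smul_smul, hee, one_smul]
  have hfix := rigidity Φ hcomp hΦx hΦy
  refine ⟨e, α, ?_, ?_⟩
  · ext z
    constructor
    · rintro ⟨_, ⟨t, rfl⟩, rfl⟩
      exact ⟨ν t, (hconst t).symm⟩
    · rintro ⟨t', rfl⟩
      refine ⟨_, ⟨ν.symm t', rfl⟩, ?_⟩
      rw [hconst, RingEquiv.apply_symm_apply]
  · intro x
    have h1 := hfix (cls ℓ x)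
    rw [hΦapp] at h1
    have h2 : (mapVEquiv ℓ α).symm (Θ (cls ℓ x)) = (e : ZMod ℓ) • cls ℓ x := by
      conv_rhs => rw [← h1]
      rw [smul_smul, mul_comm, hee, one_smul]
    have h3 := congrArg (mapVEquiv ℓ α) h2
    rw [LinearEquiv.apply_symm_apply, map_smul, mapVEquiv_cls] at h3
    exact h3

lemma conjSw_conjSw (Θ : V ℓ (K2 k) ≃ₗ[ZMod ℓ] V ℓ (K2 l)) (z : V ℓ (K2 k)) :
    conjSw (conjSw Θ) z = Θ z := by
  rw [conjSw_apply, conjSw_apply, swV_swV, swV_swV]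

/-- The normalized case. -/
theorem good_of_normal {Θ : V ℓ (K2 k) ≃ₗ[ZMod ℓ] V ℓ (K2 l)} {π π' : k → l} {ε ε' : k → ZMod ℓ}
    (D : NormalData Θ π π' ε ε') (D' : NormalData (conjSw Θ) π' π ε' ε) : GoodU Θ := by
  have hconj : conjSw (conjSw Θ) = Θ := LinearEquiv.ext (conjSw_conjSw Θ)
  have D'' : NormalData (conjSw (conjSw Θ)) π π' ε ε' := by
    rw [hconj]
    exact D
  -- the line `y = x`
  obtain ⟨B₀, E₀, n, hB₀, hn, hF, hall⟩ := line_analysis D D' (b := 1) one_ne_zero 0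
  obtain ⟨B₁, E₁, n₁, hB₁, hn₁, hF₁, hall₁⟩ := line_analysis D' D'' (b := 1) one_ne_zero 0
  have hπ' : ∀ c, π' c = B₀ * π c + E₀ := by
    intro c
    have := (hall c).1
    simpa using this
  have hε' : ∀ c, ε' c = n := by
    intro c
    have := (hall c).2
    simpa using this
  have hε : ∀ c, ε c = n₁ := by
    intro c
    have := (hall₁ c).2
    simpa using this
  -- comparison of the two scalars
  have hsw : conjSw Θ (vr2 ℓ (line 1 0)) = swV ℓ (Θ (vr2 ℓ (line 1 0))) := by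
    have h1 := vr2_swR_line (ℓ := ℓ) (one_ne_zero : (1 : k) ≠ 0) 0
    simp only [inv_one, mul_one, neg_zero] at h1
    rw [conjSw_vr, h1]
  have hnn : n = n₁ := by
    rw [hF₁, hF, map_smul, swV_vr] at hsw
    have hp := prime_swR (prime_line B₀ E₀)
    have h2 := congrArg (ordV ℓ (K2 l) (line B₁ E₁)) hsw
    rw [map_smul, map_smul, ordV_vr_self _ (prime_line B₁ E₁)] at h2
    by_cases hass : Associated (line B₁ E₁) (swR (line B₀ E₀))
    · rw [ordV_vr_of_associated (prime_line B₁ E₁) hass] at h2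
      simpa using h2.symm
    · rw [ordV_vr_of_not_associated (prime_line B₁ E₁) hp hass] at h2
      simp only [smul_eq_mul, mul_one, mul_zero] at h2
      exact absurd h2 hn₁
  -- the functional equation
  have hinj := D.bij.1
  have hA : π 1 - π 0 ≠ 0 := sub_ne_zero.2 fun h => one_ne_zero (hinj h)
  set A := π 1 - π 0 with hAdef
  set D₁ := π 0 with hD₁
  set ν₀ : k → l := fun c => (π c - D₁) / A with hν₀
  have hν₀0 : ν₀ 0 = 0 := by simp [hν₀, hD₁]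
  have hν₀1 : ν₀ 1 = 1 := by
    simp only [hν₀]
    exact div_self hA
  have hν₀π : ∀ c, π c = A * ν₀ c + D₁ := by
    intro c
    simp only [hν₀]
    field_simp
    ring
  have hν₀bij : Function.Bijective ν₀ := by
    constructor
    · intro c c' h
      apply hinj
      rw [hν₀π c, hν₀π c', h]
    · intro t
      obtain ⟨c, hc⟩ := D.bij.2 (A * t + D₁)
      refine ⟨c, ?_⟩
      simp only [hν₀, hc]
      field_simp
      ring
  have haff : ∀ b : k, b ≠ 0 → ∀ d : k, ∃ B D : l, ∀ c : k, ν₀ (b * c + d) = B * ν₀ c + D := by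
    intro b hb d
    obtain ⟨B, E, _, _, _, _, hl⟩ := line_analysis D D' hb d
    refine ⟨B / B₀, ((E - E₀) / B₀ + B / B₀ * D₁ - D₁) / A, fun c => ?_⟩
    have h1 := (hl c).1
    rw [hπ'] at h1
    have h2 : π (b * c + d) = (B / B₀) * π c + (E - E₀) / B₀ := by
      field_simp
      linear_combination h1
    simp only [hν₀]
    rw [h2]
    field_simp
    ring
  have hk3 : ∃ e : k, e ≠ 0 ∧ e ≠ 1 := by
    obtain ⟨e, he⟩ := Infinite.exists_notMem_finset ({0, 1} : Finset k)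
    simp only [Finset.mem_insert, Finset.mem_singleton, not_or] at he
    exact ⟨e, he.1, he.2⟩
  obtain ⟨ν, hν⟩ := exists_ringEquiv_of_affine hk3 ν₀ hν₀bij hν₀0 hν₀1 haff
  set e : (ZMod ℓ)ˣ := Units.mk0 n hn with he
  have hA' : B₀ * A ≠ 0 := mul_ne_zero hB₀ hA
  apply good_of_data D.adm.compat ν e hA hA' (D := D₁) (D' := B₀ * D₁ + E₀)
  · intro c
    rw [D.hx, hε, ← hnn, hν, ← hν₀π]
    rfl
  · intro a
    rw [D.hy, hε', hν, hπ', hν₀π a]
    congr 3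
    ring

lemma Ay_fix_invV {z : V ℓ (K2 l)} (hz : z ∈ Ay ℓ l) : invV ℓ z = z := by
  induction hz using Submodule.span_induction with
  | mem x h =>
    obtain ⟨c, rfl⟩ := h
    exact invV_yc ℓ c
  | zero => simp
  | add x y _ _ hx hy => rw [map_add, hx, hy]
  | smul a x _ hx => rw [map_smul, hx]

lemma Ay_fix_trV (e : l) {z : V ℓ (K2 l)} (hz : z ∈ Ay ℓ l) : trV ℓ e z = z := by
  induction hz using Submodule.span_induction with
  | mem x h =>
    obtain ⟨c, rfl⟩ := h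
    exact trV_yc ℓ e c
  | zero => simp
  | add x y _ _ hx hy => rw [map_add, hx, hy]
  | smul a x _ hx => rw [map_smul, hx]

lemma normMap_yc {Ψ : V ℓ (K2 k) ≃ₗ[ZMod ℓ] V ℓ (K2 l)} (hA : Adm Ψ) (a₀ : k) (ν₀ : l) (t : k) :
    normMap Ψ a₀ ν₀ (vr2 ℓ (yc t)) = Ψ (vr2 ℓ (yc t)) := by
  rw [normMap_apply, invV_yc, trV_yc, Ay_fix_trV _ (hA.y_gen t), Ay_fix_invV (hA.y_gen t)]

/-- Main theorem of this file: an admissible map is a scalar times the map induced by a field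
isomorphism. -/
theorem goodU_of_adm {Θ : V ℓ (K2 k) ≃ₗ[ZMod ℓ] V ℓ (K2 l)} (hA : Adm Θ) : GoodU Θ := by
  obtain ⟨c₀, μ₀, hN₁⟩ := exists_normalization hA
  set Θ₁ := normMap Θ c₀ μ₀ with hΘ₁
  have hA₁ : Adm Θ₁ := adm_normMap hA c₀ μ₀
  have hA₁' : Adm (conjSw Θ₁) := hA₁.conjSw
  obtain ⟨a₀, ν₀, hN₂⟩ := exists_normalization hA₁'
  set Θ₂' := normMap (conjSw Θ₁) a₀ ν₀ with hΘ₂'
  have hA₂' : Adm Θ₂' := adm_normMap hA₁' a₀ ν₀
  set Θ₂ := conjSw Θ₂' with hΘ₂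
  have hA₂ : Adm Θ₂ := hA₂'.conjSw
  have hsame : ∀ t, Θ₂ (vr2 ℓ (xc t)) = Θ₁ (vr2 ℓ (xc t)) := by
    intro t
    rw [hΘ₂, conjSw_vr, swR_xc, hΘ₂', normMap_yc hA₁', conjSw_vr, swR_yc, swV_swV]
  have hN₃ : NX Θ₂ := by
    intro σ t t' htt
    simp only [Ent, hsame]
    exact hN₁ σ t t' htt
  have hconj : conjSw Θ₂ = Θ₂' := LinearEquiv.ext (conjSw_conjSw Θ₂')
  have hN₄ : NX (conjSw Θ₂) := by
    rw [hconj]
    exact hN₂
  have hA₄ : Adm (conjSw Θ₂) := hA₂.conjSw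
  obtain ⟨π, ε, hπ, hε, hx⟩ := monomial_of_NX hA₂ hN₃
  obtain ⟨π', ε', hπ', hε', hx'⟩ := monomial_of_NX hA₄ hN₄
  have hy : ∀ a, Θ₂ (vr2 ℓ (yc a)) = ε' a • vr2 ℓ (yc (π' a)) := by
    intro a
    have h1 := hx' a
    rw [conjSw_vr, swR_xc] at h1
    have h2 := congrArg (swV ℓ) h1
    rw [swV_swV, map_smul, swV_vr, swR_xc] at h2
    exact h2
  have hy' : ∀ a, conjSw Θ₂ (vr2 ℓ (yc a)) = ε a • vr2 ℓ (yc (π a)) := by
    intro a
    rw [conjSw_vr, swR_yc, hx, map_smul, swV_vr, swR_xc]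
  have D : NormalData Θ₂ π π' ε ε' := ⟨hA₂, hN₃, hπ, hπ', hε, hε', hx, hy⟩
  have D' : NormalData (conjSw Θ₂) π' π ε' ε := ⟨hA₄, hN₄, hπ', hπ, hε', hε, hx', hy'⟩
  have h1 : GoodU Θ₂ := good_of_normal D D'
  -- undo the normalizations
  have hconjGood : ∀ {Ψ : V ℓ (K2 k) ≃ₗ[ZMod ℓ] V ℓ (K2 l)}, GoodU (conjSw Ψ) → GoodU Ψ := by
    intro Ψ h
    have h3 : GoodU ((mapVEquiv ℓ swK).trans (Ψ.trans (mapVEquiv ℓ swK))) := h
    have h4 : GoodU (Ψ.trans (mapVEquiv ℓ swK)) := GoodU.of_pre fixC_swK h3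
    exact GoodU.of_post fixC_swK h4
  have hnormGood : ∀ {Ψ : V ℓ (K2 k) ≃ₗ[ZMod ℓ] V ℓ (K2 l)} {c : k} {μ : l},
      GoodU (normMap Ψ c μ) → GoodU Ψ := by
    intro Ψ c μ h
    have h3 : GoodU ((mapVEquiv ℓ invK).trans ((mapVEquiv ℓ (trK (-c))).trans
        (Ψ.trans ((mapVEquiv ℓ (trK μ)).trans (mapVEquiv ℓ invK))))) := h
    have h4 := GoodU.of_pre fixC_invK h3
    have h5 := GoodU.of_pre (fixC_trK _) h4
    have h6 : GoodU ((Ψ.trans (mapVEquiv ℓ (trK μ))).trans (mapVEquiv ℓ invK)) := h5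
    have h7 := GoodU.of_post fixC_invK h6
    exact GoodU.of_post (fixC_trK _) h7
  have h2 : GoodU Θ₂' := hconjGood h1
  have h3 : GoodU (conjSw Θ₁) := hnormGood h2
  have h4 : GoodU Θ₁ := hconjGood h3
  exact hnormGood h4

theorem good_of_adm {Θ : V ℓ (K2 k) ≃ₗ[ZMod ℓ] V ℓ (K2 l)} (hA : Adm Θ) : Good Θ :=
  (goodU_of_adm hA).good

end Main

end Vale.Agent.Lib.P019
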