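import Vale.Agent.Lib.P019.Deriv

/-!
Transversality of a curve defined over a subfield with a moving curve.
-/

set_option linter.unusedSectionVars false

namespace Vale.Agent.Lib.P019

open Polynomial TensorProduct nonZeroDivisors UniqueFactorizationMonoid Filter

section Sing

variable {s l : Type*} [Field s] [Field l] [Algebra s l] [IsAlgClosed s] [CharZero s]

lemma ev2_hat_algebraMap (a₀ : s) (b : l) (g : R2 s) :
    ev2 (algebraMap s l a₀) b (hat g) = aeval b (evX a₀ g) := by
  induction g using R2_induction with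
  | hc t => simp [aeval_C]
  | hx => simp
  | hy => simp
  | hadd f g hf hg => simp only [map_add, hf, hg]
  | hmul f g hf hg => simp only [map_mul, hf, hg]

/-- A singular point of a curve over `s` is an `s`-point. -/
theorem singular_point {g : R2 s} (hg : Prime g) {a b : l} (h0 : ev2 a b (hat g) = 0)
    (h1 : ev2 a b (hat (px g)) = 0) (h2 : ev2 a b (hat (py g)) = 0) :
    a ∈ Set.range (algebraMap s l) ∧ b ∈ Set.range (algebraMap s l) := by
  by_cases hd : 0 < g.natDegree
  · have hnd : ¬ g ∣ py g := by
      intro hdvd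
      have hne : py g ≠ 0 := by
        intro h
        have := Polynomial.derivative_eq_zero.1 h
        omega
      have := natDegree_le_of_dvd hdvd hne
      have h3 : (py g).natDegree < g.natDegree := natDegree_derivative_lt (by omega)
      omega
    obtain ⟨u, v, w, hw, huv⟩ := exists_bezout (coprime_toK1Y_of_not_dvd hg hd hnd)
    have e1 : aeval a w = 0 := by
      rw [← ev2_hat_C (s := s) a b w, ← huv, map_add, map_mul, map_mul, map_add, map_mul, map_mul,
        h0, h2]
      simp
    have ha : a ∈ Set.range (algebraMap s l) := mem_range_of_isAlgebraic ⟨w, hw, e1⟩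
    refine ⟨ha, ?_⟩
    obtain ⟨a₀, rfl⟩ := ha
    have hne : evX a₀ g ≠ 0 := by
      intro h
      exact xc_dvd_of_prime_natDegree hg hd ((xc_dvd_iff a₀ g).2 h)
    refine mem_range_of_isAlgebraic ⟨evX a₀ g, hne, ?_⟩
    rw [← h0, ev2_hat_algebraMap]
  · exfalso
    have hd0 : g.natDegree = 0 := by omega
    obtain ⟨r, rfl⟩ := natDegree_eq_zero.1 hd0
    have hr : Prime r := Polynomial.prime_C_iff.1 hg
    have hdeg := IsAlgClosed.degree_eq_one_of_irreducible s hr.irreducible
    have hnd : r.natDegree = 1 := natDegree_eq_of_degree_eq_some hdeg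
    rw [px_C_poly, ev2_hat_C] at h1
    have hne : derivative r ≠ 0 := by
      intro h
      have := Polynomial.derivative_eq_zero.1 h
      omega
    have h3 : (derivative r).natDegree = 0 := by
      have := natDegree_derivative_lt (p := r) (by omega)
      omega
    obtain ⟨u, hu⟩ := natDegree_eq_zero.1 h3
    rw [← hu, aeval_C] at h1
    have hu0 : u = 0 := by
      simpa using h1
    rw [hu0, C_0] at hu
    exact hne hu.symm

variable [CharZero l]

omit [IsAlgClosed s] [CharZero s] [CharZero l] in
/-- Elementary linear algebra in two variables. -/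
lemma linear_two {g₁ g₂ p₁ p₂ u v : l} (h : g₁ * u + g₂ * v = 0) (hJ : g₁ * p₂ - g₂ * p₁ = 0)
    (hne : g₁ ≠ 0 ∨ g₂ ≠ 0) : p₁ * u + p₂ * v = 0 := by
  rcases hne with h1 | h1
  · apply mul_left_cancel₀ h1
    rw [mul_zero]
    linear_combination p₁ * h + v * hJ
  · apply mul_left_cancel₀ h1
    rw [mul_zero]
    linear_combination p₂ * h - u * hJ

/-- A curve over `s` and a moving curve `P` are transversal at every common point where the
derivative of `P` in the moving direction does not vanish. -/
theorem transv_core {g : R2 s} (hg : Prime g) (P : R2 l) (d : Derivation s l l) {a b : l}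
    (h0 : ev2 a b (hat g) = 0) (hP : ev2 a b P = 0) (hd : ev2 a b (dC2 d P) ≠ 0) :
    Jac a b (hat g) P ≠ 0 := by
  intro hJ
  have c1 := chain_rule d a b (hat g)
  have c2 := chain_rule d a b P
  rw [h0, map_zero, dC2_hat, map_zero, zero_add] at c1
  rw [hP, map_zero] at c2
  by_cases hs : ev2 a b (px (hat g)) = 0 ∧ ev2 a b (py (hat g)) = 0
  · obtain ⟨hs1, hs2⟩ := hs
    rw [px_hat] at hs1
    rw [py_hat] at hs2
    obtain ⟨⟨a₀, rfl⟩, ⟨b₀, rfl⟩⟩ := singular_point hg h0 hs1 hs2
    rw [d.map_algebraMap, d.map_algebraMap] at c2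
    apply hd
    linear_combination -c2
  · have hne : ev2 a b (px (hat g)) ≠ 0 ∨ ev2 a b (py (hat g)) ≠ 0 := by
      by_contra hcon
      push Not at hcon
      exact hs hcon
    have := linear_two c1.symm hJ hne
    apply hd
    linear_combination -c2 - this

/-- A polynomial is associated with one whose top coefficient equals one. -/
lemma exists_normalized {p : R2 l} (hp : p ≠ 0) :
    ∃ p' : R2 l, Associated p p' ∧ p'.leadingCoeff.leadingCoeff = 1 := by
  have h1 : p.leadingCoeff ≠ 0 := by simpa using hp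
  have h2 : p.leadingCoeff.leadingCoeff ≠ 0 := by simpa using h1
  set c := p.leadingCoeff.leadingCoeff with hc
  refine ⟨C (C c⁻¹) * p, ?_, ?_⟩
  · have hu : IsUnit (C (C c⁻¹) : R2 l) :=
      Polynomial.isUnit_C.2 (Polynomial.isUnit_C.2 (isUnit_iff_ne_zero.2 (inv_ne_zero h2)))
    exact (associated_mul_unit_right p _ hu).trans (by rw [mul_comm])
  · rw [leadingCoeff_mul, leadingCoeff_mul, leadingCoeff_C, leadingCoeff_C, inv_mul_cancel₀ h2]

/-- The polynomial `p` (with top coefficient one) does not divide its coefficient derivative. -/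
lemma not_dvd_dC2 {p : R2 l} (hp : p.leadingCoeff.leadingCoeff = 1) (d : Derivation s l l)
    (hne : dC2 d p ≠ 0) : ¬ p ∣ dC2 d p := by
  rintro ⟨w, hw⟩
  have hp0 : p ≠ 0 := by
    rintro rfl
    simp at hp
  have hw0 : w ≠ 0 := by
    rintro rfl
    rw [mul_zero] at hw
    exact hne hw
  have h1 : (dC2 d p).natDegree ≤ p.natDegree := by
    rw [natDegree_le_iff_coeff_eq_zero]
    intro N hN
    ext j
    rw [dC2_coeff, coeff_eq_zero_of_natDegree_lt hN]
    simp
  rw [hw, natDegree_mul hp0 hw0] at h1
  have h2 : w.natDegree = 0 := by omega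
  obtain ⟨w₀, rfl⟩ := natDegree_eq_zero.1 h2
  have hw₀ : w₀ ≠ 0 := by
    rintro rfl
    simp at hw0
  set r := p.leadingCoeff with hr
  have hr1 : r.leadingCoeff = 1 := hp
  have hr0 : r ≠ 0 := by
    rintro h
    rw [h] at hr1
    simp at hr1
  have h3 : dC1 d r = r * w₀ := by
    ext j
    have := congrArg (fun f => (f.coeff p.natDegree).coeff j) hw
    simp only [dC2_coeff, coeff_mul_C] at this
    rw [dC1, dCoef_coeff]
    exact this
  have h4 : (dC1 d r).natDegree ≤ r.natDegree := by
    rw [natDegree_le_iff_coeff_eq_zero]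
    intro N hN
    rw [dC1, dCoef_coeff, coeff_eq_zero_of_natDegree_lt hN]
    simp
  rw [h3, natDegree_mul hr0 hw₀] at h4
  have h5 : w₀.natDegree = 0 := by omega
  obtain ⟨w₁, rfl⟩ := natDegree_eq_zero.1 h5
  have hw₁ : w₁ ≠ 0 := by
    rintro rfl
    simp at hw₀
  have h6 : (dC1 d r).coeff r.natDegree = 0 := by
    rw [dC1, dCoef_coeff]
    have : r.coeff r.natDegree = 1 := hr1
    rw [this]
    simp
  rw [h3, coeff_mul_C] at h6
  have : r.coeff r.natDegree = 1 := hr1
  rw [this, one_mul] at h6
  exact hw₁ h6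

/-- A polynomial with coefficients in `s` is a base change. -/
lemma exists_hat_of_coefs {p : R2 l} (h : ∀ i j, (p.coeff i).coeff j ∈ Set.range (algebraMap s l)) :
    ∃ g : R2 s, hat g = p :=
  exists_lift2 (algebraMap s l) p h

/-- If `p` is not associated with a polynomial over `s`, then there is a derivation over `s` with
`p ∤ ∂p` after normalization. -/
theorem exists_derivation_not_dvd {p : R2 l} (hp : p ≠ 0) (hov : ¬ OverS s p) :
    ∃ (p' : R2 l) (d : Derivation s l l), Associated p p' ∧ ¬ p' ∣ dC2 d p' := by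
  obtain ⟨p', hassoc, hlc⟩ := exists_normalized hp
  have h1 : ∃ i j, (p'.coeff i).coeff j ∉ Set.range (algebraMap s l) := by
    by_contra hcon
    push Not at hcon
    obtain ⟨g, hg⟩ := exists_hat_of_coefs hcon
    exact hov ⟨g, by rw [hg]; exact hassoc⟩
  obtain ⟨i, j, hij⟩ := h1
  obtain ⟨d, hd⟩ := exists_derivation hij
  refine ⟨p', d, hassoc, not_dvd_dC2 hlc d ?_⟩
  intro h
  have := (dC2_eq_zero_iff d p').1 h i j
  rw [hd] at this
  exact one_ne_zero this

end Sing

end Vale.Agent.Lib.P019
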